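import Crest.Agent.R72.D9

/-!
# Row 72, S0097: the gap estimate (blueprint 424 (2))
-/

set_option autoImplicit false
set_option linter.unusedSectionVars false

open Finset Matrix
open scoped MatrixOrder ComplexOrder

namespace Crest.Agent.R72

theorem cs_fin {P Q U V T G : ℝ} (hP : 0 ≤ P) (hQ : 0 ≤ Q) (hU : 0 ≤ U) (hV : 0 ≤ V)
    (hT : 0 ≤ T) (hG : 0 ≤ G) (h1 : P + Q ≤ 4 * T) (h2 : 1 / 4 * (U + V) ≤ G) :
    √P * √U + √Q * √V ≤ 4 * (√T * √G) := by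
  have ep : √P ^ 2 = P := Real.sq_sqrt hP
  have eq : √Q ^ 2 = Q := Real.sq_sqrt hQ
  have eu : √U ^ 2 = U := Real.sq_sqrt hU
  have ev : √V ^ 2 = V := Real.sq_sqrt hV
  have hps : 0 ≤ √P := Real.sqrt_nonneg _
  have hqs : 0 ≤ √Q := Real.sqrt_nonneg _
  have hus : 0 ≤ √U := Real.sqrt_nonneg _
  have hvs : 0 ≤ √V := Real.sqrt_nonneg _
  have hfin : (√P * √U + √Q * √V) ^ 2 ≤ (4 * (√T * √G)) ^ 2 := by
    rw [mul_pow, mul_pow, Real.sq_sqrt hT, Real.sq_sqrt hG]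
    have h3 : (√P * √U + √Q * √V) ^ 2 ≤ (P + Q) * (U + V) := by
      rw [← ep, ← eq, ← eu, ← ev, ep, eq, eu, ev]
      generalize √P = p at *
      generalize √Q = q at *
      generalize √U = u at *
      generalize √V = v at *
      rw [← ep, ← eq, ← eu, ← ev]
      nlinarith [sq_nonneg (p * v - q * u)]
    have h4 : (P + Q) * (U + V) ≤ (4 * T) * (4 * G) := by
      apply mul_le_mul h1 (by linarith) (by positivity) (by positivity)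
    linarith
  exact le_of_sq_le_sq hfin (by positivity)

section gen

variable {n m : Type} [Fintype n] [DecidableEq n] [Fintype m] [DecidableEq m]

theorem rt_add_le {A₀ A₁ : Matrix n n ℂ} (h₀ : A₀.PosSemidef) (h₁ : A₁.PosSemidef) :
    rt A₀ + rt A₁ ≤ ((2 : ℝ) : ℂ) • rt ((((1 / 2 : ℝ)) : ℂ) • (A₀ + A₁)) := by
  have hM := psd_half (h₀.add h₁)
  have e1 : rt ((rt A₀ + rt A₁) * (rt A₀ + rt A₁)) = rt A₀ + rt A₁ :=
    rt_unique ((rt_psd _).add (rt_psd _)) rfl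
  have e2 : rt (((4 : ℝ) : ℂ) • ((((1 / 2 : ℝ)) : ℂ) • (A₀ + A₁))) =
      ((2 : ℝ) : ℂ) • rt ((((1 / 2 : ℝ)) : ℂ) • (A₀ + A₁)) := by
    rw [rt_smul hM (by norm_num)]
    congr 2
    rw [show (4 : ℝ) = 2 ^ 2 by norm_num, Real.sqrt_sq (by norm_num)]
  rw [← e1, ← e2]
  apply rt_mono
  rw [le_iff]
  have e3 : ((4 : ℝ) : ℂ) • ((((1 / 2 : ℝ)) : ℂ) • (A₀ + A₁)) -
      (rt A₀ + rt A₁) * (rt A₀ + rt A₁) = (rt A₀ - rt A₁)ᴴ * (rt A₀ - rt A₁) := by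
    have e4 : ((4 : ℝ) : ℂ) • ((((1 / 2 : ℝ)) : ℂ) • (A₀ + A₁)) =
        (2 : ℂ) • (rt A₀ * rt A₀ + rt A₁ * rt A₁) := by
      rw [smul_smul, rt_mul_self h₀, rt_mul_self h₁]; norm_num
    rw [e4, conjTranspose_sub, rt_star, rt_star, two_smul]
    noncomm_ring
  rw [e3]
  exact posSemidef_conjTranspose_mul_self _

theorem mid_le {A₀ A₁ Z Y : Matrix n n ℂ} (h₀ : A₀.PosSemidef) (h₁ : A₁.PosSemidef)
    (hZ : Zᴴ = Z) (hY : Y = rt ((((1 / 2 : ℝ)) : ℂ) • (A₀ + A₁))) :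
    (trace (Z * (A₀ - A₁))).re ≤ 4 * (√(T3 Z Y Z) * √(gap32 A₀ A₁)) := by
  set M := (((1 / 2 : ℝ)) : ℂ) • (A₀ + A₁) with hMdef
  have hM : M.PosSemidef := psd_half (h₀.add h₁)
  have hZn : (-Z)ᴴ = -Z := by rw [conjTranspose_neg, hZ]
  have c1 := dd_cross (E := Z) (S := rt A₀ + rt M) hZ h₀ hM le_rfl
  have c2 := dd_cross (E := -Z) (S := rt A₁ + rt M) hZn h₁ hM le_rfl
  have e0 : T3 (-Z) (rt A₁ + rt M) (-Z) = T3 Z (rt A₁ + rt M) Z := by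
    simp [T3]
  rw [e0] at c2
  have hsum : (trace (Z * (A₀ - A₁))).re = (trace (Z * (A₀ - M))).re + (trace (-Z * (A₁ - M))).re := by
    rw [← Complex.add_re, ← trace_add]
    congr 2
    noncomm_ring
  have hg : 1 / 4 * (dd A₀ M + dd A₁ M) ≤ gap32 A₀ A₁ := by
    have := gap32_ge h₀ h₁ hY
    rw [hY] at this
    exact this
  have hY0 : rt M = Y := hY.symm
  rw [hY0] at c1 c2
  have hle : T3 Z (rt A₀ + Y) Z + T3 Z (rt A₁ + Y) Z ≤ 4 * T3 Z Y Z := by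
    have h1 := T3_conj_mono hZ (rt_add_le h₀ h₁)
    rw [T3_add2, T3_smul2, ← hMdef, hY0] at h1
    rw [T3_add2, T3_add2]
    linarith
  have hYp : Y.PosSemidef := by rw [hY]; exact rt_psd _
  have t1 : 0 ≤ T3 Z (rt A₀ + Y) Z := T3_conj_nonneg hZ ((rt_psd _).add hYp)
  have t2 : 0 ≤ T3 Z (rt A₁ + Y) Z := T3_conj_nonneg hZ ((rt_psd _).add hYp)
  have t3 : 0 ≤ T3 Z Y Z := T3_conj_nonneg hZ hYp
  have d1 := dd_nonneg A₀ M
  have d2 := dd_nonneg A₁ M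
  have hgap : 0 ≤ gap32 A₀ A₁ := gap32_nonneg h₀ h₁
  rw [hsum]
  refine (add_le_add c1 c2).trans ?_
  exact cs_fin t1 t2 d1 d2 t3 hgap hle hg

end gen

end Crest.Agent.R72
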