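import Crest.Agent.R72.D10

/-!
# Row 72, S0097: `GapXX`
-/

set_option autoImplicit false
set_option linter.unusedSectionVars false

open Finset Matrix
open scoped MatrixOrder ComplexOrder

namespace Crest.Agent.R72

section pinch

variable {n m : Type} [Fintype n] [DecidableEq n] [Fintype m] [DecidableEq m]

theorem pinch11 {Y : Matrix (n ⊕ m) (n ⊕ m) ℂ} (hY : Y.PosSemidef) {G : Matrix n n ℂ}
    (hG : (Y * Y).toBlocks₁₁ = G) : Y.toBlocks₁₁ ≤ rt G := by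
  have h1 : Y.toBlocks₁₁.PosSemidef := hY.submatrix Sum.inl
  have e1 : rt (Y.toBlocks₁₁ * Y.toBlocks₁₁) = Y.toBlocks₁₁ := rt_unique h1 rfl
  rw [← e1]
  apply rt_mono
  rw [le_iff, ← hG]
  have e2 : (Y * Y).toBlocks₁₁ - Y.toBlocks₁₁ * Y.toBlocks₁₁ =
      Y.toBlocks₁₂ * (Y.toBlocks₁₂)ᴴ := by
    have h2 : (Y.toBlocks₁₂)ᴴ = Y.toBlocks₂₁ := by
      ext i j
      have := congrFun (congrFun hY.isHermitian (Sum.inr i)) (Sum.inl j)
      exact this
    have hyy : Y * Y = fromBlocks Y.toBlocks₁₁ Y.toBlocks₁₂ Y.toBlocks₂₁ Y.toBlocks₂₂ *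
        fromBlocks Y.toBlocks₁₁ Y.toBlocks₁₂ Y.toBlocks₂₁ Y.toBlocks₂₂ := by
      rw [fromBlocks_toBlocks]
    rw [h2, hyy, fromBlocks_multiply, toBlocks_fromBlocks₁₁]
    simp
  rw [e2]
  exact posSemidef_self_mul_conjTranspose _

theorem pinch22 {Y : Matrix (n ⊕ m) (n ⊕ m) ℂ} (hY : Y.PosSemidef) {G : Matrix m m ℂ}
    (hG : (Y * Y).toBlocks₂₂ = G) : Y.toBlocks₂₂ ≤ rt G := by
  have h1 : Y.toBlocks₂₂.PosSemidef := hY.submatrix Sum.inr
  have e1 : rt (Y.toBlocks₂₂ * Y.toBlocks₂₂) = Y.toBlocks₂₂ := rt_unique h1 rfl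
  rw [← e1]
  apply rt_mono
  rw [le_iff, ← hG]
  have e2 : (Y * Y).toBlocks₂₂ - Y.toBlocks₂₂ * Y.toBlocks₂₂ =
      (Y.toBlocks₁₂)ᴴ * Y.toBlocks₁₂ := by
    have h2 : (Y.toBlocks₁₂)ᴴ = Y.toBlocks₂₁ := by
      ext i j
      have := congrFun (congrFun hY.isHermitian (Sum.inr i)) (Sum.inl j)
      exact this
    have hyy : Y * Y = fromBlocks Y.toBlocks₁₁ Y.toBlocks₁₂ Y.toBlocks₂₁ Y.toBlocks₂₂ *
        fromBlocks Y.toBlocks₁₁ Y.toBlocks₁₂ Y.toBlocks₂₁ Y.toBlocks₂₂ := by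
      rw [fromBlocks_toBlocks]
    rw [h2, hyy, fromBlocks_multiply, toBlocks_fromBlocks₂₂]
    simp
  rw [e2]
  exact posSemidef_conjTranspose_mul_self _

theorem tr_fromBlocks (A : Matrix n n ℂ) (B : Matrix n m ℂ) (C : Matrix m n ℂ)
    (D : Matrix m m ℂ) : trace (fromBlocks A B C D) = trace A + trace D := by
  simp [trace, Fintype.sum_sum_type]

/-- `T3 Z Y Z` for an off-diagonal test matrix -/
theorem T3_offdiag {Y : Matrix (n ⊕ m) (n ⊕ m) ℂ} (hY : Y.PosSemidef) {G : Matrix n n ℂ}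
    {H : Matrix m m ℂ} (hG : (Y * Y).toBlocks₁₁ = G) (hH : (Y * Y).toBlocks₂₂ = H)
    (W : Matrix n m ℂ) :
    T3 (fromBlocks 0 W Wᴴ 0) Y (fromBlocks 0 W Wᴴ 0) ≤
      (trace (Wᴴ * rt G * W)).re + (trace (W * rt H * Wᴴ)).re := by
  have h1 : T3 (fromBlocks 0 W Wᴴ 0) Y (fromBlocks 0 W Wᴴ 0) =
      (trace (Wᴴ * Y.toBlocks₁₁ * W)).re + (trace (W * Y.toBlocks₂₂ * Wᴴ)).re := by
    unfold T3
    nth_rewrite 1 [← fromBlocks_toBlocks Y]
    rw [fromBlocks_multiply, fromBlocks_multiply, tr_fromBlocks]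
    simp only [Matrix.zero_mul, zero_add, add_zero, Matrix.mul_zero]
    rw [Complex.add_re, add_comm]
  rw [h1]
  refine add_le_add ?_ ?_
  · have := tr_conj_nonneg (le_iff.1 (pinch11 hY hG)) W
    rw [Matrix.mul_sub, Matrix.sub_mul, trace_sub, Complex.sub_re] at this
    linarith
  · have := tr_conj_nonneg (le_iff.1 (pinch22 hY hH)) Wᴴ
    rw [conjTranspose_conjTranspose, Matrix.mul_sub, Matrix.sub_mul, trace_sub,
      Complex.sub_re] at this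
    linarith

end pinch

variable {ι : Type} [Fintype ι] [DecidableEq ι]

/-- column half of a matrix -/
def colh {n : Type} (S : Matrix n (Fin 2 × ι) ℂ) (a : Fin 2) : Matrix n ι ℂ :=
  S.submatrix id fun i => (a, i)

theorem colh_sum {n : Type} [Fintype n] [DecidableEq n] (S : Matrix n (Fin 2 × ι) ℂ) :
    S * Sᴴ = colh S 0 * (colh S 0)ᴴ + colh S 1 * (colh S 1)ᴴ := by
  ext i j
  simp only [Matrix.mul_apply, Fintype.sum_prod_type, Fin.sum_univ_two, Matrix.add_apply,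
    conjTranspose_apply, colh, submatrix_apply, id]

theorem colh_diff {n : Type} [Fintype n] [DecidableEq n] (S : Matrix n (Fin 2 × ι) ℂ) :
    S * (diagonal (hsgn ℂ) : Matrix (Fin 2 × ι) (Fin 2 × ι) ℂ) * Sᴴ = colh S 0 * (colh S 0)ᴴ - colh S 1 * (colh S 1)ᴴ := by
  ext i j
  rw [Matrix.mul_apply]
  simp only [Matrix.mul_diagonal, conjTranspose_apply, Fintype.sum_prod_type, Fin.sum_univ_two,
    Matrix.sub_apply, hsgn]
  rw [Matrix.mul_apply, Matrix.mul_apply]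
  simp [colh, sub_eq_add_neg]

theorem colh_gram {n : Type} [Fintype n] [DecidableEq n] (S : Matrix n (Fin 2 × ι) ℂ) (a : Fin 2) :
    dblk (Sᴴ * S) a a = (colh S a)ᴴ * colh S a := rfl

theorem dgap_eq {n : Type} [Fintype n] [DecidableEq n] (S : Matrix n (Fin 2 × ι) ℂ) :
    dgap (Sᴴ * S) = gap32 (((2 : ℝ) : ℂ) • (colh S 0 * (colh S 0)ᴴ))
      (((2 : ℝ) : ℂ) • (colh S 1 * (colh S 1)ᴴ)) := by
  have e : ∀ a, tr32 ((2 : ℂ) • dblk (Sᴴ * S) a a) =
      tr32 (((2 : ℝ) : ℂ) • (colh S a * (colh S a)ᴴ)) := by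
    intro a
    rw [colh_gram, la_smul (posSemidef_self_mul_conjTranspose _) (by norm_num), ← la_conj,
      ← la_smul (posSemidef_conjTranspose_mul_self _) (by norm_num)]
    norm_num
  unfold dgap gap32
  rw [Fin.sum_univ_two, e, e]
  have e2 : ((1 / 2 : ℂ)) • (((2 : ℝ) : ℂ) • (colh S 0 * (colh S 0)ᴴ) +
      ((2 : ℝ) : ℂ) • (colh S 1 * (colh S 1)ᴴ)) = S * Sᴴ := by
    rw [← smul_add, smul_smul, colh_sum]; norm_num
  rw [e2, la_conj]
  ring

/-- the coordinates of the test matrix -/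
noncomputable def wco (s r : Fin 2 × ι → ℝ) (a : Matrix (Fin 2 × ι) (Fin 2 × ι) ℂ) :
    Matrix (Fin 2 × ι) (Fin 2 × ι) ℂ :=
  Matrix.of fun l i => ((r l * s i / (r l + s i) : ℝ) : ℂ) * a l i

theorem trace_wrw (w : Matrix (Fin 2 × ι) (Fin 2 × ι) ℂ) (r : Fin 2 × ι → ℝ) :
    trace (wᴴ * dg r * w) = ((∑ i, ∑ l, r l * ‖w l i‖ ^ 2 : ℝ) : ℂ) := by
  rw [trace, Complex.ofReal_sum]
  refine Finset.sum_congr rfl fun i _ => ?_
  rw [diag_apply, Matrix.mul_apply, Complex.ofReal_sum]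
  refine Finset.sum_congr rfl fun l _ => ?_
  rw [dg, Matrix.mul_diagonal, conjTranspose_apply, Complex.ofReal_mul, Complex.ofReal_pow,
    ← Complex.conj_mul', Complex.star_def]
  ring

theorem trace_wsw (w : Matrix (Fin 2 × ι) (Fin 2 × ι) ℂ) (s : Fin 2 × ι → ℝ) :
    trace (w * dg s * wᴴ) = ((∑ i, ∑ l, s i * ‖w l i‖ ^ 2 : ℝ) : ℂ) := by
  rw [trace, Finset.sum_comm, Complex.ofReal_sum]
  refine Finset.sum_congr rfl fun l _ => ?_
  rw [diag_apply, Matrix.mul_apply, Complex.ofReal_sum]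
  refine Finset.sum_congr rfl fun i _ => ?_
  rw [dg, Matrix.mul_diagonal, conjTranspose_apply, Complex.ofReal_mul, Complex.ofReal_pow,
    ← Complex.conj_mul', Complex.star_def]
  ring

theorem dg_wco {s r ψ : Fin 2 × ι → ℝ} (hψ : ∀ i, ψ i * r i = r i)
    (a : Matrix (Fin 2 × ι) (Fin 2 × ι) ℂ) : dg ψ * wco s r a = wco s r a := by
  ext l i
  rw [dg, Matrix.diagonal_mul]
  simp only [wco, Matrix.of_apply]
  rw [← mul_assoc, ← Complex.ofReal_mul]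
  congr 2
  rw [← mul_div_assoc, ← mul_assoc, hψ]

theorem trace_was (a : Matrix (Fin 2 × ι) (Fin 2 × ι) ℂ) (s r : Fin 2 × ι → ℝ) :
    trace ((wco s r a)ᴴ * dg r * a * dg s) =
      ((∑ i, ∑ l, r l ^ 2 * s i ^ 2 * ‖a l i‖ ^ 2 / (r l + s i) : ℝ) : ℂ) := by
  rw [trace, Complex.ofReal_sum]
  refine Finset.sum_congr rfl fun i _ => ?_
  rw [diag_apply]
  have e : ((wco s r a)ᴴ * dg r * a * dg s) i i = ((wco s r a)ᴴ * dg r * a) i i * ((s i : ℝ) : ℂ) := by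
    show ((wco s r a)ᴴ * dg r * a * diagonal fun j => ((s j : ℝ) : ℂ)) i i = _
    rw [Matrix.mul_diagonal]
  rw [e, Matrix.mul_apply, Finset.sum_mul, Complex.ofReal_sum]
  refine Finset.sum_congr rfl fun l _ => ?_
  rw [dg, Matrix.mul_diagonal, conjTranspose_apply]
  simp only [wco, Matrix.of_apply]
  have e2 : star (((r l * s i / (r l + s i) : ℝ) : ℂ) * a l i) =
      ((r l * s i / (r l + s i) : ℝ) : ℂ) * star (a l i) := by
    rw [star_mul, Complex.star_def, Complex.conj_ofReal, mul_comm]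
  rw [e2]
  have e3 : ((r l * s i / (r l + s i) : ℝ) : ℂ) * star (a l i) * ((r l : ℝ) : ℂ) * a l i *
      ((s i : ℝ) : ℂ) = ((r l * s i / (r l + s i) : ℝ) : ℂ) * ((r l : ℝ) : ℂ) * ((s i : ℝ) : ℂ) *
      (star (a l i) * a l i) := by ring
  rw [e3, Complex.star_def, Complex.conj_mul']
  push_cast
  ring

theorem gapXX : GapXX := by
  intro ι _ _ A C UA VA UC VC s χ r ψ hA hC
  set a := crd VC UA with ha
  set XX : ℝ := ∑ i, ∑ l, r l ^ 2 * s i ^ 2 * ‖a l i‖ ^ 2 / (r l + s i) with hXX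
  have hXX0 : 0 ≤ XX := Finset.sum_nonneg fun i _ => Finset.sum_nonneg fun l _ =>
    div_nonneg (by positivity) (add_nonneg (hC.s0 l) (hA.s0 i))
  set h : Matrix (Fin 2 × ι) (Fin 2 × ι) ℂ := diagonal (hsgn ℂ) with hh
  set S : Matrix ((Fin 2 × ι) ⊕ (Fin 2 × ι)) (Fin 2 × ι) ℂ := fromRows C Aᴴ with hS
  set w := wco s r a with hw
  set W : Matrix (Fin 2 × ι) (Fin 2 × ι) ℂ := UC * w * VAᴴ with hW
  have hSs : Sᴴ = fromCols Cᴴ A := by
    rw [hS, conjTranspose_fromRows_eq_fromCols_conjTranspose, conjTranspose_conjTranspose]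
  have hSS : Sᴴ * S = A * Aᴴ + Cᴴ * C := by
    rw [hSs, hS, fromCols_mul_fromRows, add_comm]
  have hSS' : S * Sᴴ = fromBlocks (C * Cᴴ) (C * A) (Aᴴ * Cᴴ) (Aᴴ * A) := by
    rw [hSs, hS, fromRows_mul_fromCols]
  have hShS : S * h * Sᴴ = fromBlocks (C * h * Cᴴ) (C * h * A) (Aᴴ * h * Cᴴ) (Aᴴ * h * A) := by
    rw [hSs, hS, fromRows_mul, fromRows_mul_fromCols]
  set A₀ : Matrix ((Fin 2 × ι) ⊕ (Fin 2 × ι)) ((Fin 2 × ι) ⊕ (Fin 2 × ι)) ℂ :=
    ((2 : ℝ) : ℂ) • (colh S 0 * (colh S 0)ᴴ) with hA₀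
  set A₁ : Matrix ((Fin 2 × ι) ⊕ (Fin 2 × ι)) ((Fin 2 × ι) ⊕ (Fin 2 × ι)) ℂ :=
    ((2 : ℝ) : ℂ) • (colh S 1 * (colh S 1)ᴴ) with hA₁
  have p₀ : A₀.PosSemidef := (posSemidef_self_mul_conjTranspose _).smul
    (by exact_mod_cast (by norm_num : (0 : ℝ) ≤ 2))
  have p₁ : A₁.PosSemidef := (posSemidef_self_mul_conjTranspose _).smul
    (by exact_mod_cast (by norm_num : (0 : ℝ) ≤ 2))
  have hmid : (((1 / 2 : ℝ)) : ℂ) • (A₀ + A₁) = S * Sᴴ := by
    rw [hA₀, hA₁, ← smul_add, smul_smul, colh_sum]; norm_num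
  have hdif : A₀ - A₁ = (2 : ℂ) • (S * h * Sᴴ) := by
    rw [hA₀, hA₁, ← smul_sub, hh, colh_diff]; norm_num
  set Y := rt (S * Sᴴ) with hY
  have hYY : Y * Y = S * Sᴴ := rt_mul_self (posSemidef_self_mul_conjTranspose _)
  have hYp : Y.PosSemidef := rt_psd _
  set Z : Matrix ((Fin 2 × ι) ⊕ (Fin 2 × ι)) ((Fin 2 × ι) ⊕ (Fin 2 × ι)) ℂ :=
    fromBlocks 0 W Wᴴ 0 with hZ
  have hZs : Zᴴ = Z := by
    rw [hZ, fromBlocks_conjTranspose]; simp
  have key := mid_le p₀ p₁ hZs (Y := Y) (by rw [hmid])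
  rw [hdif] at key
  have hT := T3_offdiag hYp (G := C * Cᴴ) (H := Aᴴ * A)
    (by rw [hYY, hSS', toBlocks_fromBlocks₁₁]) (by rw [hYY, hSS', toBlocks_fromBlocks₂₂]) W
  rw [hC.rt_mul_star, hA.rt_star_mul] at hT
  have hψw : dg ψ * w = w := dg_wco hC.cs a
  have hWs : Wᴴ = VA * wᴴ * UCᴴ := by
    rw [hW]; simp only [conjTranspose_mul, conjTranspose_conjTranspose, Matrix.mul_assoc]
  have hT2 : (trace (Wᴴ * (UC * dg r * UCᴴ) * W)).re + (trace (W * (VA * dg s * VAᴴ) * Wᴴ)).re =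
      XX := by
    have e1 : trace (Wᴴ * (UC * dg r * UCᴴ) * W) = trace (wᴴ * dg r * w) := by
      rw [hWs, hW]
      calc trace (VA * wᴴ * UCᴴ * (UC * dg r * UCᴴ) * (UC * w * VAᴴ))
          = trace (VA * (wᴴ * ((UCᴴ * UC * dg r) * (UCᴴ * UC)) * w * VAᴴ)) := by
            simp only [Matrix.mul_assoc]
        _ = trace (wᴴ * (dg r * (UCᴴ * UC)) * w * (VAᴴ * VA)) := by
            rw [trace_mul_comm, hC.uus]; simp only [Matrix.mul_assoc]
        _ = _ := by rw [hC.suu, hA.vv, Matrix.mul_one]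
    have e2 : trace (W * (VA * dg s * VAᴴ) * Wᴴ) = trace (w * dg s * wᴴ) := by
      rw [hWs, hW]
      calc trace (UC * w * VAᴴ * (VA * dg s * VAᴴ) * (VA * wᴴ * UCᴴ))
          = trace (UC * (w * (VAᴴ * VA) * dg s * (VAᴴ * VA) * wᴴ * UCᴴ)) := by
            simp only [Matrix.mul_assoc]
        _ = trace ((UCᴴ * UC) * w * dg s * wᴴ) := by
            rw [trace_mul_comm, hA.vv, Matrix.mul_one, Matrix.mul_assoc _ UCᴴ UC, trace_mul_comm]
            simp only [Matrix.mul_assoc, Matrix.mul_one]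
        _ = _ := by rw [hC.uu, hψw]
    rw [e1, e2, trace_wrw, trace_wsw, Complex.ofReal_re, Complex.ofReal_re,
      ← Finset.sum_add_distrib, hXX]
    refine Finset.sum_congr rfl fun i _ => ?_
    rw [← Finset.sum_add_distrib]
    refine Finset.sum_congr rfl fun l _ => ?_
    have e3 : ‖w l i‖ ^ 2 = (r l * s i / (r l + s i)) ^ 2 * ‖a l i‖ ^ 2 := by
      rw [hw]
      simp only [wco, Matrix.of_apply]
      rw [norm_mul, Complex.norm_real, mul_pow, Real.norm_eq_abs, sq_abs]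
    rw [e3]
    rcases eq_or_ne (r l + s i) 0 with h0 | h0
    · rw [h0]; simp
    · field_simp
  have hL2 : trace (Wᴴ * (C * h * A)) = ((XX : ℝ) : ℂ) := by
    rw [hWs, hC.eq, hA.eq]
    calc trace (VA * wᴴ * UCᴴ * (UC * dg r * VCᴴ * h * (UA * dg s * VAᴴ)))
        = trace (VA * (wᴴ * (UCᴴ * UC * dg r) * (VCᴴ * h * UA) * dg s * VAᴴ)) := by
          simp only [Matrix.mul_assoc]
      _ = trace (wᴴ * (UCᴴ * UC * dg r) * (VCᴴ * h * UA) * dg s * (VAᴴ * VA)) := by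
          rw [trace_mul_comm]; simp only [Matrix.mul_assoc]
      _ = trace (wᴴ * dg r * a * dg s) := by
          rw [hC.uus, hA.vv, Matrix.mul_one]; rfl
      _ = _ := trace_was a s r
  have hL1 : trace (W * (Aᴴ * h * Cᴴ)) = star (trace (Wᴴ * (C * h * A))) := by
    rw [← trace_conjTranspose]
    have : (Wᴴ * (C * h * A))ᴴ = (Aᴴ * h * Cᴴ) * W := by
      simp only [conjTranspose_mul, conjTranspose_conjTranspose, hh, hsgn_star, Matrix.mul_assoc]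
    rw [this, trace_mul_comm]
  have hL : (trace (Z * (2 : ℂ) • (S * h * Sᴴ))).re = 4 * XX := by
    rw [Matrix.mul_smul, trace_smul, hShS, hZ, fromBlocks_multiply, tr_fromBlocks]
    simp only [Matrix.zero_mul, zero_add, add_zero]
    rw [hL1, hL2, smul_eq_mul, Complex.star_def, Complex.conj_ofReal, ← Complex.ofReal_add]
    have : (2 : ℂ) * ((XX + XX : ℝ) : ℂ) = ((2 * (XX + XX) : ℝ) : ℂ) := by push_cast; ring
    rw [this, Complex.ofReal_re]; ring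
  rw [hL] at key
  rw [hT2] at hT
  have hg : 0 ≤ gap32 A₀ A₁ := gap32_nonneg p₀ p₁
  have hfin : XX ≤ gap32 A₀ A₁ := by
    have h1 : XX ≤ √XX * √(gap32 A₀ A₁) := by
      have h2 : √(T3 Z Y Z) ≤ √XX := Real.sqrt_le_sqrt hT
      have h3 := mul_le_mul_of_nonneg_right h2 (Real.sqrt_nonneg (gap32 A₀ A₁))
      linarith
    have h4 := Real.mul_self_sqrt hXX0
    have h5 := Real.mul_self_sqrt hg
    have h6 := Real.sqrt_nonneg XX
    have h7 := Real.sqrt_nonneg (gap32 A₀ A₁)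
    rcases h6.eq_or_lt with h8 | h8
    · rw [← h8] at h4
      linarith
    · have h9 : √XX ≤ √(gap32 A₀ A₁) :=
        le_of_mul_le_mul_left (h4.le.trans h1) h8
      rw [← h4, ← h5]
      exact mul_le_mul h9 h9 h6 h7
  rw [← hSS, dgap_eq]
  exact hfin

end Crest.Agent.R72
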