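import Mathlib
import Crest.Prelude.Def_DyadicTriangular

/-!
# Row 72, S0097: definitions of the discrete (matrix) side

`F₀ (x₀, x₁)`, `F₁ (x₁, x₂)`, `F₂ (x₂, x₀)` are sampled on the grid `δ (i + t)`, `δ = 2 ^ k₀`, see `sample`.
-/

set_option autoImplicit false

open Finset

namespace Crest.Agent.R72

/-- Haar sign of the `i`-th cell in a box with `2 ^ p` cells (`1 ≤ p`) -/
noncomputable def sg (p i : ℕ) : ℝ := if i < 2 ^ (p - 1) then 1 else -1

/-- the discrete local form of the box with side `2 ^ p` cells and indices `n₀, n₁, n₂` -/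
noncomputable def dform (p n₀ n₁ n₂ : ℕ) (M₀ M₁ M₂ : ℕ → ℕ → ℝ) : ℝ :=
  ((2 : ℝ) ^ p)⁻¹ * ∑ i ∈ range (2 ^ p), ∑ j ∈ range (2 ^ p), ∑ l ∈ range (2 ^ p),
    M₀ (n₀ * 2 ^ p + i) (n₁ * 2 ^ p + j) * M₁ (n₁ * 2 ^ p + j) (n₂ * 2 ^ p + l) *
      M₂ (n₂ * 2 ^ p + l) (n₀ * 2 ^ p + i) * (sg p i * sg p j * sg p l)

/-- sampling of a kernel on the shifted grid -/
noncomputable def sample (k₀ : ℤ) (F : ℝ × ℝ → ℝ) (s t : ℝ) (i j : ℕ) : ℝ :=
  F ((2 : ℝ) ^ k₀ * (i + s), (2 : ℝ) ^ k₀ * (j + t))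

/-- uniform measure on `[0, 1)` -/
noncomputable def mu01 : MeasureTheory.Measure ℝ :=
  MeasureTheory.volume.restrict (Set.Ico (0 : ℝ) 1)

/-- sub-block of a block matrix -/
def dblk {ι : Type} {R : Type} (F : Matrix (Fin 2 × ι) (Fin 2 × ι) R) (a b : Fin 2) :
    Matrix ι ι R := Matrix.of fun i j => F (a, i) (b, j)

/-- `+1` on the first half, `-1` on the second half -/
def hsgn (R : Type) [Ring R] {ι : Type} (x : Fin 2 × ι) : R := if x.1 = 0 then 1 else -1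

end Crest.Agent.R72
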