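import Mathlib
import Crest.Prelude.Def_DyadicTriangular
import Crest.Agent.R72.DDefs

/-!
Row 72, dyadic part (S0097): the local form as an average of discrete forms over sampling shifts.
-/

set_option autoImplicit false

namespace Crest.Agent.R72

open MeasureTheory Finset Crest.AnalysisR.TriangularDyadic

instance : IsProbabilityMeasure mu01 := by
  constructor
  simp [mu01]

theorem integrable_of_bdd {α : Type*} [MeasurableSpace α] {μ : Measure α} [IsFiniteMeasure μ]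
    {g : α → ℝ} (hg : Measurable g) (M : ℝ) (hM : ∀ x, |g x| ≤ M) : Integrable g μ := by
  refine Integrable.of_bound hg.aestronglyMeasurable M (Filter.Eventually.of_forall fun x => ?_)
  simpa [Real.norm_eq_abs] using hM x

theorem cells_integral (δ : ℝ) (hδ : 0 < δ) (A : ℝ) (m : ℕ) (g : ℝ → ℝ) (hg : Measurable g)
    (M : ℝ) (hM : ∀ x, |g x| ≤ M) :
    ∫ x in Set.Ico (δ * A) (δ * (A + m)), g x =
      δ * ∫ s, ∑ i ∈ range m, g (δ * ((A + i) + s)) ∂mu01 := by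
  have hint : ∀ a b : ℝ, IntervalIntegrable g volume a b := by
    intro a b
    rw [intervalIntegrable_iff]
    refine Measure.integrableOn_of_bounded (M := M) ?_ hg.aestronglyMeasurable
      (Filter.Eventually.of_forall fun x => ?_)
    · simp [Set.uIoc]
    · simpa [Real.norm_eq_abs] using hM x
  have h1 : ∫ x in Set.Ico (δ * A) (δ * (A + m)), g x = ∫ x in (δ * A)..(δ * (A + m)), g x := by
    rw [integral_Ico_eq_integral_Ioc, intervalIntegral.integral_of_le]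
    have : (0:ℝ) ≤ m := Nat.cast_nonneg m
    nlinarith
  have h2 := intervalIntegral.sum_integral_adjacent_intervals (μ := volume) (f := g)
    (a := fun i : ℕ => δ * (A + i)) (n := m) (fun k _ => hint _ _)
  simp only [Nat.cast_zero, add_zero] at h2
  rw [h1, ← h2, integral_finsetSum, Finset.mul_sum]
  · refine Finset.sum_congr rfl fun i _ => ?_
    have h3 := intervalIntegral.smul_integral_comp_mul_add (a := 0) (b := 1) g δ (δ * (A + i))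
    rw [mu01, integral_Ico_eq_integral_Ioc,
      ← intervalIntegral.integral_of_le (zero_le_one' ℝ)]
    simp only [smul_eq_mul] at h3
    have e1 : (fun s : ℝ => g (δ * (A + i + s))) = fun s => g (δ * s + δ * (A + i)) := by
      funext s; congr 1; ring
    rw [e1, h3]
    congr 1
    · ring
    · push_cast; ring
  · intro i _
    exact integrable_of_bdd (by fun_prop) M (fun x => hM _)

theorem abs_setIntegral_le_bdd {α : Type*} [MeasurableSpace α] {μ : Measure α} [IsFiniteMeasure μ]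
    {g : α → ℝ} (M : ℝ) (hM : ∀ x, |g x| ≤ M) : |∫ x, g x ∂μ| ≤ M * μ.real Set.univ := by
  have := norm_integral_le_of_norm_le_const (μ := μ) (f := g) (C := M)
    (Filter.Eventually.of_forall fun x => by simpa [Real.norm_eq_abs] using hM x)
  simpa [Real.norm_eq_abs] using this

theorem triple_cells (δ : ℝ) (hδ : 0 < δ) (A₀ A₁ A₂ : ℝ) (m : ℕ) (G : ℝ × ℝ × ℝ → ℝ)
    (hG : Measurable G) (M : ℝ) (hM : ∀ x, |G x| ≤ M) :
    ∫ x₀ in Set.Ico (δ * A₀) (δ * (A₀ + m)), ∫ x₁ in Set.Ico (δ * A₁) (δ * (A₁ + m)),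
      ∫ x₂ in Set.Ico (δ * A₂) (δ * (A₂ + m)), G (x₀, x₁, x₂) =
      δ ^ 3 * ∫ t : ℝ × ℝ × ℝ, ∑ i ∈ range m, ∑ j ∈ range m, ∑ l ∈ range m,
        G (δ * ((A₀ + i) + t.1), δ * ((A₁ + j) + t.2.1), δ * ((A₂ + l) + t.2.2))
        ∂(mu01.prod (mu01.prod mu01)) := by
  have hM0 : 0 ≤ M := (abs_nonneg _).trans (hM (0, 0, 0))
  set J₂ : Set ℝ := Set.Ico (δ * A₂) (δ * (A₂ + m)) with hJ₂
  set J₁ : Set ℝ := Set.Ico (δ * A₁) (δ * (A₁ + m)) with hJ₁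
  have : IsFiniteMeasure (volume.restrict J₂) := by
    constructor; simp [hJ₂]
  have : IsFiniteMeasure (volume.restrict J₁) := by
    constructor; simp [hJ₁]
  have hBm : Measurable fun z : ℝ × ℝ => ∫ x₂ in J₂, G (z.1, z.2, x₂) := by
    have : Measurable (Function.uncurry fun (z : ℝ × ℝ) (x₂ : ℝ) => G (z.1, z.2, x₂)) := by
      simp only [Function.uncurry_def]
      fun_prop
    exact (this.stronglyMeasurable.integral_prod_right (ν := volume.restrict J₂)).measurable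
  set V₂ : ℝ := (volume.restrict J₂).real Set.univ with hV₂
  set V₁ : ℝ := (volume.restrict J₁).real Set.univ with hV₁
  have hBb : ∀ x₀ x₁ : ℝ, |∫ x₂ in J₂, G (x₀, x₁, x₂)| ≤ M * V₂ := fun x₀ x₁ =>
    abs_setIntegral_le_bdd M fun x => hM _
  have hAm : Measurable fun x₀ : ℝ => ∫ x₁ in J₁, ∫ x₂ in J₂, G (x₀, x₁, x₂) := by
    have : Measurable (Function.uncurry fun (x₀ : ℝ) (x₁ : ℝ) => ∫ x₂ in J₂, G (x₀, x₁, x₂)) := by
      simp only [Function.uncurry_def]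
      exact hBm
    exact (this.stronglyMeasurable.integral_prod_right (ν := volume.restrict J₁)).measurable
  have hAb : ∀ x₀ : ℝ, |∫ x₁ in J₁, ∫ x₂ in J₂, G (x₀, x₁, x₂)| ≤ M * V₂ * V₁ := fun x₀ =>
    abs_setIntegral_le_bdd _ fun x => hBb x₀ x
  rw [cells_integral δ hδ A₀ m _ hAm _ hAb]
  have hbig : ∀ t : ℝ × ℝ × ℝ, |∑ i ∈ range m, ∑ j ∈ range m, ∑ l ∈ range m,
        G (δ * ((A₀ + i) + t.1), δ * ((A₁ + j) + t.2.1), δ * ((A₂ + l) + t.2.2))| ≤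
        m * (m * (m * M)) := by
    intro t
    refine (abs_sum_le_sum_abs _ _).trans ?_
    refine (Finset.sum_le_card_nsmul _ _ (m * (m * M)) fun i _ => ?_).trans (by simp)
    refine (abs_sum_le_sum_abs _ _).trans ?_
    refine (Finset.sum_le_card_nsmul _ _ (m * M) fun i _ => ?_).trans (by simp)
    refine (abs_sum_le_sum_abs _ _).trans ?_
    exact (Finset.sum_le_card_nsmul _ _ (M) fun i _ => hM _).trans (by simp)
  have hbigm : Measurable fun t : ℝ × ℝ × ℝ => ∑ i ∈ range m, ∑ j ∈ range m, ∑ l ∈ range m,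
        G (δ * ((A₀ + i) + t.1), δ * ((A₁ + j) + t.2.1), δ * ((A₂ + l) + t.2.2)) := by
    fun_prop
  have hbigi := integrable_of_bdd (μ := mu01.prod (mu01.prod mu01)) hbigm _ hbig
  rw [integral_prod _ hbigi]
  have e : δ ^ 3 = δ * (δ * δ) := by ring
  rw [e, mul_assoc]
  congr 1
  rw [← integral_const_mul]
  refine integral_congr_ae (Filter.Eventually.of_forall fun s₀ => ?_)
  simp only
  have hbigi2 : Integrable (fun t : ℝ × ℝ => ∑ i ∈ range m, ∑ j ∈ range m, ∑ l ∈ range m,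
        G (δ * ((A₀ + i) + s₀), δ * ((A₁ + j) + t.1), δ * ((A₂ + l) + t.2)))
        (mu01.prod mu01) := by
    refine integrable_of_bdd (by fun_prop) (m * (m * (m * M))) fun t => ?_
    exact hbig (s₀, t)
  rw [integral_prod _ hbigi2, mul_assoc]
  have hI : ∀ i : ℕ, ∫ x₁ in J₁, ∫ x₂ in J₂, G (δ * ((A₀ + i) + s₀), x₁, x₂) =
      δ * (δ * ∫ s₁, ∫ s₂, ∑ j ∈ range m, ∑ l ∈ range m,
        G (δ * ((A₀ + i) + s₀), δ * ((A₁ + j) + s₁), δ * ((A₂ + l) + s₂)) ∂mu01 ∂mu01) := by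
    intro i
    rw [cells_integral δ hδ A₁ m (fun x₁ => ∫ x₂ in J₂, G (δ * ((A₀ + i) + s₀), x₁, x₂))
      (hBm.comp (by fun_prop : Measurable fun x₁ : ℝ => ((δ * ((A₀ + i) + s₀), x₁) : ℝ × ℝ))) _
      (fun x => hBb _ x)]
    congr 1
    rw [← integral_const_mul]
    refine integral_congr_ae (Filter.Eventually.of_forall fun s₁ => ?_)
    simp only
    rw [integral_finsetSum, Finset.mul_sum]
    · refine Finset.sum_congr rfl fun j _ => ?_
      exact cells_integral δ hδ A₂ m (fun x₂ => G (δ * ((A₀ + i) + s₀), δ * ((A₁ + j) + s₁), x₂))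
        (by fun_prop) _ (fun x => hM _)
    · intro j _
      refine integrable_of_bdd (by fun_prop) (m * M) fun t => ?_
      refine (abs_sum_le_sum_abs _ _).trans ?_
      exact (Finset.sum_le_card_nsmul _ _ (M) fun i _ => hM _).trans (by simp)
  simp_rw [hI]
  rw [← Finset.mul_sum, ← Finset.mul_sum]
  congr 2
  have hjl : ∀ (i : ℕ) (s₁ s₂ : ℝ), |∑ j ∈ range m, ∑ l ∈ range m,
        G (δ * ((A₀ + i) + s₀), δ * ((A₁ + j) + s₁), δ * ((A₂ + l) + s₂))| ≤ m * (m * M) := by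
    intro i s₁ s₂
    refine (abs_sum_le_sum_abs _ _).trans ?_
    refine (Finset.sum_le_card_nsmul _ _ (m * M) fun i _ => ?_).trans (by simp)
    refine (abs_sum_le_sum_abs _ _).trans ?_
    exact (Finset.sum_le_card_nsmul _ _ (M) fun i _ => hM _).trans (by simp)
  have hjm : ∀ i : ℕ, Measurable (fun z : ℝ × ℝ => ∑ j ∈ range m, ∑ l ∈ range m,
        G (δ * ((A₀ + i) + s₀), δ * ((A₁ + j) + z.1), δ * ((A₂ + l) + z.2))) := by
    intro i; fun_prop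
  rw [← integral_finsetSum]
  · refine integral_congr_ae (Filter.Eventually.of_forall fun s₁ => ?_)
    simp only
    rw [← integral_finsetSum]
    intro i _
    exact integrable_of_bdd (by fun_prop) _ fun t => hjl i s₁ t
  · intro i _
    refine integrable_of_bdd ?_ (m * (m * M) * mu01.real Set.univ) fun t => ?_
    · have : Measurable (Function.uncurry fun (s₁ : ℝ) (s₂ : ℝ) => ∑ j ∈ range m, ∑ l ∈ range m,
        G (δ * ((A₀ + i) + s₀), δ * ((A₁ + j) + s₁), δ * ((A₂ + l) + s₂))) := by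
        simp only [Function.uncurry_def]
        exact hjm i
      exact (this.stronglyMeasurable.integral_prod_right (ν := mu01)).measurable
    · exact abs_setIntegral_le_bdd _ fun x => hjl i t x

/-! ### the local form -/

theorem zpow_add_nat (k₀ : ℤ) (p : ℕ) : (2 : ℝ) ^ (k₀ + p) = (2 : ℝ) ^ k₀ * 2 ^ p := by
  rw [zpow_add₀ (two_ne_zero), zpow_natCast]

theorem interval_eq (k₀ : ℤ) (p n : ℕ) : interval (k₀ + p) n =
    Set.Ico ((2 : ℝ) ^ k₀ * ((n * 2 ^ p : ℕ) : ℝ)) ((2 : ℝ) ^ k₀ * (((n * 2 ^ p : ℕ) : ℝ) + ((2 ^ p : ℕ) : ℝ))) := by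
  unfold interval
  rw [zpow_add_nat]
  congr 1
  · push_cast; ring
  · push_cast; ring

theorem haarSign_cell (k₀ : ℤ) (p n i : ℕ) (hp : 1 ≤ p) (hi : i < 2 ^ p) (s : ℝ)
    (hs : s ∈ Set.Ico (0 : ℝ) 1) :
    haarSign (k₀ + p) n ((2 : ℝ) ^ k₀ * ((((n * 2 ^ p : ℕ) : ℝ) + i) + s)) = sg p i := by
  obtain ⟨q, rfl⟩ : ∃ q, p = q + 1 := ⟨p - 1, by omega⟩
  have hδ : (0 : ℝ) < (2 : ℝ) ^ k₀ := by positivity
  have e1 : (2 : ℝ) ^ (k₀ + ((q + 1 : ℕ) : ℤ)) = (2 : ℝ) ^ k₀ * 2 ^ (q + 1) := zpow_add_nat _ _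
  have e2 : (2 : ℝ) ^ (k₀ + ((q + 1 : ℕ) : ℤ) - 1) = (2 : ℝ) ^ k₀ * 2 ^ q := by
    rw [← zpow_add_nat]; congr 1; push_cast; ring
  unfold haarSign sg
  rw [e1, e2]
  simp only [Nat.add_sub_cancel]
  obtain ⟨hs0, hs1⟩ := hs
  have hcast : ((n * 2 ^ (q + 1) : ℕ) : ℝ) = n * 2 ^ (q + 1) := by push_cast; ring
  rw [hcast]
  by_cases h : i < 2 ^ q
  · rw [if_pos h, if_pos]
    have h' : (i : ℝ) + 1 ≤ 2 ^ q := by exact_mod_cast h
    constructor
    · rw [mul_assoc]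
      refine mul_le_mul_of_nonneg_left ?_ hδ.le
      have : (0 : ℝ) ≤ i := Nat.cast_nonneg i
      nlinarith
    · rw [mul_assoc, ← mul_add]
      refine mul_lt_mul_of_pos_left ?_ hδ
      nlinarith
  · push Not at h
    have h' : (2 : ℝ) ^ q ≤ (i : ℝ) := by exact_mod_cast h
    have h'' : (i : ℝ) + 1 ≤ 2 ^ (q + 1) := by exact_mod_cast hi
    rw [if_neg (not_lt.mpr h), if_neg, if_pos]
    · constructor
      · rw [mul_assoc, ← mul_add]
        refine mul_le_mul_of_nonneg_left ?_ hδ.le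
        nlinarith
      · rw [mul_assoc]
        refine mul_lt_mul_of_pos_left ?_ hδ
        nlinarith
    · rintro ⟨-, h3⟩
      rw [mul_assoc, ← mul_add] at h3
      have := lt_of_mul_lt_mul_left h3 hδ.le
      nlinarith

theorem measurable_haarSign (k : ℤ) (n : ℕ) : Measurable (haarSign k n) := by
  unfold haarSign
  refine Measurable.ite measurableSet_Ico measurable_const ?_
  exact Measurable.ite measurableSet_Ico measurable_const measurable_const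

theorem abs_haarSign_le (k : ℤ) (n : ℕ) (x : ℝ) : |haarSign k n x| ≤ 1 := by
  unfold haarSign
  split_ifs <;> simp

theorem abs_sg (p i : ℕ) : |sg p i| = 1 := by
  unfold sg; split_ifs <;> simp

theorem measurable_sample (k₀ : ℤ) (F : ℝ × ℝ → ℝ) (hF : Measurable F) (i j : ℕ) :
    Measurable fun z : ℝ × ℝ => sample k₀ F z.1 z.2 i j := by
  unfold sample; fun_prop

theorem measurable_dform_sample (k₀ : ℤ) (p n₀ n₁ n₂ : ℕ) (F₀ F₁ F₂ : ℝ × ℝ → ℝ)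
    (hF₀ : Measurable F₀) (hF₁ : Measurable F₁) (hF₂ : Measurable F₂) :
    Measurable fun t : ℝ × ℝ × ℝ => dform p n₀ n₁ n₂ (sample k₀ F₀ t.1 t.2.1)
      (sample k₀ F₁ t.2.1 t.2.2) (sample k₀ F₂ t.2.2 t.1) := by
  unfold dform sample
  fun_prop

theorem abs_dform_sample_le (k₀ : ℤ) (p n₀ n₁ n₂ : ℕ) (F₀ F₁ F₂ : ℝ × ℝ → ℝ) (M : ℝ)
    (hb : ∀ z, |F₀ z| ≤ M ∧ |F₁ z| ≤ M ∧ |F₂ z| ≤ M) (t : ℝ × ℝ × ℝ) :
    |dform p n₀ n₁ n₂ (sample k₀ F₀ t.1 t.2.1) (sample k₀ F₁ t.2.1 t.2.2)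
      (sample k₀ F₂ t.2.2 t.1)| ≤
      ((2 : ℝ) ^ p)⁻¹ * ((2 : ℝ) ^ p * ((2 : ℝ) ^ p * ((2 : ℝ) ^ p * (M * M * M)))) := by
  have hM : 0 ≤ M := (abs_nonneg _).trans (hb (0, 0)).1
  unfold dform
  rw [abs_mul, abs_of_pos (by positivity : (0:ℝ) < ((2 : ℝ) ^ p)⁻¹)]
  refine mul_le_mul_of_nonneg_left ?_ (by positivity)
  refine (abs_sum_le_sum_abs _ _).trans ?_
  refine (Finset.sum_le_card_nsmul _ _ ((2 : ℝ) ^ p * ((2 : ℝ) ^ p * (M * M * M)))
    fun i _ => ?_).trans (by simp)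
  refine (abs_sum_le_sum_abs _ _).trans ?_
  refine (Finset.sum_le_card_nsmul _ _ ((2 : ℝ) ^ p * (M * M * M)) fun j _ => ?_).trans (by simp)
  refine (abs_sum_le_sum_abs _ _).trans ?_
  refine (Finset.sum_le_card_nsmul _ _ (M * M * M) fun l _ => ?_).trans (by simp)
  rw [abs_mul, abs_mul, abs_mul, abs_mul, abs_mul, abs_sg, abs_sg, abs_sg]
  simp only [mul_one, sample]
  have h0 := (hb ((2 : ℝ) ^ k₀ * (((n₀ * 2 ^ p + i : ℕ) : ℝ) + t.1), (2 : ℝ) ^ k₀ * (((n₁ * 2 ^ p + j : ℕ) : ℝ) + t.2.1))).1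
  have h1 := (hb ((2 : ℝ) ^ k₀ * (((n₁ * 2 ^ p + j : ℕ) : ℝ) + t.2.1), (2 : ℝ) ^ k₀ * (((n₂ * 2 ^ p + l : ℕ) : ℝ) + t.2.2))).2.1
  have h2 := (hb ((2 : ℝ) ^ k₀ * (((n₂ * 2 ^ p + l : ℕ) : ℝ) + t.2.2), (2 : ℝ) ^ k₀ * (((n₀ * 2 ^ p + i : ℕ) : ℝ) + t.1))).2.2
  gcongr

theorem integrable_dform_sample (k₀ : ℤ) (p n₀ n₁ n₂ : ℕ) (F₀ F₁ F₂ : ℝ × ℝ → ℝ)
    (hF₀ : Measurable F₀) (hF₁ : Measurable F₁) (hF₂ : Measurable F₂) (M : ℝ)
    (hb : ∀ z, |F₀ z| ≤ M ∧ |F₁ z| ≤ M ∧ |F₂ z| ≤ M) :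
    Integrable (fun t : ℝ × ℝ × ℝ => dform p n₀ n₁ n₂ (sample k₀ F₀ t.1 t.2.1)
      (sample k₀ F₁ t.2.1 t.2.2) (sample k₀ F₂ t.2.2 t.1)) (mu01.prod (mu01.prod mu01)) :=
  integrable_of_bdd (measurable_dform_sample k₀ p n₀ n₁ n₂ F₀ F₁ F₂ hF₀ hF₁ hF₂) _
    (abs_dform_sample_le k₀ p n₀ n₁ n₂ F₀ F₁ F₂ M hb)

theorem localForm_eq_integral (k₀ : ℤ) (p n₀ n₁ n₂ : ℕ) (hp : 1 ≤ p) (F₀ F₁ F₂ : ℝ × ℝ → ℝ)
    (hF₀ : Measurable F₀) (hF₁ : Measurable F₁) (hF₂ : Measurable F₂) (M : ℝ)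
    (hb : ∀ z, |F₀ z| ≤ M ∧ |F₁ z| ≤ M ∧ |F₂ z| ≤ M) :
    localForm (k₀ + p) n₀ n₁ n₂ F₀ F₁ F₂ =
      ((2 : ℝ) ^ k₀) ^ 2 * ∫ t : ℝ × ℝ × ℝ, dform p n₀ n₁ n₂ (sample k₀ F₀ t.1 t.2.1)
      (sample k₀ F₁ t.2.1 t.2.2) (sample k₀ F₂ t.2.2 t.1) ∂(mu01.prod (mu01.prod mu01)) := by
  have hM : 0 ≤ M := (abs_nonneg _).trans (hb (0, 0)).1
  have hδ : (0 : ℝ) < (2 : ℝ) ^ k₀ := by positivity
  unfold localForm
  rw [interval_eq, interval_eq, interval_eq]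
  have h := triple_cells ((2 : ℝ) ^ k₀) hδ ((n₀ * 2 ^ p : ℕ) : ℝ) ((n₁ * 2 ^ p : ℕ) : ℝ)
    ((n₂ * 2 ^ p : ℕ) : ℝ) (2 ^ p)
    (fun x => F₀ (x.1, x.2.1) * F₁ (x.2.1, x.2.2) * F₂ (x.2.2, x.1) *
      (haarSign (k₀ + p) n₀ x.1 * haarSign (k₀ + p) n₁ x.2.1 * haarSign (k₀ + p) n₂ x.2.2))
    (by
      have m0 := measurable_haarSign (k₀ + p) n₀
      have m1 := measurable_haarSign (k₀ + p) n₁
      have m2 := measurable_haarSign (k₀ + p) n₂
      fun_prop) (M * M * M)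
    (by
      intro x
      rw [abs_mul, abs_mul, abs_mul, abs_mul, abs_mul]
      have h0 := (hb (x.1, x.2.1)).1
      have h1 := (hb (x.2.1, x.2.2)).2.1
      have h2 := (hb (x.2.2, x.1)).2.2
      have g0 := abs_haarSign_le (k₀ + p) n₀ x.1
      have g1 := abs_haarSign_le (k₀ + p) n₁ x.2.1
      have g2 := abs_haarSign_le (k₀ + p) n₂ x.2.2
      calc _ ≤ M * M * M * (1 * 1 * 1) := by gcongr
        _ = M * M * M := by ring)
  simp only at h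
  rw [h]
  have hcoef : (2 : ℝ) ^ (-(k₀ + (p : ℤ))) * ((2 : ℝ) ^ k₀) ^ 3 =
      ((2 : ℝ) ^ k₀) ^ 2 * ((2 : ℝ) ^ p)⁻¹ := by
    rw [zpow_neg, zpow_add_nat]
    field_simp
  rw [← mul_assoc, hcoef, mul_assoc, ← integral_const_mul]
  congr 1
  have hae : ∀ᵐ t : ℝ × ℝ × ℝ ∂(mu01.prod (mu01.prod mu01)),
      t.1 ∈ Set.Ico (0 : ℝ) 1 ∧ t.2.1 ∈ Set.Ico (0 : ℝ) 1 ∧ t.2.2 ∈ Set.Ico (0 : ℝ) 1 := by
    have h1 : ∀ᵐ t : ℝ ∂mu01, t ∈ Set.Ico (0 : ℝ) 1 := by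
      unfold mu01; exact ae_restrict_mem measurableSet_Ico
    have q1 : ∀ᵐ t : ℝ × ℝ × ℝ ∂(mu01.prod (mu01.prod mu01)), t.1 ∈ Set.Ico (0 : ℝ) 1 :=
      (Measure.quasiMeasurePreserving_fst).ae h1
    have q2 : ∀ᵐ t : ℝ × ℝ × ℝ ∂(mu01.prod (mu01.prod mu01)), t.2.1 ∈ Set.Ico (0 : ℝ) 1 :=
      (Measure.quasiMeasurePreserving_snd).ae ((Measure.quasiMeasurePreserving_fst).ae h1)
    have q3 : ∀ᵐ t : ℝ × ℝ × ℝ ∂(mu01.prod (mu01.prod mu01)), t.2.2 ∈ Set.Ico (0 : ℝ) 1 :=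
      (Measure.quasiMeasurePreserving_snd).ae ((Measure.quasiMeasurePreserving_snd).ae h1)
    filter_upwards [q1, q2, q3] with t a b c using ⟨a, b, c⟩
  refine integral_congr_ae ?_
  filter_upwards [hae] with t ht
  obtain ⟨ht0, ht1, ht2⟩ := ht
  unfold dform
  congr 1
  refine Finset.sum_congr rfl fun i hi => Finset.sum_congr rfl fun j hj =>
    Finset.sum_congr rfl fun l hl => ?_
  rw [Finset.mem_range] at hi hj hl
  rw [haarSign_cell k₀ p n₀ i hp hi _ ht0, haarSign_cell k₀ p n₁ j hp hj _ ht1,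
    haarSign_cell k₀ p n₂ l hp hl _ ht2]
  simp only [sample]
  push_cast
  ring_nf

end Crest.Agent.R72
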