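import Mathlib
import Crest.Prelude.Def_DyadicTriangular
import Crest.Agent.R72.DDefs
import Crest.Agent.R72.D2

/-!
Row 72, dyadic part (S0097): the norm identity for sampled kernels.
-/

set_option autoImplicit false

namespace Crest.Agent.R72

open MeasureTheory Finset Crest.AnalysisR.TriangularDyadic

theorem pair_cells (δ : ℝ) (hδ : 0 < δ) (A₀ A₁ : ℝ) (m : ℕ) (G : ℝ × ℝ → ℝ)
    (hG : Measurable G) (M : ℝ) (hM : ∀ x, |G x| ≤ M) :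
    ∫ x₀ in Set.Ico (δ * A₀) (δ * (A₀ + m)), ∫ x₁ in Set.Ico (δ * A₁) (δ * (A₁ + m)),
      G (x₀, x₁) =
      δ ^ 2 * ∫ t : ℝ × ℝ, ∑ i ∈ range m, ∑ j ∈ range m,
        G (δ * ((A₀ + i) + t.1), δ * ((A₁ + j) + t.2)) ∂(mu01.prod mu01) := by
  have hM0 : 0 ≤ M := (abs_nonneg _).trans (hM (0, 0))
  set J₁ : Set ℝ := Set.Ico (δ * A₁) (δ * (A₁ + m)) with hJ₁
  have : IsFiniteMeasure (volume.restrict J₁) := by
    constructor; simp [hJ₁]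
  set V₁ : ℝ := (volume.restrict J₁).real Set.univ with hV₁
  have hAm : Measurable fun x₀ : ℝ => ∫ x₁ in J₁, G (x₀, x₁) := by
    have : Measurable (Function.uncurry fun (x₀ : ℝ) (x₁ : ℝ) => G (x₀, x₁)) := by
      simp only [Function.uncurry_def]
      fun_prop
    exact (this.stronglyMeasurable.integral_prod_right (ν := volume.restrict J₁)).measurable
  have hAb : ∀ x₀ : ℝ, |∫ x₁ in J₁, G (x₀, x₁)| ≤ M * V₁ := fun x₀ =>
    abs_setIntegral_le_bdd _ fun x => hM _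
  rw [cells_integral δ hδ A₀ m _ hAm _ hAb]
  have hbig : ∀ t : ℝ × ℝ, |∑ i ∈ range m, ∑ j ∈ range m,
        G (δ * ((A₀ + i) + t.1), δ * ((A₁ + j) + t.2))| ≤ m * (m * M) := by
    intro t
    refine (abs_sum_le_sum_abs _ _).trans ?_
    refine (Finset.sum_le_card_nsmul _ _ (m * M) fun i _ => ?_).trans (by simp)
    refine (abs_sum_le_sum_abs _ _).trans ?_
    exact (Finset.sum_le_card_nsmul _ _ (M) fun i _ => hM _).trans (by simp)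
  have hbigi := integrable_of_bdd (μ := mu01.prod mu01)
    (by fun_prop : Measurable fun t : ℝ × ℝ => ∑ i ∈ range m, ∑ j ∈ range m,
        G (δ * ((A₀ + i) + t.1), δ * ((A₁ + j) + t.2))) _ hbig
  rw [integral_prod _ hbigi, pow_two, mul_assoc]
  congr 1
  rw [← integral_const_mul]
  refine integral_congr_ae (Filter.Eventually.of_forall fun s₀ => ?_)
  simp only
  rw [integral_finsetSum, Finset.mul_sum]
  · refine Finset.sum_congr rfl fun i _ => ?_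
    exact cells_integral δ hδ A₁ m (fun x₁ => G (δ * ((A₀ + i) + s₀), x₁)) (by fun_prop) _
      (fun x => hM _)
  · intro i _
    refine integrable_of_bdd (by fun_prop) (m * M) fun t => ?_
    refine (abs_sum_le_sum_abs _ _).trans ?_
    exact (Finset.sum_le_card_nsmul _ _ (M) fun i _ => hM _).trans (by simp)

/-- the cube sum of a sampled kernel -/
noncomputable def cubeSum (L : ℕ) (a : ℕ → ℕ → ℝ) : ℝ :=
  ∑ i ∈ range (2 ^ L), ∑ j ∈ range (2 ^ L), |a i j| ^ 3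

theorem cubeSum_nonneg (L : ℕ) (a : ℕ → ℕ → ℝ) : 0 ≤ cubeSum L a := by
  unfold cubeSum; positivity

theorem measurable_cubeSum_sample (k₀ : ℤ) (L : ℕ) (F : ℝ × ℝ → ℝ) (hF : Measurable F) :
    Measurable fun t : ℝ × ℝ => cubeSum L (sample k₀ F t.1 t.2) := by
  unfold cubeSum sample
  have h : Measurable fun z => |F z| ^ 3 := by fun_prop
  fun_prop

theorem abs_cubeSum_sample_le (k₀ : ℤ) (L : ℕ) (F : ℝ × ℝ → ℝ) (M : ℝ)
    (hM : ∀ z, |F z| ≤ M) (s t : ℝ) :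
    |cubeSum L (sample k₀ F s t)| ≤ 2 ^ L * (2 ^ L * M ^ 3) := by
  unfold cubeSum
  refine (abs_sum_le_sum_abs _ _).trans ?_
  refine (Finset.sum_le_card_nsmul _ _ (2 ^ L * M ^ 3) fun i _ => ?_).trans (by simp)
  refine (abs_sum_le_sum_abs _ _).trans ?_
  refine (Finset.sum_le_card_nsmul _ _ (M ^ 3) fun j _ => ?_).trans (by simp)
  rw [abs_pow, abs_abs]
  exact pow_le_pow_left₀ (abs_nonneg _) (hM _) 3

theorem cubeSum_pair (k₀ : ℤ) (L : ℕ) (F : ℝ × ℝ → ℝ) (hF : Measurable F) (M : ℝ)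
    (hM : ∀ z, |F z| ≤ M) :
    ((2 : ℝ) ^ k₀) ^ 2 * ∫ t : ℝ × ℝ, cubeSum L (sample k₀ F t.1 t.2) ∂(mu01.prod mu01) =
      ∫ z in Set.Ico (0 : ℝ) (2 ^ (k₀ + (L : ℤ))) ×ˢ Set.Ico (0 : ℝ) (2 ^ (k₀ + (L : ℤ))),
        |F z| ^ 3 := by
  have hδ : (0 : ℝ) < (2 : ℝ) ^ k₀ := by positivity
  have hm : Measurable fun z => |F z| ^ 3 := by fun_prop
  have hbd : ∀ z, |(|F z| ^ 3)| ≤ M ^ 3 := by
    intro z
    rw [abs_pow, abs_abs]
    exact pow_le_pow_left₀ (abs_nonneg _) (hM _) 3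
  have h := pair_cells ((2 : ℝ) ^ k₀) hδ 0 0 (2 ^ L) (fun z => |F z| ^ 3) hm _ hbd
  have e : (2 : ℝ) ^ (k₀ + (L : ℤ)) = (2 : ℝ) ^ k₀ * (0 + ((2 ^ L : ℕ) : ℝ)) := by
    rw [zpow_add_nat]; push_cast; ring
  rw [mul_zero, ← e] at h
  have hfin : IsFiniteMeasure ((volume : Measure ℝ).restrict
      (Set.Ico (0 : ℝ) (2 ^ (k₀ + (L : ℤ))))) := by
    constructor; simp
  rw [show ((volume : Measure (ℝ × ℝ)).restrict (Set.Ico (0 : ℝ) (2 ^ (k₀ + (L : ℤ))) ×ˢ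
    Set.Ico (0 : ℝ) (2 ^ (k₀ + (L : ℤ))))) = ((volume : Measure ℝ).restrict
      (Set.Ico (0 : ℝ) (2 ^ (k₀ + (L : ℤ))))).prod ((volume : Measure ℝ).restrict
      (Set.Ico (0 : ℝ) (2 ^ (k₀ + (L : ℤ))))) from by
        rw [Measure.prod_restrict]; rfl]
  rw [integral_prod _ (integrable_of_bdd hm _ hbd), h]
  congr 1
  refine integral_congr_ae (Filter.Eventually.of_forall fun t => ?_)
  simp only [cubeSum, sample, zero_add]

theorem integrable_cubeSum₀ (k₀ : ℤ) (L : ℕ) (F : ℝ × ℝ → ℝ) (hF : Measurable F) (M : ℝ)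
    (hM : ∀ z, |F z| ≤ M) :
    Integrable (fun t : ℝ × ℝ × ℝ => cubeSum L (sample k₀ F t.1 t.2.1))
      (mu01.prod (mu01.prod mu01)) := by
  refine integrable_of_bdd (M := 2 ^ L * (2 ^ L * M ^ 3)) ?_ ?_
  · have h := (measurable_cubeSum_sample k₀ L F hF).comp
      (by fun_prop : Measurable fun t : ℝ × ℝ × ℝ => (t.1, t.2.1))
    simpa only [Function.comp_def] using h
  · intro t
    exact abs_cubeSum_sample_le k₀ L F M hM _ _

theorem integrable_cubeSum₁ (k₀ : ℤ) (L : ℕ) (F : ℝ × ℝ → ℝ) (hF : Measurable F) (M : ℝ)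
    (hM : ∀ z, |F z| ≤ M) :
    Integrable (fun t : ℝ × ℝ × ℝ => cubeSum L (sample k₀ F t.2.1 t.2.2))
      (mu01.prod (mu01.prod mu01)) := by
  refine integrable_of_bdd (M := 2 ^ L * (2 ^ L * M ^ 3)) ?_ ?_
  · have h := (measurable_cubeSum_sample k₀ L F hF).comp
      (by fun_prop : Measurable fun t : ℝ × ℝ × ℝ => (t.2.1, t.2.2))
    simpa only [Function.comp_def] using h
  · intro t
    exact abs_cubeSum_sample_le k₀ L F M hM _ _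

theorem integrable_cubeSum₂ (k₀ : ℤ) (L : ℕ) (F : ℝ × ℝ → ℝ) (hF : Measurable F) (M : ℝ)
    (hM : ∀ z, |F z| ≤ M) :
    Integrable (fun t : ℝ × ℝ × ℝ => cubeSum L (sample k₀ F t.2.2 t.1))
      (mu01.prod (mu01.prod mu01)) := by
  refine integrable_of_bdd (M := 2 ^ L * (2 ^ L * M ^ 3)) ?_ ?_
  · have h := (measurable_cubeSum_sample k₀ L F hF).comp
      (by fun_prop : Measurable fun t : ℝ × ℝ × ℝ => (t.2.2, t.1))
    simpa only [Function.comp_def] using h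
  · intro t
    exact abs_cubeSum_sample_le k₀ L F M hM _ _

theorem integral_marginal (φ : ℝ × ℝ → ℝ) (hφ : Measurable φ) (π : ℝ × ℝ × ℝ → ℝ × ℝ)
    (hπ : MeasurePreserving π (mu01.prod (mu01.prod mu01)) (mu01.prod mu01)) :
    ∫ t, φ (π t) ∂(mu01.prod (mu01.prod mu01)) = ∫ z, φ z ∂(mu01.prod mu01) := by
  have h := integral_map (μ := mu01.prod (mu01.prod mu01)) hπ.aemeasurable (f := φ)
    hφ.aestronglyMeasurable
  rw [hπ.map_eq] at h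
  exact h.symm

theorem mp₀ : MeasurePreserving (fun t : ℝ × ℝ × ℝ => (t.1, t.2.1))
    (mu01.prod (mu01.prod mu01)) (mu01.prod mu01) :=
  (MeasurePreserving.id mu01).prod (measurePreserving_fst (μ := mu01) (ν := mu01))

theorem mp₁ : MeasurePreserving (fun t : ℝ × ℝ × ℝ => (t.2.1, t.2.2))
    (mu01.prod (mu01.prod mu01)) (mu01.prod mu01) :=
  measurePreserving_snd (μ := mu01) (ν := mu01.prod mu01)

theorem mp₂ : MeasurePreserving (fun t : ℝ × ℝ × ℝ => (t.2.2, t.1))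
    (mu01.prod (mu01.prod mu01)) (mu01.prod mu01) :=
  (Measure.measurePreserving_swap (μ := mu01) (ν := mu01)).comp
    ((MeasurePreserving.id mu01).prod (measurePreserving_snd (μ := mu01) (ν := mu01)))

theorem cubeSum_integral₀ (k₀ : ℤ) (L : ℕ) (F : ℝ × ℝ → ℝ) (hF : Measurable F) (M : ℝ)
    (hM : ∀ z, |F z| ≤ M) :
    ((2 : ℝ) ^ k₀) ^ 2 * ∫ t : ℝ × ℝ × ℝ, cubeSum L (sample k₀ F t.1 t.2.1)
      ∂(mu01.prod (mu01.prod mu01)) =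
      ∫ z in Set.Ico (0 : ℝ) (2 ^ (k₀ + (L : ℤ))) ×ˢ Set.Ico (0 : ℝ) (2 ^ (k₀ + (L : ℤ))),
        |F z| ^ 3 := by
  rw [← cubeSum_pair k₀ L F hF M hM]
  congr 1
  have h := integral_marginal (fun z => cubeSum L (sample k₀ F z.1 z.2))
    (measurable_cubeSum_sample k₀ L F hF) _ mp₀
  simpa only using h

theorem cubeSum_integral₁ (k₀ : ℤ) (L : ℕ) (F : ℝ × ℝ → ℝ) (hF : Measurable F) (M : ℝ)
    (hM : ∀ z, |F z| ≤ M) :
    ((2 : ℝ) ^ k₀) ^ 2 * ∫ t : ℝ × ℝ × ℝ, cubeSum L (sample k₀ F t.2.1 t.2.2)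
      ∂(mu01.prod (mu01.prod mu01)) =
      ∫ z in Set.Ico (0 : ℝ) (2 ^ (k₀ + (L : ℤ))) ×ˢ Set.Ico (0 : ℝ) (2 ^ (k₀ + (L : ℤ))),
        |F z| ^ 3 := by
  rw [← cubeSum_pair k₀ L F hF M hM]
  congr 1
  have h := integral_marginal (fun z => cubeSum L (sample k₀ F z.1 z.2))
    (measurable_cubeSum_sample k₀ L F hF) _ mp₁
  simpa only using h

theorem cubeSum_integral₂ (k₀ : ℤ) (L : ℕ) (F : ℝ × ℝ → ℝ) (hF : Measurable F) (M : ℝ)
    (hM : ∀ z, |F z| ≤ M) :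
    ((2 : ℝ) ^ k₀) ^ 2 * ∫ t : ℝ × ℝ × ℝ, cubeSum L (sample k₀ F t.2.2 t.1)
      ∂(mu01.prod (mu01.prod mu01)) =
      ∫ z in Set.Ico (0 : ℝ) (2 ^ (k₀ + (L : ℤ))) ×ˢ Set.Ico (0 : ℝ) (2 ^ (k₀ + (L : ℤ))),
        |F z| ^ 3 := by
  rw [← cubeSum_pair k₀ L F hF M hM]
  congr 1
  have h := integral_marginal (fun z => cubeSum L (sample k₀ F z.1 z.2))
    (measurable_cubeSum_sample k₀ L F hF) _ mp₂
  simpa only using h

/-- Transfer of a discrete inequality for a finite set of admissible triples to the local forms. -/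
theorem sum_abs_localForm_le (k₀ : ℤ) (L : ℕ) (S : Finset (ℕ × ℕ × ℕ)) (hS : ∀ i ∈ S, 1 ≤ i.1)
    (C : ℝ) (hdisc : ∀ M₀ M₁ M₂ : ℕ → ℕ → ℝ,
      ∑ i ∈ S, |dform i.1 i.2.1 i.2.2 (i.2.1 ^^^ i.2.2) M₀ M₁ M₂| ≤
        C * (cubeSum L M₀ + cubeSum L M₁ + cubeSum L M₂))
    (F₀ F₁ F₂ : ℝ × ℝ → ℝ)
    (hF₀ : Measurable F₀) (hF₁ : Measurable F₁) (hF₂ : Measurable F₂) (M : ℝ)
    (hb : ∀ z, |F₀ z| ≤ M ∧ |F₁ z| ≤ M ∧ |F₂ z| ≤ M) :
    ∑ i ∈ S, |localForm (k₀ + i.1) i.2.1 i.2.2 (i.2.1 ^^^ i.2.2) F₀ F₁ F₂| ≤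
      C * ((∫ z in Set.Ico (0 : ℝ) (2 ^ (k₀ + (L : ℤ))) ×ˢ Set.Ico (0 : ℝ) (2 ^ (k₀ + (L : ℤ))),
        |F₀ z| ^ 3) +
      (∫ z in Set.Ico (0 : ℝ) (2 ^ (k₀ + (L : ℤ))) ×ˢ Set.Ico (0 : ℝ) (2 ^ (k₀ + (L : ℤ))),
        |F₁ z| ^ 3) +
      (∫ z in Set.Ico (0 : ℝ) (2 ^ (k₀ + (L : ℤ))) ×ˢ Set.Ico (0 : ℝ) (2 ^ (k₀ + (L : ℤ))),
        |F₂ z| ^ 3)) := by
  have i₀ := integrable_cubeSum₀ k₀ L F₀ hF₀ M fun z => (hb z).1
  have i₁ := integrable_cubeSum₁ k₀ L F₁ hF₁ M fun z => (hb z).2.1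
  have i₂ := integrable_cubeSum₂ k₀ L F₂ hF₂ M fun z => (hb z).2.2
  rw [← cubeSum_integral₀ k₀ L F₀ hF₀ M fun z => (hb z).1,
    ← cubeSum_integral₁ k₀ L F₁ hF₁ M fun z => (hb z).2.1,
    ← cubeSum_integral₂ k₀ L F₂ hF₂ M fun z => (hb z).2.2, ← mul_add, ← mul_add,
    mul_left_comm, ← integral_add i₀ i₁]
  have i₀₁ : Integrable (fun t : ℝ × ℝ × ℝ => cubeSum L (sample k₀ F₀ t.1 t.2.1) +
      cubeSum L (sample k₀ F₁ t.2.1 t.2.2)) (mu01.prod (mu01.prod mu01)) := i₀.add i₁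
  rw [← integral_add i₀₁ i₂, ← integral_const_mul]
  calc ∑ i ∈ S, |localForm (k₀ + i.1) i.2.1 i.2.2 (i.2.1 ^^^ i.2.2) F₀ F₁ F₂|
      ≤ ∑ i ∈ S, ((2 : ℝ) ^ k₀) ^ 2 * ∫ t : ℝ × ℝ × ℝ,
        |dform i.1 i.2.1 i.2.2 (i.2.1 ^^^ i.2.2) (sample k₀ F₀ t.1 t.2.1)
          (sample k₀ F₁ t.2.1 t.2.2) (sample k₀ F₂ t.2.2 t.1)| ∂(mu01.prod (mu01.prod mu01)) := by
        refine Finset.sum_le_sum fun i hi => ?_
        rw [localForm_eq_integral k₀ i.1 i.2.1 i.2.2 _ (hS i hi) F₀ F₁ F₂ hF₀ hF₁ hF₂ M hb,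
          abs_mul, abs_of_nonneg (by positivity : (0 : ℝ) ≤ ((2 : ℝ) ^ k₀) ^ 2)]
        exact mul_le_mul_of_nonneg_left abs_integral_le_integral_abs (by positivity)
    _ = ((2 : ℝ) ^ k₀) ^ 2 * ∫ t : ℝ × ℝ × ℝ, ∑ i ∈ S,
        |dform i.1 i.2.1 i.2.2 (i.2.1 ^^^ i.2.2) (sample k₀ F₀ t.1 t.2.1)
          (sample k₀ F₁ t.2.1 t.2.2) (sample k₀ F₂ t.2.2 t.1)| ∂(mu01.prod (mu01.prod mu01)) := by
        rw [integral_finsetSum, Finset.mul_sum]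
        intro i _
        exact (integrable_dform_sample k₀ i.1 i.2.1 i.2.2 _ F₀ F₁ F₂ hF₀ hF₁ hF₂ M hb).abs
    _ ≤ _ := by
        refine mul_le_mul_of_nonneg_left ?_ (by positivity)
        refine integral_mono ?_ ((i₀₁.add i₂).const_mul C) fun t => ?_
        · exact integrable_finsetSum _ fun i _ =>
            (integrable_dform_sample k₀ i.1 i.2.1 i.2.2 _ F₀ F₁ F₂ hF₀ hF₁ hF₂ M hb).abs
        · exact hdisc _ _ _

end Crest.Agent.R72
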