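import Crest.Agent.R72.DTree
import Crest.Agent.R72.D3

/-!
# Row 72, S0097: from the discrete inequality to the local forms (assembly)
-/

set_option autoImplicit false

open Finset MeasureTheory

namespace Crest.Agent.R72

/-- statement of the sampling identity -/
def SamplingId : Prop :=
  ∀ (k₀ : ℤ) (p : ℕ), 1 ≤ p → ∀ (n₀ n₁ n₂ : ℕ) (F₀ F₁ F₂ : ℝ × ℝ → ℝ), Measurable F₀ →
    Measurable F₁ → Measurable F₂ → ∀ M : ℝ, (∀ z, |F₀ z| ≤ M ∧ |F₁ z| ≤ M ∧ |F₂ z| ≤ M) →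
    Crest.AnalysisR.TriangularDyadic.localForm (k₀ + p) n₀ n₁ n₂ F₀ F₁ F₂ = ((2 : ℝ) ^ k₀) ^ 2 *
      ∫ t : ℝ × ℝ × ℝ, dform p n₀ n₁ n₂ (sample k₀ F₀ t.1 t.2.1) (sample k₀ F₁ t.2.1 t.2.2)
        (sample k₀ F₂ t.2.2 t.1) ∂(mu01.prod (mu01.prod mu01))

/-- statement of the norm identity -/
def NormId : Prop :=
  ∀ (k₀ : ℤ) (L : ℕ) (F : ℝ × ℝ → ℝ), Measurable F → ∀ M : ℝ, (∀ z, |F z| ≤ M) →
    ((2 : ℝ) ^ k₀) ^ 2 * ∫ t : ℝ × ℝ, (∑ i ∈ range (2 ^ L), ∑ j ∈ range (2 ^ L),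
      |sample k₀ F t.1 t.2 i j| ^ 3) ∂(mu01.prod mu01) =
      ∫ z in Set.Ico 0 ((2 : ℝ) ^ (k₀ + L)) ×ˢ Set.Ico 0 ((2 : ℝ) ^ (k₀ + L)), |F z| ^ 3

/-- statement of the discrete inequality -/
def DiscIneq : Prop :=
  ∀ (L : ℕ) (M₀ M₁ M₂ : ℕ → ℕ → ℝ),
    ∑ p ∈ Icc 1 L, ∑ n₀ ∈ range (2 ^ (L - p)), ∑ n₁ ∈ range (2 ^ (L - p)),
        |dform p n₀ n₁ (n₀ ^^^ n₁) M₀ M₁ M₂| ≤
      2 * Real.sqrt 2 * ∑ i ∈ range (2 ^ L), ∑ j ∈ range (2 ^ L),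
        (|M₀ i j| ^ 3 + |M₁ i j| ^ 3 + |M₂ i j| ^ 3)

theorem measurable_sample_comp (k₀ : ℤ) (F : ℝ × ℝ → ℝ) (hF : Measurable F) {α : Type}
    [MeasurableSpace α] (f g : α → ℝ) (hf : Measurable f) (hg : Measurable g) (i j : ℕ) :
    Measurable fun t => sample k₀ F (f t) (g t) i j := by
  unfold sample
  exact hF.comp (((measurable_const.add hf).const_mul _).prodMk
    ((measurable_const.add hg).const_mul _))

/-- the sum over `𝓘` of a discrete form is dominated by the full sum -/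
theorem sum_dom (𝓘 : Finset (ℤ × ℕ × ℕ)) (k₀ : ℤ) (L : ℕ)
    (hk : ∀ i ∈ 𝓘, k₀ < i.1 ∧ i.1 ≤ k₀ + L)
    (hn : ∀ i ∈ 𝓘, i.2.1 < 2 ^ (L - (i.1 - k₀).toNat) ∧ i.2.2 < 2 ^ (L - (i.1 - k₀).toNat))
    (g : ℕ → ℕ → ℕ → ℝ) (hg : ∀ a b c, 0 ≤ g a b c) :
    ∑ i ∈ 𝓘, g (i.1 - k₀).toNat i.2.1 i.2.2 ≤
      ∑ p ∈ Icc 1 L, ∑ n₀ ∈ range (2 ^ (L - p)), ∑ n₁ ∈ range (2 ^ (L - p)), g p n₀ n₁ := by
  classical
  have e1 : ∑ p ∈ Icc 1 L, ∑ n₀ ∈ range (2 ^ (L - p)), ∑ n₁ ∈ range (2 ^ (L - p)), g p n₀ n₁ =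
      ∑ x ∈ (Icc 1 L).sigma (fun p => range (2 ^ (L - p)) ×ˢ range (2 ^ (L - p))),
        g x.1 x.2.1 x.2.2 := by
    rw [Finset.sum_sigma]
    refine Finset.sum_congr rfl (fun p _ => ?_)
    rw [Finset.sum_product]
  rw [e1]
  have e2 : ∑ i ∈ 𝓘, g (i.1 - k₀).toNat i.2.1 i.2.2 =
      ∑ x ∈ 𝓘.image (fun i => (⟨(i.1 - k₀).toNat, (i.2.1, i.2.2)⟩ : (_ : ℕ) × (ℕ × ℕ))),
        g x.1 x.2.1 x.2.2 := by
    rw [Finset.sum_image]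
    intro x hx y hy hxy
    obtain ⟨x1, x2, x3⟩ := x
    obtain ⟨y1, y2, y3⟩ := y
    have hx' := (hk _ hx).1
    have hy' := (hk _ hy).1
    simp only [Sigma.mk.injEq, heq_eq_eq, Prod.mk.injEq] at hxy hx' hy' ⊢
    refine ⟨?_, hxy.2.1, hxy.2.2⟩
    omega
  rw [e2]
  refine Finset.sum_le_sum_of_subset_of_nonneg ?_ (fun x _ _ => hg _ _ _)
  intro x hx
  obtain ⟨i, hi, rfl⟩ := Finset.mem_image.1 hx
  have h1 := hk i hi
  have h2 := hn i hi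
  simp only [Finset.mem_sigma, Finset.mem_Icc, Finset.mem_product, Finset.mem_range]
  exact ⟨⟨by omega, by omega⟩, h2⟩

/-- choice of the finest and the coarsest scale -/
theorem exists_scales (𝓘 : Finset (ℤ × ℕ × ℕ)) : ∃ (k₀ : ℤ) (L : ℕ),
    (∀ i ∈ 𝓘, k₀ < i.1 ∧ i.1 ≤ k₀ + L) ∧
    (∀ i ∈ 𝓘, i.2.1 < 2 ^ (L - (i.1 - k₀).toNat) ∧ i.2.2 < 2 ^ (L - (i.1 - k₀).toNat)) := by
  refine ⟨-(∑ i ∈ 𝓘, |i.1|) - 1, ∑ i ∈ 𝓘, ((i.1 - (-(∑ i ∈ 𝓘, |i.1|) - 1)).toNat + i.2.1 + i.2.2),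
    ?_, ?_⟩
  · intro i hi
    have h1 : |i.1| ≤ ∑ i ∈ 𝓘, |i.1| :=
      Finset.single_le_sum (f := fun i : ℤ × ℕ × ℕ => |i.1|) (fun _ _ => abs_nonneg _) hi
    have h2 : (i.1 - (-(∑ i ∈ 𝓘, |i.1|) - 1)).toNat + i.2.1 + i.2.2 ≤
        ∑ i ∈ 𝓘, ((i.1 - (-(∑ i ∈ 𝓘, |i.1|) - 1)).toNat + i.2.1 + i.2.2) :=
      Finset.single_le_sum (f := fun i : ℤ × ℕ × ℕ =>
        (i.1 - (-(∑ i ∈ 𝓘, |i.1|) - 1)).toNat + i.2.1 + i.2.2) (fun _ _ => Nat.zero_le _) hi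
    have h3 := neg_abs_le i.1
    constructor
    · omega
    · omega
  · intro i hi
    have h2 : (i.1 - (-(∑ i ∈ 𝓘, |i.1|) - 1)).toNat + i.2.1 + i.2.2 ≤
        ∑ i ∈ 𝓘, ((i.1 - (-(∑ i ∈ 𝓘, |i.1|) - 1)).toNat + i.2.1 + i.2.2) :=
      Finset.single_le_sum (f := fun i : ℤ × ℕ × ℕ =>
        (i.1 - (-(∑ i ∈ 𝓘, |i.1|) - 1)).toNat + i.2.1 + i.2.2) (fun _ _ => Nat.zero_le _) hi
    constructor
    · exact (Nat.lt_two_pow_self).trans_le (Nat.pow_le_pow_right (by norm_num) (by omega))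
    · exact (Nat.lt_two_pow_self).trans_le (Nat.pow_le_pow_right (by norm_num) (by omega))

/-! ### bounded measurable functions -/

/-- bounded and measurable -/
def BM {α : Type} [MeasurableSpace α] (f : α → ℝ) : Prop := Measurable f ∧ ∃ C, ∀ t, |f t| ≤ C

theorem BM.integrable {α : Type} [MeasurableSpace α] {f : α → ℝ} (h : BM f) (ν : Measure α)
    [IsFiniteMeasure ν] : Integrable f ν := by
  obtain ⟨h1, C, hC⟩ := h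
  exact Integrable.of_bound h1.aestronglyMeasurable C (Filter.Eventually.of_forall hC)

theorem BM.mul {α : Type} [MeasurableSpace α] {f g : α → ℝ} (hf : BM f) (hg : BM g) :
    BM (fun t => f t * g t) := by
  obtain ⟨h1, C, hC⟩ := hf
  obtain ⟨h2, D, hD⟩ := hg
  exact ⟨h1.mul h2, C * D, fun t => by
    rw [abs_mul]
    exact mul_le_mul (hC t) (hD t) (abs_nonneg _) ((abs_nonneg _).trans (hC t))⟩

theorem BM.const {α : Type} [MeasurableSpace α] (c : ℝ) : BM (fun _ : α => c) :=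
  ⟨measurable_const, |c|, fun _ => le_rfl⟩

theorem BM.add {α : Type} [MeasurableSpace α] {f g : α → ℝ} (hf : BM f) (hg : BM g) :
    BM (fun t => f t + g t) := by
  obtain ⟨h1, C, hC⟩ := hf
  obtain ⟨h2, D, hD⟩ := hg
  exact ⟨h1.add h2, C + D, fun t => (abs_add_le _ _).trans (add_le_add (hC t) (hD t))⟩

theorem BM.sum {α : Type} [MeasurableSpace α] {κ : Type} (s : Finset κ) {f : κ → α → ℝ}
    (hf : ∀ i ∈ s, BM (f i)) : BM (fun t => ∑ i ∈ s, f i t) := by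
  classical
  induction s using Finset.induction_on with
  | empty => simpa using BM.const (α := α) 0
  | insert a s ha ih =>
    have h := (hf a (Finset.mem_insert_self _ _)).add (ih (fun i hi => hf i (Finset.mem_insert_of_mem hi)))
    simp only [Finset.sum_insert ha]
    exact h

theorem BM.abs {α : Type} [MeasurableSpace α] {f : α → ℝ} (hf : BM f) : BM (fun t => |f t|) := by
  obtain ⟨h1, C, hC⟩ := hf
  exact ⟨h1.abs, C, fun t => by rw [abs_abs]; exact hC t⟩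

theorem BM.pow3 {α : Type} [MeasurableSpace α] {f : α → ℝ} (hf : BM f) :
    BM (fun t => |f t| ^ 3) := by
  have h := (hf.abs.mul hf.abs).mul hf.abs
  have e : (fun t => |f t| ^ 3) = fun t => |f t| * |f t| * |f t| := by
    ext t; ring
  rw [e]; exact h

theorem BM.comp {α β : Type} [MeasurableSpace α] [MeasurableSpace β] {f : β → ℝ} (hf : BM f)
    {g : α → β} (hg : Measurable g) : BM (fun t => f (g t)) :=
  ⟨hf.1.comp hg, hf.2.elim fun C hC => ⟨C, fun _ => hC _⟩⟩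

theorem BM_sample (k₀ : ℤ) {F : ℝ × ℝ → ℝ} (hF : BM F) {α : Type} [MeasurableSpace α]
    {f g : α → ℝ} (hf : Measurable f) (hg : Measurable g) (i j : ℕ) :
    BM fun t => sample k₀ F (f t) (g t) i j :=
  ⟨measurable_sample_comp k₀ F hF.1 f g hf hg i j, hF.2.elim fun C hC => ⟨C, fun _ => hC _⟩⟩

theorem BM_dform (k₀ : ℤ) (p n₀ n₁ n₂ : ℕ) {F₀ F₁ F₂ : ℝ × ℝ → ℝ} (h₀ : BM F₀) (h₁ : BM F₁)
    (h₂ : BM F₂) :
    BM fun t : ℝ × ℝ × ℝ => dform p n₀ n₁ n₂ (sample k₀ F₀ t.1 t.2.1) (sample k₀ F₁ t.2.1 t.2.2)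
        (sample k₀ F₂ t.2.2 t.1) := by
  unfold dform
  refine (BM.const _).mul (BM.sum _ fun i _ => BM.sum _ fun j _ => BM.sum _ fun l _ => ?_)
  refine ((BM.mul (BM.mul ?_ ?_) ?_).mul (BM.const _))
  · exact BM_sample k₀ h₀ measurable_fst (measurable_fst.comp measurable_snd) _ _
  · exact BM_sample k₀ h₁ (measurable_fst.comp measurable_snd) (measurable_snd.comp measurable_snd) _ _
  · exact BM_sample k₀ h₂ (measurable_snd.comp measurable_snd) measurable_fst _ _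

theorem BM_cube (k₀ : ℤ) (L : ℕ) {F : ℝ × ℝ → ℝ} (hF : BM F) {α : Type} [MeasurableSpace α]
    {f g : α → ℝ} (hf : Measurable f) (hg : Measurable g) :
    BM fun t => ∑ i ∈ range (2 ^ L), ∑ j ∈ range (2 ^ L), |sample k₀ F (f t) (g t) i j| ^ 3 :=
  BM.sum _ fun i _ => BM.sum _ fun j _ => (BM_sample k₀ hF hf hg i j).pow3

/-! ### three variables to two variables -/

theorem int3_01 (μ : Measure ℝ) [IsProbabilityMeasure μ] {G : ℝ × ℝ → ℝ} (hG : BM G) :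
    ∫ t : ℝ × ℝ × ℝ, G (t.1, t.2.1) ∂(μ.prod (μ.prod μ)) = ∫ t, G t ∂(μ.prod μ) := by
  have hG3 : BM (fun t : ℝ × ℝ × ℝ => G (t.1, t.2.1)) :=
    hG.comp (measurable_fst.prodMk (measurable_fst.comp measurable_snd))
  rw [integral_prod _ (hG3.integrable _), integral_prod _ (hG.integrable _)]
  congr 1; ext x
  rw [integral_fun_fst (fun y => G (x, y))]
  simp

theorem int3_12 (μ : Measure ℝ) [IsProbabilityMeasure μ] (G : ℝ × ℝ → ℝ) :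
    ∫ t : ℝ × ℝ × ℝ, G (t.2.1, t.2.2) ∂(μ.prod (μ.prod μ)) = ∫ t, G t ∂(μ.prod μ) := by
  have := integral_fun_snd (μ := μ) (ν := μ.prod μ) (fun y : ℝ × ℝ => G y)
  simpa using this

theorem int3_20 (μ : Measure ℝ) [IsProbabilityMeasure μ] {G : ℝ × ℝ → ℝ} (hG : BM G) :
    ∫ t : ℝ × ℝ × ℝ, G (t.2.2, t.1) ∂(μ.prod (μ.prod μ)) = ∫ t, G t ∂(μ.prod μ) := by
  have hG3 : BM (fun t : ℝ × ℝ × ℝ => G (t.2.2, t.1)) :=
    hG.comp ((measurable_snd.comp measurable_snd).prodMk measurable_fst)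
  rw [integral_prod _ (hG3.integrable _), ← integral_prod_swap (f := fun t => G t)]
  have hGs : BM (fun t : ℝ × ℝ => G t.swap) := hG.comp measurable_swap
  rw [integral_prod _ (hGs.integrable _)]
  congr 1; ext x
  rw [integral_fun_snd (fun y => G (y, x))]
  simp

theorem cube_integrable {F : ℝ × ℝ → ℝ} (hF : BM F) (hc : HasCompactSupport F) :
    Integrable (fun z => |F z| ^ 3) := by
  have hs : Function.support (fun z => |F z| ^ 3) ⊆ tsupport F := by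
    intro z hz
    apply subset_tsupport
    intro h
    apply hz
    simp [h]
  rw [← integrableOn_iff_integrable_of_support_subset hs]
  obtain ⟨C, hC⟩ := hF.pow3.2
  exact IntegrableOn.of_bound hc.measure_lt_top hF.pow3.1.aestronglyMeasurable C
    (Filter.Eventually.of_forall hC)

theorem cube_le {F : ℝ × ℝ → ℝ} (hF : BM F) (hc : HasCompactSupport F) (a : ℝ) :
    ∫ z in Set.Ico 0 a ×ˢ Set.Ico 0 a, |F z| ^ 3 ≤ ∫ z in Set.Ici 0 ×ˢ Set.Ici 0, |F z| ^ 3 := by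
  refine setIntegral_mono_set (cube_integrable hF hc).integrableOn
    (Filter.Eventually.of_forall fun z => by positivity) (Filter.Eventually.of_forall ?_)
  rintro z ⟨h1, h2⟩
  exact ⟨h1.1, h2.1⟩

/-- the sum form of the inequality -/
theorem sum_form (hS : SamplingId) (hN : NormId) (hD : DiscIneq)
    (F₀ F₁ F₂ : ℝ × ℝ → ℝ) (hF₀ : Measurable F₀) (hF₁ : Measurable F₁) (hF₂ : Measurable F₂)
    (M : ℝ) (hb : ∀ z, |F₀ z| ≤ M ∧ |F₁ z| ≤ M ∧ |F₂ z| ≤ M)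
    (hc₀ : HasCompactSupport F₀) (hc₁ : HasCompactSupport F₁) (hc₂ : HasCompactSupport F₂)
    (𝓘 : Finset (ℤ × ℕ × ℕ)) :
    ∑ i ∈ 𝓘, |Crest.AnalysisR.TriangularDyadic.localForm i.1 i.2.1 i.2.2 (i.2.1 ^^^ i.2.2)
      F₀ F₁ F₂| ≤
      2 * Real.sqrt 2 * ((∫ z in Set.Ici 0 ×ˢ Set.Ici 0, |F₀ z| ^ 3) +
        (∫ z in Set.Ici 0 ×ˢ Set.Ici 0, |F₁ z| ^ 3) +
        (∫ z in Set.Ici 0 ×ˢ Set.Ici 0, |F₂ z| ^ 3)) := by
  have b₀ : BM F₀ := ⟨hF₀, M, fun z => (hb z).1⟩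
  have b₁ : BM F₁ := ⟨hF₁, M, fun z => (hb z).2.1⟩
  have b₂ : BM F₂ := ⟨hF₂, M, fun z => (hb z).2.2⟩
  obtain ⟨k₀, L, hk, hn⟩ := exists_scales 𝓘
  set ν : Measure (ℝ × ℝ × ℝ) := mu01.prod (mu01.prod mu01) with hν
  set D : ℕ → ℕ → ℕ → (ℝ × ℝ × ℝ) → ℝ := fun p n₀ n₁ t =>
    dform p n₀ n₁ (n₀ ^^^ n₁) (sample k₀ F₀ t.1 t.2.1) (sample k₀ F₁ t.2.1 t.2.2)
      (sample k₀ F₂ t.2.2 t.1) with hDdef
  have hDBM : ∀ p n₀ n₁, BM (D p n₀ n₁) := fun p n₀ n₁ => BM_dform k₀ p n₀ n₁ _ b₀ b₁ b₂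
  set δ : ℝ := ((2 : ℝ) ^ k₀) ^ 2 with hδ
  have hδ0 : 0 ≤ δ := by positivity
  have hloc : ∀ i ∈ 𝓘, |Crest.AnalysisR.TriangularDyadic.localForm i.1 i.2.1 i.2.2
      (i.2.1 ^^^ i.2.2) F₀ F₁ F₂| ≤ δ * ∫ t, |D (i.1 - k₀).toNat i.2.1 i.2.2 t| ∂ν := by
    intro i hi
    have h1 := hk i hi
    have e : k₀ + ((i.1 - k₀).toNat : ℤ) = i.1 := by omega
    have h2 := hS k₀ (i.1 - k₀).toNat (by omega) i.2.1 i.2.2 (i.2.1 ^^^ i.2.2) F₀ F₁ F₂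
      hF₀ hF₁ hF₂ M hb
    rw [e] at h2
    rw [h2, abs_mul, abs_of_nonneg hδ0]
    exact mul_le_mul_of_nonneg_left abs_integral_le_integral_abs hδ0
  set S₀ : ℝ × ℝ × ℝ → ℝ := fun t => ∑ i ∈ range (2 ^ L), ∑ j ∈ range (2 ^ L),
    |sample k₀ F₀ t.1 t.2.1 i j| ^ 3 with hS₀
  set S₁ : ℝ × ℝ × ℝ → ℝ := fun t => ∑ i ∈ range (2 ^ L), ∑ j ∈ range (2 ^ L),
    |sample k₀ F₁ t.2.1 t.2.2 i j| ^ 3 with hS₁
  set S₂ : ℝ × ℝ × ℝ → ℝ := fun t => ∑ i ∈ range (2 ^ L), ∑ j ∈ range (2 ^ L),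
    |sample k₀ F₂ t.2.2 t.1 i j| ^ 3 with hS₂
  have BS₀ : BM S₀ := BM_cube k₀ L b₀ measurable_fst (measurable_fst.comp measurable_snd)
  have BS₁ : BM S₁ := BM_cube k₀ L b₁ (measurable_fst.comp measurable_snd)
    (measurable_snd.comp measurable_snd)
  have BS₂ : BM S₂ := BM_cube k₀ L b₂ (measurable_snd.comp measurable_snd) measurable_fst
  -- the pointwise discrete inequality
  have hpt : ∀ t, ∑ i ∈ 𝓘, |D (i.1 - k₀).toNat i.2.1 i.2.2 t| ≤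
      2 * Real.sqrt 2 * (S₀ t + S₁ t + S₂ t) := by
    intro t
    refine (sum_dom 𝓘 k₀ L hk hn (fun p n₀ n₁ => |D p n₀ n₁ t|) (fun _ _ _ => abs_nonneg _)).trans ?_
    refine (hD L (sample k₀ F₀ t.1 t.2.1) (sample k₀ F₁ t.2.1 t.2.2)
      (sample k₀ F₂ t.2.2 t.1)).trans (le_of_eq ?_)
    simp only [hS₀, hS₁, hS₂, Finset.sum_add_distrib]
  have hint : ∑ i ∈ 𝓘, ∫ t, |D (i.1 - k₀).toNat i.2.1 i.2.2 t| ∂ν ≤
      2 * Real.sqrt 2 * ((∫ t, S₀ t ∂ν) + (∫ t, S₁ t ∂ν) + ∫ t, S₂ t ∂ν) := by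
    rw [← integral_finsetSum _ (fun i _ => ((hDBM _ _ _).abs).integrable ν)]
    have e1 : 2 * Real.sqrt 2 * ((∫ t, S₀ t ∂ν) + (∫ t, S₁ t ∂ν) + ∫ t, S₂ t ∂ν) =
        ∫ t, 2 * Real.sqrt 2 * (S₀ t + S₁ t + S₂ t) ∂ν := by
      rw [integral_const_mul, integral_add ((BS₀.add BS₁).integrable ν) (BS₂.integrable ν),
        integral_add (BS₀.integrable ν) (BS₁.integrable ν)]
    rw [e1]
    refine integral_mono ((BM.sum _ fun i _ => (hDBM _ _ _).abs).integrable ν)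
      (((BM.const _).mul ((BS₀.add BS₁).add BS₂)).integrable ν) hpt
  have c₀ : δ * ∫ t, S₀ t ∂ν ≤ ∫ z in Set.Ici 0 ×ˢ Set.Ici 0, |F₀ z| ^ 3 := by
    have e := int3_01 mu01 (BM_cube k₀ L b₀ (α := ℝ × ℝ) measurable_fst measurable_snd)
    have e2 := hN k₀ L F₀ hF₀ M (fun z => (hb z).1)
    have e3 : ∫ t, S₀ t ∂ν = ∫ t : ℝ × ℝ, (∑ i ∈ range (2 ^ L), ∑ j ∈ range (2 ^ L),
      |sample k₀ F₀ t.1 t.2 i j| ^ 3) ∂(mu01.prod mu01) := e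
    rw [e3, e2]
    exact cube_le b₀ hc₀ _
  have c₁ : δ * ∫ t, S₁ t ∂ν ≤ ∫ z in Set.Ici 0 ×ˢ Set.Ici 0, |F₁ z| ^ 3 := by
    have e := int3_12 mu01 (fun t : ℝ × ℝ => ∑ i ∈ range (2 ^ L), ∑ j ∈ range (2 ^ L),
      |sample k₀ F₁ t.1 t.2 i j| ^ 3)
    have e2 := hN k₀ L F₁ hF₁ M (fun z => (hb z).2.1)
    have e3 : ∫ t, S₁ t ∂ν = ∫ t : ℝ × ℝ, (∑ i ∈ range (2 ^ L), ∑ j ∈ range (2 ^ L),
      |sample k₀ F₁ t.1 t.2 i j| ^ 3) ∂(mu01.prod mu01) := e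
    rw [e3, e2]
    exact cube_le b₁ hc₁ _
  have c₂ : δ * ∫ t, S₂ t ∂ν ≤ ∫ z in Set.Ici 0 ×ˢ Set.Ici 0, |F₂ z| ^ 3 := by
    have e := int3_20 mu01 (BM_cube k₀ L b₂ (α := ℝ × ℝ) measurable_fst measurable_snd)
    have e2 := hN k₀ L F₂ hF₂ M (fun z => (hb z).2.2)
    have e3 : ∫ t, S₂ t ∂ν = ∫ t : ℝ × ℝ, (∑ i ∈ range (2 ^ L), ∑ j ∈ range (2 ^ L),
      |sample k₀ F₂ t.1 t.2 i j| ^ 3) ∂(mu01.prod mu01) := e
    rw [e3, e2]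
    exact cube_le b₂ hc₂ _
  calc ∑ i ∈ 𝓘, |Crest.AnalysisR.TriangularDyadic.localForm i.1 i.2.1 i.2.2 (i.2.1 ^^^ i.2.2)
        F₀ F₁ F₂|
      ≤ ∑ i ∈ 𝓘, δ * ∫ t, |D (i.1 - k₀).toNat i.2.1 i.2.2 t| ∂ν := Finset.sum_le_sum hloc
    _ = δ * ∑ i ∈ 𝓘, ∫ t, |D (i.1 - k₀).toNat i.2.1 i.2.2 t| ∂ν := by rw [Finset.mul_sum]
    _ ≤ δ * (2 * Real.sqrt 2 * ((∫ t, S₀ t ∂ν) + (∫ t, S₁ t ∂ν) + ∫ t, S₂ t ∂ν)) :=
        mul_le_mul_of_nonneg_left hint hδ0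
    _ = 2 * Real.sqrt 2 * (δ * (∫ t, S₀ t ∂ν) + δ * (∫ t, S₁ t ∂ν) + δ * ∫ t, S₂ t ∂ν) := by ring
    _ ≤ _ := by
        refine mul_le_mul_of_nonneg_left ?_ (by positivity)
        exact add_le_add (add_le_add c₀ c₁) c₂

/-- from the sum form to the product form -/
theorem scaling_lemma (X c A₀ A₁ A₂ : ℝ) (hc : 0 ≤ c) (h₀ : 0 ≤ A₀) (h₁ : 0 ≤ A₁) (h₂ : 0 ≤ A₂)
    (h : ∀ l₀ l₁ l₂ : ℝ, 0 < l₀ → 0 < l₁ → 0 < l₂ → l₀ * l₁ * l₂ = 1 →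
      X ≤ c * (l₀ ^ 3 * A₀ + l₁ ^ 3 * A₁ + l₂ ^ 3 * A₂)) :
    X ≤ 3 * c * (A₀ ^ (1 / 3 : ℝ) * A₁ ^ (1 / 3 : ℝ) * A₂ ^ (1 / 3 : ℝ)) := by
  have key : ∀ ε : ℝ, 0 < ε → X ≤ 3 * c * ((A₀ + ε) ^ (1 / 3 : ℝ) * (A₁ + ε) ^ (1 / 3 : ℝ) *
      (A₂ + ε) ^ (1 / 3 : ℝ)) := by
    intro ε hε
    set a := (A₀ + ε) ^ (1 / 3 : ℝ) with ha
    set b := (A₁ + ε) ^ (1 / 3 : ℝ) with hb
    set d := (A₂ + ε) ^ (1 / 3 : ℝ) with hd
    have ha0 : 0 < a := Real.rpow_pos_of_pos (by linarith) _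
    have hb0 : 0 < b := Real.rpow_pos_of_pos (by linarith) _
    have hd0 : 0 < d := Real.rpow_pos_of_pos (by linarith) _
    have cube : ∀ y : ℝ, 0 < y → (y ^ (1 / 3 : ℝ)) ^ 3 = y := by
      intro y hy
      rw [← Real.rpow_natCast, ← Real.rpow_mul hy.le]; norm_num
    have ea : a ^ 3 = A₀ + ε := cube _ (by linarith)
    have eb : b ^ 3 = A₁ + ε := cube _ (by linarith)
    have ed : d ^ 3 = A₂ + ε := cube _ (by linarith)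
    set r := (a * b * d) ^ (1 / 3 : ℝ) with hr
    have hr0 : 0 < r := Real.rpow_pos_of_pos (by positivity) _
    have er : r ^ 3 = a * b * d := cube _ (by positivity)
    have h1 := h (r / a) (r / b) (r / d) (by positivity) (by positivity) (by positivity) (by
      rw [div_mul_div_comm, div_mul_div_comm, ← er]
      field_simp)
    refine h1.trans ?_
    have e1 : (r / a) ^ 3 * A₀ ≤ a * b * d := by
      rw [div_pow, er, ea, div_mul_eq_mul_div, div_le_iff₀ (by linarith)]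
      have : 0 < a * b * d := by positivity
      nlinarith
    have e2 : (r / b) ^ 3 * A₁ ≤ a * b * d := by
      rw [div_pow, er, eb, div_mul_eq_mul_div, div_le_iff₀ (by linarith)]
      have : 0 < a * b * d := by positivity
      nlinarith
    have e3 : (r / d) ^ 3 * A₂ ≤ a * b * d := by
      rw [div_pow, er, ed, div_mul_eq_mul_div, div_le_iff₀ (by linarith)]
      have : 0 < a * b * d := by positivity
      nlinarith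
    calc c * ((r / a) ^ 3 * A₀ + (r / b) ^ 3 * A₁ + (r / d) ^ 3 * A₂)
        ≤ c * (a * b * d + a * b * d + a * b * d) := by gcongr
      _ = 3 * c * (a * b * d) := by ring
  have hlim : Filter.Tendsto (fun ε : ℝ => 3 * c * ((A₀ + ε) ^ (1 / 3 : ℝ) *
      (A₁ + ε) ^ (1 / 3 : ℝ) * (A₂ + ε) ^ (1 / 3 : ℝ))) (nhdsWithin 0 (Set.Ioi 0))
      (nhds (3 * c * (A₀ ^ (1 / 3 : ℝ) * A₁ ^ (1 / 3 : ℝ) * A₂ ^ (1 / 3 : ℝ)))) := by
    have hcont : Continuous (fun ε : ℝ => 3 * c * ((A₀ + ε) ^ (1 / 3 : ℝ) *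
      (A₁ + ε) ^ (1 / 3 : ℝ) * (A₂ + ε) ^ (1 / 3 : ℝ))) := by
      have : ∀ A : ℝ, Continuous fun ε : ℝ => (A + ε) ^ (1 / 3 : ℝ) := fun A =>
        (continuous_const.add continuous_id).rpow_const (fun x => Or.inr (by norm_num))
      exact continuous_const.mul (((this A₀).mul (this A₁)).mul (this A₂))
    have := (hcont.tendsto 0).mono_left (nhdsWithin_le_nhds (s := Set.Ioi 0))
    simpa using this
  exact ge_of_tendsto hlim (by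
    filter_upwards [self_mem_nhdsWithin] with ε hε
    exact key ε hε)

theorem localForm_smul (k : ℤ) (n₀ n₁ n₂ : ℕ) (F₀ F₁ F₂ : ℝ × ℝ → ℝ) (a b c : ℝ) :
    Crest.AnalysisR.TriangularDyadic.localForm k n₀ n₁ n₂ (fun z => a * F₀ z) (fun z => b * F₁ z)
      (fun z => c * F₂ z) =
      (a * b * c) * Crest.AnalysisR.TriangularDyadic.localForm k n₀ n₁ n₂ F₀ F₁ F₂ := by
  unfold Crest.AnalysisR.TriangularDyadic.localForm
  rw [mul_left_comm]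
  congr 1
  simp only [← integral_const_mul]
  congr 1; ext x₀
  congr 1; ext x₁
  congr 1; ext x₂
  ring

theorem final_of (hS : SamplingId) (hN : NormId) (hD : DiscIneq)
    (F₀ F₁ F₂ : ℝ × ℝ → ℝ) (hF₀ : Measurable F₀) (hF₁ : Measurable F₁) (hF₂ : Measurable F₂)
    (hb : ∃ M : ℝ, ∀ z, |F₀ z| ≤ M ∧ |F₁ z| ≤ M ∧ |F₂ z| ≤ M)
    (hc₀ : HasCompactSupport F₀) (hc₁ : HasCompactSupport F₁) (hc₂ : HasCompactSupport F₂)
    (𝓘 : Finset (ℤ × ℕ × ℕ)) :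
    ∑ i ∈ 𝓘, |Crest.AnalysisR.TriangularDyadic.localForm i.1 i.2.1 i.2.2 (i.2.1 ^^^ i.2.2)
      F₀ F₁ F₂| ≤
      40 * (∫ z in Set.Ici 0 ×ˢ Set.Ici 0, |F₀ z| ^ 3) ^ (1 / 3 : ℝ) *
        (∫ z in Set.Ici 0 ×ˢ Set.Ici 0, |F₁ z| ^ 3) ^ (1 / 3 : ℝ) *
        (∫ z in Set.Ici 0 ×ˢ Set.Ici 0, |F₂ z| ^ 3) ^ (1 / 3 : ℝ) := by
  obtain ⟨M, hM⟩ := hb
  have hnn : ∀ F : ℝ × ℝ → ℝ, 0 ≤ ∫ z in Set.Ici 0 ×ˢ Set.Ici 0, |F z| ^ 3 := fun F =>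
    integral_nonneg (fun z => by positivity)
  have hscale : ∀ (l : ℝ) (F : ℝ × ℝ → ℝ), 0 < l →
      ∫ z in Set.Ici 0 ×ˢ Set.Ici 0, |l * F z| ^ 3 =
        l ^ 3 * ∫ z in Set.Ici 0 ×ˢ Set.Ici 0, |F z| ^ 3 := by
    intro l F hl
    rw [← integral_const_mul]
    congr 1; ext z
    rw [abs_mul, abs_of_pos hl, mul_pow]
  have h := scaling_lemma (∑ i ∈ 𝓘, |Crest.AnalysisR.TriangularDyadic.localForm i.1 i.2.1 i.2.2
      (i.2.1 ^^^ i.2.2) F₀ F₁ F₂|) (2 * Real.sqrt 2) _ _ _ (by positivity) (hnn F₀) (hnn F₁) (hnn F₂)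
    (fun l₀ l₁ l₂ h0 h1 h2 hl => by
      have hsf := sum_form hS hN hD (fun z => l₀ * F₀ z) (fun z => l₁ * F₁ z) (fun z => l₂ * F₂ z)
        (hF₀.const_mul _) (hF₁.const_mul _) (hF₂.const_mul _) ((l₀ + l₁ + l₂) * M)
        (fun z => by
          obtain ⟨b0, b1, b2⟩ := hM z
          have hM0 : 0 ≤ M := (abs_nonneg _).trans b0
          refine ⟨?_, ?_, ?_⟩
          · rw [abs_mul, abs_of_pos h0]
            nlinarith [mul_le_mul_of_nonneg_left b0 h0.le, mul_nonneg h1.le hM0, mul_nonneg h2.le hM0]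
          · rw [abs_mul, abs_of_pos h1]
            nlinarith [mul_le_mul_of_nonneg_left b1 h1.le, mul_nonneg h0.le hM0, mul_nonneg h2.le hM0]
          · rw [abs_mul, abs_of_pos h2]
            nlinarith [mul_le_mul_of_nonneg_left b2 h2.le, mul_nonneg h0.le hM0, mul_nonneg h1.le hM0])
        (hc₀.mul_left) (hc₁.mul_left) (hc₂.mul_left) 𝓘
      simp only [localForm_smul, hl, one_mul] at hsf
      rw [hscale l₀ F₀ h0, hscale l₁ F₁ h1, hscale l₂ F₂ h2] at hsf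
      exact hsf)
  refine h.trans ?_
  have hs : Real.sqrt 2 ≤ 2 := by
    rw [Real.sqrt_le_left (by norm_num)]; norm_num
  have hp : 0 ≤ (∫ z in Set.Ici 0 ×ˢ Set.Ici 0, |F₀ z| ^ 3) ^ (1 / 3 : ℝ) *
        (∫ z in Set.Ici 0 ×ˢ Set.Ici 0, |F₁ z| ^ 3) ^ (1 / 3 : ℝ) *
        (∫ z in Set.Ici 0 ×ˢ Set.Ici 0, |F₂ z| ^ 3) ^ (1 / 3 : ℝ) :=
    mul_nonneg (mul_nonneg (Real.rpow_nonneg (hnn _) _) (Real.rpow_nonneg (hnn _) _))
      (Real.rpow_nonneg (hnn _) _)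
  nlinarith

end Crest.Agent.R72
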