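import Crest.Agent.R72.D4

/-!
# Row 72, S0097: the sampling identity and the norm identity (from `D2`, `D3`)
-/

set_option autoImplicit false

open Finset MeasureTheory

namespace Crest.Agent.R72

theorem samplingId : SamplingId := fun k₀ p hp n₀ n₁ n₂ F₀ F₁ F₂ hF₀ hF₁ hF₂ M hb =>
  localForm_eq_integral k₀ p n₀ n₁ n₂ hp F₀ F₁ F₂ hF₀ hF₁ hF₂ M hb

theorem normId : NormId := fun k₀ L F hF M hM => cubeSum_pair k₀ L F hF M hM

end Crest.Agent.R72
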