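import Crest.Agent.R72.LA1
import Crest.Agent.R72.D5

/-!
# Row 72, S0097: the Bellman functional over real matrices, base case and nonnegativity
-/

set_option autoImplicit false

open Finset Matrix
open scoped MatrixOrder ComplexOrder

namespace Crest.Agent.R72

/-- complexification of a real matrix -/
def cx {ι κ : Type} (F : Matrix ι κ ℝ) : Matrix ι κ ℂ := F.map (fun x => (x : ℂ))

/-- the Bellman functional of a box -/
noncomputable def Bf3 (ι : Type) [Fintype ι] [DecidableEq ι] (F₀ F₁ F₂ : Matrix ι ι ℝ) : ℝ :=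
  tr32 (cx F₀ * (cx F₀)ᴴ + (cx F₂)ᴴ * cx F₂) + tr32 (cx F₁ * (cx F₁)ᴴ + (cx F₀)ᴴ * cx F₀) +
    tr32 (cx F₂ * (cx F₂)ᴴ + (cx F₁)ᴴ * cx F₁)

theorem tr32_nonneg' {ι : Type} [Fintype ι] [DecidableEq ι] (X : Matrix ι ι ℂ) : 0 ≤ tr32 X := by
  unfold tr32
  split_ifs
  · exact Finset.sum_nonneg fun i _ => Real.rpow_nonneg (abs_nonneg _) _
  · exact le_rfl

theorem Bf3_nonneg (ι : Type) [Fintype ι] [DecidableEq ι] (F₀ F₁ F₂ : Matrix ι ι ℝ) :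
    0 ≤ Bf3 ι F₀ F₁ F₂ :=
  add_nonneg (add_nonneg (tr32_nonneg' _) (tr32_nonneg' _)) (tr32_nonneg' _)

theorem tr32_unit (x : ℝ) (hx : 0 ≤ x) (X : Matrix Unit Unit ℂ) (hX : X () () = (x : ℂ)) :
    tr32 X = √x * x := by
  have hXd : X = Matrix.diagonal fun _ => ((x : ℝ) : ℂ) := by
    ext i j
    cases i; cases j
    simp [hX]
  have hpd : X.PosSemidef := by
    rw [hXd]
    exact PosSemidef.diagonal fun _ => by
      show (0 : ℂ) ≤ ((x : ℝ) : ℂ)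
      exact_mod_cast hx
  have hr : rt X = Matrix.diagonal fun _ => ((√x : ℝ) : ℂ) := by
    apply rt_unique
    · exact PosSemidef.diagonal fun _ => by
        show (0 : ℂ) ≤ ((√x : ℝ) : ℂ)
        exact_mod_cast Real.sqrt_nonneg x
    · rw [hXd, Matrix.diagonal_mul_diagonal]
      congr 1; ext i
      rw [← Complex.ofReal_mul, Real.mul_self_sqrt hx]
  rw [tr32_eq hpd, hr, hXd, Matrix.diagonal_mul_diagonal, Matrix.trace_diagonal]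
  simp

theorem base_ineq (a c : ℝ) : √(a ^ 2 + c ^ 2) * (a ^ 2 + c ^ 2) ≤ √2 * (|a| ^ 3 + |c| ^ 3) := by
  have h2 : √(a ^ 2 + c ^ 2) * (a ^ 2 + c ^ 2) = √((a ^ 2 + c ^ 2) ^ 3) := by
    rw [eq_comm, Real.sqrt_eq_iff_mul_self_eq (by positivity) (by positivity)]
    have h := Real.mul_self_sqrt (by positivity : 0 ≤ a ^ 2 + c ^ 2)
    have e : (√(a ^ 2 + c ^ 2) * (a ^ 2 + c ^ 2)) * (√(a ^ 2 + c ^ 2) * (a ^ 2 + c ^ 2))
        = (√(a ^ 2 + c ^ 2) * √(a ^ 2 + c ^ 2)) * (a ^ 2 + c ^ 2) ^ 2 := by ring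
    rw [e, h]; ring
  have h3 : √2 * (|a| ^ 3 + |c| ^ 3) = √(2 * (|a| ^ 3 + |c| ^ 3) ^ 2) := by
    rw [Real.sqrt_mul (by norm_num), Real.sqrt_sq (by positivity)]
  rw [h2, h3]
  apply Real.sqrt_le_sqrt
  have ha : a ^ 2 = |a| ^ 2 := (sq_abs a).symm
  have hc : c ^ 2 = |c| ^ 2 := (sq_abs c).symm
  rw [ha, hc]
  have hA := abs_nonneg a
  have hC := abs_nonneg c
  generalize |a| = A at *
  generalize |c| = C at *
  have key : 2 * (A ^ 3 + C ^ 3) ^ 2 - (A ^ 2 + C ^ 2) ^ 3 =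
      (A - C) ^ 2 * (A ^ 4 + 2 * A ^ 3 * C + 2 * A * C ^ 3 + C ^ 4) := by ring
  have : 0 ≤ (A - C) ^ 2 * (A ^ 4 + 2 * A ^ 3 * C + 2 * A * C ^ 3 + C ^ 4) := by positivity
  linarith

theorem Bf3_unit (F₀ F₁ F₂ : Matrix Unit Unit ℝ) : Bf3 Unit F₀ F₁ F₂ ≤
      2 * Real.sqrt 2 * (|F₀ () ()| ^ 3 + |F₁ () ()| ^ 3 + |F₂ () ()| ^ 3) := by
  have key : ∀ A B : Matrix Unit Unit ℝ, tr32 (cx A * (cx A)ᴴ + (cx B)ᴴ * cx B) ≤
      √2 * (|A () ()| ^ 3 + |B () ()| ^ 3) := by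
    intro A B
    rw [tr32_unit ((A () ()) ^ 2 + (B () ()) ^ 2) (by positivity)]
    · exact base_ineq _ _
    · simp [cx, Matrix.mul_apply, Matrix.add_apply, pow_two]
  unfold Bf3
  have h1 := key F₀ F₂
  have h2 := key F₁ F₀
  have h3 := key F₂ F₁
  linarith

/-- the box inequality (statement) -/
def BoxIneq : Prop :=
  ∀ (ι : Type) [Fintype ι] [DecidableEq ι] (F₀ F₁ F₂ : Matrix (Fin 2 × ι) (Fin 2 × ι) ℝ),
      Bf3 (Fin 2 × ι) F₀ F₁ F₂ + |trForm F₀ F₁ F₂| ≤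
        2 * ∑ a : Fin 2, ∑ b : Fin 2, Bf3 ι (dblk F₀ a b) (dblk F₁ b (a + b)) (dblk F₂ (a + b) a)

theorem discIneq_of_box (h : BoxIneq) : DiscIneq := fun L M₀ M₁ M₂ =>
  disc_of_box Bf3 h Bf3_nonneg Bf3_unit L M₀ M₁ M₂

end Crest.Agent.R72
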