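import Crest.Agent.R72.D6

/-!
# Row 72, S0097: the merge step (blueprint 424 (1))

`LaBox` is the linear algebra input (helper12).
-/

set_option autoImplicit false
set_option linter.unusedSectionVars false

open Finset Matrix
open scoped MatrixOrder ComplexOrder

namespace Crest.Agent.R72

/-- the gap of a pinching to the two diagonal blocks -/
noncomputable def dgap {ι : Type} [Fintype ι] [DecidableEq ι]
    (X : Matrix (Fin 2 × ι) (Fin 2 × ι) ℂ) : ℝ :=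
  (1 / 2) * ∑ a : Fin 2, tr32 ((2 : ℂ) • dblk X a a) - tr32 X

/-- the linear algebra input -/
def LaBox : Prop :=
  ∀ (ι : Type) [Fintype ι] [DecidableEq ι] (A B C : Matrix (Fin 2 × ι) (Fin 2 × ι) ℂ),
    ‖trace (diagonal (hsgn ℂ) * A * diagonal (hsgn ℂ) * B * diagonal (hsgn ℂ) * C)‖ ≤
      dgap (A * Aᴴ + Cᴴ * C) + dgap (B * Bᴴ + Aᴴ * A) + dgap (C * Cᴴ + Bᴴ * B)

variable {ι : Type} [Fintype ι] [DecidableEq ι]

theorem dblk_mul (A B : Matrix (Fin 2 × ι) (Fin 2 × ι) ℂ) (a b : Fin 2) :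
    dblk (A * B) a b = ∑ c : Fin 2, dblk A a c * dblk B c b := by
  ext i j
  simp only [dblk, Matrix.of_apply, Matrix.mul_apply, Matrix.sum_apply, Fintype.sum_prod_type]

theorem dblk_add (A B : Matrix (Fin 2 × ι) (Fin 2 × ι) ℂ) (a b : Fin 2) :
    dblk (A + B) a b = dblk A a b + dblk B a b := rfl

theorem dblk_conj (A : Matrix (Fin 2 × ι) (Fin 2 × ι) ℂ) (a b : Fin 2) :
    dblk (Aᴴ) a b = (dblk A b a)ᴴ := rfl

theorem dblk_cx (F : Matrix (Fin 2 × ι) (Fin 2 × ι) ℝ) (a b : Fin 2) :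
    dblk (cx F) a b = cx (dblk F a b) := rfl

theorem psd_pair (P Q : Matrix ι ι ℂ) : (P * Pᴴ + Qᴴ * Q).PosSemidef :=
  (posSemidef_self_mul_conjTranspose P).add (posSemidef_conjTranspose_mul_self Q)

/-- convexity and homogeneity: `tr32 (2 (X₀ + X₁)) ≤ 4 (tr32 X₀ + tr32 X₁)` -/
theorem tr32_two_add {X Y : Matrix ι ι ℂ} (hX : X.PosSemidef) (hY : Y.PosSemidef) :
    tr32 ((2 : ℂ) • (X + Y)) ≤ 4 * (tr32 X + tr32 Y) := by
  have h8 : (4 : ℝ) ^ (3 / 2 : ℝ) = 8 := by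
    rw [show (4 : ℝ) = 2 ^ (2 : ℝ) by norm_num, ← Real.rpow_mul (by norm_num)]
    norm_num
  have h4 : (0 : ℝ) ≤ 4 := by norm_num
  have e1 := la_smul hX h4
  have e2 := la_smul hY h4
  rw [h8] at e1 e2
  have hX4 : (((4 : ℝ) : ℂ) • X).PosSemidef := hX.smul (by exact_mod_cast h4)
  have hY4 : (((4 : ℝ) : ℂ) • Y).PosSemidef := hY.smul (by exact_mod_cast h4)
  have h := gap32_nonneg hX4 hY4
  unfold gap32 at h
  have e : (1 / 2 : ℂ) • (((4 : ℝ) : ℂ) • X + ((4 : ℝ) : ℂ) • Y) = (2 : ℂ) • (X + Y) := by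
    rw [← smul_add, smul_smul]; norm_num
  rw [e, e1, e2] at h
  linarith

theorem box_pair (G : Matrix (Fin 2 × ι) (Fin 2 × ι) ℂ) (g : Fin 2 → Fin 2 → Matrix ι ι ℂ)
    (hg : ∀ a b, (g a b).PosSemidef) (h : ∀ a, dblk G a a = ∑ b : Fin 2, g a b) :
    tr32 G + dgap G ≤ 2 * ∑ a : Fin 2, ∑ b : Fin 2, tr32 (g a b) := by
  unfold dgap
  have h0 := h 0
  have h1 := h 1
  simp only [Fin.sum_univ_two] at h0 h1 ⊢
  rw [h0, h1]
  have e0 := tr32_two_add (hg 0 0) (hg 0 1)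
  have e1 := tr32_two_add (hg 1 0) (hg 1 1)
  linarith

theorem hsgn_cx : (Matrix.diagonal (hsgn ℂ) : Matrix (Fin 2 × ι) (Fin 2 × ι) ℂ) =
    cx (Matrix.diagonal (hsgn ℝ)) := by
  ext i j
  simp only [cx, Matrix.map_apply, Matrix.diagonal_apply, hsgn]
  split_ifs <;> simp

theorem cx_mul (A B : Matrix ι ι ℝ) : cx (A * B) = cx A * cx B := by
  ext i j
  simp [cx, Matrix.mul_apply]

theorem trace_cx (A : Matrix ι ι ℝ) : trace (cx A) = ((trace A : ℝ) : ℂ) := by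
  simp [cx, Matrix.trace]

theorem trForm_cx (F₀ F₁ F₂ : Matrix (Fin 2 × ι) (Fin 2 × ι) ℝ) :
    ‖trace (diagonal (hsgn ℂ) * cx F₀ * diagonal (hsgn ℂ) * cx F₁ * diagonal (hsgn ℂ) * cx F₂)‖ =
      |trForm F₀ F₁ F₂| := by
  rw [hsgn_cx, ← cx_mul, ← cx_mul, ← cx_mul, ← cx_mul, ← cx_mul, trace_cx, Complex.norm_real,
    Real.norm_eq_abs]
  rfl

theorem box_of_laBox (h : LaBox) : BoxIneq := by
  intro ι _ _ F₀ F₁ F₂
  have h0 := h ι (cx F₀) (cx F₁) (cx F₂)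
  rw [trForm_cx] at h0
  have p0 := box_pair (cx F₀ * (cx F₀)ᴴ + (cx F₂)ᴴ * cx F₂)
    (fun a b => cx (dblk F₀ a b) * (cx (dblk F₀ a b))ᴴ +
      (cx (dblk F₂ (a + b) a))ᴴ * cx (dblk F₂ (a + b) a))
    (fun a b => psd_pair _ _) (by
      intro a
      rw [dblk_add, dblk_mul, dblk_mul, Finset.sum_add_distrib]
      congr 1
      simp only [dblk_conj, dblk_cx]
      fin_cases a
      · simp [Fin.sum_univ_two]
      · simp [Fin.sum_univ_two, add_comm])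
  have p1 := box_pair (cx F₁ * (cx F₁)ᴴ + (cx F₀)ᴴ * cx F₀)
    (fun b a => cx (dblk F₁ b (a + b)) * (cx (dblk F₁ b (a + b)))ᴴ +
      (cx (dblk F₀ a b))ᴴ * cx (dblk F₀ a b))
    (fun a b => psd_pair _ _) (by
      intro b
      rw [dblk_add, dblk_mul, dblk_mul, Finset.sum_add_distrib]
      simp only [dblk_conj, dblk_cx]
      congr 1
      fin_cases b
      · simp [Fin.sum_univ_two]
      · simp [Fin.sum_univ_two, add_comm])
  have p2 := box_pair (cx F₂ * (cx F₂)ᴴ + (cx F₁)ᴴ * cx F₁)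
    (fun c a => cx (dblk F₂ c a) * (cx (dblk F₂ c a))ᴴ +
      (cx (dblk F₁ (a + c) c))ᴴ * cx (dblk F₁ (a + c) c))
    (fun a b => psd_pair _ _) (by
      intro c
      rw [dblk_add, dblk_mul, dblk_mul, Finset.sum_add_distrib]
      simp only [dblk_conj, dblk_cx]
      congr 1
      fin_cases c
      · simp [Fin.sum_univ_two]
      · simp [Fin.sum_univ_two, add_comm])
  unfold Bf3
  simp only [Fin.sum_univ_two] at p0 p1 p2 ⊢
  simp only [show (0 : Fin 2) + 0 = 0 from rfl, show (0 : Fin 2) + 1 = 1 from rfl,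
    show (1 : Fin 2) + 0 = 1 from rfl, show (1 : Fin 2) + 1 = 0 from rfl] at p0 p1 p2 ⊢
  linarith

end Crest.Agent.R72
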