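import Mathlib

/-!
# Row 72, S0097: the trilinear inequality in singular value coordinates (blueprint 424 (3))
-/

set_option autoImplicit false

open Finset

namespace Crest.Agent.R72

/-- `c` is a contraction -/
def Contr {J L : Type*} [Fintype J] [Fintype L] (c : J → L → ℂ) : Prop :=
  ∀ (x : J → ℂ) (y : L → ℂ), ‖∑ j, ∑ l, x j * c j l * y l‖ ≤
    √(∑ j, ‖x j‖ ^ 2) * √(∑ l, ‖y l‖ ^ 2)

theorem Contr.swap {J L : Type*} [Fintype J] [Fintype L] {c : J → L → ℂ} (hc : Contr c) :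
    Contr fun l j => c j l := by
  intro x y
  have h := hc y x
  rw [mul_comm (√_)] at h
  refine le_trans (le_of_eq ?_) h
  rw [Finset.sum_comm]
  congr 1
  refine Finset.sum_congr rfl fun j _ => Finset.sum_congr rfl fun l _ => by ring

theorem tri_part {I J L : Type*} [Fintype I] [Fintype J] [Fintype L] (w : I → ℝ)
    (hw : ∀ i, 0 ≤ w i) (u : I → J → ℂ) (v : I → L → ℂ) (c : J → L → ℂ) (hc : Contr c) :
    ‖∑ i, ∑ j, ∑ l, (w i : ℂ) * (u i j * c j l * v i l)‖ ≤
      ∑ i, w i / 2 * (∑ j, ‖u i j‖ ^ 2 + ∑ l, ‖v i l‖ ^ 2) := by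
  refine (norm_sum_le _ _).trans (Finset.sum_le_sum fun i _ => ?_)
  have h1 : ∑ j, ∑ l, (w i : ℂ) * (u i j * c j l * v i l) =
      (w i : ℂ) * ∑ j, ∑ l, u i j * c j l * v i l := by
    simp only [Finset.mul_sum]
  rw [h1, norm_mul, Complex.norm_real, Real.norm_eq_abs, abs_of_nonneg (hw i)]
  have h2 := hc (u i) (v i)
  have e1 := Real.mul_self_sqrt (Finset.sum_nonneg fun j (_ : j ∈ Finset.univ) =>
    sq_nonneg ‖u i j‖)
  have e2 := Real.mul_self_sqrt (Finset.sum_nonneg fun j (_ : j ∈ Finset.univ) =>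
    sq_nonneg ‖v i j‖)
  set P := √(∑ j, ‖u i j‖ ^ 2) with hP
  set Q := √(∑ l, ‖v i l‖ ^ 2) with hQ
  have h3 : P * Q ≤ 1 / 2 * (∑ j, ‖u i j‖ ^ 2 + ∑ l, ‖v i l‖ ^ 2) := by
    nlinarith [sq_nonneg (P - Q)]
  calc w i * ‖∑ j, ∑ l, u i j * c j l * v i l‖
      ≤ w i * (1 / 2 * (∑ j, ‖u i j‖ ^ 2 + ∑ l, ‖v i l‖ ^ 2)) :=
        mul_le_mul_of_nonneg_left (h2.trans h3) (hw i)
    _ = _ := by ring

/-- the pair term -/
theorem pair_term (s r m : ℝ) (hs : 0 ≤ s) (hr : 0 ≤ r) (hm : 0 ≤ m) :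
    s / 2 * (if r ≤ s then r ^ 2 * m else 0) + r / 2 * (if s < r then s ^ 2 * m else 0) ≤
      r ^ 2 * s ^ 2 * m / (r + s) := by
  rcases le_or_gt r s with h | h
  · rw [if_pos h, if_neg (not_lt.2 h), mul_zero, add_zero]
    rcases hs.eq_or_lt with h0 | h0
    · rw [← h0]; simp
    · rw [le_div_iff₀ (by linarith)]
      have : 0 ≤ r ^ 2 * m * s := by positivity
      nlinarith [mul_nonneg this (sub_nonneg.2 h)]
  · rw [if_neg (not_le.2 h), if_pos h, mul_zero, zero_add]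
    have h0 : 0 < r := lt_of_le_of_lt hs h
    rw [le_div_iff₀ (by linarith)]
    have : 0 ≤ s ^ 2 * m * r := by positivity
    nlinarith [mul_nonneg this (sub_nonneg.2 h.le)]

theorem tri {I J L : Type*} [Fintype I] [Fintype J] [Fintype L] (s : I → ℝ) (t : J → ℝ)
    (r : L → ℝ) (hs : ∀ i, 0 ≤ s i) (ht : ∀ j, 0 ≤ t j) (hr : ∀ l, 0 ≤ r l)
    (a : L → I → ℂ) (b : I → J → ℂ) (c : J → L → ℂ) (ha : Contr a) (hb : Contr b)
    (hc : Contr c) :
    ‖∑ i, ∑ j, ∑ l, ((s i : ℂ) * t j * r l) * (a l i * b i j * c j l)‖ ≤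
      (∑ i, ∑ l, r l ^ 2 * s i ^ 2 * ‖a l i‖ ^ 2 / (r l + s i)) +
      (∑ i, ∑ j, s i ^ 2 * t j ^ 2 * ‖b i j‖ ^ 2 / (s i + t j)) +
      (∑ j, ∑ l, t j ^ 2 * r l ^ 2 * ‖c j l‖ ^ 2 / (t j + r l)) := by
  -- the three parts
  have p1 := tri_part s hs (fun i j => if t j ≤ s i then (t j : ℂ) * b i j else 0)
    (fun i l => if r l ≤ s i then (r l : ℂ) * a l i else 0) c hc
  have p2 := tri_part t ht (fun j l => if r l ≤ t j then (r l : ℂ) * c j l else 0)
    (fun j i => if s i < t j then (s i : ℂ) * b i j else 0) a ha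
  have p3 := tri_part r hr (fun l i => if s i < r l then (s i : ℂ) * a l i else 0)
    (fun l j => if t j < r l then (t j : ℂ) * c j l else 0) b hb
  have hsplit : ∑ i, ∑ j, ∑ l, ((s i : ℂ) * t j * r l) * (a l i * b i j * c j l) =
      (∑ i, ∑ j, ∑ l, (s i : ℂ) * ((if t j ≤ s i then (t j : ℂ) * b i j else 0) * c j l *
        (if r l ≤ s i then (r l : ℂ) * a l i else 0))) +
      (∑ j, ∑ l, ∑ i, (t j : ℂ) * ((if r l ≤ t j then (r l : ℂ) * c j l else 0) * a l i *
        (if s i < t j then (s i : ℂ) * b i j else 0))) +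
      (∑ l, ∑ i, ∑ j, (r l : ℂ) * ((if s i < r l then (s i : ℂ) * a l i else 0) * b i j *
        (if t j < r l then (t j : ℂ) * c j l else 0))) := by
    have e2 : (∑ j, ∑ l, ∑ i, (t j : ℂ) * ((if r l ≤ t j then (r l : ℂ) * c j l else 0) * a l i *
        (if s i < t j then (s i : ℂ) * b i j else 0))) =
        ∑ i, ∑ j, ∑ l, (t j : ℂ) * ((if r l ≤ t j then (r l : ℂ) * c j l else 0) * a l i *
        (if s i < t j then (s i : ℂ) * b i j else 0)) := by
      rw [Finset.sum_comm (s := (Finset.univ : Finset I))]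
      refine Finset.sum_congr rfl fun j _ => ?_
      rw [Finset.sum_comm]
    have e3 : (∑ l, ∑ i, ∑ j, (r l : ℂ) * ((if s i < r l then (s i : ℂ) * a l i else 0) * b i j *
        (if t j < r l then (t j : ℂ) * c j l else 0))) =
        ∑ i, ∑ j, ∑ l, (r l : ℂ) * ((if s i < r l then (s i : ℂ) * a l i else 0) * b i j *
        (if t j < r l then (t j : ℂ) * c j l else 0)) := by
      rw [Finset.sum_comm]
      refine Finset.sum_congr rfl fun i _ => ?_
      rw [Finset.sum_comm]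
    rw [e2, e3, ← Finset.sum_add_distrib, ← Finset.sum_add_distrib]
    refine Finset.sum_congr rfl fun i _ => ?_
    rw [← Finset.sum_add_distrib, ← Finset.sum_add_distrib]
    refine Finset.sum_congr rfl fun j _ => ?_
    rw [← Finset.sum_add_distrib, ← Finset.sum_add_distrib]
    refine Finset.sum_congr rfl fun l _ => ?_
    by_cases h1 : t j ≤ s i
    · by_cases h2 : r l ≤ s i
      · rw [if_pos h1, if_pos h2, if_neg (not_lt.2 h1), if_neg (not_lt.2 h2)]; ring
      · have h2' := not_le.1 h2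
        have h4 : t j < r l := lt_of_le_of_lt h1 h2'
        rw [if_pos h1, if_neg h2, if_neg (not_lt.2 h1), if_pos h2', if_pos h4]; ring
    · have h1' := not_le.1 h1
      by_cases h3 : r l ≤ t j
      · rw [if_neg h1, if_pos h3, if_pos h1', if_neg (not_lt.2 h3)]; ring
      · have h3' := not_le.1 h3
        have h4 : s i < r l := lt_trans h1' h3'
        rw [if_neg h1, if_neg h3, if_pos h1', if_pos h3', if_pos h4]; ring
  rw [hsplit]
  refine (norm_add_le _ _).trans ((add_le_add (norm_add_le _ _) le_rfl).trans ?_)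
  refine (add_le_add (add_le_add p1 p2) p3).trans ?_
  -- norms of the truncated entries
  have hn : ∀ (P : Prop) [Decidable P] (x : ℝ) (z : ℂ), ‖(if P then (x : ℂ) * z else 0)‖ ^ 2 =
      if P then x ^ 2 * ‖z‖ ^ 2 else 0 := by
    intro P _ x z
    split_ifs
    · rw [norm_mul, Complex.norm_real, mul_pow, Real.norm_eq_abs, sq_abs]
    · simp
  simp only [hn, mul_add, Finset.sum_add_distrib, Finset.mul_sum]
  -- the three pair sums
  have qa : (∑ i, ∑ l, s i / 2 * (if r l ≤ s i then r l ^ 2 * ‖a l i‖ ^ 2 else 0)) +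
      (∑ l, ∑ i, r l / 2 * (if s i < r l then s i ^ 2 * ‖a l i‖ ^ 2 else 0)) ≤
      ∑ i, ∑ l, r l ^ 2 * s i ^ 2 * ‖a l i‖ ^ 2 / (r l + s i) := by
    rw [Finset.sum_comm (s := (Finset.univ : Finset L)), ← Finset.sum_add_distrib]
    refine Finset.sum_le_sum fun i _ => ?_
    rw [← Finset.sum_add_distrib]
    exact Finset.sum_le_sum fun l _ => pair_term (s i) (r l) _ (hs i) (hr l) (by positivity)
  have qb : (∑ i, ∑ j, s i / 2 * (if t j ≤ s i then t j ^ 2 * ‖b i j‖ ^ 2 else 0)) +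
      (∑ j, ∑ i, t j / 2 * (if s i < t j then s i ^ 2 * ‖b i j‖ ^ 2 else 0)) ≤
      ∑ i, ∑ j, s i ^ 2 * t j ^ 2 * ‖b i j‖ ^ 2 / (s i + t j) := by
    rw [Finset.sum_comm (s := (Finset.univ : Finset J)), ← Finset.sum_add_distrib]
    refine Finset.sum_le_sum fun i _ => ?_
    rw [← Finset.sum_add_distrib]
    refine Finset.sum_le_sum fun j _ => ?_
    have h := pair_term (s i) (t j) (‖b i j‖ ^ 2) (hs i) (ht j) (by positivity)
    rw [add_comm (s i) (t j), mul_comm (s i ^ 2) (t j ^ 2)]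
    exact h
  have qc : (∑ j, ∑ l, t j / 2 * (if r l ≤ t j then r l ^ 2 * ‖c j l‖ ^ 2 else 0)) +
      (∑ l, ∑ j, r l / 2 * (if t j < r l then t j ^ 2 * ‖c j l‖ ^ 2 else 0)) ≤
      ∑ j, ∑ l, t j ^ 2 * r l ^ 2 * ‖c j l‖ ^ 2 / (t j + r l) := by
    rw [Finset.sum_comm (s := (Finset.univ : Finset L)), ← Finset.sum_add_distrib]
    refine Finset.sum_le_sum fun j _ => ?_
    rw [← Finset.sum_add_distrib]
    refine Finset.sum_le_sum fun l _ => ?_
    have h := pair_term (t j) (r l) (‖c j l‖ ^ 2) (ht j) (hr l) (by positivity)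
    rw [add_comm (t j) (r l), mul_comm (t j ^ 2) (r l ^ 2)]
    exact h
  linarith

end Crest.Agent.R72
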