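import Mathlib

/-!
Row 72, lattice part of S0096 (blueprint: ideas 425 / 426).  Shared definitions.

Everything lives on the finite group `ZMod N`.  Windows are translates of `Fin L`
(they may wrap around, nothing breaks).  Half windows have length `L`, the parent window has
length `2 * L`.
-/

set_option autoImplicit false

namespace Crest.Agent.R72

open Finset Matrix

/-- `tr32 X = tr X^{3/2}` (sum of `|eigenvalue|^{3/2}`), used for positive semidefinite `X`. -/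
noncomputable def tr32 {ι : Type*} [Fintype ι] [DecidableEq ι] (X : Matrix ι ι ℂ) : ℝ :=
  if h : X.IsHermitian then ∑ i, |h.eigenvalues i| ^ (3 / 2 : ℝ) else 0

/-- The convexity gap of `tr32`. -/
noncomputable def gap32 {ι : Type*} [Fintype ι] [DecidableEq ι] (X Y : Matrix ι ι ℂ) : ℝ :=
  (1 / 2) * tr32 X + (1 / 2) * tr32 Y - tr32 ((1 / 2 : ℂ) • (X + Y))

/-- Functions of two variables on `ZMod N`. -/
abbrev Fn (N : ℕ) := ZMod N → ZMod N → ℂ

variable {N : ℕ}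

/-- The block of `P` on the windows `[x, x+L) × [y, y+M)`. -/
def blk (P : Fn N) (x y : ZMod N) (L M : ℕ) : Matrix (Fin L) (Fin M) ℂ :=
  fun i j => P (x + ((i : ℕ) : ZMod N)) (y + ((j : ℕ) : ZMod N))

/-- `P P* + R R*` on the window `[x, x+L)`, columns in `[y, y+M)` resp. `[z, z+M)`. -/
def Gm (P R : Fn N) (L M : ℕ) (x y z : ZMod N) : Matrix (Fin L) (Fin L) ℂ :=
  blk P x y L M * (blk P x y L M)ᴴ + blk R x z L M * (blk R x z L M)ᴴ

/-- The local functional, windows of length `L`. -/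
noncomputable def beta (P R : Fn N) (L : ℕ) (x y z : ZMod N) : ℝ :=
  (L : ℝ)⁻¹ * tr32 (Gm P R L L x y z)

/-- The gap of the local functional, parent windows of length `2 * L`. -/
noncomputable def gapb (P R : Fn N) (L : ℕ) (x y z : ZMod N) : ℝ :=
  (1 / 2) * ∑ a ∈ range 2,
      tr32 ((2 : ℂ) • Gm P R L (2 * L) (x + ((a * L : ℕ) : ZMod N)) y z) -
    tr32 (Gm P R (2 * L) (2 * L) x y z)

/-- The average over `{0,…,n-1}³` of a function of the sum of the coordinates. -/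
noncomputable def cub (n : ℕ) (F : ℕ → ℝ) : ℝ :=
  ((n : ℝ) ^ 3)⁻¹ * ∑ a ∈ range n, ∑ b ∈ range n, ∑ c ∈ range n, F (a + b + c)

/-- Centre of the planes: `1 - 3 n L / 2` (used for `n * L` even). -/
def sC (N n L : ℕ) : ZMod N := 1 - ((3 * (n * L / 2) : ℕ) : ZMod N)

section
variable [NeZero N]

/-- Plane functional, windows of length `L`. -/
noncomputable def Ipl (P R : Fn N) (L : ℕ) (s : ZMod N) : ℝ :=
  ((L : ℝ) ^ 2)⁻¹ * ∑ x : ZMod N, ∑ y : ZMod N, beta P R L x y (s - x - y)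

/-- Plane gap, parent windows of length `2 * L`. -/
noncomputable def Gap (P R : Fn N) (L : ℕ) (s : ZMod N) : ℝ :=
  (((2 * L : ℕ) : ℝ) ^ 3)⁻¹ * ∑ x : ZMod N, ∑ y : ZMod N, gapb P R L x y (s - x - y)

/-- Cube average of the plane functional, windows of length `L`. -/
noncomputable def Ecube (P R : Fn N) (n L : ℕ) : ℝ :=
  cub n fun t => Ipl P R L (sC N n L + ((L * t : ℕ) : ZMod N))

/-- Cube average of the plane gap, parent windows of length `2 * L`. -/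
noncomputable def GapE (P R : Fn N) (n L : ℕ) : ℝ :=
  cub n fun t => Gap P R L (sC N n (2 * L) + ((2 * L * t : ℕ) : ZMod N))

/-- Single function functional, windows `L₀ × L₁`. -/
noncomputable def Sf (P : Fn N) (L₀ L₁ : ℕ) : ℝ :=
  (((L₀ * L₁ : ℕ) : ℝ) ^ (3 / 2 : ℝ))⁻¹ *
    ∑ x : ZMod N, ∑ y : ZMod N, tr32 (blk P x y L₀ L₁ * (blk P x y L₀ L₁)ᴴ)

/-- `ℓ³` norm of a real function of two variables. -/
noncomputable def l3 (u : ZMod N → ZMod N → ℝ) : ℝ :=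
  (∑ x : ZMod N, ∑ y : ZMod N, |u x y| ^ 3) ^ (1 / 3 : ℝ)

/-- `ℓ³` norm of a complex function of two variables. -/
noncomputable def n3 (P : Fn N) : ℝ := l3 fun x y => ‖P x y‖

/-- Maximal function: supremum of the averages over all windows (of any length) containing `x`. -/
noncomputable def mx (u : ZMod N → ℝ) (x : ZMod N) : ℝ :=
  ⨆ p : ℕ × ℕ, (((p.1 + p.2 + 1 : ℕ) : ℝ))⁻¹ *
    ∑ l ∈ range (p.1 + p.2 + 1), u (x - (p.1 : ZMod N) + (l : ZMod N))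

end

/-- Haar sign of the parent window of length `2 * L`. -/
def hs (L i : ℕ) : ℂ := if i < L then 1 else -1

/-- The local triangular form, parent windows of length `2 * L` at `q₀, q₁, q₂`. -/
noncomputable def tau (A B H : Fn N) (L : ℕ) (q₀ q₁ q₂ : ZMod N) : ℂ :=
  ∑ i ∈ range (2 * L), ∑ j ∈ range (2 * L), ∑ l ∈ range (2 * L),
    hs L i * hs L j * hs L l *
      (A (q₀ + (i : ZMod N)) (q₁ + (j : ZMod N)) * B (q₁ + (j : ZMod N)) (q₂ + (l : ZMod N)) *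
        H (q₂ + (l : ZMod N)) (q₀ + (i : ZMod N)))

section
variable [NeZero N]

/-- The plane form. -/
noncomputable def Phi (A B H : Fn N) (L : ℕ) (s : ZMod N) : ℂ :=
  ((((2 * L : ℕ) : ℂ)) ^ 3)⁻¹ * ∑ x : ZMod N, ∑ y : ZMod N, tau A B H L x y (s - x - y)

/-- The plane form with absolute values of the local forms. -/
noncomputable def PhiAbs (A B H : Fn N) (L : ℕ) (s : ZMod N) : ℝ :=
  ((((2 * L : ℕ) : ℝ)) ^ 3)⁻¹ * ∑ x : ZMod N, ∑ y : ZMod N, ‖tau A B H L x y (s - x - y)‖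

/-- The plane number `t` (`n - 1 ≤ t ≤ 2 n - 2`) of `n`, parent windows of length `2 * L`. -/
def pl (N n L t : ℕ) : ZMod N := sC N n (2 * L) + ((2 * L * t : ℕ) : ZMod N)

/-- Complex conjugate transpose of a function of two variables. -/
def cT (H : Fn N) : Fn N := fun x y => (starRingEnd ℂ) (H y x)

/-- Periodised truncated kernel `M(|v|)/v`, `1 ≤ |v| < W`. -/
noncomputable def gker (N W : ℕ) (M : ℕ → ℂ) (w : ZMod N) : ℂ :=
  ∑ r ∈ Ico 1 W, ((if w = (r : ZMod N) then M r / r else 0) -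
    (if w = -(r : ZMod N) then M r / r else 0))

end

/-- **Lattice main theorem** (target of the lattice part; to be used by the reduction team). -/
def LMT : Prop :=
  ∃ C : ℝ, ∀ (N : ℕ) [NeZero N] (n W : ℕ), 1 ≤ n →
    ∀ (A B H : Fn N) (M : ZMod N → ZMod N → ℕ → ℂ),
      (∀ x₂ x₀ r, ‖M x₂ x₀ r‖ ≤ 1) →
      (∀ x₂ x₀ r, W ≤ r → M x₂ x₀ r = 0) →
      (∀ x₂ x₀, ((range W).filter fun r => M x₂ x₀ (r + 1) ≠ M x₂ x₀ r).card ≤ 2 * n) →
      ‖∑ x₀ : ZMod N, ∑ x₁ : ZMod N, ∑ x₂ : ZMod N,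
          A x₀ x₁ * B x₁ x₂ * H x₂ x₀ * gker N W (M x₂ x₀) (x₀ + x₁ + x₂)‖ ≤
        C * Real.sqrt n * n3 A * n3 B * n3 H

/-- Master inequality, fixed functions. -/
def MIfixed : Prop :=
  ∃ C : ℝ, ∀ (N : ℕ) [NeZero N] (n K : ℕ), 1 ≤ n → ∀ (P R : Fn N),
    ∑ k ∈ range K, GapE P R n (2 ^ k) ≤ C * (1 + Real.log n) * (n3 P ^ 3 + n3 R ^ 3)

/-- Master inequality, `R` depending on the scale (`R k` is used for parent windows of length
`2 ^ (k + 1)`). -/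
def MIvar : Prop :=
  ∃ C : ℝ, ∀ (N : ℕ) [NeZero N] (n K : ℕ), 1 ≤ n →
    ∀ (P : Fn N) (R : ℕ → Fn N) (b : ZMod N → ZMod N → ℝ) (V : ℝ),
      1 ≤ V → (∀ x z, 0 ≤ b x z) → (∀ k x z, ‖R k x z‖ ≤ b x z) →
      (∀ x z, ∑ k ∈ range K, ‖R (k + 1) x z - R k x z‖ ≤ V * b x z) →
      ∑ k ∈ range K, GapE P (R k) n (2 ^ k) ≤
        C * (1 + Real.log n) *
          (n3 P ^ 3 + l3 b ^ 3 + V * (n3 P * l3 b ^ 2 + l3 b ^ 3))

/-- Smooth estimate. -/
def ESTsmooth : Prop :=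
  ∃ C : ℝ, ∀ (N : ℕ) [NeZero N] (n K : ℕ), 1 ≤ n →
    ∀ (A B H : Fn N) (m : ℕ → ZMod N → ZMod N → ℂ) (V : ℝ), 1 ≤ V →
      (∀ k x₂ x₀, ‖m k x₂ x₀‖ ≤ 1) →
      (∀ x₂ x₀, ∑ k ∈ range K, ‖m (k + 1) x₂ x₀ - m k x₂ x₀‖ ≤ V) →
      ∑ k ∈ range K, ∑ t ∈ Ico (n - 1) (2 * n - 1),
          PhiAbs A B (fun x₂ x₀ => H x₂ x₀ * m k x₂ x₀) (2 ^ k) (pl N n (2 ^ k) t) ≤
        C * n * (1 + Real.log n) * Real.sqrt V * n3 A * n3 B * n3 H

/-- Rough estimate. -/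
def ESTrough : Prop :=
  ∃ C : ℝ, ∀ (N : ℕ) [NeZero N] (n K : ℕ), 1 ≤ n →
    ∀ (A B : Fn N) (H : ℕ → ℕ → Fn N),
      ∑ k ∈ range K, ∑ t ∈ Ico (n - 1) (2 * n - 1),
          ‖Phi A B (H k t) (2 ^ k) (pl N n (2 ^ k) t)‖ ≤
        C * (n : ℝ) ^ (3 / 4 : ℝ) * Real.sqrt (1 + Real.log n) * n3 A * n3 B *
          l3 fun x₂ x₀ => Real.sqrt
            (∑ k ∈ range K, ∑ t ∈ Ico (n - 1) (2 * n - 1), ‖H k t x₂ x₀‖ ^ 2)

end Crest.Agent.R72
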