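import Mathlib
import Crest.Agent.R72.SDefs

/-!
# Row 72, module LA (helper73), part 0: square roots and traces

`rt X` the positive square root; `tr32_eq : tr32 X = re tr (rt X * X)` for positive semidefinite `X`.
-/

set_option autoImplicit false
set_option linter.unusedSectionVars false

namespace Crest.Agent.R72

open Matrix
open scoped MatrixOrder ComplexOrder

variable {n m : Type*} [Fintype n] [DecidableEq n] [Fintype m] [DecidableEq m]

/-- the positive square root -/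
noncomputable def rt (X : Matrix n n ℂ) : Matrix n n ℂ := CFC.sqrt X

theorem rt_mul_self {X : Matrix n n ℂ} (hX : X.PosSemidef) : rt X * rt X = X :=
  CFC.sqrt_mul_sqrt_self X hX.nonneg

theorem rt_psd (X : Matrix n n ℂ) : (rt X).PosSemidef := (CFC.sqrt_nonneg X).posSemidef

theorem rt_star (X : Matrix n n ℂ) : (rt X)ᴴ = rt X := (rt_psd X).isHermitian

theorem rt_mono {X Y : Matrix n n ℂ} (h : X ≤ Y) : rt X ≤ rt Y := by
  open scoped Matrix.Norms.L2Operator in
  exact CFC.sqrt_le_sqrt X Y h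

theorem rt_unique {X B : Matrix n n ℂ} (hB : B.PosSemidef) (h : B * B = X) : rt X = B := by
  have hX : 0 ≤ X := by
    rw [← h]
    nth_rewrite 1 [← hB.isHermitian]
    exact (posSemidef_conjTranspose_mul_self B).nonneg
  exact (CFC.sqrt_eq_iff X B hX hB.nonneg).2 h

theorem rt_smul {X : Matrix n n ℂ} (hX : X.PosSemidef) {c : ℝ} (hc : 0 ≤ c) :
    rt (((c : ℝ) : ℂ) • X) = ((√c : ℝ) : ℂ) • rt X := by
  apply rt_unique
  · exact (rt_psd X).smul (by exact_mod_cast Real.sqrt_nonneg c)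
  · rw [smul_mul_smul_comm, rt_mul_self hX, ← Complex.ofReal_mul, Real.mul_self_sqrt hc]

theorem tr_nonneg {P : Matrix n n ℂ} (h : P.PosSemidef) : 0 ≤ (trace P).re :=
  (Complex.le_def.1 h.trace_nonneg).1

theorem tr_conj_nonneg {S : Matrix n n ℂ} (hS : S.PosSemidef) (E : Matrix n m ℂ) :
    0 ≤ (trace (Eᴴ * S * E)).re := tr_nonneg (hS.conjTranspose_mul_mul_same E)

theorem tr_mul_nonneg {P Q : Matrix n n ℂ} (hP : P.PosSemidef) (hQ : Q.PosSemidef) :
    0 ≤ (trace (P * Q)).re := by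
  have h := tr_conj_nonneg hP (rt Q)
  rwa [rt_star, trace_mul_comm, ← mul_assoc, rt_mul_self hQ, trace_mul_comm] at h

theorem tr_mul_mono {P P' Q : Matrix n n ℂ} (h : P ≤ P') (hQ : Q.PosSemidef) :
    (trace (Q * P)).re ≤ (trace (Q * P')).re := by
  have h1 := tr_mul_nonneg hQ (le_iff.1 h)
  rw [mul_sub, trace_sub, Complex.sub_re] at h1
  linarith

theorem trace_conj_mul (U V : Matrix n m ℂ) :
    trace (Uᴴ * V) = ∑ j, ∑ i, star (U i j) * V i j := by
  simp [trace, mul_apply, conjTranspose_apply]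

theorem re_trace_self (U : Matrix n m ℂ) : (trace (Uᴴ * U)).re = ∑ j, ∑ i, ‖U i j‖ ^ 2 := by
  rw [trace_conj_mul, Complex.re_sum]
  refine Finset.sum_congr rfl fun j _ => ?_
  rw [Complex.re_sum]
  refine Finset.sum_congr rfl fun i _ => ?_
  rw [Complex.star_def, Complex.conj_mul']
  norm_cast

/-- Cauchy–Schwarz (Hilbert–Schmidt) -/
theorem tr_cs0 (U V : Matrix n m ℂ) :
    ‖trace (Uᴴ * V)‖ ^ 2 ≤ (trace (Uᴴ * U)).re * (trace (Vᴴ * V)).re := by
  rw [re_trace_self, re_trace_self, trace_conj_mul]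
  have h1 : ‖∑ j, ∑ i, star (U i j) * V i j‖ ≤ ∑ p : m × n, ‖U p.2 p.1‖ * ‖V p.2 p.1‖ := by
    rw [Fintype.sum_prod_type]
    refine (norm_sum_le _ _).trans (Finset.sum_le_sum fun j _ => ?_)
    refine (norm_sum_le _ _).trans (Finset.sum_le_sum fun i _ => ?_)
    rw [norm_mul, norm_star]
  have h2 := Finset.sum_mul_sq_le_sq_mul_sq (Finset.univ : Finset (m × n))
    (fun p => ‖U p.2 p.1‖) (fun p => ‖V p.2 p.1‖)
  rw [Fintype.sum_prod_type (fun p : m × n => ‖U p.2 p.1‖ ^ 2),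
    Fintype.sum_prod_type (fun p : m × n => ‖V p.2 p.1‖ ^ 2)] at h2
  exact (pow_le_pow_left₀ (norm_nonneg _) h1 2).trans h2

/-- Cauchy–Schwarz with weight -/
theorem tr_cs {S : Matrix n n ℂ} (hS : S.PosSemidef) (X Y : Matrix n m ℂ) :
    ‖trace (Xᴴ * S * Y)‖ ^ 2 ≤ (trace (Xᴴ * S * X)).re * (trace (Yᴴ * S * Y)).re := by
  have h := tr_cs0 (rt S * X) (rt S * Y)
  have e : ∀ X Y : Matrix n m ℂ, (rt S * X)ᴴ * (rt S * Y) = Xᴴ * S * Y := by
    intro X Y
    rw [conjTranspose_mul, rt_star]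
    calc Xᴴ * rt S * (rt S * Y) = Xᴴ * (rt S * rt S) * Y := by simp only [Matrix.mul_assoc]
      _ = _ := by rw [rt_mul_self hS]
  rwa [e, e, e] at h

/-- `tr32` through the square root -/
theorem tr32_eq {X : Matrix n n ℂ} (hX : X.PosSemidef) : tr32 X = (trace (rt X * X)).re := by
  have hH := hX.isHermitian
  rw [tr32, dif_pos hH]
  have h1 : rt X = cfc Real.sqrt X := by
    apply rt_unique
    · exact (cfc_nonneg fun x _ => Real.sqrt_nonneg x).posSemidef
    · rw [← cfc_mul _ _ X]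
      conv_rhs => rw [← cfc_id' ℝ X hH.isSelfAdjoint]
      apply cfc_congr
      intro t ht
      exact Real.mul_self_sqrt (spectrum_nonneg_of_nonneg hX.nonneg ht)
  have h2 : rt X * X = cfc (fun t : ℝ => √t * t) X := by
    rw [cfc_mul _ _ X, ← h1, cfc_id' ℝ X hH.isSelfAdjoint]
  rw [h2, hH.cfc_eq, IsHermitian.cfc]
  rw [Unitary.conjStarAlgAut_apply, trace_mul_cycle, Unitary.coe_star_mul_self, one_mul,
    trace_diagonal, Complex.re_sum]
  refine Finset.sum_congr rfl fun i _ => ?_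
  have h3 : 0 ≤ hH.eigenvalues i := hX.eigenvalues_nonneg i
  have h4 : (((RCLike.ofReal (K := ℂ)) ∘ (fun t : ℝ => √t * t) ∘ hH.eigenvalues) i).re =
      √(hH.eigenvalues i) * hH.eigenvalues i := by
    simp [Function.comp]
  rw [h4, abs_of_nonneg h3, Real.sqrt_eq_rpow]
  nth_rewrite 3 [← Real.rpow_one (hH.eigenvalues i)]
  rcases h3.eq_or_lt with h5 | h5
  · rw [← h5]; simp
  · rw [← Real.rpow_add h5]; norm_num

end Crest.Agent.R72
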