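import Mathlib
import Crest.Agent.R72.LA0

/-!
# Row 72, module LA (helper12): singular value decomposition, `la_conj`
-/

set_option autoImplicit false
set_option linter.unusedSectionVars false

namespace Crest.Agent.R72

open Matrix
open scoped MatrixOrder ComplexOrder

variable {n m : Type*} [Fintype n] [DecidableEq n] [Fintype m] [DecidableEq m]

/-- the real diagonal matrix -/
noncomputable def dg (s : n → ℝ) : Matrix n n ℂ := diagonal fun i => ((s i : ℝ) : ℂ)

theorem dg_mul (s t : n → ℝ) : dg s * dg t = dg fun i => s i * t i := by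
  simp [dg, diagonal_mul_diagonal]

theorem dg_star (s : n → ℝ) : (dg s)ᴴ = dg s := by
  simp [dg, diagonal_conjTranspose]

theorem dg_psd {s : n → ℝ} (hs : ∀ i, 0 ≤ s i) : (dg s).PosSemidef := by
  refine PosSemidef.diagonal fun i => ?_
  simpa using hs i

/-- singular value decomposition `A = U diag(s) Vᴴ` -/
structure Svd (A : Matrix n m ℂ) (U : Matrix n m ℂ) (V : Matrix m m ℂ) (s χ : m → ℝ) : Prop where
  eq : A = U * dg s * Vᴴ
  vv : Vᴴ * V = 1
  vv' : V * Vᴴ = 1
  uu : Uᴴ * U = dg χ
  s0 : ∀ i, 0 ≤ s i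
  c0 : ∀ i, 0 ≤ χ i
  c1 : ∀ i, χ i ≤ 1
  cs : ∀ i, χ i * s i = s i

theorem exists_svd (A : Matrix n m ℂ) : ∃ U V s χ, Svd A U V s χ := by
  have hP : (Aᴴ * A).PosSemidef := posSemidef_conjTranspose_mul_self A
  have hH := hP.isHermitian
  set V : Matrix m m ℂ := (hH.eigenvectorUnitary : Matrix m m ℂ) with hV
  set lam : m → ℝ := hH.eigenvalues with hlam
  have l0 : ∀ i, 0 ≤ lam i := hP.eigenvalues_nonneg
  have vv : Vᴴ * V = 1 := Unitary.coe_star_mul_self hH.eigenvectorUnitary
  have vv' : V * Vᴴ = 1 := Unitary.coe_mul_star_self hH.eigenvectorUnitary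
  have hsp : Aᴴ * A = V * dg lam * Vᴴ := by
    conv_lhs => rw [hH.spectral_theorem, Unitary.conjStarAlgAut_apply]
    rfl
  have hd : Vᴴ * (Aᴴ * A) * V = dg lam := by
    rw [hsp]
    calc Vᴴ * (V * dg lam * Vᴴ) * V = (Vᴴ * V) * dg lam * (Vᴴ * V) := by
          simp only [Matrix.mul_assoc]
      _ = _ := by rw [vv]; simp
  have hs : ∀ i, √(lam i) * √(lam i) = lam i := fun i => Real.mul_self_sqrt (l0 i)
  refine ⟨A * V * dg (fun i => (√(lam i))⁻¹), V, fun i => √(lam i),
    fun i => if lam i = 0 then 0 else 1, ?_, vv, vv', ?_, fun i => Real.sqrt_nonneg _, ?_, ?_, ?_⟩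
  · have h1 : A * V * dg (fun i => if lam i = 0 then 1 else 0) = 0 := by
      rw [← Matrix.conjTranspose_mul_self_eq_zero, conjTranspose_mul, conjTranspose_mul, dg_star]
      calc dg (fun i => if lam i = 0 then 1 else 0) * (Vᴴ * Aᴴ) *
            (A * V * dg fun i => if lam i = 0 then 1 else 0)
          = dg (fun i => if lam i = 0 then 1 else 0) * (Vᴴ * (Aᴴ * A) * V) *
            dg (fun i => if lam i = 0 then 1 else 0) := by simp only [Matrix.mul_assoc]
        _ = 0 := by
          rw [hd, dg_mul, dg_mul, dg]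
          rw [← diagonal_zero]
          congr 1
          funext i
          by_cases h : lam i = 0 <;> simp [h]
    have h2 : (dg fun i => (√(lam i))⁻¹) * (dg fun i => √(lam i)) =
        1 - dg (fun i => if lam i = 0 then 1 else 0) := by
      rw [dg_mul, dg, dg, ← diagonal_one, diagonal_sub]
      congr 1
      funext i
      by_cases h : lam i = 0
      · simp [h]
      · have h3 : √(lam i) ≠ 0 := by
          intro h4
          exact h (by rw [← hs i, h4]; simp)
        simp [h, inv_mul_cancel₀ h3]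
    calc A = A * (V * Vᴴ) := by rw [vv', Matrix.mul_one]
      _ = (A * V * (1 : Matrix m m ℂ)) * Vᴴ := by
          rw [Matrix.mul_one, Matrix.mul_assoc]
      _ = (A * V * (1 - dg (fun i => if lam i = 0 then 1 else 0))) * Vᴴ := by
          rw [Matrix.mul_sub, h1, sub_zero]
      _ = _ := by
          rw [← h2]
          simp only [Matrix.mul_assoc]
  · rw [conjTranspose_mul, conjTranspose_mul, dg_star]
    calc (dg fun i => (√(lam i))⁻¹) * (Vᴴ * Aᴴ) * (A * V * dg fun i => (√(lam i))⁻¹)
        = (dg fun i => (√(lam i))⁻¹) * (Vᴴ * (Aᴴ * A) * V) * (dg fun i => (√(lam i))⁻¹) := by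
          simp only [Matrix.mul_assoc]
      _ = _ := by
          rw [hd, dg_mul, dg_mul]
          congr 1
          funext i
          by_cases h : lam i = 0
          · simp [h]
          · have h3 : √(lam i) ≠ 0 := by
              intro h4
              exact h (by rw [← hs i, h4]; simp)
            simp only [h, if_false]
            nth_rewrite 2 [← hs i]
            field_simp
  · intro i
    split_ifs <;> norm_num
  · intro i
    split_ifs <;> norm_num
  · intro i
    by_cases h : lam i = 0 <;> simp [h]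

namespace Svd

variable {A U : Matrix n m ℂ} {V : Matrix m m ℂ} {s χ : m → ℝ}

theorem uus (h : Svd A U V s χ) : Uᴴ * U * dg s = dg s := by
  rw [h.uu, dg_mul]
  congr 1
  funext i
  exact h.cs i

theorem suu (h : Svd A U V s χ) : dg s * (Uᴴ * U) = dg s := by
  rw [h.uu, dg_mul]
  congr 1
  funext i
  rw [mul_comm]
  exact h.cs i

theorem star_eq (h : Svd A U V s χ) : Aᴴ = V * dg s * Uᴴ := by
  rw [h.eq]
  simp only [conjTranspose_mul, dg_star, conjTranspose_conjTranspose, Matrix.mul_assoc]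

theorem mul_star (h : Svd A U V s χ) : A * Aᴴ = U * dg (fun i => s i * s i) * Uᴴ := by
  rw [h.star_eq]
  nth_rewrite 1 [h.eq]
  calc U * dg s * Vᴴ * (V * dg s * Uᴴ) = U * dg s * (Vᴴ * V) * dg s * Uᴴ := by
        simp only [Matrix.mul_assoc]
    _ = _ := by rw [h.vv, Matrix.mul_one, Matrix.mul_assoc U, dg_mul]

theorem star_mul (h : Svd A U V s χ) : Aᴴ * A = V * dg (fun i => s i * s i) * Vᴴ := by
  rw [h.star_eq]
  nth_rewrite 1 [h.eq]
  calc V * dg s * Uᴴ * (U * dg s * Vᴴ) = V * (dg s * (Uᴴ * U)) * dg s * Vᴴ := by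
        simp only [Matrix.mul_assoc]
    _ = _ := by rw [h.suu, Matrix.mul_assoc V, dg_mul]

theorem rt_mul_star (h : Svd A U V s χ) : rt (A * Aᴴ) = U * dg s * Uᴴ := by
  apply rt_unique
  · exact (dg_psd h.s0).mul_mul_conjTranspose_same U
  · rw [h.mul_star]
    calc U * dg s * Uᴴ * (U * dg s * Uᴴ) = U * (dg s * (Uᴴ * U)) * dg s * Uᴴ := by
          simp only [Matrix.mul_assoc]
      _ = _ := by rw [h.suu, Matrix.mul_assoc U, dg_mul]

theorem rt_star_mul (h : Svd A U V s χ) : rt (Aᴴ * A) = V * dg s * Vᴴ := by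
  apply rt_unique
  · exact (dg_psd h.s0).mul_mul_conjTranspose_same V
  · rw [h.star_mul]
    calc V * dg s * Vᴴ * (V * dg s * Vᴴ) = V * (dg s * (Vᴴ * V)) * dg s * Vᴴ := by
          simp only [Matrix.mul_assoc]
      _ = _ := by rw [h.vv, Matrix.mul_one, Matrix.mul_assoc V, dg_mul]

theorem tr32_mul_star (h : Svd A U V s χ) : tr32 (A * Aᴴ) = ∑ i, s i ^ 3 := by
  rw [tr32_eq (posSemidef_self_mul_conjTranspose A), h.rt_mul_star, h.mul_star]
  have e : U * dg s * Uᴴ * (U * dg (fun i => s i * s i) * Uᴴ) =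
      U * (dg s * (Uᴴ * U) * dg (fun i => s i * s i) * Uᴴ) := by
    simp only [Matrix.mul_assoc]
  rw [e, trace_mul_comm, h.suu, dg_mul]
  have e2 : (dg fun i => s i * (s i * s i)) * Uᴴ * U = dg fun i => s i ^ 3 := by
    rw [Matrix.mul_assoc, h.uu, dg_mul]
    congr 1
    funext i
    have := h.cs i
    calc s i * (s i * s i) * χ i = (χ i * s i) * (s i * s i) := by ring
      _ = _ := by rw [this]; ring
  rw [e2, dg, trace_diagonal, Complex.re_sum]
  simp only [Complex.ofReal_re]

theorem tr32_star_mul (h : Svd A U V s χ) : tr32 (Aᴴ * A) = ∑ i, s i ^ 3 := by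
  rw [tr32_eq (posSemidef_conjTranspose_mul_self A), h.rt_star_mul, h.star_mul]
  have e : V * dg s * Vᴴ * (V * dg (fun i => s i * s i) * Vᴴ) =
      V * (dg s * (Vᴴ * V) * dg (fun i => s i * s i) * Vᴴ) := by
    simp only [Matrix.mul_assoc]
  rw [e, trace_mul_comm, h.vv, Matrix.mul_one, dg_mul]
  have e2 : (dg fun i => s i * (s i * s i)) * Vᴴ * V = dg fun i => s i ^ 3 := by
    rw [Matrix.mul_assoc, h.vv, Matrix.mul_one]
    congr 1
    funext i
    ring
  rw [e2, dg, trace_diagonal, Complex.re_sum]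
  simp only [Complex.ofReal_re]

end Svd

theorem la_conj (S : Matrix n m ℂ) : tr32 (Sᴴ * S) = tr32 (S * Sᴴ) := by
  obtain ⟨U, V, s, χ, h⟩ := exists_svd S
  rw [h.tr32_star_mul, h.tr32_mul_star]

/-- invariance under reindexing -/
theorem tr32_reindex {X : Matrix m m ℂ} (hX : X.PosSemidef) (e : n ≃ m) :
    tr32 (X.submatrix e e) = tr32 X := by
  have h1 : (X.submatrix e e).PosSemidef := hX.submatrix e
  have h2 : rt (X.submatrix e e) = (rt X).submatrix e e := by
    apply rt_unique
    · exact (rt_psd X).submatrix e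
    · rw [submatrix_mul_equiv, rt_mul_self hX]
  rw [tr32_eq h1, tr32_eq hX, h2, submatrix_mul_equiv]
  congr 1
  simp only [trace, diag_apply, submatrix_apply]
  exact Equiv.sum_comp e fun i => (rt X * X) i i

end Crest.Agent.R72
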