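import Crest.Agent.R72.D7
import Crest.Agent.R72.D8
import Crest.Agent.R72.LASvd

/-!
# Row 72, S0097: `LaBox` from the gap estimate in singular value coordinates
-/

set_option autoImplicit false
set_option linter.unusedSectionVars false

open Finset Matrix
open scoped MatrixOrder ComplexOrder

namespace Crest.Agent.R72

/-- the coordinate matrix `Vᴴ h U` -/
noncomputable def crd {ι : Type} [Fintype ι] [DecidableEq ι]
    (V U : Matrix (Fin 2 × ι) (Fin 2 × ι) ℂ) : Matrix (Fin 2 × ι) (Fin 2 × ι) ℂ :=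
  Vᴴ * diagonal (hsgn ℂ) * U

/-- the gap estimate in singular value coordinates -/
def GapXX : Prop :=
  ∀ (ι : Type) [Fintype ι] [DecidableEq ι] (A C UA VA UC VC : Matrix (Fin 2 × ι) (Fin 2 × ι) ℂ)
    (s χ r ψ : Fin 2 × ι → ℝ), Svd A UA VA s χ → Svd C UC VC r ψ →
    ∑ i, ∑ l, r l ^ 2 * s i ^ 2 * ‖crd VC UA l i‖ ^ 2 / (r l + s i) ≤
      dgap (A * Aᴴ + Cᴴ * C)

variable {ι : Type} [Fintype ι] [DecidableEq ι]

theorem hsgn_sq : (diagonal (hsgn ℂ) : Matrix (Fin 2 × ι) (Fin 2 × ι) ℂ) * diagonal (hsgn ℂ) = 1 := by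
  rw [diagonal_mul_diagonal, ← diagonal_one]
  congr 1; ext x
  simp only [hsgn]; split_ifs <;> norm_num

theorem hsgn_star : (diagonal (hsgn ℂ) : Matrix (Fin 2 × ι) (Fin 2 × ι) ℂ)ᴴ = diagonal (hsgn ℂ) := by
  rw [diagonal_conjTranspose]
  congr 1; ext x
  simp only [hsgn, Pi.star_apply]; split_ifs <;> simp

theorem contr_of {n m p : Type} [Fintype n] [DecidableEq n] [Fintype m] [DecidableEq m] [Fintype p]
    [DecidableEq p] (P : Matrix n m ℂ) (Q : Matrix n p ℂ) (χ : p → ℝ) (hχ : ∀ i, χ i ≤ 1)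
    (hP : Pᴴ * P = 1) (hQ : Qᴴ * Q = dg χ) : Contr (Pᴴ * Q) := by
  intro x y
  set X : Matrix n Unit ℂ := P * Matrix.of fun j _ => star (x j) with hX
  set Y : Matrix n Unit ℂ := Q * Matrix.of fun l _ => y l with hY
  have h := tr_cs0 X Y
  have e1 : trace (Xᴴ * Y) = ∑ j, ∑ l, x j * (Pᴴ * Q) j l * y l := by
    have : Xᴴ * Y = (Matrix.of fun j (_ : Unit) => star (x j))ᴴ * (Pᴴ * Q) *
        Matrix.of fun l (_ : Unit) => y l := by
      rw [hX, hY, conjTranspose_mul]; simp only [Matrix.mul_assoc]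
    rw [this, trace]
    simp only [Finset.univ_unique, Finset.sum_singleton, diag_apply, Matrix.mul_apply (M := _ * _),
      Matrix.of_apply]
    rw [Finset.sum_comm]
    refine Finset.sum_congr rfl fun l _ => ?_
    rw [Matrix.mul_apply, Finset.sum_mul]
    refine Finset.sum_congr rfl fun j _ => ?_
    simp [conjTranspose_apply]
  have e2 : (trace (Xᴴ * X)).re = ∑ j, ‖x j‖ ^ 2 := by
    have : Xᴴ * X = (Matrix.of fun j (_ : Unit) => star (x j))ᴴ *
        (Matrix.of fun j (_ : Unit) => star (x j)) := by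
      rw [hX, conjTranspose_mul, Matrix.mul_assoc, ← Matrix.mul_assoc Pᴴ, hP, Matrix.one_mul]
    rw [this, re_trace_self]
    simp
  have e3 : (trace (Yᴴ * Y)).re ≤ ∑ l, ‖y l‖ ^ 2 := by
    have : Yᴴ * Y = (Matrix.of fun l (_ : Unit) => y l)ᴴ * dg χ *
        (Matrix.of fun l (_ : Unit) => y l) := by
      rw [hY, conjTranspose_mul, Matrix.mul_assoc, ← Matrix.mul_assoc Qᴴ, hQ, ← Matrix.mul_assoc]
    rw [this, trace]
    simp only [Finset.univ_unique, Finset.sum_singleton, diag_apply, Matrix.mul_apply (M := _ * _),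
      Matrix.of_apply]
    rw [Complex.re_sum]
    refine Finset.sum_le_sum fun l _ => ?_
    rw [dg, Matrix.mul_diagonal, conjTranspose_apply, Matrix.of_apply]
    have : star (y l) * ((χ l : ℝ) : ℂ) * y l = ((χ l * ‖y l‖ ^ 2 : ℝ) : ℂ) := by
      rw [mul_comm (star (y l)), mul_assoc, Complex.star_def, Complex.conj_mul']
      push_cast; ring
    rw [this, Complex.ofReal_re]
    nlinarith [sq_nonneg ‖y l‖, hχ l]
  rw [e1, e2] at h
  have h2 : ‖∑ j, ∑ l, x j * (Pᴴ * Q) j l * y l‖ ^ 2 ≤ (∑ j, ‖x j‖ ^ 2) * ∑ l, ‖y l‖ ^ 2 :=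
    h.trans (mul_le_mul_of_nonneg_left e3 (by positivity))
  rw [← Real.sqrt_mul (by positivity)]
  exact Real.le_sqrt_of_sq_le h2

/-- `V` unitary, `U` partial isometry: `Vᴴ h U` is a contraction -/
theorem contr_hsgn (U V : Matrix (Fin 2 × ι) (Fin 2 × ι) ℂ) (χ : Fin 2 × ι → ℝ)
    (hχ : ∀ i, χ i ≤ 1) (hV : Vᴴ * V = 1) (hU : Uᴴ * U = dg χ) :
    Contr (crd V U) := by
  have h := contr_of (diagonal (hsgn ℂ) * V) U χ hχ (by
    rw [conjTranspose_mul, hsgn_star, Matrix.mul_assoc, ← Matrix.mul_assoc (diagonal (hsgn ℂ)),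
      hsgn_sq, Matrix.one_mul, hV]) hU
  rw [conjTranspose_mul, hsgn_star] at h
  exact h

theorem trace_svd (A B C UA VA UB VB UC VC : Matrix (Fin 2 × ι) (Fin 2 × ι) ℂ)
    (s χ t φ r ψ : Fin 2 × ι → ℝ) (hA : Svd A UA VA s χ) (hB : Svd B UB VB t φ)
    (hC : Svd C UC VC r ψ) :
    trace (diagonal (hsgn ℂ) * A * diagonal (hsgn ℂ) * B * diagonal (hsgn ℂ) * C) =
      ∑ i, ∑ j, ∑ l, ((s i : ℂ) * t j * r l) * (crd VC UA l i * crd VA UB i j * crd VB UC j l) := by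
  set h : Matrix (Fin 2 × ι) (Fin 2 × ι) ℂ := diagonal (hsgn ℂ) with hh
  have e1 : trace (h * A * h * B * h * C) =
      trace (dg s * (crd VA UB) * (dg t * (crd VB UC)) * (dg r * (crd VC UA))) := by
    unfold crd
    rw [← hh, hA.eq, hB.eq, hC.eq]
    have e2 : h * (UA * dg s * VAᴴ) * h * (UB * dg t * VBᴴ) * h * (UC * dg r * VCᴴ) =
        (h * UA) * (dg s * (VAᴴ * h * UB) * (dg t * (VBᴴ * h * UC)) * (dg r * VCᴴ)) := by
      simp only [Matrix.mul_assoc]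
    rw [e2, trace_mul_comm]
    simp only [Matrix.mul_assoc]
  rw [e1, trace]
  refine Finset.sum_congr rfl fun i _ => ?_
  rw [diag_apply, Matrix.mul_apply, Finset.sum_comm]
  refine Finset.sum_congr rfl fun l _ => ?_
  rw [Matrix.mul_apply, Finset.sum_mul]
  refine Finset.sum_congr rfl fun j _ => ?_
  simp only [dg, Matrix.diagonal_mul]
  ring

theorem laBox_of_gapXX (hG : GapXX) : LaBox := by
  intro ι _ _ A B C
  obtain ⟨UA, VA, s, χ, hA⟩ := exists_svd A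
  obtain ⟨UB, VB, t, φ, hB⟩ := exists_svd B
  obtain ⟨UC, VC, r, ψ, hC⟩ := exists_svd C
  rw [trace_svd A B C UA VA UB VB UC VC s χ t φ r ψ hA hB hC]
  refine (tri s t r hA.s0 hB.s0 hC.s0 (crd VC UA) (crd VA UB) (crd VB UC)
    (contr_hsgn _ _ χ hA.c1 hC.vv hA.uu) (contr_hsgn _ _ φ hB.c1 hA.vv hB.uu)
    (contr_hsgn _ _ ψ hC.c1 hB.vv hC.uu)).trans ?_
  have g1 := hG ι A C UA VA UC VC s χ r ψ hA hC
  have g2 := hG ι B A UB VB UA VA t φ s χ hB hA
  have g3 := hG ι C B UC VC UB VB r ψ t φ hC hB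
  rw [Finset.sum_comm] at g2 g3
  linarith

end Crest.Agent.R72
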