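import Crest.Agent.R72.DDefs

/-!
# Row 72, S0097: telescoping over the dyadic tree

`disc_of_box`: from the box inequality for a functional `Bf` of three real square matrices to the
discrete dyadic inequality.
-/

set_option autoImplicit false

open Finset

namespace Crest.Agent.R72

/-- index type of a box with `2 ^ p` cells -/
def Idx : ℕ → Type
  | 0 => Unit
  | (p + 1) => Fin 2 × Idx p

instance instFintypeIdx : (p : ℕ) → Fintype (Idx p)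
  | 0 => inferInstanceAs (Fintype Unit)
  | (p + 1) => @instFintypeProd (Fin 2) (Idx p) _ (instFintypeIdx p)

instance instDecEqIdx : (p : ℕ) → DecidableEq (Idx p)
  | 0 => inferInstanceAs (DecidableEq Unit)
  | (p + 1) => @instDecidableEqProd (Fin 2) (Idx p) _ (instDecEqIdx p)

/-- position of a cell -/
def Idx.val : (p : ℕ) → Idx p → ℕ
  | 0, _ => 0
  | (p + 1), x => x.1.val * 2 ^ p + Idx.val p x.2

theorem Idx.val_succ (p : ℕ) (a : Fin 2) (i : Idx p) :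
    Idx.val (p + 1) (a, i) = a.val * 2 ^ p + Idx.val p i := rfl

theorem Idx.val_lt : ∀ (p : ℕ) (x : Idx p), Idx.val p x < 2 ^ p
  | 0, _ => by show 0 < 1; norm_num
  | (p + 1), (a, i) => by
      rw [Idx.val_succ]
      have h1 := Idx.val_lt p i
      have h2 := a.isLt
      have h3 : a.val * 2 ^ p ≤ 1 * 2 ^ p := Nat.mul_le_mul_right _ (by omega)
      rw [pow_succ]; omega

theorem sum_idx_succ {A : Type} [AddCommMonoid A] (p : ℕ) (g : Idx (p + 1) → A) :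
    ∑ x : Idx (p + 1), g x = ∑ a : Fin 2, ∑ i : Idx p, g (a, i) :=
  Fintype.sum_prod_type (α₁ := Fin 2) (α₂ := Idx p) g

theorem sum_idx {A : Type} [AddCommMonoid A] : ∀ (p : ℕ) (g : ℕ → A),
    ∑ x : Idx p, g (Idx.val p x) = ∑ i ∈ range (2 ^ p), g i
  | 0, g => by
      show ∑ x : Unit, g 0 = _
      simp
  | (p + 1), g => by
      rw [sum_idx_succ, Fin.sum_univ_two, pow_succ, mul_two, sum_range_add]
      congr 1
      · rw [← sum_idx p g]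
        refine Finset.sum_congr rfl (fun i _ => ?_)
        rw [Idx.val_succ]; simp
      · rw [← sum_idx p (fun i => g (2 ^ p + i))]
        refine Finset.sum_congr rfl (fun i _ => ?_)
        rw [Idx.val_succ]; simp

/-- the matrix of a box -/
def subm (p n m : ℕ) (M : ℕ → ℕ → ℝ) : Matrix (Idx p) (Idx p) ℝ :=
  Matrix.of fun i j => M (n * 2 ^ p + Idx.val p i) (m * 2 ^ p + Idx.val p j)

/-- the matrix of a box, in block form -/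
def subm2 (p n m : ℕ) (M : ℕ → ℕ → ℝ) : Matrix (Fin 2 × Idx p) (Fin 2 × Idx p) ℝ :=
  Matrix.of fun i j => M (n * 2 ^ (p + 1) + (i.1.val * 2 ^ p + Idx.val p i.2))
    (m * 2 ^ (p + 1) + (j.1.val * 2 ^ p + Idx.val p j.2))

theorem dblk_subm2 (p n m : ℕ) (M : ℕ → ℕ → ℝ) (a b : Fin 2) :
    dblk (subm2 p n m M) a b = subm p (2 * n + a.val) (2 * m + b.val) M := by
  ext i j
  show M (n * 2 ^ (p + 1) + (a.val * 2 ^ p + Idx.val p i))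
      (m * 2 ^ (p + 1) + (b.val * 2 ^ p + Idx.val p j)) =
    M ((2 * n + a.val) * 2 ^ p + Idx.val p i) ((2 * m + b.val) * 2 ^ p + Idx.val p j)
  congr 1 <;> ring

theorem sg_val (p : ℕ) (x : Fin 2 × Idx p) :
    sg (p + 1) (x.1.val * 2 ^ p + Idx.val p x.2) = hsgn ℝ x := by
  obtain ⟨a, i⟩ := x
  unfold sg hsgn
  rw [Nat.add_sub_cancel]
  have h1 := Idx.val_lt p i
  fin_cases a
  · simp [h1]
  · simp

theorem sum_idx2 {A : Type} [AddCommMonoid A] (p : ℕ) (g : ℕ → A) :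
    ∑ x : Fin 2 × Idx p, g (x.1.val * 2 ^ p + Idx.val p x.2) = ∑ i ∈ range (2 ^ (p + 1)), g i :=
  sum_idx (p + 1) g

/-- the trace form of a block box -/
noncomputable def trForm {ι : Type} [Fintype ι] [DecidableEq ι]
    (F₀ F₁ F₂ : Matrix (Fin 2 × ι) (Fin 2 × ι) ℝ) : ℝ :=
  Matrix.trace (Matrix.diagonal (hsgn ℝ) * F₀ * Matrix.diagonal (hsgn ℝ) * F₁ *
    Matrix.diagonal (hsgn ℝ) * F₂)

theorem trForm_eq {ι : Type} [Fintype ι] [DecidableEq ι]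
    (F₀ F₁ F₂ : Matrix (Fin 2 × ι) (Fin 2 × ι) ℝ) :
    trForm F₀ F₁ F₂ = ∑ i, ∑ j, ∑ l, F₀ i j * F₁ j l * F₂ l i * (hsgn ℝ i * hsgn ℝ j * hsgn ℝ l) := by
  unfold trForm
  rw [Matrix.trace]
  refine Finset.sum_congr rfl (fun i _ => ?_)
  rw [Matrix.diag_apply, Matrix.mul_apply]
  rw [Finset.sum_comm]
  refine Finset.sum_congr rfl (fun l _ => ?_)
  rw [Matrix.mul_diagonal, Matrix.mul_apply, Finset.sum_mul, Finset.sum_mul]
  refine Finset.sum_congr rfl (fun j _ => ?_)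
  rw [Matrix.mul_diagonal, Matrix.diagonal_mul]
  ring

theorem dform_eq (p n₀ n₁ n₂ : ℕ) (M₀ M₁ M₂ : ℕ → ℕ → ℝ) :
    dform (p + 1) n₀ n₁ n₂ M₀ M₁ M₂ = ((2 : ℝ) ^ (p + 1))⁻¹ *
      trForm (subm2 p n₀ n₁ M₀) (subm2 p n₁ n₂ M₁) (subm2 p n₂ n₀ M₂) := by
  unfold dform
  congr 1
  rw [trForm_eq, ← sum_idx2 p]
  refine Finset.sum_congr rfl (fun i _ => ?_)
  rw [← sum_idx2 p]
  refine Finset.sum_congr rfl (fun j _ => ?_)
  rw [← sum_idx2 p]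
  refine Finset.sum_congr rfl (fun l _ => ?_)
  rw [sg_val, sg_val, sg_val]
  rfl

theorem xor_two_mul (m n : ℕ) (a b : Fin 2) :
    (2 * m + a.val) ^^^ (2 * n + b.val) = 2 * (m ^^^ n) + (a + b).val := by
  have ha := a.isLt
  have hb := b.isLt
  have h1 : ((2 * m + a.val) ^^^ (2 * n + b.val)) / 2 = m ^^^ n := by
    rw [Nat.xor_div_two]
    congr 1 <;> omega
  have h2 : ((2 * m + a.val) ^^^ (2 * n + b.val)) % 2 = (a + b).val := by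
    rw [Nat.xor_mod_two_eq, Fin.val_add]
    omega
  rw [← h1, ← h2]
  exact (Nat.div_add_mod _ 2).symm

/-- sums over the children -/
theorem sum_range_two_mul {A : Type} [AddCommMonoid A] (n : ℕ) (g : ℕ → A) :
    ∑ i ∈ range (2 * n), g i = ∑ i ∈ range n, ∑ a : Fin 2, g (2 * i + a.val) := by
  induction n with
  | zero => simp
  | succ n ih =>
    rw [Finset.sum_range_succ, ← ih, Nat.mul_succ, Finset.sum_range_succ, Finset.sum_range_succ,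
      Fin.sum_univ_two]
    simp [add_assoc]

theorem sum_xor_left {A : Type} [AddCommMonoid A] (L : ℕ) (j : ℕ) (hj : j < 2 ^ L) (g : ℕ → A) :
    ∑ i ∈ range (2 ^ L), g (j ^^^ i) = ∑ i ∈ range (2 ^ L), g i := by
  refine Finset.sum_nbij' (fun i => j ^^^ i) (fun i => j ^^^ i) ?_ ?_ ?_ ?_ ?_
  · intro i hi
    exact mem_range.2 (Nat.xor_lt_two_pow hj (mem_range.1 hi))
  · intro i hi
    exact mem_range.2 (Nat.xor_lt_two_pow hj (mem_range.1 hi))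
  · intro i _; exact Nat.xor_xor_cancel_left j i
  · intro i _; exact Nat.xor_xor_cancel_left j i
  · intro i _; rfl

theorem sum_xor {A : Type} [AddCommMonoid A] (L : ℕ) (g : ℕ → ℕ → A) :
    ∑ i ∈ range (2 ^ L), ∑ j ∈ range (2 ^ L), g j (i ^^^ j) =
      ∑ i ∈ range (2 ^ L), ∑ j ∈ range (2 ^ L), g i j := by
  rw [Finset.sum_comm]
  refine Finset.sum_congr rfl (fun j hj => ?_)
  rw [← sum_xor_left L j (mem_range.1 hj) (g j)]
  exact Finset.sum_congr rfl (fun i _ => by rw [Nat.xor_comm])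

theorem sum_xor' {A : Type} [AddCommMonoid A] (L : ℕ) (g : ℕ → ℕ → A) :
    ∑ i ∈ range (2 ^ L), ∑ j ∈ range (2 ^ L), g (i ^^^ j) i =
      ∑ i ∈ range (2 ^ L), ∑ j ∈ range (2 ^ L), g i j := by
  rw [Finset.sum_comm (s := range (2 ^ L)) (t := range (2 ^ L)) (f := fun i j => g i j)]
  refine Finset.sum_congr rfl (fun j hj => ?_)
  exact sum_xor_left L j (mem_range.1 hj) (fun i => g i j)

section main

variable (Bf : ∀ (ι : Type) [Fintype ι] [DecidableEq ι],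
  Matrix ι ι ℝ → Matrix ι ι ℝ → Matrix ι ι ℝ → ℝ)

/-- normalised Bellman functional of a box -/
noncomputable def bb (M₀ M₁ M₂ : ℕ → ℕ → ℝ) (p n₀ n₁ : ℕ) : ℝ :=
  ((2 : ℝ) ^ p)⁻¹ * Bf (Idx p) (subm p n₀ n₁ M₀) (subm p n₁ (n₀ ^^^ n₁) M₁)
    (subm p (n₀ ^^^ n₁) n₀ M₂)

theorem bb_step
    (hbox : ∀ (ι : Type) [Fintype ι] [DecidableEq ι] (F₀ F₁ F₂ : Matrix (Fin 2 × ι) (Fin 2 × ι) ℝ),
      Bf (Fin 2 × ι) F₀ F₁ F₂ + |trForm F₀ F₁ F₂| ≤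
        2 * ∑ a : Fin 2, ∑ b : Fin 2, Bf ι (dblk F₀ a b) (dblk F₁ b (a + b)) (dblk F₂ (a + b) a))
    (M₀ M₁ M₂ : ℕ → ℕ → ℝ) (p n₀ n₁ : ℕ) :
    bb Bf M₀ M₁ M₂ (p + 1) n₀ n₁ + |dform (p + 1) n₀ n₁ (n₀ ^^^ n₁) M₀ M₁ M₂| ≤
      ∑ a : Fin 2, ∑ b : Fin 2, bb Bf M₀ M₁ M₂ p (2 * n₀ + a.val) (2 * n₁ + b.val) := by
  have h := hbox (Idx p) (subm2 p n₀ n₁ M₀) (subm2 p n₁ (n₀ ^^^ n₁) M₁) (subm2 p (n₀ ^^^ n₁) n₀ M₂)
  have hpos : (0 : ℝ) < ((2 : ℝ) ^ (p + 1))⁻¹ := by positivity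
  have e1 : bb Bf M₀ M₁ M₂ (p + 1) n₀ n₁ = ((2 : ℝ) ^ (p + 1))⁻¹ *
      Bf (Fin 2 × Idx p) (subm2 p n₀ n₁ M₀) (subm2 p n₁ (n₀ ^^^ n₁) M₁)
        (subm2 p (n₀ ^^^ n₁) n₀ M₂) := rfl
  have e2 : |dform (p + 1) n₀ n₁ (n₀ ^^^ n₁) M₀ M₁ M₂| = ((2 : ℝ) ^ (p + 1))⁻¹ *
      |trForm (subm2 p n₀ n₁ M₀) (subm2 p n₁ (n₀ ^^^ n₁) M₁) (subm2 p (n₀ ^^^ n₁) n₀ M₂)| := by
    rw [dform_eq, abs_mul, abs_of_pos hpos]
  rw [e1, e2, ← mul_add]
  refine (mul_le_mul_of_nonneg_left h hpos.le).trans (le_of_eq ?_)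
  rw [← mul_assoc]
  have e3 : ((2 : ℝ) ^ (p + 1))⁻¹ * 2 = ((2 : ℝ) ^ p)⁻¹ := by
    rw [pow_succ]; field_simp
  rw [e3, Finset.mul_sum]
  refine Finset.sum_congr rfl (fun a _ => ?_)
  rw [Finset.mul_sum]
  refine Finset.sum_congr rfl (fun b _ => ?_)
  rw [dblk_subm2, dblk_subm2, dblk_subm2]
  unfold bb
  rw [xor_two_mul]

theorem disc_of_box
    (hbox : ∀ (ι : Type) [Fintype ι] [DecidableEq ι] (F₀ F₁ F₂ : Matrix (Fin 2 × ι) (Fin 2 × ι) ℝ),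
      Bf (Fin 2 × ι) F₀ F₁ F₂ + |trForm F₀ F₁ F₂| ≤
        2 * ∑ a : Fin 2, ∑ b : Fin 2, Bf ι (dblk F₀ a b) (dblk F₁ b (a + b)) (dblk F₂ (a + b) a))
    (hnn : ∀ (ι : Type) [Fintype ι] [DecidableEq ι] (F₀ F₁ F₂ : Matrix ι ι ℝ), 0 ≤ Bf ι F₀ F₁ F₂)
    (hone : ∀ F₀ F₁ F₂ : Matrix Unit Unit ℝ, Bf Unit F₀ F₁ F₂ ≤
      2 * Real.sqrt 2 * (|F₀ () ()| ^ 3 + |F₁ () ()| ^ 3 + |F₂ () ()| ^ 3))
    (L : ℕ) (M₀ M₁ M₂ : ℕ → ℕ → ℝ) :
    ∑ p ∈ Icc 1 L, ∑ n₀ ∈ range (2 ^ (L - p)), ∑ n₁ ∈ range (2 ^ (L - p)),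
        |dform p n₀ n₁ (n₀ ^^^ n₁) M₀ M₁ M₂| ≤
      2 * Real.sqrt 2 * ∑ i ∈ range (2 ^ L), ∑ j ∈ range (2 ^ L),
        (|M₀ i j| ^ 3 + |M₁ i j| ^ 3 + |M₂ i j| ^ 3) := by
  have step : ∀ p q : ℕ,
      (∑ i ∈ range (2 ^ q), ∑ j ∈ range (2 ^ q), bb Bf M₀ M₁ M₂ (p + 1) i j) +
        (∑ i ∈ range (2 ^ q), ∑ j ∈ range (2 ^ q), |dform (p + 1) i j (i ^^^ j) M₀ M₁ M₂|) ≤
      ∑ i ∈ range (2 ^ (q + 1)), ∑ j ∈ range (2 ^ (q + 1)), bb Bf M₀ M₁ M₂ p i j := by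
    intro p q
    have e : 2 ^ (q + 1) = 2 * 2 ^ q := by rw [pow_succ, mul_comm]
    rw [e, sum_range_two_mul, ← Finset.sum_add_distrib]
    refine Finset.sum_le_sum (fun i _ => ?_)
    rw [← Finset.sum_add_distrib]
    have e2 : ∑ a : Fin 2, ∑ j ∈ range (2 * 2 ^ q), bb Bf M₀ M₁ M₂ p (2 * i + a.val) j =
        ∑ j ∈ range (2 ^ q), ∑ a : Fin 2, ∑ b : Fin 2,
          bb Bf M₀ M₁ M₂ p (2 * i + a.val) (2 * j + b.val) := by
      rw [Finset.sum_comm (s := range (2 ^ q))]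
      exact Finset.sum_congr rfl (fun a _ => sum_range_two_mul _ _)
    rw [e2]
    exact Finset.sum_le_sum (fun j _ => bb_step Bf hbox M₀ M₁ M₂ p i j)
  have tele : ∀ p : ℕ, p ≤ L →
      (∑ i ∈ range (2 ^ (L - p)), ∑ j ∈ range (2 ^ (L - p)), bb Bf M₀ M₁ M₂ p i j) +
        (∑ p' ∈ Icc 1 p, ∑ i ∈ range (2 ^ (L - p')), ∑ j ∈ range (2 ^ (L - p')),
          |dform p' i j (i ^^^ j) M₀ M₁ M₂|) ≤
      ∑ i ∈ range (2 ^ L), ∑ j ∈ range (2 ^ L), bb Bf M₀ M₁ M₂ 0 i j := by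
    intro p
    induction p with
    | zero => intro _; simp
    | succ p ih =>
      intro hp
      have h1 := ih (by omega)
      have h2 := step p (L - (p + 1))
      have e : L - (p + 1) + 1 = L - p := by omega
      rw [e] at h2
      rw [← Finset.insert_Icc_right_eq_Icc_add_one (by omega : (1 : ℕ) ≤ p + 1),
        Finset.sum_insert (by simp)]
      linarith
  have hL := tele L le_rfl
  have hb0 : 0 ≤ ∑ i ∈ range (2 ^ (L - L)), ∑ j ∈ range (2 ^ (L - L)), bb Bf M₀ M₁ M₂ L i j :=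
    Finset.sum_nonneg (fun i _ => Finset.sum_nonneg (fun j _ => by
      unfold bb
      exact mul_nonneg (by positivity) (hnn _ _ _ _)))
  have hbase : ∀ i j, bb Bf M₀ M₁ M₂ 0 i j ≤ 2 * Real.sqrt 2 *
      (|M₀ i j| ^ 3 + |M₁ j (i ^^^ j)| ^ 3 + |M₂ (i ^^^ j) i| ^ 3) := by
    intro i j
    have h := hone (subm 0 i j M₀) (subm 0 j (i ^^^ j) M₁) (subm 0 (i ^^^ j) i M₂)
    have e0 : ∀ (a b : ℕ) (M : ℕ → ℕ → ℝ), (subm 0 a b M : Matrix Unit Unit ℝ) () () = M a b := by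
      intro a b M
      show M (a * 2 ^ 0 + 0) (b * 2 ^ 0 + 0) = M a b
      simp
    rw [e0, e0, e0] at h
    have e1 : bb Bf M₀ M₁ M₂ 0 i j = Bf Unit (subm 0 i j M₀) (subm 0 j (i ^^^ j) M₁)
        (subm 0 (i ^^^ j) i M₂) := by
      show ((2 : ℝ) ^ 0)⁻¹ * _ = _
      rw [pow_zero, inv_one, one_mul]; rfl
    rw [e1]; exact h
  calc _ ≤ ∑ i ∈ range (2 ^ L), ∑ j ∈ range (2 ^ L), bb Bf M₀ M₁ M₂ 0 i j := by linarith
    _ ≤ ∑ i ∈ range (2 ^ L), ∑ j ∈ range (2 ^ L), 2 * Real.sqrt 2 *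
      (|M₀ i j| ^ 3 + |M₁ j (i ^^^ j)| ^ 3 + |M₂ (i ^^^ j) i| ^ 3) :=
        Finset.sum_le_sum (fun i _ => Finset.sum_le_sum (fun j _ => hbase i j))
    _ = 2 * Real.sqrt 2 * ∑ i ∈ range (2 ^ L), ∑ j ∈ range (2 ^ L),
        (|M₀ i j| ^ 3 + |M₁ i j| ^ 3 + |M₂ i j| ^ 3) := by
      simp only [← Finset.mul_sum, Finset.sum_add_distrib]
      rw [sum_xor L (fun i j => |M₁ i j| ^ 3), sum_xor' L (fun i j => |M₂ i j| ^ 3)]

end main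

end Crest.Agent.R72
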