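import Crest.Agent.R72.FDefs
import Crest.Agent.R72.LASvd

/-!
# Row 72, module F, piece F_BR: from windows to matrices over `Fin 2 × Fin L`

* `tr32_reindex` (LASvd, helper12): `tr32 (X.submatrix e e) = tr32 X` for an equivalence `e`.
  `finProdFinEquiv : Fin 2 × Fin L ≃ Fin (2 * L)`, value `i + L * a`.
* `gapb_eq` : both `tr32` terms of `gapb` are `submatrix` of the `Fin 2 × Fin L` matrices (the column
  sums over `Fin (2 * L)` are sums over `Fin 2 × Fin L`, `Equiv.sum_comp`).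
* `tau_eq` : `∑ i ∈ range (2 * L)` = sum over `Fin (2 * L)` (`Finset.sum_range`) = sum over
  `Fin 2 × Fin L`; `hs L (a * L + i) = sgn2 (a, i)`.
* `blk2_cT`, `gapm_comm` : immediate.
-/

set_option autoImplicit false

namespace Crest.Agent.R72

open Finset Matrix
open scoped MatrixOrder ComplexOrder

variable {N : ℕ}

theorem sum_range_two (L : ℕ) {β : Type*} [AddCommMonoid β] (f : ℕ → β) :
    ∑ i ∈ range (2 * L), f i = ∑ i : Fin 2 × Fin L, f ((i.1 : ℕ) * L + (i.2 : ℕ)) := by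
  rw [two_mul, Finset.sum_range_add, Fintype.sum_prod_type, Fin.sum_univ_two, Finset.sum_range,
    Finset.sum_range]
  simp

theorem hs_eq (L : ℕ) (i : Fin 2 × Fin L) : hs L ((i.1 : ℕ) * L + (i.2 : ℕ)) = sgn2 i := by
  obtain ⟨a, i⟩ := i
  fin_cases a
  · simp [hs, sgn2]
  · simp [hs, sgn2]

theorem tau_eq (A B H : Fn N) (L : ℕ) (q₀ q₁ q₂ : ZMod N) :
    tau A B H L q₀ q₁ q₂ = trf (blk2 A L q₀ q₁) (blk2 B L q₁ q₂) (blk2 H L q₂ q₀) := by
  unfold tau trf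
  rw [sum_range_two]
  refine Finset.sum_congr rfl fun i _ => ?_
  rw [sum_range_two]
  refine Finset.sum_congr rfl fun j _ => ?_
  rw [sum_range_two]
  refine Finset.sum_congr rfl fun l _ => ?_
  rw [hs_eq, hs_eq, hs_eq]
  rfl

private theorem Gm_apply (P R : Fn N) (K L : ℕ) (x y z : ZMod N) (i i' : Fin K) :
    Gm P R K (2 * L) x y z i i' =
      (∑ j : Fin 2 × Fin L, P (x + ((i : ℕ) : ZMod N)) (y + (((j.1 : ℕ) * L + (j.2 : ℕ) : ℕ) : ZMod N)) *
        star (P (x + ((i' : ℕ) : ZMod N)) (y + (((j.1 : ℕ) * L + (j.2 : ℕ) : ℕ) : ZMod N)))) +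
      ∑ j : Fin 2 × Fin L, R (x + ((i : ℕ) : ZMod N)) (z + (((j.1 : ℕ) * L + (j.2 : ℕ) : ℕ) : ZMod N)) *
        star (R (x + ((i' : ℕ) : ZMod N)) (z + (((j.1 : ℕ) * L + (j.2 : ℕ) : ℕ) : ZMod N))) := by
  rw [← sum_range_two L (fun j : ℕ => P (x + ((i : ℕ) : ZMod N)) (y + (j : ZMod N)) *
      star (P (x + ((i' : ℕ) : ZMod N)) (y + (j : ZMod N)))),
    ← sum_range_two L (fun j : ℕ => R (x + ((i : ℕ) : ZMod N)) (z + (j : ZMod N)) *
      star (R (x + ((i' : ℕ) : ZMod N)) (z + (j : ZMod N)))), Finset.sum_range, Finset.sum_range]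
  rfl

private theorem blk2_mul_apply (P R : Fn N) (L : ℕ) (x y z : ZMod N) (i i' : Fin 2 × Fin L) :
    (blk2 P L x y * (blk2 P L x y)ᴴ + blk2 R L x z * (blk2 R L x z)ᴴ) i i' =
      (∑ j : Fin 2 × Fin L, P (x + (((i.1 : ℕ) * L + (i.2 : ℕ) : ℕ) : ZMod N))
          (y + (((j.1 : ℕ) * L + (j.2 : ℕ) : ℕ) : ZMod N)) *
        star (P (x + (((i'.1 : ℕ) * L + (i'.2 : ℕ) : ℕ) : ZMod N))
          (y + (((j.1 : ℕ) * L + (j.2 : ℕ) : ℕ) : ZMod N)))) +
      ∑ j : Fin 2 × Fin L, R (x + (((i.1 : ℕ) * L + (i.2 : ℕ) : ℕ) : ZMod N))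
          (z + (((j.1 : ℕ) * L + (j.2 : ℕ) : ℕ) : ZMod N)) *
        star (R (x + (((i'.1 : ℕ) * L + (i'.2 : ℕ) : ℕ) : ZMod N))
          (z + (((j.1 : ℕ) * L + (j.2 : ℕ) : ℕ) : ZMod N))) := rfl

theorem gapb_eq (P R : Fn N) (L : ℕ) (x y z : ZMod N) :
    gapb P R L x y z = gapm (blk2 P L x y) (blk2 R L x z) := by
  unfold gapb gapm
  congr 1
  · congr 1
    rw [Finset.sum_range]
    refine Finset.sum_congr rfl fun a _ => ?_
    congr 2
    ext i i'
    rw [Gm_apply, Matrix.submatrix_apply, blk2_mul_apply]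
    simp only [Nat.cast_add, add_assoc]
  · have hX : (blk2 P L x y * (blk2 P L x y)ᴴ + blk2 R L x z * (blk2 R L x z)ᴴ).PosSemidef :=
      (posSemidef_self_mul_conjTranspose _).add (posSemidef_self_mul_conjTranspose _)
    rw [← tr32_reindex hX (finProdFinEquiv (m := 2) (n := L)).symm]
    congr 1
    ext i i'
    obtain ⟨⟨a, b⟩, rfl⟩ := finProdFinEquiv.surjective i
    obtain ⟨⟨a', b'⟩, rfl⟩ := finProdFinEquiv.surjective i'
    rw [Gm_apply, Matrix.submatrix_apply, Equiv.symm_apply_apply, Equiv.symm_apply_apply,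
      blk2_mul_apply]
    have e : ∀ (a : Fin 2) (b : Fin L), ((finProdFinEquiv (a, b) : Fin (2 * L)) : ℕ) =
        (a : ℕ) * L + (b : ℕ) := by
      intro a b
      rw [finProdFinEquiv_apply_val]
      simp only
      ring
    rw [e, e]

theorem blk2_cT (H : Fn N) (L : ℕ) (x y : ZMod N) : blk2 (cT H) L x y = (blk2 H L y x)ᴴ := by
  ext i j
  rfl

theorem gapm_comm {ι κ κ' : Type*} [Fintype ι] [DecidableEq ι] [Fintype κ] [Fintype κ']
    (P : Matrix (Fin 2 × ι) κ ℂ) (R : Matrix (Fin 2 × ι) κ' ℂ) : gapm P R = gapm R P := by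
  unfold gapm
  rw [add_comm (P * Pᴴ)]

end Crest.Agent.R72
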