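import Mathlib

/-!
# Row 72, module F, piece F_COUNT: lattice points of the cube on the middle planes

`#{(a,b,c) ∈ [0,n)³ : a + b + c = t} ≥ n² / 2` for `n - 1 ≤ t ≤ 2n - 2`.
Proof: the triples are in bijection with the pairs `(a, b)` with `u ≤ a + b ≤ t`, `u = t - (n-1)`.
The pairs with `a + b < u` are `u(u+1)/2`, those with `a + b > t` are `v(v+1)/2`, `v = 2n - 2 - t`
(symmetry `a ↦ n-1-a`), and `u + v = n - 1`, so the count is
`n² - u(u+1)/2 - v(v+1)/2 ≥ n² - n(n-1)/2 ≥ n²/2`.
Alternative: for fixed `a ∈ [0,n)` the number of `b` is at least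
`min (t - a + 1) (2n - 1 - (t - a)) n`; sum over `a`.
-/

set_option autoImplicit false

namespace Crest.Agent.R72

open Finset

private theorem fc1_sum_abs (u n : ℕ) (h : u + 1 ≤ n) :
    2 * ∑ a ∈ range n, ((a - u) + (u - a)) ≤ n * (n - 1) := by
  induction n, h using Nat.le_induction with
  | base =>
    have h1 : ∑ a ∈ range (u + 1), ((a - u) + (u - a)) = ∑ a ∈ range (u + 1), a := by
      rw [← Finset.sum_range_reflect (fun a => a) (u + 1)]
      refine Finset.sum_congr rfl fun a ha => ?_
      rw [Finset.mem_range] at ha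
      omega
    have h2 := Finset.sum_range_id_mul_two (u + 1)
    rw [h1]
    omega
  | succ n hn ih =>
    rw [Finset.sum_range_succ, mul_add]
    have h1 : n * (n - 1) + 2 * n = (n + 1) * (n + 1 - 1) := by
      obtain ⟨m, rfl⟩ : ∃ m, n = m + 1 := ⟨n - 1, by omega⟩
      simp only [Nat.add_sub_cancel]
      ring
    have h3 : 2 * ((n - u) + (u - n)) ≤ 2 * n := by omega
    omega

theorem count_ge (n t : ℕ) (hn : 1 ≤ n) (h1 : n - 1 ≤ t) (h2 : t < 2 * n - 1) :
    n ^ 2 ≤ 2 * (((range n ×ˢ range n) ×ˢ range n).filter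
      fun p => p.1.1 + p.1.2 + p.2 = t).card := by
  obtain ⟨u, hu⟩ : ∃ u, t = u + (n - 1) := ⟨t - (n - 1), by omega⟩
  have hun : u + 1 ≤ n := by omega
  -- row counts
  have hrow : ∀ a ∈ range n, n - (a - u) - (u - a) ≤
      ((range n).filter fun b => u ≤ a + b ∧ a + b ≤ t).card := by
    intro a ha
    rw [Finset.mem_range] at ha
    have hsub : Finset.Ico (u - a) (n - (a - u)) ⊆
        (range n).filter fun b => u ≤ a + b ∧ a + b ≤ t := by
      intro b hb
      rw [Finset.mem_Ico] at hb
      rw [Finset.mem_filter, Finset.mem_range]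
      omega
    have := Finset.card_le_card hsub
    rwa [Nat.card_Ico] at this
  have hcard : ∑ a ∈ range n, ((range n).filter fun b => u ≤ a + b ∧ a + b ≤ t).card ≤
      (((range n ×ˢ range n) ×ˢ range n).filter fun p => p.1.1 + p.1.2 + p.2 = t).card := by
    rw [Finset.card_filter, Finset.sum_product, Finset.sum_product]
    refine Finset.sum_le_sum fun a ha => ?_
    rw [Finset.card_filter]
    refine Finset.sum_le_sum fun b hb => ?_
    rw [Finset.mem_range] at ha hb
    split_ifs with h
    · have hc : t - (a + b) ∈ range n := by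
        rw [Finset.mem_range]
        omega
      have h3 : (if a + b + (t - (a + b)) = t then 1 else 0) ≤
          ∑ c ∈ range n, if a + b + c = t then 1 else 0 :=
        Finset.single_le_sum (f := fun c => if a + b + c = t then 1 else 0)
          (fun c _ => Nat.zero_le _) hc
      rwa [if_pos (by omega)] at h3
    · exact Nat.zero_le _
  have h3 : ∑ a ∈ range n, (n - (a - u) - (u - a)) ≤
      (((range n ×ˢ range n) ×ˢ range n).filter fun p => p.1.1 + p.1.2 + p.2 = t).card :=
    (Finset.sum_le_sum hrow).trans hcard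
  have h4 : n * n ≤ ∑ a ∈ range n, (n - (a - u) - (u - a)) +
      ∑ a ∈ range n, ((a - u) + (u - a)) := by
    rw [← Finset.sum_add_distrib]
    have h5 : n * n = ∑ _a ∈ range n, n := by
      rw [Finset.sum_const, Finset.card_range, smul_eq_mul]
    conv_lhs => rw [h5]
    refine Finset.sum_le_sum fun a _ => ?_
    omega
  have h6 := fc1_sum_abs u n hun
  have h7 : n * (n - 1) ≤ n * n := Nat.mul_le_mul_left n (Nat.sub_le n 1)
  rw [pow_two]
  omega

end Crest.Agent.R72
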