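import Crest.Agent.R72.FP
import Crest.Agent.R72.FC1

/-!
# Row 72, module F, piece F_CUBE: the planes `n - 1 ≤ t ≤ 2 n - 2` in the cube average

`cub_ge` : `cub n F = n⁻³ ∑_{p ∈ [0,n)³} F(|p|) ≥ n⁻³ ∑_t #{|p| = t} F t` (`Finset.sum_fiberwise..`,
`F ≥ 0`), `count_ge`.  `sum_pl_le` : `cub_ge` with `F t = Gap P R L (pl N n L t)`
(definition of `GapE` and `pl`).
-/

set_option autoImplicit false

namespace Crest.Agent.R72

open Finset

theorem cub_ge (n : ℕ) (hn : 1 ≤ n) (F : ℕ → ℝ) (hF : ∀ t, 0 ≤ F t) :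
    ∑ t ∈ Ico (n - 1) (2 * n - 1), F t ≤ 2 * n * cub n F := by
  have hn0 : (0 : ℝ) < n := by exact_mod_cast hn
  have h1 : ∑ a ∈ range n, ∑ b ∈ range n, ∑ c ∈ range n, F (a + b + c) =
      ∑ p ∈ (range n ×ˢ range n) ×ˢ range n, F (p.1.1 + p.1.2 + p.2) := by
    rw [Finset.sum_product, Finset.sum_product]
  have h2 : ∑ t ∈ Ico (n - 1) (2 * n - 1),
      ∑ p ∈ (range n ×ˢ range n) ×ˢ range n with p.1.1 + p.1.2 + p.2 = t,
        F (p.1.1 + p.1.2 + p.2) ≤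
      ∑ p ∈ (range n ×ˢ range n) ×ˢ range n, F (p.1.1 + p.1.2 + p.2) :=
    Finset.sum_fiberwise_le_sum_of_sum_fiber_nonneg fun t _ =>
      Finset.sum_nonneg fun p _ => hF _
  have h3 : ∀ t ∈ Ico (n - 1) (2 * n - 1), (n : ℝ) ^ 2 / 2 * F t ≤
      ∑ p ∈ (range n ×ˢ range n) ×ˢ range n with p.1.1 + p.1.2 + p.2 = t,
        F (p.1.1 + p.1.2 + p.2) := by
    intro t ht
    rw [Finset.mem_Ico] at ht
    have h4 : ∑ p ∈ (range n ×ˢ range n) ×ˢ range n with p.1.1 + p.1.2 + p.2 = t,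
        F (p.1.1 + p.1.2 + p.2) =
        ((((range n ×ˢ range n) ×ˢ range n).filter
          fun p => p.1.1 + p.1.2 + p.2 = t).card : ℝ) * F t := by
      rw [Finset.sum_congr rfl (g := fun _ => F t), Finset.sum_const, nsmul_eq_mul]
      intro p hp
      rw [(Finset.mem_filter.1 hp).2]
    rw [h4]
    refine mul_le_mul_of_nonneg_right ?_ (hF t)
    have h5 := count_ge n t hn ht.1 ht.2
    have h6 : (n : ℝ) ^ 2 ≤ 2 * ((((range n ×ˢ range n) ×ˢ range n).filter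
          fun p => p.1.1 + p.1.2 + p.2 = t).card : ℝ) := by exact_mod_cast h5
    linarith
  have h7 : (n : ℝ) ^ 2 / 2 * ∑ t ∈ Ico (n - 1) (2 * n - 1), F t ≤
      ∑ a ∈ range n, ∑ b ∈ range n, ∑ c ∈ range n, F (a + b + c) := by
    rw [h1, Finset.mul_sum]
    exact (Finset.sum_le_sum h3).trans h2
  unfold cub
  calc ∑ t ∈ Ico (n - 1) (2 * n - 1), F t =
      2 * n * (((n : ℝ) ^ 3)⁻¹ * ((n : ℝ) ^ 2 / 2 * ∑ t ∈ Ico (n - 1) (2 * n - 1), F t)) := by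
        field_simp
    _ ≤ 2 * n * (((n : ℝ) ^ 3)⁻¹ *
        ∑ a ∈ range n, ∑ b ∈ range n, ∑ c ∈ range n, F (a + b + c)) := by
        gcongr

variable {N : ℕ} [NeZero N]

theorem GapE_nonneg (P R : Fn N) (n L : ℕ) : 0 ≤ GapE P R n L := by
  unfold GapE cub
  refine mul_nonneg (by positivity) ?_
  exact Finset.sum_nonneg fun a _ => Finset.sum_nonneg fun b _ => Finset.sum_nonneg fun c _ =>
    Gap_nonneg _ _ _ _

theorem sum_pl_le (P R : Fn N) (n L : ℕ) (hn : 1 ≤ n) :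
    ∑ t ∈ Ico (n - 1) (2 * n - 1), Gap P R L (pl N n L t) ≤ 2 * n * GapE P R n L :=
  cub_ge n hn (fun t => Gap P R L (pl N n L t)) fun _ => Gap_nonneg _ _ _ _

end Crest.Agent.R72
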