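import Crest.Agent.R72.SDefs

/-!
# Row 72, module F (helper64): definitions

Matrix forms over `Fin 2 × ι` (two halves of a window) and the corresponding blocks of functions on
`ZMod N`; `Qf`, `QP` the quadratic side of the rough estimate.
-/

set_option autoImplicit false

namespace Crest.Agent.R72

open Finset Matrix

section
variable {ι κ κ' : Type*} [Fintype ι] [DecidableEq ι] [Fintype κ] [Fintype κ']

/-- the gap of a pair of matrices sharing the row index, rows split into two halves -/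
noncomputable def gapm (P : Matrix (Fin 2 × ι) κ ℂ) (R : Matrix (Fin 2 × ι) κ' ℂ) : ℝ :=
  (1 / 2) * ∑ a : Fin 2, tr32 ((2 : ℂ) •
      ((P * Pᴴ + R * Rᴴ).submatrix (fun i : ι => (a, i)) (fun i : ι => (a, i)))) -
    tr32 (P * Pᴴ + R * Rᴴ)

/-- `+1` on the first half, `-1` on the second half -/
def sgn2 (x : Fin 2 × ι) : ℂ := if x.1 = 0 then 1 else -1

/-- the trilinear form -/
def trf (A B H : Matrix (Fin 2 × ι) (Fin 2 × ι) ℂ) : ℂ :=
  ∑ i, ∑ j, ∑ l, sgn2 i * sgn2 j * sgn2 l * (A i j * B j l * H l i)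

end

variable {N : ℕ}

/-- block of `P` on the windows `[x, x+2L) × [y, y+2L)`, indexed by (half, position) -/
def blk2 (P : Fn N) (L : ℕ) (x y : ZMod N) : Matrix (Fin 2 × Fin L) (Fin 2 × Fin L) ℂ :=
  fun i j => P (x + (((i.1 : ℕ) * L + (i.2 : ℕ) : ℕ) : ZMod N))
    (y + (((j.1 : ℕ) * L + (j.2 : ℕ) : ℕ) : ZMod N))

/-- quadratic side of the rough estimate, parent windows of length `2 * L` at `q₀, q₁, q₂` -/
noncomputable def Qf (A B H : Fn N) (L : ℕ) (q₀ q₁ q₂ : ZMod N) : ℝ :=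
  ∑ l ∈ range (2 * L), ∑ i ∈ range (2 * L), ‖H (q₂ + (l : ZMod N)) (q₀ + (i : ZMod N))‖ *
    (Real.sqrt (∑ i' ∈ range (2 * L), ‖H (q₂ + (l : ZMod N)) (q₀ + (i' : ZMod N))‖ ^ 2) *
        Real.sqrt (∑ j ∈ range (2 * L), ‖A (q₀ + (i : ZMod N)) (q₁ + (j : ZMod N))‖ ^ 2) +
      Real.sqrt (∑ l' ∈ range (2 * L), ‖H (q₂ + (l' : ZMod N)) (q₀ + (i : ZMod N))‖ ^ 2) *
        Real.sqrt (∑ j ∈ range (2 * L), ‖B (q₁ + (j : ZMod N)) (q₂ + (l : ZMod N))‖ ^ 2))

/-- plane sum of `Qf` -/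
noncomputable def QP [NeZero N] (A B H : Fn N) (L : ℕ) (s : ZMod N) : ℝ :=
  (((2 * L : ℕ) : ℝ) ^ 3)⁻¹ * ∑ x : ZMod N, ∑ y : ZMod N, Qf A B H L x y (s - x - y)

end Crest.Agent.R72
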