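import Crest.Agent.R72.LABox
import Crest.Agent.R72.FDefs

/-!
# Row 72, module F interface (helper12): `la_box`, `gapm_nonneg` in the form of `FLA.lean`
-/

set_option autoImplicit false
set_option linter.unusedSectionVars false

namespace Crest.Agent.R72.LF

open Finset Matrix
open Crest.Agent.R72

variable {ι : Type*} [Fintype ι] [DecidableEq ι]

theorem gapm_eq_dgp {κ κ' : Type*} [Fintype κ] [Fintype κ']
    (P : Matrix (Fin 2 × ι) κ ℂ) (R : Matrix (Fin 2 × ι) κ' ℂ) :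
    gapm P R = dgp (P * Pᴴ + R * Rᴴ) := rfl

theorem trf_eq (A B H : Matrix (Fin 2 × ι) (Fin 2 × ι) ℂ) :
    trf A B H = trace (hd ι * A * hd ι * B * hd ι * H) := by
  rw [trf, trace]
  refine Finset.sum_congr rfl fun i _ => ?_
  rw [diag_apply, mul_apply, Finset.sum_comm]
  refine Finset.sum_congr rfl fun l _ => ?_
  rw [mul_hd_apply, mul_apply, Finset.sum_mul, Finset.sum_mul]
  refine Finset.sum_congr rfl fun j _ => ?_
  rw [mul_hd_apply, hd, diagonal_mul, sgn2, sgn2, sgn2]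
  ring

theorem gapm_nonneg {κ κ' : Type*} [Fintype κ] [Fintype κ'] [DecidableEq κ] [DecidableEq κ']
    (P : Matrix (Fin 2 × ι) κ ℂ) (R : Matrix (Fin 2 × ι) κ' ℂ) : 0 ≤ gapm P R := by
  rw [gapm_eq_dgp]
  have h := dgp_lower P R 0
  simpa using h

theorem la_box (A B H : Matrix (Fin 2 × ι) (Fin 2 × ι) ℂ) :
    ‖trf A B H‖ ≤ gapm A Hᴴ + gapm B Aᴴ + gapm H Bᴴ := by
  rw [trf_eq, gapm_eq_dgp, gapm_eq_dgp, gapm_eq_dgp, conjTranspose_conjTranspose,
    conjTranspose_conjTranspose, conjTranspose_conjTranspose]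
  exact Crest.Agent.R72.la_box A B H

end Crest.Agent.R72.LF
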