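import Mathlib
import Crest.Agent.R72.LA0

/-!
# Row 72, module LA (helper73), part 1: supporting line, Jensen, gap identity, LA7, LA7'
-/

set_option autoImplicit false
set_option linter.unusedSectionVars false

namespace Crest.Agent.R72

open Matrix
open scoped MatrixOrder ComplexOrder

variable {n m : Type*} [Fintype n] [DecidableEq n] [Fintype m] [DecidableEq m]

/-- real part of the trace of a word of length three -/
noncomputable def T3 (X Y Z : Matrix n n ℂ) : ℝ := (trace (X * Y * Z)).re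

theorem T3_cyc (X Y Z : Matrix n n ℂ) : T3 X Y Z = T3 Y Z X := by
  rw [T3, T3, trace_mul_cycle Y Z X]

theorem T3_add1 (X X' Y Z : Matrix n n ℂ) : T3 (X + X') Y Z = T3 X Y Z + T3 X' Y Z := by
  simp [T3, add_mul]

theorem T3_add2 (X Y Y' Z : Matrix n n ℂ) : T3 X (Y + Y') Z = T3 X Y Z + T3 X Y' Z := by
  simp [T3, add_mul, mul_add]

theorem T3_add3 (X Y Z Z' : Matrix n n ℂ) : T3 X Y (Z + Z') = T3 X Y Z + T3 X Y Z' := by
  simp [T3, mul_add]

theorem T3_sub1 (X X' Y Z : Matrix n n ℂ) : T3 (X - X') Y Z = T3 X Y Z - T3 X' Y Z := by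
  simp [T3, sub_mul]

theorem T3_sub2 (X Y Y' Z : Matrix n n ℂ) : T3 X (Y - Y') Z = T3 X Y Z - T3 X Y' Z := by
  simp [T3, sub_mul, mul_sub]

theorem T3_sub3 (X Y Z Z' : Matrix n n ℂ) : T3 X Y (Z - Z') = T3 X Y Z - T3 X Y Z' := by
  simp [T3, mul_sub]

theorem T3_smul1 (c : ℝ) (X Y Z : Matrix n n ℂ) : T3 ((c : ℂ) • X) Y Z = c * T3 X Y Z := by
  simp [T3]

theorem T3_smul2 (c : ℝ) (X Y Z : Matrix n n ℂ) : T3 X ((c : ℂ) • Y) Z = c * T3 X Y Z := by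
  simp [T3]

theorem T3_smul3 (c : ℝ) (X Y Z : Matrix n n ℂ) : T3 X Y ((c : ℂ) • Z) = c * T3 X Y Z := by
  simp [T3]

theorem T3_mul_right (X Y Z : Matrix n n ℂ) : T3 X Y Z = (trace (X * (Y * Z))).re := by
  rw [T3, Matrix.mul_assoc]

theorem T3_self (X : Matrix n n ℂ) (hX : X.PosSemidef) : tr32 X = T3 (rt X) (rt X) (rt X) := by
  rw [tr32_eq hX, T3_mul_right, rt_mul_self hX]

/-- `tr (E S E)` for selfadjoint `E` -/
theorem T3_conj_nonneg {E S : Matrix n n ℂ} (hE : Eᴴ = E) (hS : S.PosSemidef) : 0 ≤ T3 E S E := by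
  have h := tr_conj_nonneg hS E
  rwa [hE] at h

theorem T3_conj_mono {E S S' : Matrix n n ℂ} (hE : Eᴴ = E) (h : S ≤ S') : T3 E S E ≤ T3 E S' E := by
  have h1 := T3_conj_nonneg hE (le_iff.1 h)
  rw [T3_sub2] at h1
  linarith

theorem T3_cs {E F S : Matrix n n ℂ} (hE : Eᴴ = E) (hF : Fᴴ = F) (hS : S.PosSemidef) :
    T3 E S F ≤ √(T3 E S E) * √(T3 F S F) := by
  have h := tr_cs hS E F
  rw [hE, hF] at h
  rw [← Real.sqrt_mul (T3_conj_nonneg hE hS)]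
  refine (Complex.re_le_norm _).trans (Real.le_sqrt_of_sq_le h)

theorem T3_star {X Y Z : Matrix n n ℂ} (hX : Xᴴ = X) (hY : Yᴴ = Y) (hZ : Zᴴ = Z) :
    T3 X Y Z = T3 Z Y X := by
  have h : trace ((X * Y * Z)ᴴ) = star (trace (X * Y * Z)) := trace_conjTranspose _
  rw [conjTranspose_mul, conjTranspose_mul, hX, hY, hZ] at h
  rw [T3, T3, Matrix.mul_assoc Z Y X, h]
  simp

/-- the basic inequality: `tr (B-Y)² (B+Y/2) ≥ 0` -/
theorem basic_eq (B Y : Matrix n n ℂ) :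
    T3 (B - Y) (B + (((1 / 2 : ℝ)) : ℂ) • Y) (B - Y) =
      T3 B B B - 3 / 2 * T3 Y B B + 1 / 2 * T3 Y Y Y := by
  simp only [T3_sub1, T3_sub3, T3_add2, T3_smul2]
  have e1 : T3 B B Y = T3 Y B B := (T3_cyc Y B B).symm
  have e2 : T3 B Y B = T3 Y B B := T3_cyc B Y B
  have e3 : T3 B Y Y = T3 Y Y B := T3_cyc B Y Y
  have e4 : T3 Y B Y = T3 Y Y B := by rw [T3_cyc Y B Y, T3_cyc B Y Y]
  rw [e1, e2, e3, e4]
  ring

/-- supporting line -/
theorem tr32_support {M C : Matrix n n ℂ} (hM : M.PosSemidef) (hC : C.PosSemidef) :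
    3 / 2 * (trace (rt C * M)).re - 1 / 2 * tr32 C ≤ tr32 M := by
  have h1 : 0 ≤ T3 (rt M - rt C) (rt M + (((1 / 2 : ℝ)) : ℂ) • rt C) (rt M - rt C) := by
    apply T3_conj_nonneg
    · rw [conjTranspose_sub, rt_star, rt_star]
    · exact (rt_psd M).add ((rt_psd C).smul (by
        exact_mod_cast (by norm_num : (0 : ℝ) ≤ 1 / 2)))
  rw [basic_eq, ← T3_self M hM, ← T3_self C hC, T3_mul_right, rt_mul_self hM] at h1
  linarith

/-- Jensen for finite averages -/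
theorem la_jensen {ι : Type*} (s : Finset ι) (w : ι → ℝ) (X : ι → Matrix n n ℂ)
    (hw : ∀ i ∈ s, 0 ≤ w i) (hw1 : ∑ i ∈ s, w i = 1) (hX : ∀ i ∈ s, (X i).PosSemidef) :
    tr32 (∑ i ∈ s, ((w i : ℝ) : ℂ) • X i) ≤ ∑ i ∈ s, w i * tr32 (X i) := by
  set M := ∑ i ∈ s, ((w i : ℝ) : ℂ) • X i with hM
  have hMp : M.PosSemidef := by
    rw [hM]
    exact posSemidef_sum s fun i hi => (hX i hi).smul (by exact_mod_cast hw i hi)
  have h1 : ∀ i ∈ s, w i * (3 / 2 * (trace (rt M * X i)).re - 1 / 2 * tr32 M) ≤ w i * tr32 (X i) :=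
    fun i hi => mul_le_mul_of_nonneg_left (tr32_support (hX i hi) hMp) (hw i hi)
  have h2 := Finset.sum_le_sum h1
  have h3 : ∑ i ∈ s, w i * (3 / 2 * (trace (rt M * X i)).re - 1 / 2 * tr32 M) =
      3 / 2 * ∑ i ∈ s, w i * (trace (rt M * X i)).re - 1 / 2 * tr32 M := by
    simp only [mul_sub, Finset.sum_sub_distrib]
    rw [Finset.mul_sum, ← Finset.sum_mul, hw1, one_mul]
    congr 1
    exact Finset.sum_congr rfl fun i _ => by ring
  have h4 : ∑ i ∈ s, w i * (trace (rt M * X i)).re = tr32 M := by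
    rw [tr32_eq hMp]
    conv_rhs => rw [hM, ← hM]
    have : rt M * M = ∑ i ∈ s, ((w i : ℝ) : ℂ) • (rt M * X i) := by
      nth_rewrite 2 [hM]
      rw [Matrix.mul_sum]
      exact Finset.sum_congr rfl fun i _ => by rw [Matrix.mul_smul]
    rw [this, trace_sum, Complex.re_sum]
    refine Finset.sum_congr rfl fun i _ => ?_
    rw [trace_smul, smul_eq_mul, Complex.re_ofReal_mul]
  rw [h3, h4] at h2
  linarith

theorem half_smul_eq (X : Matrix n n ℂ) : ((1 / 2 : ℂ)) • X = (((1 / 2 : ℝ)) : ℂ) • X := by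
  norm_num

theorem psd_half {X : Matrix n n ℂ} (hX : X.PosSemidef) : ((((1 / 2 : ℝ)) : ℂ) • X).PosSemidef :=
  hX.smul (by exact_mod_cast (by norm_num : (0 : ℝ) ≤ 1 / 2))

/-- the gap identity -/
theorem gap32_eq {A B : Matrix n n ℂ} (hA : A.PosSemidef) (hB : B.PosSemidef) {Y : Matrix n n ℂ}
    (hY : Y = rt ((((1 / 2 : ℝ)) : ℂ) • (A + B))) :
    gap32 A B = 1 / 2 * (T3 (rt A - Y) (rt A + (((1 / 2 : ℝ)) : ℂ) • Y) (rt A - Y) +
      T3 (rt B - Y) (rt B + (((1 / 2 : ℝ)) : ℂ) • Y) (rt B - Y)) := by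
  have hM := psd_half (hA.add hB)
  rw [basic_eq, basic_eq, gap32, half_smul_eq, T3_self _ hM, ← hY, ← T3_self A hA, ← T3_self B hB]
  have h1 : T3 Y (rt A) (rt A) + T3 Y (rt B) (rt B) = 2 * T3 Y Y Y := by
    rw [T3_mul_right, T3_mul_right, T3_mul_right, rt_mul_self hA, rt_mul_self hB]
    have h2 : Y * Y = (((1 / 2 : ℝ)) : ℂ) • (A + B) := by rw [hY, rt_mul_self hM]
    rw [h2, Matrix.mul_smul, trace_smul, smul_eq_mul, Complex.re_ofReal_mul, mul_add, trace_add,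
      Complex.add_re]
    ring
  linarith

theorem gap32_nonneg {A B : Matrix n n ℂ} (hA : A.PosSemidef) (hB : B.PosSemidef) :
    0 ≤ gap32 A B := by
  rw [gap32_eq hA hB rfl]
  have h : ∀ X : Matrix n n ℂ, 0 ≤ T3 (rt X - rt ((((1 / 2 : ℝ)) : ℂ) • (A + B)))
      (rt X + (((1 / 2 : ℝ)) : ℂ) • rt ((((1 / 2 : ℝ)) : ℂ) • (A + B)))
      (rt X - rt ((((1 / 2 : ℝ)) : ℂ) • (A + B))) := by
    intro X
    apply T3_conj_nonneg
    · rw [conjTranspose_sub, rt_star, rt_star]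
    · exact (rt_psd _).add (psd_half (rt_psd _))
  have h1 := h A
  have h2 := h B
  linarith

theorem gap32_comm (A B : Matrix n n ℂ) : gap32 A B = gap32 B A := by
  rw [gap32, gap32, add_comm B A]
  ring

/-- lower bound of the gap -/
theorem gap32_ge {A B : Matrix n n ℂ} (hA : A.PosSemidef) (hB : B.PosSemidef) {Y : Matrix n n ℂ}
    (hY : Y = rt ((((1 / 2 : ℝ)) : ℂ) • (A + B))) :
    1 / 4 * (T3 (rt A - Y) (rt A + Y) (rt A - Y) + T3 (rt B - Y) (rt B + Y) (rt B - Y)) ≤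
      gap32 A B := by
  rw [gap32_eq hA hB hY]
  have hYs : Yᴴ = Y := by rw [hY, rt_star]
  have h : ∀ X : Matrix n n ℂ, 0 ≤ T3 (rt X - Y) (rt X) (rt X - Y) := by
    intro X
    apply T3_conj_nonneg _ (rt_psd X)
    rw [conjTranspose_sub, rt_star, hYs]
  have h1 := h A
  have h2 := h B
  simp only [T3_add2, T3_smul2] at *
  linarith

/-- `d(A₀, A₁) = tr (R₀ - R₁)² (R₀ + R₁)`, `Rᵢ = rt Aᵢ` -/
noncomputable def dd (A B : Matrix n n ℂ) : ℝ := T3 (rt A - rt B) (rt A + rt B) (rt A - rt B)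

theorem dd_nonneg (A B : Matrix n n ℂ) : 0 ≤ dd A B := by
  apply T3_conj_nonneg
  · rw [conjTranspose_sub, rt_star, rt_star]
  · exact (rt_psd _).add (rt_psd _)

theorem dd_eq (A B : Matrix n n ℂ) : dd A B = T3 (rt A) (rt A) (rt A) + T3 (rt B) (rt B) (rt B) -
    T3 (rt A) (rt A) (rt B) - T3 (rt A) (rt B) (rt B) := by
  simp only [dd, T3_sub1, T3_sub3, T3_add2]
  have e1 : T3 (rt A) (rt B) (rt A) = T3 (rt A) (rt A) (rt B) := by
    rw [T3_cyc (rt A) (rt A) (rt B)]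
  have e2 : T3 (rt B) (rt A) (rt A) = T3 (rt A) (rt A) (rt B) := T3_cyc _ _ _
  have e3 : T3 (rt B) (rt A) (rt B) = T3 (rt A) (rt B) (rt B) := T3_cyc _ _ _
  have e4 : T3 (rt B) (rt B) (rt A) = T3 (rt A) (rt B) (rt B) := by
    rw [T3_cyc (rt B) (rt B) (rt A), T3_cyc (rt B) (rt A) (rt B)]
  rw [e1, e2, e3, e4]
  ring

/-- `gap ≤ 3/16 d` -/
theorem gap32_le_dd {A B : Matrix n n ℂ} (hA : A.PosSemidef) (hB : B.PosSemidef) :
    gap32 A B ≤ 3 / 16 * dd A B := by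
  set R := rt A with hR
  set Q := rt B with hQ
  set Z : Matrix n n ℂ := (((1 / 2 : ℝ)) : ℂ) • (R + Q) with hZ
  have hZp : Z.PosSemidef := psd_half ((rt_psd A).add (rt_psd B))
  have hZZ : (Z * Z).PosSemidef := by
    nth_rewrite 1 [← hZp.isHermitian]
    exact posSemidef_conjTranspose_mul_self Z
  have hrt : rt (Z * Z) = Z := rt_unique hZp rfl
  have hM := psd_half (hA.add hB)
  have h1 := tr32_support hM hZZ
  rw [T3_self _ hZZ, hrt] at h1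
  have h2 : (trace (Z * ((((1 / 2 : ℝ)) : ℂ) • (A + B)))).re =
      1 / 2 * (T3 Z R R + T3 Z Q Q) := by
    rw [Matrix.mul_smul, trace_smul, smul_eq_mul, Complex.re_ofReal_mul, mul_add, trace_add,
      Complex.add_re, T3_mul_right, T3_mul_right, hR, hQ, rt_mul_self hA, rt_mul_self hB]
  rw [h2] at h1
  rw [gap32, half_smul_eq, dd_eq, T3_self A hA, T3_self B hB, ← hR, ← hQ]
  rw [hZ] at h1
  simp only [T3_smul1, T3_smul2, T3_smul3, T3_add1, T3_add2, T3_add3] at h1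
  have e1 : T3 R Q R = T3 R R Q := by rw [T3_cyc R R Q]
  have e2 : T3 Q R R = T3 R R Q := T3_cyc _ _ _
  have e3 : T3 Q R Q = T3 R Q Q := T3_cyc _ _ _
  have e4 : T3 Q Q R = T3 R Q Q := by rw [T3_cyc Q Q R, T3_cyc Q R Q]
  rw [e1, e2, e3, e4] at h1
  linarith

/-- `d ≤ 16 √2 gap` -/
theorem dd_le_gap32 {A B : Matrix n n ℂ} (hA : A.PosSemidef) (hB : B.PosSemidef) :
    dd A B ≤ 16 * √2 * gap32 A B := by
  set Y := rt ((((1 / 2 : ℝ)) : ℂ) • (A + B)) with hY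
  have hM := psd_half (hA.add hB)
  have hYs : Yᴴ = Y := by rw [hY, rt_star]
  have hYp : Y.PosSemidef := rt_psd _
  have h2M : rt ((((2 : ℝ)) : ℂ) • ((((1 / 2 : ℝ)) : ℂ) • (A + B))) = ((√2 : ℝ) : ℂ) • Y :=
    rt_smul hM (by norm_num)
  have hAB : (((2 : ℝ)) : ℂ) • ((((1 / 2 : ℝ)) : ℂ) • (A + B)) = A + B := by
    rw [smul_smul]; norm_num
  rw [hAB] at h2M
  have hA1 : rt A ≤ ((√2 : ℝ) : ℂ) • Y := by
    rw [← h2M]
    exact rt_mono (le_add_of_nonneg_right hB.nonneg)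
  have hB1 : rt B ≤ ((√2 : ℝ) : ℂ) • Y := by
    rw [← h2M]
    exact rt_mono (le_add_of_nonneg_left hA.nonneg)
  have hEs : (rt A - rt B)ᴴ = rt A - rt B := by rw [conjTranspose_sub, rt_star, rt_star]
  have h1 : dd A B ≤ T3 (rt A - rt B) (((√2 : ℝ) : ℂ) • Y + ((√2 : ℝ) : ℂ) • Y) (rt A - rt B) :=
    T3_conj_mono hEs (add_le_add hA1 hB1)
  rw [T3_add2, T3_smul2] at h1
  have e : rt A - rt B = (rt A - Y) - (rt B - Y) := by abel
  have hEA : (rt A - Y)ᴴ = rt A - Y := by rw [conjTranspose_sub, rt_star, hYs]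
  have hEB : (rt B - Y)ᴴ = rt B - Y := by rw [conjTranspose_sub, rt_star, hYs]
  have h2 : T3 (rt A - rt B) Y (rt A - rt B) ≤
      2 * (T3 (rt A - Y) Y (rt A - Y) + T3 (rt B - Y) Y (rt B - Y)) := by
    have h3 : 0 ≤ T3 ((rt A - Y) + (rt B - Y)) Y ((rt A - Y) + (rt B - Y)) := by
      apply T3_conj_nonneg _ hYp
      rw [conjTranspose_add, hEA, hEB]
    rw [e]
    generalize rt A - Y = E at *
    generalize rt B - Y = F at *
    simp only [T3_add1, T3_add3, T3_sub1, T3_sub3] at *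
    linarith
  have h3 : T3 (rt A - Y) Y (rt A - Y) ≤ T3 (rt A - Y) (rt A + Y) (rt A - Y) :=
    T3_conj_mono hEA (le_add_of_nonneg_left (rt_psd A).nonneg)
  have h4 : T3 (rt B - Y) Y (rt B - Y) ≤ T3 (rt B - Y) (rt B + Y) (rt B - Y) :=
    T3_conj_mono hEB (le_add_of_nonneg_left (rt_psd B).nonneg)
  have h5 := gap32_ge hA hB hY
  have h6 : T3 (rt A - rt B) Y (rt A - rt B) ≤ 8 * gap32 A B := by linarith
  have h7 : 0 ≤ √2 := Real.sqrt_nonneg 2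
  calc dd A B ≤ √2 * T3 (rt A - rt B) Y (rt A - rt B) + √2 * T3 (rt A - rt B) Y (rt A - rt B) := h1
    _ ≤ √2 * (8 * gap32 A B) + √2 * (8 * gap32 A B) := by gcongr
    _ = _ := by ring

/-- half of the additivity -/
theorem dd_cross {E N M : Matrix n n ℂ} (hE : Eᴴ = E) (hN : N.PosSemidef) (hM : M.PosSemidef)
    {S : Matrix n n ℂ} (hS : rt N + rt M ≤ S) :
    (trace (E * (N - M))).re ≤ √(T3 E S E) * √(dd N M) := by
  set B := rt N with hB
  set D := rt M with hD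
  have hBs : Bᴴ = B := by rw [hB, rt_star]
  have hDs : Dᴴ = D := by rw [hD, rt_star]
  have hFs : (B - D)ᴴ = B - D := by rw [conjTranspose_sub, hBs, hDs]
  have hSs : (B + D)ᴴ = B + D := by rw [conjTranspose_add, hBs, hDs]
  have hSp : (B + D).PosSemidef := (rt_psd N).add (rt_psd M)
  have h1 : (trace (E * (N - M))).re = T3 E B B - T3 E D D := by
    rw [T3_mul_right, T3_mul_right, hB, hD, rt_mul_self hN, rt_mul_self hM, mul_sub, trace_sub,
      Complex.sub_re]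
  have h2 : T3 E (B - D) (B + D) = T3 E (B + D) (B - D) := by
    rw [T3_star hE hFs hSs, T3_cyc, T3_cyc]
  have h3 : T3 E B B - T3 E D D = T3 E (B + D) (B - D) := by
    have h4 : 2 * (T3 E B B - T3 E D D) = T3 E (B - D) (B + D) + T3 E (B + D) (B - D) := by
      simp only [T3_add2, T3_add3, T3_sub2, T3_sub3]
      ring
    linarith
  rw [h1, h3]
  refine (T3_cs hE hFs hSp).trans ?_
  exact mul_le_mul_of_nonneg_right (Real.sqrt_le_sqrt (T3_conj_mono hE hS)) (Real.sqrt_nonneg _)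

theorem dd_add_le {N₀ N₁ M₀ M₁ : Matrix n n ℂ} (hN₀ : N₀.PosSemidef) (hN₁ : N₁.PosSemidef)
    (hM₀ : M₀.PosSemidef) (hM₁ : M₁.PosSemidef) :
    dd (N₀ + M₀) (N₁ + M₁) ≤ 2 * (dd N₀ N₁ + dd M₀ M₁) := by
  set R := rt (N₀ + M₀) with hR
  set Q := rt (N₁ + M₁) with hQ
  have hRs : Rᴴ = R := by rw [hR, rt_star]
  have hQs : Qᴴ = Q := by rw [hQ, rt_star]
  have hEs : (R - Q)ᴴ = R - Q := by rw [conjTranspose_sub, hRs, hQs]
  have hd0 : 0 ≤ dd (N₀ + M₀) (N₁ + M₁) := dd_nonneg _ _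
  have h1 : dd (N₀ + M₀) (N₁ + M₁) =
      (trace ((R - Q) * (N₀ - N₁))).re + (trace ((R - Q) * (M₀ - M₁))).re := by
    have h2 : (trace ((R - Q) * (N₀ - N₁))).re + (trace ((R - Q) * (M₀ - M₁))).re =
        T3 (R - Q) R R - T3 (R - Q) Q Q := by
      rw [T3_mul_right, T3_mul_right, hR, hQ, rt_mul_self (hN₀.add hM₀), rt_mul_self (hN₁.add hM₁),
        ← Complex.add_re, ← Complex.sub_re, ← trace_add, ← trace_sub, ← mul_add, ← mul_sub]
      congr 3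
      abel
    rw [h2, dd_eq, ← hR, ← hQ]
    simp only [T3_sub1]
    have e1 : T3 Q R R = T3 R R Q := T3_cyc _ _ _
    rw [e1]
    ring
  have hSN : rt N₀ + rt N₁ ≤ R + Q := add_le_add (rt_mono (le_add_of_nonneg_right hM₀.nonneg))
    (rt_mono (le_add_of_nonneg_right hM₁.nonneg))
  have hSM : rt M₀ + rt M₁ ≤ R + Q := add_le_add (rt_mono (le_add_of_nonneg_left hN₀.nonneg))
    (rt_mono (le_add_of_nonneg_left hN₁.nonneg))
  have h3 := dd_cross hEs hN₀ hN₁ hSN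
  have h4 := dd_cross hEs hM₀ hM₁ hSM
  have h5 : T3 (R - Q) (R + Q) (R - Q) = dd (N₀ + M₀) (N₁ + M₁) := rfl
  rw [h5] at h3 h4
  set d := dd (N₀ + M₀) (N₁ + M₁) with hd
  have h6 : √d * √d = d := Real.mul_self_sqrt hd0
  have h7 := Real.mul_self_sqrt (dd_nonneg N₀ N₁)
  have h8 := Real.mul_self_sqrt (dd_nonneg M₀ M₁)
  have h9 : √d * √d ≤ √d * (√(dd N₀ N₁) + √(dd M₀ M₁)) := by rw [h6]; linarith
  have h10 := Real.sqrt_nonneg d
  have h11 := Real.sqrt_nonneg (dd N₀ N₁)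
  have h12 := Real.sqrt_nonneg (dd M₀ M₁)
  rcases h10.eq_or_lt with h13 | h13
  · rw [← h13] at h6
    have := dd_nonneg N₀ N₁
    have := dd_nonneg M₀ M₁
    linarith
  · have h14 : √d ≤ √(dd N₀ N₁) + √(dd M₀ M₁) := le_of_mul_le_mul_left h9 h13
    nlinarith [sq_nonneg (√(dd N₀ N₁) - √(dd M₀ M₁))]

/-- **LA7** -/
theorem la_gap_add {N₀ N₁ M₀ M₁ : Matrix n n ℂ} (hN₀ : N₀.PosSemidef) (hN₁ : N₁.PosSemidef)
    (hM₀ : M₀.PosSemidef) (hM₁ : M₁.PosSemidef) :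
    gap32 (N₀ + M₀) (N₁ + M₁) ≤ 9 * (gap32 N₀ N₁ + gap32 M₀ M₁) := by
  have h1 := gap32_le_dd (hN₀.add hM₀) (hN₁.add hM₁)
  have h2 := dd_add_le hN₀ hN₁ hM₀ hM₁
  have h3 := dd_le_gap32 hN₀ hN₁
  have h4 := dd_le_gap32 hM₀ hM₁
  have h5 : √2 ≤ 3 / 2 := by
    rw [Real.sqrt_le_left (by norm_num)]; norm_num
  have h6 := gap32_nonneg hN₀ hN₁
  have h7 := gap32_nonneg hM₀ hM₁
  nlinarith [mul_le_mul_of_nonneg_right h5 h6, mul_le_mul_of_nonneg_right h5 h7]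

/-- **LA7'** -/
theorem la_mixed {N₀ N₁ M₀ M₁ : Matrix n n ℂ} (hN₀ : N₀.PosSemidef) (hN₁ : N₁.PosSemidef)
    (hM₀ : M₀.PosSemidef) (hM₁ : M₁.PosSemidef) :
    tr32 (N₁ + M₀) + tr32 (N₀ + M₁) ≤
      tr32 (N₀ + M₀) + tr32 (N₁ + M₁) + 18 * (gap32 N₀ N₁ + gap32 M₀ M₁) := by
  have h1 := la_gap_add hN₁ hN₀ hM₀ hM₁
  have h2 := gap32_nonneg (hN₀.add hM₀) (hN₁.add hM₁)
  have e : N₁ + M₀ + (N₀ + M₁) = N₀ + M₀ + (N₁ + M₁) := by abel
  rw [gap32_comm N₁ N₀] at h1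
  rw [gap32, e] at h1
  rw [gap32] at h2
  linarith

/-- **LA1** -/
theorem la_smul {X : Matrix n n ℂ} (hX : X.PosSemidef) {c : ℝ} (hc : 0 ≤ c) :
    tr32 (((c : ℝ) : ℂ) • X) = c ^ (3 / 2 : ℝ) * tr32 X := by
  have hcX : (((c : ℝ) : ℂ) • X).PosSemidef := hX.smul (by exact_mod_cast hc)
  rw [tr32_eq hcX, tr32_eq hX, rt_smul hX hc, smul_mul_smul_comm, trace_smul, smul_eq_mul,
    ← Complex.ofReal_mul, Complex.re_ofReal_mul, Real.sqrt_eq_rpow]
  congr 1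
  nth_rewrite 2 [← Real.rpow_one c]
  rcases hc.eq_or_lt with h | h
  · rw [← h]; simp
  · rw [← Real.rpow_add h]; norm_num

end Crest.Agent.R72
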