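import Mathlib
import Crest.Agent.R72.LA1

/-!
# Row 72, module LA (helper73), part 2: LA8 (change of one function), LA9
-/

set_option autoImplicit false
set_option linter.unusedSectionVars false

namespace Crest.Agent.R72

open Matrix
open scoped MatrixOrder ComplexOrder

variable {n m k : Type*} [Fintype n] [DecidableEq n] [Fintype m] [DecidableEq m] [Fintype k]
  [DecidableEq k]

/-- entries of `U S` for `S` selfadjoint: `|(U S)(z,x)| ≤ (∑ₓ' |U(z,x')|²)^{1/2} ((S S)(x,x))^{1/2}` -/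
theorem entry_mul_le (U : Matrix m n ℂ) {S : Matrix n n ℂ} (hS : Sᴴ = S) (z : m) (x : n) :
    ‖(U * S) z x‖ ≤ √(∑ x', ‖U z x'‖ ^ 2) * √((S * S) x x).re := by
  have h1 : ((S * S) x x).re = ∑ x', ‖S x' x‖ ^ 2 := by
    have h2 : (S * S) x x = ∑ x', star (S x' x) * S x' x := by
      rw [mul_apply]
      refine Finset.sum_congr rfl fun x' _ => ?_
      have : S x x' = star (S x' x) := by
        conv_lhs => rw [← hS]
        rfl
      rw [this]
    rw [h2, Complex.re_sum]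
    refine Finset.sum_congr rfl fun x' _ => ?_
    rw [Complex.star_def, Complex.conj_mul']
    norm_cast
  rw [h1, ← Real.sqrt_mul (Finset.sum_nonneg fun _ _ => by positivity)]
  apply Real.le_sqrt_of_sq_le
  have h3 : ‖(U * S) z x‖ ≤ ∑ x', ‖U z x'‖ * ‖S x' x‖ := by
    rw [mul_apply]
    refine (norm_sum_le _ _).trans (Finset.sum_le_sum fun x' _ => ?_)
    rw [norm_mul]
  exact (pow_le_pow_left₀ (norm_nonneg _) h3 2).trans (Finset.sum_mul_sq_le_sq_mul_sq _ _ _)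

/-- diagonal entries of `P Pᴴ` -/
theorem diag_mul_conj (P : Matrix n m ℂ) (x : n) : ((P * Pᴴ) x x).re = ∑ y, ‖P x y‖ ^ 2 := by
  rw [mul_apply, Complex.re_sum]
  refine Finset.sum_congr rfl fun y _ => ?_
  rw [conjTranspose_apply, Complex.star_def, Complex.mul_conj']
  norm_cast

/-- `|tr (rt G · D · Rᴴ)| ≤ ∑ |D(x,z)| (∑ₓ' |R(x',z)|²)^{1/2} (G(x,x))^{1/2}` -/
theorem trace_rt_le {G : Matrix n n ℂ} (hG : G.PosSemidef) (D R : Matrix n m ℂ) :
    ‖trace (rt G * (D * Rᴴ))‖ ≤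
      ∑ x, ∑ z, ‖D x z‖ * (√(∑ x', ‖R x' z‖ ^ 2) * √(G x x).re) := by
  have h1 : trace (rt G * (D * Rᴴ)) = ∑ x, ∑ z, D x z * (Rᴴ * rt G) z x := by
    rw [trace_mul_comm, Matrix.mul_assoc]
    simp only [trace, diag_apply, mul_apply (M := D)]
  rw [h1]
  refine (norm_sum_le _ _).trans (Finset.sum_le_sum fun x _ => ?_)
  refine (norm_sum_le _ _).trans (Finset.sum_le_sum fun z _ => ?_)
  rw [norm_mul]
  refine mul_le_mul_of_nonneg_left ?_ (norm_nonneg _)
  have h2 := entry_mul_le Rᴴ (rt_star G) z x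
  rw [rt_mul_self hG] at h2
  simpa only [conjTranspose_apply, norm_star] using h2

/-- **LA8**: change of `R`; `|R|, |R'| ≤ b` entrywise -/
theorem la_change (P : Matrix n m ℂ) (R R' : Matrix n k ℂ) (b : n → k → ℝ)
    (hR : ∀ x z, ‖R x z‖ ≤ b x z) (hR' : ∀ x z, ‖R' x z‖ ≤ b x z) :
    tr32 (P * Pᴴ + R' * R'ᴴ) ≤ tr32 (P * Pᴴ + R * Rᴴ) +
      3 * ∑ x, ∑ z, ‖R' x z - R x z‖ * (√(∑ x', b x' z ^ 2) *
        √(∑ y, ‖P x y‖ ^ 2 + ∑ z', b x z' ^ 2)) := by
  have hG : (P * Pᴴ + R * Rᴴ).PosSemidef :=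
    (posSemidef_self_mul_conjTranspose P).add (posSemidef_self_mul_conjTranspose R)
  have hG' : (P * Pᴴ + R' * R'ᴴ).PosSemidef :=
    (posSemidef_self_mul_conjTranspose P).add (posSemidef_self_mul_conjTranspose R')
  set G := P * Pᴴ + R * Rᴴ with hGdef
  set G' := P * Pᴴ + R' * R'ᴴ with hGdef'
  have h1 := tr32_support hG hG'
  have h2 : tr32 G' = (trace (rt G' * G')).re := tr32_eq hG'
  have h3 : (trace (rt G' * G')).re - (trace (rt G' * G)).re =
      (trace (rt G' * ((R' - R) * R'ᴴ))).re + (trace (rt G' * (R * (R' - R)ᴴ))).re := by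
    rw [← Complex.sub_re, ← Complex.add_re, ← trace_sub, ← trace_add, ← mul_sub, ← mul_add]
    congr 3
    rw [hGdef, hGdef', conjTranspose_sub, Matrix.sub_mul, Matrix.mul_sub]
    abel
  have h4 : (trace (rt G' * (R * (R' - R)ᴴ))).re = (trace (rt G' * ((R' - R) * Rᴴ))).re := by
    have h5 : trace ((rt G' * ((R' - R) * Rᴴ))ᴴ) = star (trace (rt G' * ((R' - R) * Rᴴ))) :=
      trace_conjTranspose _
    rw [conjTranspose_mul, conjTranspose_mul, conjTranspose_conjTranspose, rt_star,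
      trace_mul_comm] at h5
    rw [h5]
    simp
  have hdiag : ∀ x, (G' x x).re ≤ ∑ y, ‖P x y‖ ^ 2 + ∑ z', b x z' ^ 2 := by
    intro x
    rw [hGdef', Matrix.add_apply, Complex.add_re, diag_mul_conj, diag_mul_conj]
    gcongr with z _
    exact hR' x z
  have key : ∀ Q : Matrix n k ℂ, (∀ x z, ‖Q x z‖ ≤ b x z) →
      (trace (rt G' * ((R' - R) * Qᴴ))).re ≤ ∑ x, ∑ z, ‖R' x z - R x z‖ *
        (√(∑ x', b x' z ^ 2) * √(∑ y, ‖P x y‖ ^ 2 + ∑ z', b x z' ^ 2)) := by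
    intro Q hQ
    refine (Complex.re_le_norm _).trans ((trace_rt_le hG' (R' - R) Q).trans ?_)
    refine Finset.sum_le_sum fun x _ => Finset.sum_le_sum fun z _ => ?_
    rw [Matrix.sub_apply]
    refine mul_le_mul_of_nonneg_left ?_ (norm_nonneg _)
    refine mul_le_mul (Real.sqrt_le_sqrt ?_) (Real.sqrt_le_sqrt (hdiag x)) (Real.sqrt_nonneg _)
      (Real.sqrt_nonneg _)
    exact Finset.sum_le_sum fun x' _ => pow_le_pow_left₀ (norm_nonneg _) (hQ x' z) 2
  have h5 := key R' hR'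
  have h6 := key R hR
  rw [h4] at h3
  linarith

/-- **LA9** -/
theorem la9 (A : Matrix n m ℂ) (H : Matrix k n ℂ) :
    (trace (rt (A * Aᴴ) * (Hᴴ * H))).re ≤
      ∑ z, ∑ x, ‖H z x‖ * (√(∑ x', ‖H z x'‖ ^ 2) * √(∑ y, ‖A x y‖ ^ 2)) := by
  have hG := posSemidef_self_mul_conjTranspose A
  have h := trace_rt_le hG Hᴴ Hᴴ
  rw [conjTranspose_conjTranspose] at h
  refine (Complex.re_le_norm _).trans (h.trans (le_of_eq ?_))
  rw [Finset.sum_comm]
  refine Finset.sum_congr rfl fun z _ => Finset.sum_congr rfl fun x _ => ?_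
  rw [diag_mul_conj]
  simp only [conjTranspose_apply, norm_star]

end Crest.Agent.R72
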