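import Crest.Agent.R72.LACore
import Crest.Agent.R72.LA2
import Crest.Agent.R72.FDefs

/-!
# Row 72, module LA (helper65): `gapm_nonneg`, `la_dual` (F2 of the blueprint)

`dgp_lower` for `c • T`, optimised over `c`, gives
`‖tr (Rᴴ h P Tᴴ)‖² ≤ dgp (P Pᴴ + R Rᴴ) (tr (rt (PᴴP) TᴴT) + tr (rt (RᴴR) TTᴴ))`; then `la9`.
-/

set_option autoImplicit false
set_option linter.unusedSectionVars false

namespace Crest.Agent.R72

open Matrix
open scoped MatrixOrder ComplexOrder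

section

variable {ι p q : Type*} [Fintype ι] [DecidableEq ι] [Fintype p] [DecidableEq p]
  [Fintype q] [DecidableEq q]

theorem gapm_eq_dgp_ld (P : Matrix (Fin 2 × ι) p ℂ) (R : Matrix (Fin 2 × ι) q ℂ) :
    gapm P R = dgp (P * Pᴴ + R * Rᴴ) := rfl

theorem dgp_nonneg_ld (P : Matrix (Fin 2 × ι) p ℂ) (R : Matrix (Fin 2 × ι) q ℂ) :
    0 ≤ dgp (P * Pᴴ + R * Rᴴ) := by
  have h := dgp_lower P R 0
  simpa using h

/-- the gap controls the off-diagonal form (duality) -/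
theorem dgp_dual (P : Matrix (Fin 2 × ι) p ℂ) (R : Matrix (Fin 2 × ι) q ℂ) (T : Matrix q p ℂ) :
    ‖trace (Rᴴ * hd ι * P * Tᴴ)‖ ^ 2 ≤ dgp (P * Pᴴ + R * Rᴴ) *
      ((trace (rt (Pᴴ * P) * (Tᴴ * T))).re + (trace (rt (Rᴴ * R) * (T * Tᴴ))).re) := by
  obtain ⟨z, hz⟩ : ∃ z, z = trace (Rᴴ * hd ι * P * Tᴴ) := ⟨_, rfl⟩
  obtain ⟨Q, hQ⟩ : ∃ Q, Q = (trace (rt (Pᴴ * P) * (Tᴴ * T))).re +
    (trace (rt (Rᴴ * R) * (T * Tᴴ))).re := ⟨_, rfl⟩
  obtain ⟨g, hg⟩ : ∃ g, g = dgp (P * Pᴴ + R * Rᴴ) := ⟨_, rfl⟩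
  have hg0 : 0 ≤ g := by rw [hg]; exact dgp_nonneg_ld P R
  have hQ0 : 0 ≤ Q := by
    rw [hQ]
    exact add_nonneg (tr_mul_nonneg (rt_psd _) (posSemidef_conjTranspose_mul_self T))
      (tr_mul_nonneg (rt_psd _) (posSemidef_self_mul_conjTranspose T))
  -- the inequality for `(s z) • T`, `s` real
  have key : ∀ s : ℝ, 2 * s * ‖z‖ ^ 2 - s ^ 2 * ‖z‖ ^ 2 * Q ≤ g := by
    intro s
    have h := dgp_lower P R (((s : ℂ) * z) • T)
    have e1 : Rᴴ * hd ι * P * (((s : ℂ) * z) • T)ᴴ =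
        ((s : ℂ) * (starRingEnd ℂ) z) • (Rᴴ * hd ι * P * Tᴴ) := by
      rw [conjTranspose_smul, Matrix.mul_smul, star_mul', Complex.star_def, Complex.conj_ofReal]
    have e2 : ((s : ℂ) * (starRingEnd ℂ) z) * z = ((s * ‖z‖ ^ 2 : ℝ) : ℂ) := by
      rw [mul_assoc, Complex.conj_mul']
      push_cast
      ring
    have e3 : star ((s : ℂ) * z) * ((s : ℂ) * z) = ((s ^ 2 * ‖z‖ ^ 2 : ℝ) : ℂ) := by
      rw [star_mul', Complex.star_def, Complex.conj_ofReal]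
      have : (s : ℂ) * (starRingEnd ℂ) z * ((s : ℂ) * z) =
          (s : ℂ) * (s : ℂ) * ((starRingEnd ℂ) z * z) := by ring
      rw [this, Complex.conj_mul']
      push_cast
      ring
    have e4 : (((s : ℂ) * z) • T)ᴴ * (((s : ℂ) * z) • T) =
        ((s ^ 2 * ‖z‖ ^ 2 : ℝ) : ℂ) • (Tᴴ * T) := by
      rw [conjTranspose_smul, Matrix.smul_mul, Matrix.mul_smul, smul_smul, e3]
    have e5 : (((s : ℂ) * z) • T) * (((s : ℂ) * z) • T)ᴴ =
        ((s ^ 2 * ‖z‖ ^ 2 : ℝ) : ℂ) • (T * Tᴴ) := by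
      rw [conjTranspose_smul, Matrix.smul_mul, Matrix.mul_smul, smul_smul, mul_comm, e3]
    rw [e1, e4, e5, trace_smul, smul_eq_mul, ← hz, e2, Complex.ofReal_re, Matrix.mul_smul,
      Matrix.mul_smul, trace_smul, trace_smul, smul_eq_mul, smul_eq_mul, Complex.re_ofReal_mul,
      Complex.re_ofReal_mul, ← hg] at h
    rw [hQ]
    linarith
  rw [← hz, ← hQ, ← hg]
  have hz2 : 0 ≤ ‖z‖ ^ 2 := by positivity
  rcases hQ0.eq_or_lt with h0 | h0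
  · -- `Q = 0`: then `z = 0`
    rw [← h0] at key ⊢
    rw [mul_zero]
    by_contra hcon
    push Not at hcon
    have h1 := key ((g + 1) / (2 * ‖z‖ ^ 2))
    have h2 : 2 * ((g + 1) / (2 * ‖z‖ ^ 2)) * ‖z‖ ^ 2 = g + 1 := by
      have h3 : 2 * ‖z‖ ^ 2 ≠ 0 := by positivity
      calc 2 * ((g + 1) / (2 * ‖z‖ ^ 2)) * ‖z‖ ^ 2 =
          (g + 1) / (2 * ‖z‖ ^ 2) * (2 * ‖z‖ ^ 2) := by ring
        _ = g + 1 := div_mul_cancel₀ _ h3
    rw [h2] at h1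
    linarith
  · have h1 := key (1 / Q)
    have h2 : 2 * (1 / Q) * ‖z‖ ^ 2 - (1 / Q) ^ 2 * ‖z‖ ^ 2 * Q = ‖z‖ ^ 2 / Q := by
      field_simp
      ring
    rw [h2, div_le_iff₀ h0] at h1
    exact h1

end

section

variable {ι : Type*} [Fintype ι] [DecidableEq ι]

theorem hd_star_ld : (hd ι)ᴴ = hd ι := by
  rw [hd, diagonal_conjTranspose]
  congr 1
  funext x
  simp only [Pi.star_apply]
  split_ifs <;> simp

theorem hd_mul_hd_ld : hd ι * hd ι = 1 := by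
  rw [hd, diagonal_mul_diagonal, ← diagonal_one]
  congr 1
  funext x
  split_ifs <;> simp

theorem hd_eq_sgn2_ld : hd ι = diagonal (sgn2 (ι := ι)) := rfl

theorem norm_mul_hd_ld {κ : Type*} [Fintype κ] (S : Matrix κ (Fin 2 × ι) ℂ) (i : κ)
    (x : Fin 2 × ι) : ‖(S * hd ι) i x‖ = ‖S i x‖ := by
  rw [hd, mul_diagonal, norm_mul]
  split_ifs <;> simp

theorem trf_eq_trace_ld (A B H : Matrix (Fin 2 × ι) (Fin 2 × ι) ℂ) :
    trf A B H = trace (A * hd ι * B * (hd ι * H * hd ι)) := by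
  rw [trf, trace]
  refine Finset.sum_congr rfl fun i _ => ?_
  rw [diag_apply, mul_apply]
  rw [Finset.sum_comm]
  refine Finset.sum_congr rfl fun l _ => ?_
  rw [mul_apply, Finset.sum_mul]
  refine Finset.sum_congr rfl fun j _ => ?_
  rw [hd_eq_sgn2_ld, mul_diagonal, mul_diagonal, diagonal_mul]
  ring

theorem gapm_nonneg' {κ κ' : Type*} [Fintype κ] [Fintype κ'] [DecidableEq κ] [DecidableEq κ']
    (P : Matrix (Fin 2 × ι) κ ℂ) (R : Matrix (Fin 2 × ι) κ' ℂ) : 0 ≤ gapm P R :=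
  dgp_nonneg_ld P R

/-- F2 of the blueprint, constant 1 -/
theorem la_dual' (A B H : Matrix (Fin 2 × ι) (Fin 2 × ι) ℂ) :
    ‖trf A B H‖ ^ 2 ≤ gapm B Aᴴ * ∑ l, ∑ i, ‖H l i‖ *
      (Real.sqrt (∑ i', ‖H l i'‖ ^ 2) * Real.sqrt (∑ j, ‖A i j‖ ^ 2) +
        Real.sqrt (∑ l', ‖H l' i‖ ^ 2) * Real.sqrt (∑ j, ‖B j l‖ ^ 2)) := by
  have h1 := dgp_dual B Aᴴ (hd ι * H * hd ι)ᴴ
  rw [conjTranspose_conjTranspose, conjTranspose_conjTranspose, ← trf_eq_trace_ld] at h1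
  rw [gapm_eq_dgp_ld, conjTranspose_conjTranspose]
  refine h1.trans (mul_le_mul_of_nonneg_left ?_ (by
    have := dgp_nonneg_ld B Aᴴ
    rwa [conjTranspose_conjTranspose] at this))
  have eT1 : (hd ι * H * hd ι) * (hd ι * H * hd ι)ᴴ = (Hᴴ * hd ι)ᴴ * (Hᴴ * hd ι) := by
    simp only [conjTranspose_mul, conjTranspose_conjTranspose, hd_star_ld]
    calc hd ι * H * hd ι * (hd ι * (Hᴴ * hd ι)) = hd ι * H * (hd ι * hd ι) * (Hᴴ * hd ι) := by
          simp only [Matrix.mul_assoc]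
      _ = _ := by rw [hd_mul_hd_ld, Matrix.mul_one]
  have eT2 : (hd ι * H * hd ι)ᴴ * (hd ι * H * hd ι) = (H * hd ι)ᴴ * (H * hd ι) := by
    simp only [conjTranspose_mul, hd_star_ld]
    calc hd ι * (Hᴴ * hd ι) * (hd ι * H * hd ι) = hd ι * Hᴴ * (hd ι * hd ι) * (H * hd ι) := by
          simp only [Matrix.mul_assoc]
      _ = _ := by rw [hd_mul_hd_ld, Matrix.mul_one]
  have h2 := la9 Bᴴ (Hᴴ * hd ι)
  have h3 := la9 A (H * hd ι)
  rw [conjTranspose_conjTranspose] at h2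
  rw [eT1, eT2]
  refine (add_le_add h2 h3).trans (le_of_eq ?_)
  simp only [norm_mul_hd_ld, conjTranspose_apply, norm_star]
  rw [Finset.sum_comm, ← Finset.sum_add_distrib]
  refine Finset.sum_congr rfl fun l _ => ?_
  rw [← Finset.sum_add_distrib]
  refine Finset.sum_congr rfl fun i _ => ?_
  ring

end

end Crest.Agent.R72
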