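import Crest.Agent.R72.FDefs
import Crest.Agent.R72.LADual
import Crest.Agent.R72.LABoxF

/-!
# Row 72, module F: the linear algebra facts used by F (interface to the LA files; proved by
helper12 (`la_box`) and helper65 (`la_dual`), replaced by citations when they land)
-/

set_option autoImplicit false

namespace Crest.Agent.R72.FLA

open Finset Matrix
open Crest.Agent.R72

variable {ι : Type*} [Fintype ι] [DecidableEq ι]

theorem gapm_nonneg {κ κ' : Type*} [Fintype κ] [Fintype κ'] [DecidableEq κ] [DecidableEq κ']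
    (P : Matrix (Fin 2 × ι) κ ℂ) (R : Matrix (Fin 2 × ι) κ' ℂ) : 0 ≤ gapm P R :=
  gapm_nonneg' P R

theorem la_box (A B H : Matrix (Fin 2 × ι) (Fin 2 × ι) ℂ) :
    ‖trf A B H‖ ≤ gapm A Hᴴ + gapm B Aᴴ + gapm H Bᴴ :=
  LF.la_box A B H

theorem la_dual (A B H : Matrix (Fin 2 × ι) (Fin 2 × ι) ℂ) :
    ‖trf A B H‖ ^ 2 ≤ 2 * gapm B Aᴴ * ∑ l, ∑ i, ‖H l i‖ *
      (Real.sqrt (∑ i', ‖H l i'‖ ^ 2) * Real.sqrt (∑ j, ‖A i j‖ ^ 2) +
        Real.sqrt (∑ l', ‖H l' i‖ ^ 2) * Real.sqrt (∑ j, ‖B j l‖ ^ 2)) := by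
  refine (la_dual' A B H).trans ?_
  refine mul_le_mul_of_nonneg_right ?_ ?_
  · have := gapm_nonneg' B Aᴴ
    linarith
  · exact Finset.sum_nonneg fun l _ => Finset.sum_nonneg fun i _ => by positivity

end Crest.Agent.R72.FLA
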