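import Crest.Agent.R72.FT

/-!
# Row 72, module F, piece F_PLANE: plane sums

* `plane_rot`: `∑_{x,y} f x y (s-x-y) = ∑_{x,y} f (s-x-y) x y` and `plane_swap`:
  `∑_{x,y} f x y (s-x-y) = ∑_{x,y} f x (s-x-y) y` (bijections of the plane
  `q₀ + q₁ + q₂ = s`; `Finset.sum_comm` and `Equiv.sum_comp (Equiv.subLeft _)`).
* `Gap_comm` from `gapb_comm` and `plane_swap`; `GapE_comm`.
* `PhiAbs_le` : sum `tau_le` over the plane.
* `Phi_sq_le` : `‖Phi‖ ≤ (2L)^{-3} ∑ ‖tau‖ ≤ (2L)^{-3} ∑ √(2 gapb) √Qf`, Cauchy-Schwarz.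
-/

set_option autoImplicit false

namespace Crest.Agent.R72

open Finset

variable {N : ℕ} [NeZero N]

theorem plane_rot {β : Type*} [AddCommMonoid β] (f : ZMod N → ZMod N → ZMod N → β) (s : ZMod N) :
    ∑ x, ∑ y, f x y (s - x - y) = ∑ x, ∑ y, f (s - x - y) x y := by
  rw [Finset.sum_comm]
  refine Finset.sum_congr rfl fun y _ => ?_
  rw [← Equiv.sum_comp (Equiv.subLeft (s - y))]
  refine Finset.sum_congr rfl fun x _ => ?_
  have h1 : (Equiv.subLeft (s - y)) x = s - y - x := rfl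
  rw [h1]
  have h2 : s - (s - y - x) - y = x := by ring
  rw [h2]

theorem plane_swap {β : Type*} [AddCommMonoid β] (f : ZMod N → ZMod N → ZMod N → β) (s : ZMod N) :
    ∑ x, ∑ y, f x y (s - x - y) = ∑ x, ∑ y, f x (s - x - y) y := by
  refine Finset.sum_congr rfl fun x _ => ?_
  rw [← Equiv.sum_comp (Equiv.subLeft (s - x))]
  refine Finset.sum_congr rfl fun y _ => ?_
  have h1 : (Equiv.subLeft (s - x)) y = s - x - y := rfl
  rw [h1]
  have h2 : s - x - (s - x - y) = y := by ring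
  rw [h2]

theorem Gap_nonneg (P R : Fn N) (L : ℕ) (s : ZMod N) : 0 ≤ Gap P R L s := by
  unfold Gap
  exact mul_nonneg (by positivity)
    (Finset.sum_nonneg fun x _ => Finset.sum_nonneg fun y _ => gapb_nonneg _ _ _ _ _ _)

theorem Gap_comm (P R : Fn N) (L : ℕ) (s : ZMod N) : Gap P R L s = Gap R P L s := by
  unfold Gap
  congr 1
  rw [plane_swap (fun x y z => gapb P R L x y z) s]
  refine Finset.sum_congr rfl fun x _ => Finset.sum_congr rfl fun y _ => ?_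
  exact gapb_comm _ _ _ _ _ _

theorem GapE_comm (P R : Fn N) (n L : ℕ) : GapE P R n L = GapE R P n L := by
  unfold GapE
  congr 1
  funext t
  exact Gap_comm _ _ _ _

private theorem fp_rot2 {β : Type*} [AddCommMonoid β] (f : ZMod N → ZMod N → ZMod N → β)
    (s : ZMod N) : ∑ x, ∑ y, f y (s - x - y) x = ∑ x, ∑ y, f x y (s - x - y) := by
  rw [plane_rot f s, plane_rot (fun x y z => f z x y) s]

private theorem fp_tr13 {β : Type*} [AddCommMonoid β] (f : ZMod N → ZMod N → ZMod N → β)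
    (s : ZMod N) : ∑ x, ∑ y, f (s - x - y) y x = ∑ x, ∑ y, f x y (s - x - y) := by
  rw [plane_swap f s, plane_rot (fun x y z => f x z y) s]

theorem PhiAbs_le (A B H : Fn N) (L : ℕ) (s : ZMod N) :
    PhiAbs A B H L s ≤ Gap A (cT H) L s + Gap B (cT A) L s + Gap (cT B) H L s := by
  unfold PhiAbs Gap
  rw [← mul_add, ← mul_add]
  refine mul_le_mul_of_nonneg_left ?_ (by positivity)
  rw [← fp_rot2 (fun x y z => gapb B (cT A) L x y z) s,
    ← fp_tr13 (fun x y z => gapb (cT B) H L x y z) s, ← Finset.sum_add_distrib,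
    ← Finset.sum_add_distrib]
  refine Finset.sum_le_sum fun x _ => ?_
  rw [← Finset.sum_add_distrib, ← Finset.sum_add_distrib]
  exact Finset.sum_le_sum fun y _ => tau_le _ _ _ _ _ _ _

theorem QP_nonneg (A B H : Fn N) (L : ℕ) (s : ZMod N) : 0 ≤ QP A B H L s := by
  unfold QP
  exact mul_nonneg (by positivity)
    (Finset.sum_nonneg fun x _ => Finset.sum_nonneg fun y _ => Qf_nonneg _ _ _ _ _ _ _)

theorem Phi_le (A B H : Fn N) (L : ℕ) (s : ZMod N) :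
    ‖Phi A B H L s‖ ≤ Real.sqrt (2 * Gap B (cT A) L s) * Real.sqrt (QP A B H L s) := by
  have hc : (0 : ℝ) ≤ (((2 * L : ℕ) : ℝ) ^ 3)⁻¹ := by positivity
  have h1 : ‖Phi A B H L s‖ ≤ (((2 * L : ℕ) : ℝ) ^ 3)⁻¹ *
      ∑ x : ZMod N, ∑ y : ZMod N, ‖tau A B H L x y (s - x - y)‖ := by
    unfold Phi
    rw [norm_mul]
    have e1 : ‖((((2 * L : ℕ) : ℂ)) ^ 3)⁻¹‖ = (((2 * L : ℕ) : ℝ) ^ 3)⁻¹ := by
      rw [norm_inv, norm_pow, Complex.norm_natCast]
    rw [e1]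
    refine mul_le_mul_of_nonneg_left ?_ hc
    exact (norm_sum_le _ _).trans (Finset.sum_le_sum fun x _ => norm_sum_le _ _)
  have h2 : ∀ x y : ZMod N, ‖tau A B H L x y (s - x - y)‖ ≤
      Real.sqrt (2 * gapb B (cT A) L y (s - x - y) x) * Real.sqrt (Qf A B H L x y (s - x - y)) := by
    intro x y
    rw [← Real.sqrt_mul (mul_nonneg (by norm_num) (gapb_nonneg _ _ _ _ _ _))]
    exact Real.le_sqrt_of_sq_le (tau_sq_le _ _ _ _ _ _ _)
  have h3 : ∑ x : ZMod N, ∑ y : ZMod N, ‖tau A B H L x y (s - x - y)‖ ≤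
      Real.sqrt (∑ x : ZMod N, ∑ y : ZMod N, 2 * gapb B (cT A) L y (s - x - y) x) *
      Real.sqrt (∑ x : ZMod N, ∑ y : ZMod N, Qf A B H L x y (s - x - y)) := by
    refine (Finset.sum_le_sum fun x _ => Finset.sum_le_sum fun y _ => h2 x y).trans ?_
    have h4 := Real.sum_sqrt_mul_sqrt_le (Finset.univ : Finset (ZMod N × ZMod N))
      (f := fun q => 2 * gapb B (cT A) L q.2 (s - q.1 - q.2) q.1)
      (g := fun q => Qf A B H L q.1 q.2 (s - q.1 - q.2))
      (fun q => mul_nonneg (by norm_num) (gapb_nonneg _ _ _ _ _ _))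
      (fun q => Qf_nonneg _ _ _ _ _ _ _)
    rw [Fintype.sum_prod_type, Fintype.sum_prod_type, Fintype.sum_prod_type] at h4
    exact h4
  have h5 : ∑ x : ZMod N, ∑ y : ZMod N, 2 * gapb B (cT A) L y (s - x - y) x =
      2 * ∑ x : ZMod N, ∑ y : ZMod N, gapb B (cT A) L x y (s - x - y) := by
    rw [← fp_rot2 (fun x y z => gapb B (cT A) L x y z) s]
    simp only [Finset.mul_sum]
  rw [h5] at h3
  refine h1.trans ((mul_le_mul_of_nonneg_left h3 hc).trans (le_of_eq ?_))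
  unfold Gap QP
  rw [show 2 * ((((2 * L : ℕ) : ℝ) ^ 3)⁻¹ * ∑ x : ZMod N, ∑ y : ZMod N,
      gapb B (cT A) L x y (s - x - y)) = (((2 * L : ℕ) : ℝ) ^ 3)⁻¹ *
      (2 * ∑ x : ZMod N, ∑ y : ZMod N, gapb B (cT A) L x y (s - x - y)) by ring,
    Real.sqrt_mul hc, Real.sqrt_mul hc]
  have h6 : Real.sqrt (((2 * L : ℕ) : ℝ) ^ 3)⁻¹ * Real.sqrt (((2 * L : ℕ) : ℝ) ^ 3)⁻¹ =
      (((2 * L : ℕ) : ℝ) ^ 3)⁻¹ := Real.mul_self_sqrt hc
  nth_rewrite 1 [← h6]
  ring

end Crest.Agent.R72
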