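import Crest.Agent.R72.HL2

/-!
# Row 72, module HL (helper44): final forms used by W, F (directional maximal functions on
`ZMod N × ZMod N`, and the dual inequality)
-/

set_option autoImplicit false

namespace Crest.Agent.R72

open Finset

variable {N : ℕ} [NeZero N]

/-- second variable, `ℓ³` -/
theorem l3_mx_right {u : ZMod N → ZMod N → ℝ} (hu : ∀ x y, 0 ≤ u x y) :
    l3 (fun x y => mx (u x) y) ≤ 3 * l3 u := by
  refine l3_le_of_cube (by norm_num) ?_
  rw [Finset.mul_sum]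
  refine Finset.sum_le_sum fun x _ => ?_
  have h := hl_three (hu x)
  have e1 : ∀ y, |mx (u x) y| ^ 3 = mx (u x) y ^ 3 := fun y => by
    rw [abs_of_nonneg (mx_nonneg (hu x) y)]
  have e2 : ∀ y, |u x y| ^ 3 = u x y ^ 3 := fun y => by rw [abs_of_nonneg (hu x y)]
  simp only [e1, e2]
  norm_num
  exact h

/-- first variable, `ℓ³` -/
theorem l3_mx_left {u : ZMod N → ZMod N → ℝ} (hu : ∀ x y, 0 ≤ u x y) :
    l3 (fun x y => mx (fun t => u t y) x) ≤ 3 * l3 u := by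
  have h := l3_mx_right (u := fun x y => u y x) (fun x y => hu y x)
  rw [l3_swap u] at h
  refine le_trans (le_of_eq ?_) h
  exact l3_swap (fun x y => mx (fun t => u t x) y)

private theorem hl_sqrt_cube {m : ℝ} (hm : 0 ≤ m) : |Real.sqrt m| ^ 3 = m ^ (3 / 2 : ℝ) := by
  rw [abs_of_nonneg (Real.sqrt_nonneg _), Real.sqrt_eq_rpow, ← Real.rpow_natCast,
    ← Real.rpow_mul hm]
  norm_num

private theorem hl_sq_rpow (m : ℝ) : (m ^ 2) ^ (3 / 2 : ℝ) = |m| ^ 3 := by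
  rw [← sq_abs, ← Real.rpow_natCast, ← Real.rpow_natCast, ← Real.rpow_mul (abs_nonneg _)]
  norm_num

/-- second variable, `ℓ^{3/2}` applied to squares -/
theorem l3_sqrt_mx_right (u : ZMod N → ZMod N → ℝ) :
    l3 (fun x y => Real.sqrt (mx (fun t => u x t ^ 2) y)) ≤ 3 * l3 u := by
  refine l3_le_of_cube (by norm_num) ?_
  rw [Finset.mul_sum]
  refine Finset.sum_le_sum fun x _ => ?_
  have h := hl_three_half (u := fun t => u x t ^ 2) (fun y => sq_nonneg _)
  have e1 : ∀ y, |Real.sqrt (mx (fun t => u x t ^ 2) y)| ^ 3 =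
      mx (fun t => u x t ^ 2) y ^ (3 / 2 : ℝ) := fun y =>
    hl_sqrt_cube (mx_nonneg (fun t => sq_nonneg _) y)
  simp only [hl_sq_rpow] at h
  simp only [e1]
  norm_num at h ⊢
  exact h

/-- first variable, `ℓ^{3/2}` applied to squares -/
theorem l3_sqrt_mx_left (u : ZMod N → ZMod N → ℝ) :
    l3 (fun x y => Real.sqrt (mx (fun t => u t y ^ 2) x)) ≤ 3 * l3 u := by
  have h := l3_sqrt_mx_right (fun x y => u y x)
  rw [l3_swap u] at h
  refine le_trans (le_of_eq ?_) h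
  exact l3_swap (fun x y => Real.sqrt (mx (fun t => u t x ^ 2) y))

/-- **dual inequality**, second variable: `‖(∑ A_i g_i)^{1/2}‖₃ ≤ 2 ‖(∑ g_i)^{1/2}‖₃` for `g_i ≥ 0` and
window averages `A_i` (over `[y - a_i, y + b_i]`).  By `l3_dual`: `∑ (A_i g_i) w = ∑ g_i (A_i* w)
≤ ∑ (∑ g_i) mx w ≤ l3(√∑ g_i)² l3(mx w) ≤ 3 l3(√∑ g_i)² l3 w`. -/
theorem l3_dual_right {ι : Type*} (s : Finset ι) (a b : ι → ℕ) (g : ι → ZMod N → ZMod N → ℝ)
    (hg : ∀ i x y, 0 ≤ g i x y) :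
    l3 (fun x y => Real.sqrt (∑ i ∈ s, wavg (g i x) (a i) (b i) y)) ≤
      2 * l3 (fun x y => Real.sqrt (∑ i ∈ s, g i x y)) := by
  obtain ⟨G, hG⟩ : ∃ G, G = l3 (fun x y => Real.sqrt (∑ i ∈ s, g i x y)) := ⟨_, rfl⟩
  rw [← hG]
  have hG0 : 0 ≤ G := hG ▸ l3_nonneg _
  have key : l3 (fun x y => Real.sqrt (∑ i ∈ s, wavg (g i x) (a i) (b i) y)) ^ 2 ≤ 3 * G ^ 2 := by
    refine l3_dual (by positivity) fun w hw => ?_
    have e1 : ∀ x y, Real.sqrt (∑ i ∈ s, wavg (g i x) (a i) (b i) y) ^ 2 =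
        ∑ i ∈ s, wavg (g i x) (a i) (b i) y := fun x y =>
      Real.sq_sqrt (Finset.sum_nonneg fun i _ => wavg_nonneg (hg i x) _ _ _)
    simp only [e1]
    have h1 : ∀ x, ∑ y, (∑ i ∈ s, wavg (g i x) (a i) (b i) y) * w x y ≤
        ∑ y, |mx (w x) y| * Real.sqrt (∑ i ∈ s, g i x y) ^ 2 := by
      intro x
      have h2 : ∑ y, (∑ i ∈ s, wavg (g i x) (a i) (b i) y) * w x y =
          ∑ y, ∑ i ∈ s, g i x y * wavg (w x) (b i) (a i) y := by
        simp only [Finset.sum_mul]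
        rw [Finset.sum_comm, Finset.sum_comm (s := Finset.univ)]
        exact Finset.sum_congr rfl fun i _ => sum_wavg_mul _ _ _ _
      rw [h2]
      refine Finset.sum_le_sum fun y _ => ?_
      rw [Real.sq_sqrt (Finset.sum_nonneg fun i _ => hg i x y), Finset.mul_sum,
        abs_of_nonneg (mx_nonneg (hw x) y)]
      refine Finset.sum_le_sum fun i _ => ?_
      rw [mul_comm]
      exact mul_le_mul_of_nonneg_right (wavg_le_mx _ _ _ _) (hg i x y)
    calc _ ≤ ∑ x, ∑ y, |mx (w x) y| * Real.sqrt (∑ i ∈ s, g i x y) ^ 2 :=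
          Finset.sum_le_sum fun x _ => h1 x
      _ ≤ l3 (fun x y => mx (w x) y) * G ^ 2 := by
          rw [hG]
          exact holder3_sq (fun x y => mx (w x) y) (fun x y => Real.sqrt (∑ i ∈ s, g i x y))
      _ ≤ (3 * l3 w) * G ^ 2 := mul_le_mul_of_nonneg_right (l3_mx_right hw) (sq_nonneg _)
      _ = 3 * G ^ 2 * l3 w := by ring
  have h0 := l3_nonneg (fun x y => Real.sqrt (∑ i ∈ s, wavg (g i x) (a i) (b i) y))
  nlinarith [sq_nonneg G]

/-- dual inequality, first variable -/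
theorem l3_dual_left {ι : Type*} (s : Finset ι) (a b : ι → ℕ) (g : ι → ZMod N → ZMod N → ℝ)
    (hg : ∀ i x y, 0 ≤ g i x y) :
    l3 (fun x y => Real.sqrt (∑ i ∈ s, wavg (fun t => g i t y) (a i) (b i) x)) ≤
      2 * l3 (fun x y => Real.sqrt (∑ i ∈ s, g i x y)) := by
  have h := l3_dual_right s a b (fun i x y => g i y x) (fun i x y => hg i y x)
  rw [l3_swap (fun x y => Real.sqrt (∑ i ∈ s, g i x y))] at h
  refine le_trans (le_of_eq ?_) h
  exact l3_swap (fun x y => Real.sqrt (∑ i ∈ s, wavg (fun t => g i t x) (a i) (b i) y))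

end Crest.Agent.R72
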