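import Crest.Agent.R72.FDefs
import Crest.Agent.R72.HL

/-!
# Row 72, module F, piece F_WIN: windows of the quadratic side

`s = pl N n L t`, `n - 1 ≤ t < 2n - 1`, `L ≥ 1`.  Plane sum over `(q₀, q₁, q₂)`, `q₀ + q₁ + q₂ = s`.
Substitute `x₀ = q₀ + i`, `x₂ = q₂ + l` (for fixed `i, l`): the sum over the plane becomes the sum over
`(x₂, x₀)` (`Q_sub`), with `q₀ = x₀ - i`, `q₂ = x₂ - l`, `q₁ = s - x₀ - x₂ + i + l`.
* `win_H` : the window `[x₀ - i, x₀ - i + 2L)` lies in `[x₀ - (2L-1), x₀ + (2L-1)]`: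
  `∑_{i'} u (x₀ - i + i') ≤ (4L - 1) wavg u (2L-1) (2L-1) x₀ ≤ 4 L wavg ..`.
* `win_A` : the window `[q₁, q₁ + 2L)` lies in `[-x₀-x₂ - (n+2)L, -x₀-x₂ + (n+2)L]`
  (`s = 1 - 3nL + 2Lt`, `q₁ + x₀ + x₂ = 1 - 3nL + 2Lt + i + l ∈ [-(n+2)L + 1, nL + 2L - 2 - (2L - 1)]`
  when the length `2L` is taken into account), so `∑_j u (q₁ + j) ≤ (2(n+2)L + 1) mx u (-x₀-x₂)
  ≤ 7 n L mx` (`sum_window_le'`).
* Product of the square roots: `√(4L wavg) √(7nL mx) ≤ 6 √n L √wavg √mx`; there are `(2L)²` pairs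
  `(i, l)`; `(2L)^{-3} (2L)² 6 √n L = 3 √n`.
-/

set_option autoImplicit false

namespace Crest.Agent.R72

open Finset

variable {N : ℕ} [NeZero N]

private theorem fq1_sub {g : ℕ → ℝ} (hg : ∀ l, 0 ≤ g l) {c M T : ℕ} (h : c + M ≤ T) :
    ∑ l ∈ range M, g (c + l) ≤ ∑ l ∈ range T, g l := by
  have h1 : ∑ l ∈ range M, g (c + l) = ∑ l ∈ Finset.Ico c (c + M), g l := by
    rw [Finset.sum_Ico_eq_sum_range, Nat.add_sub_cancel_left]
  rw [h1]
  refine Finset.sum_le_sum_of_subset_of_nonneg ?_ (fun _ _ _ => hg _)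
  intro l hl
  rw [Finset.mem_Ico] at hl
  rw [Finset.mem_range]
  omega

theorem win_H {u : ZMod N → ℝ} (hu : ∀ y, 0 ≤ u y) {L i : ℕ} (hi : i < 2 * L) (x : ZMod N) :
    ∑ i' ∈ range (2 * L), u (x - (i : ZMod N) + (i' : ZMod N)) ≤
      4 * L * wavg u (2 * L - 1) (2 * L - 1) x := by
  have hpos : (0 : ℝ) < ((2 * L - 1 + (2 * L - 1) + 1 : ℕ) : ℝ) := by positivity
  have h1 : ∑ i' ∈ range (2 * L), u (x - (i : ZMod N) + (i' : ZMod N)) ≤
      ∑ l ∈ range (2 * L - 1 + (2 * L - 1) + 1), u (x - ((2 * L - 1 : ℕ) : ZMod N) + (l : ZMod N)) := by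
    have h2 := fq1_sub (g := fun l : ℕ => u (x - ((2 * L - 1 : ℕ) : ZMod N) + (l : ZMod N)))
      (fun l => hu _) (c := 2 * L - 1 - i) (M := 2 * L) (T := 2 * L - 1 + (2 * L - 1) + 1) (by omega)
    refine le_trans (le_of_eq ?_) h2
    refine Finset.sum_congr rfl fun i' _ => ?_
    congr 1
    have e1 : ((2 * L - 1 : ℕ) : ZMod N) = ((2 * L - 1 - i : ℕ) : ZMod N) + (i : ZMod N) := by
      rw [← Nat.cast_add]
      congr 1
      omega
    rw [e1]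
    push_cast
    ring
  have h3 : ∑ l ∈ range (2 * L - 1 + (2 * L - 1) + 1),
      u (x - ((2 * L - 1 : ℕ) : ZMod N) + (l : ZMod N)) =
      ((2 * L - 1 + (2 * L - 1) + 1 : ℕ) : ℝ) * wavg u (2 * L - 1) (2 * L - 1) x := by
    unfold wavg
    rw [← mul_assoc, mul_inv_cancel₀ hpos.ne', one_mul]
  rw [h3] at h1
  refine h1.trans (mul_le_mul_of_nonneg_right ?_ (wavg_nonneg hu _ _ _))
  have h4 : 2 * L - 1 + (2 * L - 1) + 1 ≤ 4 * L := by omega
  exact_mod_cast h4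

theorem win_A {u : ZMod N → ℝ} (hu : ∀ y, 0 ≤ u y) {n L t i l : ℕ} (hn : 1 ≤ n) (hL : 1 ≤ L)
    (h1 : n - 1 ≤ t) (h2 : t < 2 * n - 1) (hi : i < 2 * L) (hl : l < 2 * L) (x₀ x₂ : ZMod N) :
    ∑ j ∈ range (2 * L), u (pl N n L t - (x₀ - (i : ZMod N)) - (x₂ - (l : ZMod N)) + (j : ZMod N)) ≤
      7 * n * L * mx u (-x₀ - x₂) := by
  obtain ⟨t', rfl⟩ : ∃ t', t = n - 1 + t' := ⟨t - (n - 1), by omega⟩
  obtain ⟨m, rfl⟩ : ∃ m, n = m + 1 := ⟨n - 1, by omega⟩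
  have ht' : t' ≤ m := by omega
  rw [Nat.add_sub_cancel]
  have hm : L * t' ≤ L * m := Nat.mul_le_mul_left _ ht'
  have e0 : 3 * ((m + 1) * (2 * L) / 2) = 3 * (m + 1) * L := by
    rw [show (m + 1) * (2 * L) = (m + 1) * L * 2 by ring, Nat.mul_div_cancel _ (by norm_num)]
    ring
  have hc : ∃ c : ℕ, c + 3 * (m + 1) * L = (m + 1 + 2) * L + 1 + 2 * L * (m + t') + i + l ∧
      c + 2 * L ≤ (m + 1 + 2) * L + (m + 1 + 2) * L + 1 := by
    refine ⟨(m + 1 + 2) * L + 1 + 2 * L * (m + t') + i + l - 3 * (m + 1) * L, ?_, ?_⟩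
    · have : 3 * (m + 1) * L ≤ (m + 1 + 2) * L + 1 + 2 * L * (m + t') + i + l := by nlinarith
      exact Nat.sub_add_cancel this
    · have h5 : (m + 1 + 2) * L + 1 + 2 * L * (m + t') + i + l + 2 * L ≤
          (m + 1 + 2) * L + (m + 1 + 2) * L + 1 + 3 * (m + 1) * L := by nlinarith
      have h6 : 3 * (m + 1) * L ≤ (m + 1 + 2) * L + 1 + 2 * L * (m + t') + i + l := by nlinarith
      generalize 3 * (m + 1) * L = X at h5 h6 ⊢
      generalize (m + 1 + 2) * L + 1 + 2 * L * (m + t') + i + l = Y at h5 h6 ⊢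
      generalize (m + 1 + 2) * L = Z at h5 h6 ⊢
      omega
  obtain ⟨c, hc1, hc2⟩ := hc
  have key := sum_window_le' hu hc2 (-x₀ - x₂)
  have e1 : ∀ j : ℕ, pl N (m + 1) L (m + t') - (x₀ - (i : ZMod N)) - (x₂ - (l : ZMod N)) + (j : ZMod N) =
      (-x₀ - x₂) - (((m + 1 + 2) * L : ℕ) : ZMod N) + (c : ZMod N) + (j : ZMod N) := by
    intro j
    have h6 := congrArg (Nat.cast : ℕ → ZMod N) hc1
    have h7 : (c : ZMod N) = (((m + 1 + 2) * L + 1 + 2 * L * (m + t') + i + l : ℕ) : ZMod N) -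
        ((3 * (m + 1) * L : ℕ) : ZMod N) := by
      rw [← h6]
      push_cast
      ring
    unfold pl sC
    rw [h7, e0]
    push_cast
    ring
  simp only [e1]
  refine key.trans (mul_le_mul_of_nonneg_right ?_ (mx_nonneg hu _))
  have h8 : (m + 1 + 2) * L + (m + 1 + 2) * L + 1 ≤ 7 * (m + 1) * L := by nlinarith
  exact_mod_cast h8

/-- substitution in the plane sum -/
theorem Q_sub (f : ℕ → ℕ → ZMod N → ZMod N → ZMod N → ℝ) (L : ℕ) (s : ZMod N) :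
    ∑ x : ZMod N, ∑ y : ZMod N, ∑ l ∈ range (2 * L), ∑ i ∈ range (2 * L), f l i x y (s - x - y) =
      ∑ x₂ : ZMod N, ∑ x₀ : ZMod N, ∑ l ∈ range (2 * L), ∑ i ∈ range (2 * L),
        f l i (x₀ - (i : ZMod N)) (s - (x₀ - (i : ZMod N)) - (x₂ - (l : ZMod N)))
          (x₂ - (l : ZMod N)) := by
  have key : ∀ F : ZMod N → ZMod N → ZMod N → ℝ, ∀ a b : ZMod N,
      ∑ x : ZMod N, ∑ y : ZMod N, F x y (s - x - y) =
        ∑ x₂ : ZMod N, ∑ x₀ : ZMod N, F (x₀ - a) (s - (x₀ - a) - (x₂ - b)) (x₂ - b) := by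
    intro F a b
    rw [Finset.sum_comm (γ := ZMod N) (f := fun x₂ x₀ => F (x₀ - a) (s - (x₀ - a) - (x₂ - b)) (x₂ - b))]
    rw [← Equiv.sum_comp (Equiv.subRight a) (fun x => ∑ y : ZMod N, F x y (s - x - y))]
    refine Finset.sum_congr rfl fun x₀ _ => ?_
    simp only [Equiv.subRight_apply]
    rw [← Equiv.sum_comp ((Equiv.subRight b).trans (Equiv.subLeft (s - (x₀ - a))))
      (fun y => F (x₀ - a) y (s - (x₀ - a) - y))]
    refine Finset.sum_congr rfl fun x₂ _ => ?_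
    simp only [Equiv.trans_apply, Equiv.subRight_apply, Equiv.subLeft_apply]
    congr 1
    ring
  have hL : ∑ x : ZMod N, ∑ y : ZMod N, ∑ l ∈ range (2 * L), ∑ i ∈ range (2 * L), f l i x y (s - x - y) =
      ∑ l ∈ range (2 * L), ∑ i ∈ range (2 * L), ∑ x : ZMod N, ∑ y : ZMod N, f l i x y (s - x - y) := by
    have h1 : ∀ x : ZMod N, ∑ y : ZMod N, ∑ l ∈ range (2 * L), ∑ i ∈ range (2 * L), f l i x y (s - x - y) =
        ∑ l ∈ range (2 * L), ∑ i ∈ range (2 * L), ∑ y : ZMod N, f l i x y (s - x - y) := by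
      intro x
      rw [Finset.sum_comm]
      exact Finset.sum_congr rfl fun l _ => Finset.sum_comm
    simp only [h1]
    rw [Finset.sum_comm]
    exact Finset.sum_congr rfl fun l _ => Finset.sum_comm
  rw [hL]
  have hR : ∀ g : ℕ → ℕ → ZMod N → ZMod N → ℝ,
      ∑ x₂ : ZMod N, ∑ x₀ : ZMod N, ∑ l ∈ range (2 * L), ∑ i ∈ range (2 * L), g l i x₂ x₀ =
      ∑ l ∈ range (2 * L), ∑ i ∈ range (2 * L), ∑ x₂ : ZMod N, ∑ x₀ : ZMod N, g l i x₂ x₀ := by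
    intro g
    have h1 : ∀ x : ZMod N, ∑ y : ZMod N, ∑ l ∈ range (2 * L), ∑ i ∈ range (2 * L), g l i x y =
        ∑ l ∈ range (2 * L), ∑ i ∈ range (2 * L), ∑ y : ZMod N, g l i x y := by
      intro x
      rw [Finset.sum_comm]
      exact Finset.sum_congr rfl fun l _ => Finset.sum_comm
    simp only [h1]
    rw [Finset.sum_comm]
    exact Finset.sum_congr rfl fun l _ => Finset.sum_comm
  rw [hR (fun l i x₂ x₀ => f l i (x₀ - (i : ZMod N)) (s - (x₀ - (i : ZMod N)) - (x₂ - (l : ZMod N)))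
          (x₂ - (l : ZMod N)))]
  exact Finset.sum_congr rfl fun l _ => Finset.sum_congr rfl fun i _ => key (f l i) i l

end Crest.Agent.R72
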