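import Crest.Agent.R72.FQ1

/-!
# Row 72, module F, piece F_Q: the quadratic side on one plane

`QP_le` : `Q_sub` (substitution `x₀ = q₀ + i`, `x₂ = q₂ + l`), then `win_H` and `win_A` inside the
square roots: `√(4 L wavg) √(7 n L mx) ≤ 6 √n L √wavg √mx` (`28 ≤ 36`); there are `(2L)²` pairs
`(i, l)` and `(2L)⁻³ (2L)² 6 √n L = 3 √n`.  For the `B` term the roles of `i` and `l` are exchanged
(`∑_{l'} ‖H (x₂ - l + l') x₀‖²`, `∑_j ‖B (q₁ + j) x₂‖²`).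
-/

set_option autoImplicit false

namespace Crest.Agent.R72

open Finset

variable {N : ℕ} [NeZero N]

theorem QP_le (A B H : Fn N) {n L t : ℕ} (hn : 1 ≤ n) (hL : 1 ≤ L)
    (h1 : n - 1 ≤ t) (h2 : t < 2 * n - 1) :
    QP A B H L (pl N n L t) ≤ 3 * Real.sqrt n * ∑ x₂ : ZMod N, ∑ x₀ : ZMod N, ‖H x₂ x₀‖ *
      (Real.sqrt (wavg (fun y => ‖H x₂ y‖ ^ 2) (2 * L - 1) (2 * L - 1) x₀) *
          Real.sqrt (mx (fun y => ‖A x₀ y‖ ^ 2) (-x₀ - x₂)) +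
        Real.sqrt (wavg (fun y => ‖H y x₀‖ ^ 2) (2 * L - 1) (2 * L - 1) x₂) *
          Real.sqrt (mx (fun y => ‖B y x₂‖ ^ 2) (-x₀ - x₂))) := by
  have hLp : (0 : ℝ) < L := by exact_mod_cast hL
  have hK : Real.sqrt (4 * L) * Real.sqrt (7 * n * L) ≤ 6 * Real.sqrt n * L := by
    rw [← Real.sqrt_mul (by positivity)]
    refine Real.sqrt_le_iff.2 ⟨by positivity, ?_⟩
    have h2 : (6 * Real.sqrt n * L) ^ 2 = 36 * n * L ^ 2 := by
      have h3 : Real.sqrt (n : ℝ) ^ 2 = n := Real.sq_sqrt (Nat.cast_nonneg n)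
      rw [mul_pow, mul_pow, h3]
      norm_num
    rw [h2]
    have h4 : (0 : ℝ) ≤ n * L ^ 2 := by positivity
    nlinarith
  have hprod : ∀ a b c d : ℝ, a ≤ 4 * L * b → c ≤ 7 * n * L * d →
      Real.sqrt a * Real.sqrt c ≤ 6 * Real.sqrt n * L * (Real.sqrt b * Real.sqrt d) := by
    intro a b c d hab hcd
    have h5 : Real.sqrt a ≤ Real.sqrt (4 * L) * Real.sqrt b := by
      rw [← Real.sqrt_mul (by positivity)]
      exact Real.sqrt_le_sqrt hab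
    have h6 : Real.sqrt c ≤ Real.sqrt (7 * n * L) * Real.sqrt d := by
      rw [← Real.sqrt_mul (by positivity)]
      exact Real.sqrt_le_sqrt hcd
    calc Real.sqrt a * Real.sqrt c ≤
        (Real.sqrt (4 * L) * Real.sqrt b) * (Real.sqrt (7 * n * L) * Real.sqrt d) :=
          mul_le_mul h5 h6 (Real.sqrt_nonneg _) (by positivity)
      _ = (Real.sqrt (4 * L) * Real.sqrt (7 * n * L)) * (Real.sqrt b * Real.sqrt d) := by ring
      _ ≤ _ := mul_le_mul_of_nonneg_right hK (by positivity)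
  obtain ⟨Z, hZ⟩ : ∃ Z : ZMod N → ZMod N → ℝ, Z = fun x₂ x₀ =>
      Real.sqrt (wavg (fun y => ‖H x₂ y‖ ^ 2) (2 * L - 1) (2 * L - 1) x₀) *
          Real.sqrt (mx (fun y => ‖A x₀ y‖ ^ 2) (-x₀ - x₂)) +
        Real.sqrt (wavg (fun y => ‖H y x₀‖ ^ 2) (2 * L - 1) (2 * L - 1) x₂) *
          Real.sqrt (mx (fun y => ‖B y x₂‖ ^ 2) (-x₀ - x₂)) := ⟨_, rfl⟩
  obtain ⟨f, hf⟩ : ∃ f : ℕ → ℕ → ZMod N → ZMod N → ZMod N → ℝ, f = fun (l i : ℕ) (x y z : ZMod N) =>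
      ‖H (z + (l : ZMod N)) (x + (i : ZMod N))‖ *
    (Real.sqrt (∑ i' ∈ range (2 * L), ‖H (z + (l : ZMod N)) (x + (i' : ZMod N))‖ ^ 2) *
        Real.sqrt (∑ j ∈ range (2 * L), ‖A (x + (i : ZMod N)) (y + (j : ZMod N))‖ ^ 2) +
      Real.sqrt (∑ l' ∈ range (2 * L), ‖H (z + (l' : ZMod N)) (x + (i : ZMod N))‖ ^ 2) *
        Real.sqrt (∑ j ∈ range (2 * L), ‖B (y + (j : ZMod N)) (z + (l : ZMod N))‖ ^ 2)) :=
    ⟨_, rfl⟩
  have e1 : ∑ x : ZMod N, ∑ y : ZMod N, Qf A B H L x y (pl N n L t - x - y) =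
      ∑ x₂ : ZMod N, ∑ x₀ : ZMod N, ∑ l ∈ range (2 * L), ∑ i ∈ range (2 * L),
        f l i (x₀ - (i : ZMod N)) (pl N n L t - (x₀ - (i : ZMod N)) - (x₂ - (l : ZMod N)))
          (x₂ - (l : ZMod N)) := by
    rw [← Q_sub f L (pl N n L t), hf]
    rfl
  have hpt : ∀ x₂ x₀ : ZMod N, ∀ l ∈ range (2 * L), ∀ i ∈ range (2 * L),
      f l i (x₀ - (i : ZMod N)) (pl N n L t - (x₀ - (i : ZMod N)) - (x₂ - (l : ZMod N)))
          (x₂ - (l : ZMod N)) ≤ ‖H x₂ x₀‖ * (6 * Real.sqrt n * L * Z x₂ x₀) := by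
    intro x₂ x₀ l hl i hi
    rw [Finset.mem_range] at hl hi
    rw [hf, hZ]
    simp only [sub_add_cancel]
    refine mul_le_mul_of_nonneg_left ?_ (norm_nonneg _)
    rw [mul_add]
    refine add_le_add ?_ ?_
    · exact hprod _ _ _ _ (win_H (u := fun y => ‖H x₂ y‖ ^ 2) (fun y => by positivity) hi x₀)
        (win_A (u := fun y => ‖A x₀ y‖ ^ 2) (fun y => by positivity) hn hL h1 h2 hi hl x₀ x₂)
    · exact hprod _ _ _ _ (win_H (u := fun y => ‖H y x₀‖ ^ 2) (fun y => by positivity) hl x₂)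
        (win_A (u := fun y => ‖B y x₂‖ ^ 2) (fun y => by positivity) hn hL h1 h2 hi hl x₀ x₂)
  unfold QP
  rw [e1]
  have h7 : ∑ x₂ : ZMod N, ∑ x₀ : ZMod N, ∑ l ∈ range (2 * L), ∑ i ∈ range (2 * L),
        f l i (x₀ - (i : ZMod N)) (pl N n L t - (x₀ - (i : ZMod N)) - (x₂ - (l : ZMod N)))
          (x₂ - (l : ZMod N)) ≤ ∑ x₂ : ZMod N, ∑ x₀ : ZMod N,
            (((2 * L : ℕ) : ℝ) * ((2 * L : ℕ) : ℝ) * (6 * Real.sqrt n * L)) *
              (‖H x₂ x₀‖ * Z x₂ x₀) := by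
    refine Finset.sum_le_sum fun x₂ _ => Finset.sum_le_sum fun x₀ _ => ?_
    refine (Finset.sum_le_sum fun l hl => Finset.sum_le_sum fun i hi =>
      hpt x₂ x₀ l hl i hi).trans (le_of_eq ?_)
    rw [Finset.sum_const, Finset.sum_const, Finset.card_range, nsmul_eq_mul, nsmul_eq_mul]
    ring
  have h8 : ∑ x₂ : ZMod N, ∑ x₀ : ZMod N,
            (((2 * L : ℕ) : ℝ) * ((2 * L : ℕ) : ℝ) * (6 * Real.sqrt n * L)) *
              (‖H x₂ x₀‖ * Z x₂ x₀) =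
      (((2 * L : ℕ) : ℝ) * ((2 * L : ℕ) : ℝ) * (6 * Real.sqrt n * L)) *
        ∑ x₂ : ZMod N, ∑ x₀ : ZMod N, ‖H x₂ x₀‖ * Z x₂ x₀ := by
    rw [Finset.mul_sum]
    refine Finset.sum_congr rfl fun x₂ _ => ?_
    rw [Finset.mul_sum]
  have h9 : (((2 * L : ℕ) : ℝ) ^ 3)⁻¹ *
      (((2 * L : ℕ) : ℝ) * ((2 * L : ℕ) : ℝ) * (6 * Real.sqrt n * L)) = 3 * Real.sqrt n := by
    push_cast
    field_simp
    norm_num
  have h10 : (0 : ℝ) ≤ (((2 * L : ℕ) : ℝ) ^ 3)⁻¹ := by positivity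
  have h11 := mul_le_mul_of_nonneg_left (h7.trans (le_of_eq h8)) h10
  rw [← mul_assoc, h9, hZ] at h11
  exact h11

end Crest.Agent.R72
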