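import Crest.Agent.R72.FQ2

/-!
# Row 72, module F, piece F_QTOT: the total quadratic side

* `l3_mxA`, `l3_mxB` : `l3_sqrt_mx_right` / `l3_sqrt_mx_left` composed with the bijections
  `(x₂, x₀) ↦ (x₀, -x₀-x₂)`, `(x₂, x₀) ↦ (-x₀-x₂, x₂)` (`l3_equiv`).
* `Q_total` : sum `QP_le` over `(k, t)` (`L = 2 ^ k`); for fixed `(x₂, x₀)` Cauchy-Schwarz in `(k, t)`:
  `∑ ‖H_kt‖ √(wavg ‖H_kt‖²) ≤ √(∑ ‖H_kt‖²) √(∑ wavg)`; then `holder3` with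
  `l3_dual_right` / `l3_dual_left` (index set of pairs `(k, t)`, factor 2) and `l3_mxA/B` (factor 3):
  `3 √n · h · 2 h · 3 a`.
-/

set_option autoImplicit false

namespace Crest.Agent.R72

open Finset

/-- square function of a family indexed by `(k, t)` -/
noncomputable def sqf {N : ℕ} (n K : ℕ) (H : ℕ → ℕ → Fn N) : ZMod N → ZMod N → ℝ :=
  fun x₂ x₀ => Real.sqrt
    (∑ k ∈ range K, ∑ t ∈ Ico (n - 1) (2 * n - 1), ‖H k t x₂ x₀‖ ^ 2)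

/-- the maximal function factor, `A` -/
theorem l3_mxA {N : ℕ} [NeZero N] (A : Fn N) :
    l3 (fun x₂ x₀ => Real.sqrt (mx (fun y => ‖A x₀ y‖ ^ 2) (-x₀ - x₂))) ≤ 3 * n3 A := by
  let e : (ZMod N × ZMod N) ≃ (ZMod N × ZMod N) :=
    { toFun := fun p => (p.2, -p.2 - p.1)
      invFun := fun p => (-p.1 - p.2, p.1)
      left_inv := fun p => Prod.ext (by simp) rfl
      right_inv := fun p => Prod.ext rfl (by simp) }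
  have h := l3_equiv e (fun x y => Real.sqrt (mx (fun t => ‖A x t‖ ^ 2) y))
  have h2 := l3_sqrt_mx_right (fun x y => ‖A x y‖)
  rw [← h] at h2
  exact h2

/-- the maximal function factor, `B` -/
theorem l3_mxB {N : ℕ} [NeZero N] (B : Fn N) :
    l3 (fun x₂ x₀ => Real.sqrt (mx (fun y => ‖B y x₂‖ ^ 2) (-x₀ - x₂))) ≤ 3 * n3 B := by
  let e : (ZMod N × ZMod N) ≃ (ZMod N × ZMod N) :=
    { toFun := fun p => (-p.2 - p.1, p.1)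
      invFun := fun p => (p.2, -p.1 - p.2)
      left_inv := fun p => Prod.ext rfl (by simp)
      right_inv := fun p => Prod.ext (by simp) rfl }
  have h := l3_equiv e (fun x y => Real.sqrt (mx (fun t => ‖B t y‖ ^ 2) x))
  have h2 := l3_sqrt_mx_left (fun x y => ‖B x y‖)
  rw [← h] at h2
  exact h2

theorem Q_total {N : ℕ} [NeZero N] {n : ℕ} (hn : 1 ≤ n) (K : ℕ) (A B : Fn N) (H : ℕ → ℕ → Fn N) :
    ∑ k ∈ range K, ∑ t ∈ Ico (n - 1) (2 * n - 1), QP A B (H k t) (2 ^ k) (pl N n (2 ^ k) t) ≤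
      18 * Real.sqrt n * l3 (sqf n K H) ^ 2 * (n3 A + n3 B) := by
  classical
  set s : Finset (ℕ × ℕ) := range K ×ˢ Ico (n - 1) (2 * n - 1) with hs
  set mA : ZMod N → ZMod N → ℝ :=
    fun x₂ x₀ => Real.sqrt (mx (fun y => ‖A x₀ y‖ ^ 2) (-x₀ - x₂)) with hmA
  set mB : ZMod N → ZMod N → ℝ :=
    fun x₂ x₀ => Real.sqrt (mx (fun y => ‖B y x₂‖ ^ 2) (-x₀ - x₂)) with hmB
  set WA : ℕ × ℕ → ZMod N → ZMod N → ℝ := fun i x₂ x₀ =>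
    wavg (fun y => ‖H i.1 i.2 x₂ y‖ ^ 2) (2 * 2 ^ i.1 - 1) (2 * 2 ^ i.1 - 1) x₀ with hWA
  set WB : ℕ × ℕ → ZMod N → ZMod N → ℝ := fun i x₂ x₀ =>
    wavg (fun y => ‖H i.1 i.2 y x₀‖ ^ 2) (2 * 2 ^ i.1 - 1) (2 * 2 ^ i.1 - 1) x₂ with hWB
  have hsq : ∀ x₂ x₀, sqf n K H x₂ x₀ = Real.sqrt (∑ i ∈ s, ‖H i.1 i.2 x₂ x₀‖ ^ 2) := by
    intro x₂ x₀
    unfold sqf
    rw [hs, Finset.sum_product]
  have hl : l3 (fun x y => Real.sqrt (∑ i ∈ s, ‖H i.1 i.2 x y‖ ^ 2)) = l3 (sqf n K H) := by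
    congr 1
    funext x y
    rw [hsq]
  have hWA0 : ∀ i x₂ x₀, 0 ≤ WA i x₂ x₀ := fun i x₂ x₀ =>
    wavg_nonneg (fun _ => sq_nonneg _) _ _ _
  have hWB0 : ∀ i x₂ x₀, 0 ≤ WB i x₂ x₀ := fun i x₂ x₀ =>
    wavg_nonneg (fun _ => sq_nonneg _) _ _ _
  -- sum of the estimates on one plane
  have h1 : ∑ k ∈ range K, ∑ t ∈ Ico (n - 1) (2 * n - 1),
      QP A B (H k t) (2 ^ k) (pl N n (2 ^ k) t) ≤
      ∑ i ∈ s, 3 * Real.sqrt n * ∑ x₂ : ZMod N, ∑ x₀ : ZMod N, ‖H i.1 i.2 x₂ x₀‖ *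
        (Real.sqrt (WA i x₂ x₀) * mA x₂ x₀ + Real.sqrt (WB i x₂ x₀) * mB x₂ x₀) := by
    rw [hs, Finset.sum_product]
    refine Finset.sum_le_sum fun k _ => Finset.sum_le_sum fun t ht => ?_
    rw [Finset.mem_Ico] at ht
    exact QP_le A B (H k t) hn Nat.one_le_two_pow ht.1 ht.2
  -- exchange
  have h2 : ∑ i ∈ s, 3 * Real.sqrt n * ∑ x₂ : ZMod N, ∑ x₀ : ZMod N, ‖H i.1 i.2 x₂ x₀‖ *
        (Real.sqrt (WA i x₂ x₀) * mA x₂ x₀ + Real.sqrt (WB i x₂ x₀) * mB x₂ x₀) =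
      3 * Real.sqrt n * ∑ x₂ : ZMod N, ∑ x₀ : ZMod N,
        ((∑ i ∈ s, ‖H i.1 i.2 x₂ x₀‖ * Real.sqrt (WA i x₂ x₀)) * mA x₂ x₀ +
          (∑ i ∈ s, ‖H i.1 i.2 x₂ x₀‖ * Real.sqrt (WB i x₂ x₀)) * mB x₂ x₀) := by
    rw [← Finset.mul_sum, Finset.sum_comm]
    congr 1
    refine Finset.sum_congr rfl fun x₂ _ => ?_
    rw [Finset.sum_comm]
    refine Finset.sum_congr rfl fun x₀ _ => ?_
    rw [Finset.sum_mul, Finset.sum_mul, ← Finset.sum_add_distrib]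
    refine Finset.sum_congr rfl fun i _ => ?_
    ring
  -- Cauchy-Schwarz
  have hcs : ∀ (W : ℕ × ℕ → ZMod N → ZMod N → ℝ), (∀ i x₂ x₀, 0 ≤ W i x₂ x₀) → ∀ x₂ x₀,
      ∑ i ∈ s, ‖H i.1 i.2 x₂ x₀‖ * Real.sqrt (W i x₂ x₀) ≤
        sqf n K H x₂ x₀ * Real.sqrt (∑ i ∈ s, W i x₂ x₀) := by
    intro W hW x₂ x₀
    have h := Real.sum_mul_le_sqrt_mul_sqrt s (fun i => ‖H i.1 i.2 x₂ x₀‖)
      (fun i => Real.sqrt (W i x₂ x₀))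
    simp only [Real.sq_sqrt (hW _ _ _)] at h
    rw [hsq]
    exact h
  have habs : ∀ x : ℝ, 0 ≤ x → |x| = x := fun x hx => abs_of_nonneg hx
  have hsf0 : ∀ x₂ x₀, 0 ≤ sqf n K H x₂ x₀ := fun x₂ x₀ => Real.sqrt_nonneg _
  have h3 : ∀ (W : ℕ × ℕ → ZMod N → ZMod N → ℝ) (m : ZMod N → ZMod N → ℝ),
      (∀ i x₂ x₀, 0 ≤ W i x₂ x₀) → (∀ x₂ x₀, 0 ≤ m x₂ x₀) →
      ∑ x₂ : ZMod N, ∑ x₀ : ZMod N, (∑ i ∈ s, ‖H i.1 i.2 x₂ x₀‖ * Real.sqrt (W i x₂ x₀)) * m x₂ x₀ ≤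
        l3 (sqf n K H) * l3 (fun x₂ x₀ => Real.sqrt (∑ i ∈ s, W i x₂ x₀)) * l3 m := by
    intro W m hW hm
    refine le_trans (Finset.sum_le_sum fun x₂ _ => Finset.sum_le_sum fun x₀ _ => ?_)
      (holder3 (sqf n K H) (fun x₂ x₀ => Real.sqrt (∑ i ∈ s, W i x₂ x₀)) m)
    rw [habs _ (hsf0 x₂ x₀), habs _ (Real.sqrt_nonneg _), habs _ (hm x₂ x₀)]
    exact mul_le_mul_of_nonneg_right (hcs W hW x₂ x₀) (hm x₂ x₀)
  have hA : ∑ x₂ : ZMod N, ∑ x₀ : ZMod N,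
      (∑ i ∈ s, ‖H i.1 i.2 x₂ x₀‖ * Real.sqrt (WA i x₂ x₀)) * mA x₂ x₀ ≤
        l3 (sqf n K H) * (2 * l3 (sqf n K H)) * (3 * n3 A) := by
    refine (h3 WA mA hWA0 (fun _ _ => Real.sqrt_nonneg _)).trans ?_
    have a1 : l3 (fun x₂ x₀ => Real.sqrt (∑ i ∈ s, WA i x₂ x₀)) ≤ 2 * l3 (sqf n K H) := by
      rw [← hl]
      exact l3_dual_right s (fun i => 2 * 2 ^ i.1 - 1) (fun i => 2 * 2 ^ i.1 - 1)
        (fun i x y => ‖H i.1 i.2 x y‖ ^ 2) (fun _ _ _ => sq_nonneg _)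
    have a2 : l3 mA ≤ 3 * n3 A := l3_mxA A
    exact mul_le_mul (mul_le_mul_of_nonneg_left a1 (l3_nonneg _)) a2 (l3_nonneg _)
      (mul_nonneg (l3_nonneg _) (mul_nonneg (by norm_num) (l3_nonneg _)))
  have hB : ∑ x₂ : ZMod N, ∑ x₀ : ZMod N,
      (∑ i ∈ s, ‖H i.1 i.2 x₂ x₀‖ * Real.sqrt (WB i x₂ x₀)) * mB x₂ x₀ ≤
        l3 (sqf n K H) * (2 * l3 (sqf n K H)) * (3 * n3 B) := by
    refine (h3 WB mB hWB0 (fun _ _ => Real.sqrt_nonneg _)).trans ?_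
    have a1 : l3 (fun x₂ x₀ => Real.sqrt (∑ i ∈ s, WB i x₂ x₀)) ≤ 2 * l3 (sqf n K H) := by
      rw [← hl]
      exact l3_dual_left s (fun i => 2 * 2 ^ i.1 - 1) (fun i => 2 * 2 ^ i.1 - 1)
        (fun i x y => ‖H i.1 i.2 x y‖ ^ 2) (fun _ _ _ => sq_nonneg _)
    have a2 : l3 mB ≤ 3 * n3 B := l3_mxB B
    exact mul_le_mul (mul_le_mul_of_nonneg_left a1 (l3_nonneg _)) a2 (l3_nonneg _)
      (mul_nonneg (l3_nonneg _) (mul_nonneg (by norm_num) (l3_nonneg _)))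
  refine h1.trans ?_
  rw [h2]
  have h4 : ∑ x₂ : ZMod N, ∑ x₀ : ZMod N,
        ((∑ i ∈ s, ‖H i.1 i.2 x₂ x₀‖ * Real.sqrt (WA i x₂ x₀)) * mA x₂ x₀ +
          (∑ i ∈ s, ‖H i.1 i.2 x₂ x₀‖ * Real.sqrt (WB i x₂ x₀)) * mB x₂ x₀) ≤
      6 * l3 (sqf n K H) ^ 2 * (n3 A + n3 B) := by
    simp only [Finset.sum_add_distrib]
    linarith
  calc 3 * Real.sqrt n * _ ≤ 3 * Real.sqrt n * (6 * l3 (sqf n K H) ^ 2 * (n3 A + n3 B)) :=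
        mul_le_mul_of_nonneg_left h4 (by positivity)
    _ = _ := by ring

end Crest.Agent.R72
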