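import Crest.Agent.R72.FC2
import Crest.Agent.R72.FR1

/-!
# Row 72, module F, piece F_ROUGH1: unnormalised rough estimate

`Phi_le`, Cauchy-Schwarz in `(k, t)`, `sum_pl_le` for `Gap B (cT A)`, `MIfixed` (`n3_cT`), `Q_total`.
-/

set_option autoImplicit false

namespace Crest.Agent.R72

open Finset

theorem rough_raw (hf : MIfixed) :
    ∃ C : ℝ, 0 ≤ C ∧ ∀ (N : ℕ) [NeZero N] (n K : ℕ), 1 ≤ n → ∀ (A B : Fn N) (H : ℕ → ℕ → Fn N),
      ∑ k ∈ range K, ∑ t ∈ Ico (n - 1) (2 * n - 1),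
          ‖Phi A B (H k t) (2 ^ k) (pl N n (2 ^ k) t)‖ ≤
        Real.sqrt (C * n * (1 + Real.log n) * (n3 A ^ 3 + n3 B ^ 3)) *
          Real.sqrt (18 * Real.sqrt n * l3 (sqf n K H) ^ 2 * (n3 A + n3 B)) := by
  obtain ⟨C0, hC0⟩ := hf
  refine ⟨4 * max C0 0, by positivity, ?_⟩
  intro N _ n K hn A B H
  have hn0 : (0 : ℝ) ≤ n := Nat.cast_nonneg n
  have hlog : 0 ≤ Real.log n := Real.log_natCast_nonneg n
  have hA : 0 ≤ n3 A := by
    unfold n3 l3; positivity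
  have hB : 0 ≤ n3 B := by
    unfold n3 l3; positivity
  have hcT : n3 (cT A) = n3 A := by
    unfold n3 l3
    rw [Finset.sum_comm]
    simp [cT]
  have hq : ∀ k t, 0 ≤ QP A B (H k t) (2 ^ k) (pl N n (2 ^ k) t) := fun k t => QP_nonneg _ _ _ _ _
  have hg : ∀ k t, 0 ≤ 2 * Gap B (cT A) (2 ^ k) (pl N n (2 ^ k) t) := fun k t =>
    mul_nonneg zero_le_two (Gap_nonneg _ _ _ _)
  calc ∑ k ∈ range K, ∑ t ∈ Ico (n - 1) (2 * n - 1),
          ‖Phi A B (H k t) (2 ^ k) (pl N n (2 ^ k) t)‖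
      ≤ ∑ k ∈ range K, ∑ t ∈ Ico (n - 1) (2 * n - 1),
          Real.sqrt (2 * Gap B (cT A) (2 ^ k) (pl N n (2 ^ k) t)) *
            Real.sqrt (QP A B (H k t) (2 ^ k) (pl N n (2 ^ k) t)) :=
        sum_le_sum fun k _ => sum_le_sum fun t _ => Phi_le _ _ _ _ _
    _ ≤ ∑ k ∈ range K,
          Real.sqrt (∑ t ∈ Ico (n - 1) (2 * n - 1), 2 * Gap B (cT A) (2 ^ k) (pl N n (2 ^ k) t)) *
            Real.sqrt (∑ t ∈ Ico (n - 1) (2 * n - 1), QP A B (H k t) (2 ^ k) (pl N n (2 ^ k) t)) :=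
        sum_le_sum fun k _ => Real.sum_sqrt_mul_sqrt_le _ (fun t => hg k t) (fun t => hq k t)
    _ ≤ Real.sqrt (∑ k ∈ range K, ∑ t ∈ Ico (n - 1) (2 * n - 1),
            2 * Gap B (cT A) (2 ^ k) (pl N n (2 ^ k) t)) *
          Real.sqrt (∑ k ∈ range K, ∑ t ∈ Ico (n - 1) (2 * n - 1),
            QP A B (H k t) (2 ^ k) (pl N n (2 ^ k) t)) :=
        Real.sum_sqrt_mul_sqrt_le _ (fun k => sum_nonneg fun t _ => hg k t)
          (fun k => sum_nonneg fun t _ => hq k t)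
    _ ≤ _ := by
        refine mul_le_mul (Real.sqrt_le_sqrt ?_) (Real.sqrt_le_sqrt (Q_total hn K A B H))
          (Real.sqrt_nonneg _) (Real.sqrt_nonneg _)
        calc ∑ k ∈ range K, ∑ t ∈ Ico (n - 1) (2 * n - 1),
              2 * Gap B (cT A) (2 ^ k) (pl N n (2 ^ k) t)
            ≤ ∑ k ∈ range K, 2 * (2 * n * GapE B (cT A) n (2 ^ k)) := by
              refine sum_le_sum fun k _ => ?_
              rw [← mul_sum]
              exact mul_le_mul_of_nonneg_left (sum_pl_le _ _ _ _ hn) zero_le_two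
          _ = 4 * n * ∑ k ∈ range K, GapE B (cT A) n (2 ^ k) := by
              rw [mul_sum]
              exact sum_congr rfl fun k _ => by ring
          _ ≤ 4 * n * (max C0 0 * (1 + Real.log n) * (n3 B ^ 3 + n3 (cT A) ^ 3)) := by
              refine mul_le_mul_of_nonneg_left ((hC0 N n K hn B (cT A)).trans ?_) (by positivity)
              rw [hcT]
              gcongr
              exact le_max_left _ _
          _ = 4 * max C0 0 * n * (1 + Real.log n) * (n3 A ^ 3 + n3 B ^ 3) := by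
              rw [hcT]; ring

end Crest.Agent.R72
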