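import Crest.Agent.R72.SDefs

/-!
# Row 72, module HL (helper44), part 0: `ℓ³` norms (`l3`, `n3`)

Statements used by W, F, K.  All elementary.
-/

set_option autoImplicit false

namespace Crest.Agent.R72

open Finset

variable {N : ℕ} [NeZero N]

theorem l3_nonneg (u : ZMod N → ZMod N → ℝ) : 0 ≤ l3 u := by
  unfold l3
  positivity

/-- `l3 u ^ 3 = ∑ |u|³` -/
theorem l3_cube (u : ZMod N → ZMod N → ℝ) : l3 u ^ 3 = ∑ x, ∑ y, |u x y| ^ 3 := by
  unfold l3
  have h0 : 0 ≤ ∑ x, ∑ y, |u x y| ^ 3 := by positivity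
  rw [← Real.rpow_natCast, ← Real.rpow_mul h0]
  norm_num

/-- criterion: `∑ |u|³ ≤ C³ ∑ |v|³` implies `l3 u ≤ C l3 v` -/
theorem l3_le_of_cube {u v : ZMod N → ZMod N → ℝ} {C : ℝ} (hC : 0 ≤ C)
    (h : ∑ x, ∑ y, |u x y| ^ 3 ≤ C ^ 3 * ∑ x, ∑ y, |v x y| ^ 3) : l3 u ≤ C * l3 v := by
  refine le_of_pow_le_pow_left₀ (n := 3) (by norm_num) (mul_nonneg hC (l3_nonneg v)) ?_
  rw [mul_pow, l3_cube, l3_cube]
  exact h

theorem l3_mono {u v : ZMod N → ZMod N → ℝ} (h : ∀ x y, |u x y| ≤ |v x y|) : l3 u ≤ l3 v := by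
  have h1 := l3_le_of_cube (u := u) (v := v) (C := 1) zero_le_one (by
    rw [one_pow, one_mul]
    exact Finset.sum_le_sum fun x _ => Finset.sum_le_sum fun y _ =>
      pow_le_pow_left₀ (abs_nonneg _) (h x y) 3)
  rwa [one_mul] at h1

theorem l3_smul (c : ℝ) (u : ZMod N → ZMod N → ℝ) : l3 (fun x y => c * u x y) = |c| * l3 u := by
  refine (pow_left_inj₀ (l3_nonneg _) (mul_nonneg (abs_nonneg c) (l3_nonneg u))
    (n := 3) (by norm_num)).1 ?_
  rw [mul_pow, l3_cube, l3_cube, Finset.mul_sum]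
  refine Finset.sum_congr rfl fun x _ => ?_
  rw [Finset.mul_sum]
  refine Finset.sum_congr rfl fun y _ => ?_
  rw [abs_mul, mul_pow]

/-- Minkowski (use `Real.Lp_add_le` on `univ : Finset (ZMod N × ZMod N)`, `Finset.sum_product'`) -/
theorem l3_add_le (u v : ZMod N → ZMod N → ℝ) : l3 (fun x y => u x y + v x y) ≤ l3 u + l3 v := by
  have h3 := Real.Lp_add_le (univ : Finset (ZMod N × ZMod N)) (fun p => u p.1 p.2)
    (fun p => v p.1 p.2) (p := 3) (by norm_num)
  have e : ∀ f : ZMod N → ZMod N → ℝ, ∑ p : ZMod N × ZMod N, |f p.1 p.2| ^ (3 : ℝ) =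
      ∑ x, ∑ y, |f x y| ^ 3 := fun f => by
    rw [Fintype.sum_prod_type]
    refine Finset.sum_congr rfl fun x _ => Finset.sum_congr rfl fun y _ => ?_
    exact_mod_cast Real.rpow_natCast |f x y| 3
  rw [e u, e v, e (fun x y => u x y + v x y)] at h3
  exact h3

/-- exchange of the variables -/
theorem l3_swap (u : ZMod N → ZMod N → ℝ) : l3 (fun x y => u y x) = l3 u := by
  unfold l3
  rw [Finset.sum_comm]

/-- change of variables `(x, y) ↦ (x, s - x - y)` and similar -/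
theorem l3_equiv (e : (ZMod N × ZMod N) ≃ (ZMod N × ZMod N)) (u : ZMod N → ZMod N → ℝ) :
    l3 (fun x y => u (e (x, y)).1 (e (x, y)).2) = l3 u := by
  unfold l3
  congr 1
  rw [← Fintype.sum_prod_type' (f := fun x y => |u (e (x, y)).1 (e (x, y)).2| ^ 3),
    ← Fintype.sum_prod_type' (f := fun x y => |u x y| ^ 3)]
  exact e.sum_comp fun p => |u p.1 p.2| ^ 3

/-- Hölder with exponents `3, 3, 3` -/
theorem holder3 (u v w : ZMod N → ZMod N → ℝ) :
    ∑ x, ∑ y, |u x y| * |v x y| * |w x y| ≤ l3 u * l3 v * l3 w := by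
  have hl : ∀ f : ZMod N → ZMod N → ℝ, 0 ≤ l3 f := fun f =>
    Real.rpow_nonneg (Finset.sum_nonneg fun x _ => Finset.sum_nonneg fun y _ => by positivity) _
  have hz : ∀ f : ZMod N → ZMod N → ℝ, l3 f = 0 → ∀ x y, |f x y| = 0 := by
    intro f hf x y
    have h1 := l3_cube f
    rw [hf] at h1
    have h2 : |f x y| ^ 3 ≤ ∑ x, ∑ y, |f x y| ^ 3 :=
      (Finset.single_le_sum (f := fun y => |f x y| ^ 3) (fun y _ => by positivity)
        (Finset.mem_univ y)).trans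
        (Finset.single_le_sum (f := fun x => ∑ y, |f x y| ^ 3)
          (fun x _ => Finset.sum_nonneg fun y _ => by positivity) (Finset.mem_univ x))
    have h3 : |f x y| ^ 3 = 0 := le_antisymm (by linarith) (by positivity)
    exact pow_eq_zero_iff (by norm_num) |>.1 h3
  have hR : 0 ≤ l3 u * l3 v * l3 w := mul_nonneg (mul_nonneg (hl u) (hl v)) (hl w)
  rcases eq_or_lt_of_le (hl u) with hu | hu
  · refine le_trans (le_of_eq ?_) hR
    refine Finset.sum_eq_zero fun x _ => Finset.sum_eq_zero fun y _ => ?_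
    rw [hz u hu.symm x y]; ring
  rcases eq_or_lt_of_le (hl v) with hv | hv
  · refine le_trans (le_of_eq ?_) hR
    refine Finset.sum_eq_zero fun x _ => Finset.sum_eq_zero fun y _ => ?_
    rw [hz v hv.symm x y]; ring
  rcases eq_or_lt_of_le (hl w) with hw | hw
  · refine le_trans (le_of_eq ?_) hR
    refine Finset.sum_eq_zero fun x _ => Finset.sum_eq_zero fun y _ => ?_
    rw [hz w hw.symm x y]; ring
  have am : ∀ a b c : ℝ, 0 ≤ a → 0 ≤ b → 0 ≤ c → a * b * c ≤ (a ^ 3 + b ^ 3 + c ^ 3) / 3 := by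
    intro a b c ha hb hc
    nlinarith [mul_nonneg (add_nonneg (add_nonneg ha hb) hc) (sq_nonneg (a - b)),
      mul_nonneg (add_nonneg (add_nonneg ha hb) hc) (sq_nonneg (b - c)),
      mul_nonneg (add_nonneg (add_nonneg ha hb) hc) (sq_nonneg (c - a))]
  set A := l3 u
  set B := l3 v
  set C := l3 w
  have key : ∀ x y, |u x y| * |v x y| * |w x y| ≤
      A * B * C / 3 * (|u x y| ^ 3 / A ^ 3 + |v x y| ^ 3 / B ^ 3 + |w x y| ^ 3 / C ^ 3) := by
    intro x y
    have h1 := am (|u x y| / A) (|v x y| / B) (|w x y| / C) (by positivity) (by positivity)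
      (by positivity)
    have h2 : |u x y| * |v x y| * |w x y| =
        A * B * C * (|u x y| / A * (|v x y| / B) * (|w x y| / C)) := by
      field_simp
    rw [h2]
    calc A * B * C * (|u x y| / A * (|v x y| / B) * (|w x y| / C))
        ≤ A * B * C * (((|u x y| / A) ^ 3 + (|v x y| / B) ^ 3 + (|w x y| / C) ^ 3) / 3) :=
          mul_le_mul_of_nonneg_left h1 hR
      _ = _ := by rw [div_pow, div_pow, div_pow]; ring
  refine (Finset.sum_le_sum fun x _ => Finset.sum_le_sum fun y _ => key x y).trans ?_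
  have hs : ∑ x, ∑ y, A * B * C / 3 * (|u x y| ^ 3 / A ^ 3 + |v x y| ^ 3 / B ^ 3 + |w x y| ^ 3 / C ^ 3) =
      A * B * C / 3 * ((∑ x, ∑ y, |u x y| ^ 3) / A ^ 3 + (∑ x, ∑ y, |v x y| ^ 3) / B ^ 3 +
        (∑ x, ∑ y, |w x y| ^ 3) / C ^ 3) := by
    simp only [Finset.sum_div, ← Finset.sum_add_distrib, Finset.mul_sum]
  rw [hs, ← l3_cube u, ← l3_cube v, ← l3_cube w, div_self (by positivity), div_self (by positivity),
    div_self (by positivity)]
  apply le_of_eq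
  ring

/-- Hölder with exponents `3`, `3/2`: `∑ |u| v² ≤ l3 u (l3 v)²` -/
theorem holder3_sq (u v : ZMod N → ZMod N → ℝ) :
    ∑ x, ∑ y, |u x y| * v x y ^ 2 ≤ l3 u * l3 v ^ 2 := by
  have h := holder3 u v v
  have e : ∑ x, ∑ y, |u x y| * v x y ^ 2 = ∑ x, ∑ y, |u x y| * |v x y| * |v x y| :=
    Finset.sum_congr rfl fun x _ => Finset.sum_congr rfl fun y _ => by
      rw [mul_assoc, abs_mul_abs_self, sq]
  rw [e, sq, ← mul_assoc]
  exact h

/-- Hölder with exponents `3`, `3/2`, second form: if `∑ |u| w ≤ K l3 w` for all `w ≥ 0` and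
`u = v ^ 2` then `l3 v ^ 2 ≤ K` (test with `w = |v|`: `∑ |v|³ ≤ K (∑|v|³)^{1/3}`) -/
theorem l3_dual {v : ZMod N → ZMod N → ℝ} {K : ℝ} (hK : 0 ≤ K)
    (h : ∀ w : ZMod N → ZMod N → ℝ, (∀ x y, 0 ≤ w x y) →
      ∑ x, ∑ y, v x y ^ 2 * w x y ≤ K * l3 w) : l3 v ^ 2 ≤ K := by
  have h0 : 0 ≤ l3 v :=
    Real.rpow_nonneg (Finset.sum_nonneg fun x _ => Finset.sum_nonneg fun y _ => by positivity) _
  rcases eq_or_lt_of_le h0 with h1 | h1
  · rw [← h1]; simpa using hK
  have h2 := h (fun x y => |v x y|) (fun x y => abs_nonneg _)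
  have e1 : ∑ x, ∑ y, v x y ^ 2 * |v x y| = l3 v ^ 3 := by
    rw [l3_cube]
    refine Finset.sum_congr rfl fun x _ => Finset.sum_congr rfl fun y _ => ?_
    rw [← sq_abs (v x y)]; ring
  have e2 : l3 (fun x y => |v x y|) = l3 v := by
    unfold l3; simp only [abs_abs]
  rw [e1, e2] at h2
  have h3 : l3 v ^ 2 * l3 v ≤ K * l3 v := by
    calc l3 v ^ 2 * l3 v = l3 v ^ 3 := by ring
      _ ≤ _ := h2
  exact le_of_mul_le_mul_right h3 h1

end Crest.Agent.R72
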