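import Crest.Agent.R72.SDefs
import Crest.Agent.R72.HL0

/-!
# Row 72, module F, piece F_HOM: norms and homogeneity

`n3_cT` : `l3_swap`; `n3_smul` : `l3_smul`; `n3_eq_zero` : `l3_cube`; `tau_smul` : ring in each
summand; `PhiAbs_smul`, `Phi_smul` from `tau_smul`.
-/

set_option autoImplicit false

namespace Crest.Agent.R72

open Finset

variable {N : ℕ} [NeZero N]

theorem n3_nonneg (P : Fn N) : 0 ≤ n3 P := l3_nonneg _

theorem n3_cT (P : Fn N) : n3 (cT P) = n3 P := by
  have h := l3_swap (fun x y => ‖P x y‖)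
  unfold n3 cT
  rw [← h]
  simp only [RCLike.norm_conj]

theorem n3_smul (c : ℂ) (P : Fn N) : n3 (fun x y => c * P x y) = ‖c‖ * n3 P := by
  have h := l3_smul ‖c‖ (fun x y => ‖P x y‖)
  unfold n3
  simp only [norm_mul]
  rw [h, abs_norm]

theorem n3_eq_zero {P : Fn N} (h : n3 P = 0) : ∀ x y, P x y = 0 := by
  intro x y
  have h1 := l3_cube (fun x y => ‖P x y‖)
  have h0 : l3 (fun x y => ‖P x y‖) = 0 := h
  rw [h0] at h1
  have h2 : |‖P x y‖| ^ 3 ≤ ∑ x, ∑ y, |‖P x y‖| ^ 3 :=
    (Finset.single_le_sum (f := fun y => |‖P x y‖| ^ 3) (fun y _ => by positivity)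
      (Finset.mem_univ y)).trans
      (Finset.single_le_sum (f := fun x => ∑ y, |‖P x y‖| ^ 3)
        (fun x _ => Finset.sum_nonneg fun y _ => by positivity) (Finset.mem_univ x))
  have h3 : |‖P x y‖| ^ 3 = 0 := le_antisymm (by linarith) (by positivity)
  have h4 := (pow_eq_zero_iff (by norm_num : (3 : ℕ) ≠ 0)).1 h3
  rwa [abs_norm, norm_eq_zero] at h4

theorem tau_smul (a b c : ℂ) (A B H : Fn N) (L : ℕ) (q₀ q₁ q₂ : ZMod N) :
    tau (fun x y => a * A x y) (fun x y => b * B x y) (fun x y => c * H x y) L q₀ q₁ q₂ =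
      a * b * c * tau A B H L q₀ q₁ q₂ := by
  unfold tau
  simp only [Finset.mul_sum]
  refine Finset.sum_congr rfl fun i _ => Finset.sum_congr rfl fun j _ =>
    Finset.sum_congr rfl fun l _ => ?_
  ring

theorem PhiAbs_smul (a b c : ℂ) (A B H : Fn N) (L : ℕ) (s : ZMod N) :
    PhiAbs (fun x y => a * A x y) (fun x y => b * B x y) (fun x y => c * H x y) L s =
      ‖a‖ * ‖b‖ * ‖c‖ * PhiAbs A B H L s := by
  unfold PhiAbs
  simp only [tau_smul, norm_mul, Finset.mul_sum]
  refine Finset.sum_congr rfl fun i _ => Finset.sum_congr rfl fun j _ => ?_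
  ring

theorem Phi_smul (a b c : ℂ) (A B H : Fn N) (L : ℕ) (s : ZMod N) :
    Phi (fun x y => a * A x y) (fun x y => b * B x y) (fun x y => c * H x y) L s =
      a * b * c * Phi A B H L s := by
  unfold Phi
  simp only [tau_smul, Finset.mul_sum]
  refine Finset.sum_congr rfl fun i _ => Finset.sum_congr rfl fun j _ => ?_
  ring

end Crest.Agent.R72
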