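import Crest.Agent.R72.FR2
import Crest.Agent.R72.FS1

/-!
# Row 72, module F, piece F_ROUGH2: `est_rough`

Homogeneity in `A`, `B` (`Phi_smul`), zero norms: the function is `0`.  For `n3 A = n3 B = 1`:
`√(2 C n (1 + log n)) √(36 √n h²) ≤ √(72 C) n^{3/4} √(1 + log n) h`.
-/

set_option autoImplicit false

namespace Crest.Agent.R72

open Finset

private theorem Phi_zero_left_of {N : ℕ} [NeZero N] {A : Fn N} (B H : Fn N) (L : ℕ) (s : ZMod N)
    (hA : ∀ x y, A x y = 0) : Phi A B H L s = 0 := by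
  have h := Phi_smul 0 1 1 A B H L s
  have e1 : (fun x y => (0 : ℂ) * A x y) = A := by
    funext x y; rw [hA]; simp
  have e2 : (fun x y => (1 : ℂ) * B x y) = B := by funext x y; simp
  have e3 : (fun x y => (1 : ℂ) * H x y) = H := by funext x y; simp
  rw [e1, e2, e3] at h
  rw [h]; simp

private theorem Phi_zero_right_of {N : ℕ} [NeZero N] (A : Fn N) {B : Fn N} (H : Fn N) (L : ℕ)
    (s : ZMod N) (hB : ∀ x y, B x y = 0) : Phi A B H L s = 0 := by
  have h := Phi_smul 1 0 1 A B H L s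
  have e1 : (fun x y => (1 : ℂ) * A x y) = A := by funext x y; simp
  have e2 : (fun x y => (0 : ℂ) * B x y) = B := by
    funext x y; rw [hB]; simp
  have e3 : (fun x y => (1 : ℂ) * H x y) = H := by funext x y; simp
  rw [e1, e2, e3] at h
  rw [h]; simp

theorem est_rough (hf : MIfixed) : ESTrough := by
  obtain ⟨C, hC, h⟩ := rough_raw hf
  refine ⟨Real.sqrt (72 * C), ?_⟩
  intro N _ n K hn A B H
  have hnr : (1 : ℝ) ≤ (n : ℝ) := by exact_mod_cast hn
  have hnpos : (0 : ℝ) < (n : ℝ) := by linarith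
  have hlog : 0 ≤ Real.log n := Real.log_nonneg hnr
  have hl1 : (0 : ℝ) ≤ 1 + Real.log n := by linarith
  change _ ≤ Real.sqrt (72 * C) * (n : ℝ) ^ (3 / 4 : ℝ) * Real.sqrt (1 + Real.log n) * n3 A * n3 B *
    l3 (sqf n K H)
  have hh : 0 ≤ l3 (sqf n K H) := l3_nonneg _
  have hA0 := n3_nonneg A
  have hB0 := n3_nonneg B
  have hrhs : 0 ≤ Real.sqrt (72 * C) * (n : ℝ) ^ (3 / 4 : ℝ) * Real.sqrt (1 + Real.log n) * n3 A *
      n3 B * l3 (sqf n K H) := by positivity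
  rcases eq_or_lt_of_le hA0 with hA | hA
  · have hz := n3_eq_zero hA.symm
    refine le_trans (le_of_eq ?_) hrhs
    refine sum_eq_zero fun k _ => sum_eq_zero fun t _ => ?_
    rw [Phi_zero_left_of B (H k t) _ _ hz, norm_zero]
  rcases eq_or_lt_of_le hB0 with hB | hB
  · have hz := n3_eq_zero hB.symm
    refine le_trans (le_of_eq ?_) hrhs
    refine sum_eq_zero fun k _ => sum_eq_zero fun t _ => ?_
    rw [Phi_zero_right_of A (H k t) _ _ hz, norm_zero]
  set a : ℝ := n3 A with ha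
  set b : ℝ := n3 B with hb
  set A₁ : Fn N := fun x y => ((a⁻¹ : ℝ) : ℂ) * A x y with hA₁
  set B₁ : Fn N := fun x y => ((b⁻¹ : ℝ) : ℂ) * B x y with hB₁
  have hnA : n3 A₁ = 1 := by
    rw [hA₁, n3_smul, Complex.norm_real, Real.norm_eq_abs, abs_of_pos (inv_pos.2 hA), ← ha]
    exact inv_mul_cancel₀ hA.ne'
  have hnB : n3 B₁ = 1 := by
    rw [hB₁, n3_smul, Complex.norm_real, Real.norm_eq_abs, abs_of_pos (inv_pos.2 hB), ← hb]
    exact inv_mul_cancel₀ hB.ne'
  have hPhi : ∀ k t, ‖Phi A B (H k t) (2 ^ k) (pl N n (2 ^ k) t)‖ =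
      a * b * ‖Phi A₁ B₁ (H k t) (2 ^ k) (pl N n (2 ^ k) t)‖ := by
    intro k t
    have e := Phi_smul (a : ℂ) (b : ℂ) 1 A₁ B₁ (H k t) (2 ^ k) (pl N n (2 ^ k) t)
    have e1 : (fun x y => (a : ℂ) * A₁ x y) = A := by
      funext x y
      simp only [hA₁]
      rw [← mul_assoc, ← Complex.ofReal_mul, mul_inv_cancel₀ hA.ne']
      simp
    have e2 : (fun x y => (b : ℂ) * B₁ x y) = B := by
      funext x y
      simp only [hB₁]
      rw [← mul_assoc, ← Complex.ofReal_mul, mul_inv_cancel₀ hB.ne']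
      simp
    have e3 : (fun x y => (1 : ℂ) * H k t x y) = H k t := by funext x y; simp
    rw [e1, e2, e3] at e
    rw [e, norm_mul, norm_mul, norm_mul, Complex.norm_real, Complex.norm_real, Real.norm_eq_abs,
      Real.norm_eq_abs, abs_of_pos hA, abs_of_pos hB, norm_one, mul_one]
  have h1 := h N n K hn A₁ B₁ H
  rw [hnA, hnB] at h1
  have hsum : ∑ k ∈ range K, ∑ t ∈ Ico (n - 1) (2 * n - 1),
      ‖Phi A B (H k t) (2 ^ k) (pl N n (2 ^ k) t)‖ = a * b *
      ∑ k ∈ range K, ∑ t ∈ Ico (n - 1) (2 * n - 1),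
      ‖Phi A₁ B₁ (H k t) (2 ^ k) (pl N n (2 ^ k) t)‖ := by
    simp only [hPhi, mul_sum]
  rw [hsum]
  have h34 : (n : ℝ) ^ (3 / 4 : ℝ) = Real.sqrt (n * Real.sqrt n) := by
    rw [Real.sqrt_eq_rpow, Real.sqrt_eq_rpow]
    rw [show (n : ℝ) * (n : ℝ) ^ (1 / 2 : ℝ) = (n : ℝ) ^ (3 / 2 : ℝ) by
      rw [show (3 / 2 : ℝ) = 1 + 1 / 2 by norm_num, Real.rpow_add hnpos, Real.rpow_one]]
    rw [← Real.rpow_mul hnpos.le]
    norm_num
  have hkey : Real.sqrt (C * n * (1 + Real.log n) * (1 ^ 3 + 1 ^ 3)) *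
      Real.sqrt (18 * Real.sqrt n * l3 (sqf n K H) ^ 2 * (1 + 1)) =
      Real.sqrt (72 * C) * (n : ℝ) ^ (3 / 4 : ℝ) * Real.sqrt (1 + Real.log n) *
        l3 (sqf n K H) := by
    rw [h34, ← Real.sqrt_mul (by positivity), ← Real.sqrt_mul (by positivity),
      ← Real.sqrt_mul (by positivity)]
    conv_rhs => rw [← Real.sqrt_sq hh, ← Real.sqrt_mul (by positivity)]
    congr 1
    ring
  rw [hkey] at h1
  refine (mul_le_mul_of_nonneg_left h1 (by positivity)).trans (le_of_eq ?_)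
  ring

end Crest.Agent.R72
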