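import Crest.Agent.R72.FC2
import Crest.Agent.R72.FS1

/-!
# Row 72, module F, piece F_SMOOTH1: unnormalised smooth estimate

Put `H_k x₂ x₀ = H x₂ x₀ * m k x₂ x₀`.  `PhiAbs_le`, `sum_pl_le`: the left side is
`≤ ∑_k 2 n (GapE A (cT H_k) + GapE B (cT A) + GapE (cT B) H_k)`.
The sums over `k` are bounded by `MIvar` (`P = A`, `R k = cT H_k`, `b x z = ‖H z x‖`), `MIfixed`
(`P = B`, `R = cT A`) and `MIvar` (`P = cT B`, `R k = H_k`, `b = ‖H‖`); `n3_cT`, `l3_swap`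
(`l3 b = n3 H`).  The constants of `MIfixed`, `MIvar` may be replaced by their maximum with `0`.
-/

set_option autoImplicit false

namespace Crest.Agent.R72

open Finset

/-- unnormalised form -/
theorem smooth_raw (hf : MIfixed) (hv : MIvar) :
    ∃ C : ℝ, 0 ≤ C ∧ ∀ (N : ℕ) [NeZero N] (n K : ℕ), 1 ≤ n →
      ∀ (A B H : Fn N) (m : ℕ → ZMod N → ZMod N → ℂ) (V : ℝ), 1 ≤ V →
        (∀ k x₂ x₀, ‖m k x₂ x₀‖ ≤ 1) →
        (∀ x₂ x₀, ∑ k ∈ range K, ‖m (k + 1) x₂ x₀ - m k x₂ x₀‖ ≤ V) →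
        ∑ k ∈ range K, ∑ t ∈ Ico (n - 1) (2 * n - 1),
            PhiAbs A B (fun x₂ x₀ => H x₂ x₀ * m k x₂ x₀) (2 ^ k) (pl N n (2 ^ k) t) ≤
          C * n * (1 + Real.log n) * (n3 A ^ 3 + n3 B ^ 3 + n3 H ^ 3 +
            V * (n3 A * n3 H ^ 2 + n3 B * n3 H ^ 2 + n3 H ^ 3)) := by
  obtain ⟨C1, h1⟩ := hf
  obtain ⟨C2, h2⟩ := hv
  refine ⟨2 * (2 * max C2 0 + max C1 0), by positivity, ?_⟩
  intro N _ n K hn A B H m V hV hm hmv
  have hlog : 0 ≤ 1 + Real.log n := by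
    have := Real.log_nonneg (show (1 : ℝ) ≤ n by exact_mod_cast hn)
    linarith
  have hA := n3_nonneg A
  have hB := n3_nonneg B
  have hH := n3_nonneg H
  have hV0 : 0 ≤ V := zero_le_one.trans hV
  have hbH : l3 (fun x z => ‖H z x‖) = n3 H := l3_swap (fun x y => ‖H x y‖)
  -- the three sums
  have s1 := h2 N n K hn A (fun k => cT (fun x₂ x₀ => H x₂ x₀ * m k x₂ x₀))
    (fun x z => ‖H z x‖) V hV (fun x z => norm_nonneg _)
    (fun k x z => by
      unfold cT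
      rw [RCLike.norm_conj, norm_mul]
      exact mul_le_of_le_one_right (norm_nonneg _) (hm k z x))
    (fun x z => by
      have e1 : ∀ k, ‖cT (fun x₂ x₀ => H x₂ x₀ * m (k + 1) x₂ x₀) x z -
          cT (fun x₂ x₀ => H x₂ x₀ * m k x₂ x₀) x z‖ = ‖H z x‖ * ‖m (k + 1) z x - m k z x‖ := by
        intro k
        unfold cT
        rw [← map_sub, RCLike.norm_conj, ← mul_sub, norm_mul]
      rw [Finset.sum_congr rfl fun k _ => e1 k, ← Finset.mul_sum, mul_comm]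
      exact mul_le_mul_of_nonneg_right (hmv z x) (norm_nonneg _))
  have s2 := h1 N n K hn B (cT A)
  have s3 := h2 N n K hn (cT B) (fun k => (fun x₂ x₀ => H x₂ x₀ * m k x₂ x₀))
    (fun x z => ‖H x z‖) V hV (fun x z => norm_nonneg _)
    (fun k x z => by
      rw [norm_mul]
      exact mul_le_of_le_one_right (norm_nonneg _) (hm k x z))
    (fun x z => by
      have e1 : ∀ k, ‖H x z * m (k + 1) x z - H x z * m k x z‖ =
          ‖H x z‖ * ‖m (k + 1) x z - m k x z‖ := by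
        intro k
        rw [← mul_sub, norm_mul]
      rw [Finset.sum_congr rfl fun k _ => e1 k, ← Finset.mul_sum, mul_comm]
      exact mul_le_mul_of_nonneg_right (hmv x z) (norm_nonneg _))
  rw [hbH] at s1
  rw [n3_cT] at s2 s3
  have hn3 : l3 (fun x z => ‖H x z‖) = n3 H := rfl
  rw [hn3] at s3
  -- the left side
  have hL : ∑ k ∈ range K, ∑ t ∈ Ico (n - 1) (2 * n - 1),
      PhiAbs A B (fun x₂ x₀ => H x₂ x₀ * m k x₂ x₀) (2 ^ k) (pl N n (2 ^ k) t) ≤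
      2 * n * (∑ k ∈ range K, GapE A (cT (fun x₂ x₀ => H x₂ x₀ * m k x₂ x₀)) n (2 ^ k)) +
      2 * n * (∑ k ∈ range K, GapE B (cT A) n (2 ^ k)) +
      2 * n * (∑ k ∈ range K, GapE (cT B) (fun x₂ x₀ => H x₂ x₀ * m k x₂ x₀) n (2 ^ k)) := by
    rw [Finset.mul_sum, Finset.mul_sum, Finset.mul_sum, ← Finset.sum_add_distrib,
      ← Finset.sum_add_distrib]
    refine Finset.sum_le_sum fun k _ => ?_
    refine (Finset.sum_le_sum fun t _ => PhiAbs_le _ _ _ _ _).trans ?_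
    rw [Finset.sum_add_distrib, Finset.sum_add_distrib]
    exact add_le_add (add_le_add (sum_pl_le _ _ _ _ hn) (sum_pl_le _ _ _ _ hn))
      (sum_pl_le _ _ _ _ hn)
  refine hL.trans ?_
  have hC1 : C1 ≤ max C1 0 := le_max_left _ _
  have hC10 : 0 ≤ max C1 0 := le_max_right _ _
  have hC2 : C2 ≤ max C2 0 := le_max_left _ _
  have hC20 : 0 ≤ max C2 0 := le_max_right _ _
  generalize max C1 0 = D1 at hC1 hC10 ⊢
  generalize max C2 0 = D2 at hC2 hC20 ⊢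
  generalize (∑ k ∈ range K, GapE A (cT (fun x₂ x₀ => H x₂ x₀ * m k x₂ x₀)) n (2 ^ k)) = S1 at s1 ⊢
  generalize (∑ k ∈ range K, GapE B (cT A) n (2 ^ k)) = S2 at s2 ⊢
  generalize (∑ k ∈ range K, GapE (cT B) (fun x₂ x₀ => H x₂ x₀ * m k x₂ x₀) n (2 ^ k)) = S3
    at s3 ⊢
  clear hL h1 h2 hmv hm hbH hn3
  generalize n3 A = a at *
  generalize n3 B = b at *
  generalize n3 H = h at *
  set T := a ^ 3 + b ^ 3 + h ^ 3 + V * (a * h ^ 2 + b * h ^ 2 + h ^ 3) with hT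
  have hT0 : 0 ≤ T := by positivity
  have t1 : S1 ≤ D2 * (1 + Real.log n) * T := by
    refine s1.trans ?_
    have e0 : 0 ≤ a ^ 3 + h ^ 3 + V * (a * h ^ 2 + h ^ 3) := by positivity
    have e1 : a ^ 3 + h ^ 3 + V * (a * h ^ 2 + h ^ 3) ≤ T := by
      have e2 : 0 ≤ b ^ 3 + V * (b * h ^ 2) := by positivity
      rw [hT]
      linarith
    exact mul_le_mul (mul_le_mul_of_nonneg_right hC2 hlog) e1 e0 (mul_nonneg hC20 hlog)
  have t2 : S2 ≤ D1 * (1 + Real.log n) * T := by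
    refine s2.trans ?_
    have e0 : 0 ≤ b ^ 3 + a ^ 3 := by positivity
    have e1 : b ^ 3 + a ^ 3 ≤ T := by
      have e2 : 0 ≤ h ^ 3 + V * (a * h ^ 2 + b * h ^ 2 + h ^ 3) := by positivity
      rw [hT]
      linarith
    exact mul_le_mul (mul_le_mul_of_nonneg_right hC1 hlog) e1 e0 (mul_nonneg hC10 hlog)
  have t3 : S3 ≤ D2 * (1 + Real.log n) * T := by
    refine s3.trans ?_
    have e0 : 0 ≤ b ^ 3 + h ^ 3 + V * (b * h ^ 2 + h ^ 3) := by positivity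
    have e1 : b ^ 3 + h ^ 3 + V * (b * h ^ 2 + h ^ 3) ≤ T := by
      have e2 : 0 ≤ a ^ 3 + V * (a * h ^ 2) := by positivity
      rw [hT]
      linarith
    exact mul_le_mul (mul_le_mul_of_nonneg_right hC2 hlog) e1 e0 (mul_nonneg hC20 hlog)
  have hn0 : (0 : ℝ) ≤ 2 * n := by positivity
  have u1 := mul_le_mul_of_nonneg_left t1 hn0
  have u2 := mul_le_mul_of_nonneg_left t2 hn0
  have u3 := mul_le_mul_of_nonneg_left t3 hn0
  calc 2 * (n : ℝ) * S1 + 2 * n * S2 + 2 * n * S3 ≤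
      2 * n * (D2 * (1 + Real.log n) * T) + 2 * n * (D1 * (1 + Real.log n) * T) +
        2 * n * (D2 * (1 + Real.log n) * T) := by linarith
    _ = 2 * (2 * D2 + D1) * n * (1 + Real.log n) * T := by ring

end Crest.Agent.R72
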