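import Crest.Agent.R72.FS2

/-!
# Row 72, module F, piece F_SMOOTH2: `est_smooth`

Both sides are homogeneous in `A`, `B`, `H` (`PhiAbs_smul`); if one of the norms is `0` the function
is `0` (`n3_eq_zero`) and the left side is `0`; otherwise apply `smooth_raw` to `A / n3 A`, `B / n3 B`,
`H / (n3 H √V)` (`n3_smul`): norms `1, 1, V^{-1/2}`, so the bracket is
`1 + 1 + V^{-3/2} + V (2 V⁻¹ + V^{-3/2}) ≤ 6`; multiply by `n3 A n3 B n3 H √V`.
-/

set_option autoImplicit false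

namespace Crest.Agent.R72

open Finset

theorem est_smooth (hf : MIfixed) (hv : MIvar) : ESTsmooth := by
  obtain ⟨C, hC0, hC⟩ := smooth_raw hf hv
  refine ⟨6 * C, ?_⟩
  intro N _ n K hn A B H m V hV hm hV2
  have hV0 : 0 < V := by linarith
  have hz : ∀ (P Q R : Fn N) (L : ℕ) (s : ZMod N), (∀ x y, P x y = 0) ∨ (∀ x y, Q x y = 0) ∨
      (∀ x y, R x y = 0) → PhiAbs P Q R L s = 0 := by
    intro P Q R L s h
    rcases h with h | h | h
    · have e : P = fun x y => (0 : ℂ) * P x y := by funext x y; rw [h x y, mul_zero]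
      have e2 := PhiAbs_smul 0 1 1 P Q R L s
      simp only [one_mul, norm_zero, zero_mul] at e2 e
      rw [e, e2]
    · have e : Q = fun x y => (0 : ℂ) * Q x y := by funext x y; rw [h x y, mul_zero]
      have e2 := PhiAbs_smul 1 0 1 P Q R L s
      simp only [one_mul, norm_zero, zero_mul, mul_zero] at e2 e
      rw [e, e2]
    · have e : R = fun x y => (0 : ℂ) * R x y := by funext x y; rw [h x y, mul_zero]
      have e2 := PhiAbs_smul 1 1 0 P Q R L s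
      simp only [one_mul, norm_zero, zero_mul, mul_zero] at e2 e
      rw [e, e2]
  have hz' : ∀ h : n3 A = 0 ∨ n3 B = 0 ∨ n3 H = 0,
      ∑ k ∈ range K, ∑ t ∈ Ico (n - 1) (2 * n - 1),
        PhiAbs A B (fun x₂ x₀ => H x₂ x₀ * m k x₂ x₀) (2 ^ k) (pl N n (2 ^ k) t) ≤
      6 * C * n * (1 + Real.log n) * Real.sqrt V * n3 A * n3 B * n3 H := by
    intro h
    have e1 : ∑ k ∈ range K, ∑ t ∈ Ico (n - 1) (2 * n - 1),
        PhiAbs A B (fun x₂ x₀ => H x₂ x₀ * m k x₂ x₀) (2 ^ k) (pl N n (2 ^ k) t) = 0 := by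
      refine sum_eq_zero fun k _ => sum_eq_zero fun t _ => hz _ _ _ _ _ ?_
      rcases h with h | h | h
      · exact Or.inl (n3_eq_zero h)
      · exact Or.inr (Or.inl (n3_eq_zero h))
      · exact Or.inr (Or.inr fun x y => by rw [n3_eq_zero h x y, zero_mul])
    have e2 : 6 * C * n * (1 + Real.log n) * Real.sqrt V * n3 A * n3 B * n3 H = 0 := by
      rcases h with h | h | h <;> rw [h] <;> ring
    rw [e1, e2]
  by_cases hA : n3 A = 0
  · exact hz' (Or.inl hA)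
  by_cases hB : n3 B = 0
  · exact hz' (Or.inr (Or.inl hB))
  by_cases hH : n3 H = 0
  · exact hz' (Or.inr (Or.inr hH))
  have hA0 : 0 < n3 A := lt_of_le_of_ne (n3_nonneg A) (Ne.symm hA)
  have hB0 : 0 < n3 B := lt_of_le_of_ne (n3_nonneg B) (Ne.symm hB)
  have hH0 : 0 < n3 H := lt_of_le_of_ne (n3_nonneg H) (Ne.symm hH)
  set s : ℝ := Real.sqrt V with hs
  have hs1 : 1 ≤ s := by rw [hs]; exact Real.one_le_sqrt.2 hV
  have hs0 : 0 < s := by linarith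
  have hss : s * s = V := Real.mul_self_sqrt hV0.le
  have hsc : 0 < n3 H * s := mul_pos hH0 hs0
  set a : ℂ := (((n3 A)⁻¹ : ℝ) : ℂ) with ha
  set b : ℂ := (((n3 B)⁻¹ : ℝ) : ℂ) with hb
  set c : ℂ := (((n3 H * s)⁻¹ : ℝ) : ℂ) with hc
  have na : ‖a‖ = (n3 A)⁻¹ := by
    rw [ha, Complex.norm_real, Real.norm_eq_abs, abs_of_pos (inv_pos.2 hA0)]
  have nb : ‖b‖ = (n3 B)⁻¹ := by
    rw [hb, Complex.norm_real, Real.norm_eq_abs, abs_of_pos (inv_pos.2 hB0)]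
  have nc : ‖c‖ = (n3 H * s)⁻¹ := by
    rw [hc, Complex.norm_real, Real.norm_eq_abs, abs_of_pos (inv_pos.2 hsc)]
  have h1 := hC N n K hn (fun x y => a * A x y) (fun x y => b * B x y) (fun x y => c * H x y) m V hV
    hm hV2
  rw [n3_smul, n3_smul, n3_smul, na, nb, nc, inv_mul_cancel₀ hA, inv_mul_cancel₀ hB] at h1
  have e1 : (n3 H * s)⁻¹ * n3 H = s⁻¹ := by
    field_simp
  rw [e1] at h1
  have e2 : ∀ k t, PhiAbs (fun x y => a * A x y) (fun x y => b * B x y)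
      (fun x₂ x₀ => c * H x₂ x₀ * m k x₂ x₀) (2 ^ k) (pl N n (2 ^ k) t) =
      (n3 A)⁻¹ * (n3 B)⁻¹ * (n3 H * s)⁻¹ *
        PhiAbs A B (fun x₂ x₀ => H x₂ x₀ * m k x₂ x₀) (2 ^ k) (pl N n (2 ^ k) t) := by
    intro k t
    have := PhiAbs_smul a b c A B (fun x₂ x₀ => H x₂ x₀ * m k x₂ x₀) (2 ^ k) (pl N n (2 ^ k) t)
    rw [na, nb, nc] at this
    simp only [← mul_assoc] at this ⊢
    exact this
  simp only [e2, ← mul_sum] at h1
  set S : ℝ := ∑ k ∈ range K, ∑ t ∈ Ico (n - 1) (2 * n - 1),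
    PhiAbs A B (fun x₂ x₀ => H x₂ x₀ * m k x₂ x₀) (2 ^ k) (pl N n (2 ^ k) t) with hS
  have hlog : 0 ≤ 1 + Real.log n := by
    have : 0 ≤ Real.log n := Real.log_nonneg (by exact_mod_cast hn)
    linarith
  have hbr : (1 : ℝ) ^ 3 + 1 ^ 3 + s⁻¹ ^ 3 + V * (1 * s⁻¹ ^ 2 + 1 * s⁻¹ ^ 2 + s⁻¹ ^ 3) ≤ 6 := by
    have hu1 : s⁻¹ ≤ 1 := inv_le_one_of_one_le₀ hs1
    have hu0 : 0 < s⁻¹ := inv_pos.2 hs0
    have e3 : V * (1 * s⁻¹ ^ 2 + 1 * s⁻¹ ^ 2 + s⁻¹ ^ 3) = 2 + s⁻¹ := by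
      rw [← hss]
      field_simp
      ring
    rw [e3]
    have : s⁻¹ ^ 3 ≤ 1 := pow_le_one₀ hu0.le hu1
    linarith
  have h2 : (n3 A)⁻¹ * (n3 B)⁻¹ * (n3 H * s)⁻¹ * S ≤ C * n * (1 + Real.log n) * 6 :=
    h1.trans (mul_le_mul_of_nonneg_left hbr (by positivity))
  have h3 : S = n3 A * n3 B * (n3 H * s) * ((n3 A)⁻¹ * (n3 B)⁻¹ * (n3 H * s)⁻¹ * S) := by
    field_simp
  rw [h3]
  calc n3 A * n3 B * (n3 H * s) * ((n3 A)⁻¹ * (n3 B)⁻¹ * (n3 H * s)⁻¹ * S)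
      ≤ n3 A * n3 B * (n3 H * s) * (C * n * (1 + Real.log n) * 6) :=
        mul_le_mul_of_nonneg_left h2 (by positivity)
    _ = 6 * C * n * (1 + Real.log n) * s * n3 A * n3 B * n3 H := by ring

end Crest.Agent.R72
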