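import Crest.Agent.R72.FB
import Crest.Agent.R72.FLA

/-!
# Row 72, module F, piece F_TAU: the local estimates on windows

From `FLA.la_box`, `FLA.la_dual`, `FLA.gapm_nonneg` by `tau_eq`, `gapb_eq`, `blk2_cT`,
`sum_range_two` (for `Qf`).
-/

set_option autoImplicit false

namespace Crest.Agent.R72

open Finset Matrix

variable {N : ℕ}

theorem gapb_nonneg (P R : Fn N) (L : ℕ) (x y z : ZMod N) : 0 ≤ gapb P R L x y z := by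
  rw [gapb_eq]
  exact FLA.gapm_nonneg _ _

theorem gapb_comm (P R : Fn N) (L : ℕ) (x y z : ZMod N) :
    gapb P R L x y z = gapb R P L x z y := by
  rw [gapb_eq, gapb_eq, gapm_comm]

theorem tau_le (A B H : Fn N) (L : ℕ) (q₀ q₁ q₂ : ZMod N) :
    ‖tau A B H L q₀ q₁ q₂‖ ≤ gapb A (cT H) L q₀ q₁ q₂ + gapb B (cT A) L q₁ q₂ q₀ +
      gapb (cT B) H L q₂ q₁ q₀ := by
  rw [tau_eq, gapb_eq, gapb_eq, gapb_eq, blk2_cT, blk2_cT, blk2_cT,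
    gapm_comm (blk2 B L q₁ q₂)ᴴ (blk2 H L q₂ q₀)]
  exact FLA.la_box _ _ _

theorem Qf_nonneg (A B H : Fn N) (L : ℕ) (q₀ q₁ q₂ : ZMod N) : 0 ≤ Qf A B H L q₀ q₁ q₂ := by
  unfold Qf
  refine sum_nonneg fun l _ => sum_nonneg fun i _ => ?_
  positivity

theorem tau_sq_le (A B H : Fn N) (L : ℕ) (q₀ q₁ q₂ : ZMod N) :
    ‖tau A B H L q₀ q₁ q₂‖ ^ 2 ≤ 2 * gapb B (cT A) L q₁ q₂ q₀ * Qf A B H L q₀ q₁ q₂ := by
  rw [tau_eq, gapb_eq, blk2_cT]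
  have h := FLA.la_dual (blk2 A L q₀ q₁) (blk2 B L q₁ q₂) (blk2 H L q₂ q₀)
  have hQ : Qf A B H L q₀ q₁ q₂ = ∑ l, ∑ i, ‖blk2 H L q₂ q₀ l i‖ *
      (Real.sqrt (∑ i', ‖blk2 H L q₂ q₀ l i'‖ ^ 2) * Real.sqrt (∑ j, ‖blk2 A L q₀ q₁ i j‖ ^ 2) +
        Real.sqrt (∑ l', ‖blk2 H L q₂ q₀ l' i‖ ^ 2) *
          Real.sqrt (∑ j, ‖blk2 B L q₁ q₂ j l‖ ^ 2)) := by
    unfold Qf
    simp only [sum_range_two]
    rfl
  rw [hQ]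
  exact h

end Crest.Agent.R72
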