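import Mathlib

/-!
Row 72, module K: the dyadic partition of unity in the radius.
-/

set_option autoImplicit false

namespace Crest.Agent.R72.K

open Finset

/-- Piecewise linear bump: `2 r / 2^i - 1` on `[2^(i-1), 2^i]`, `2 - r / 2^i` on `[2^i, 2^(i+1)]`. -/
noncomputable def chi (i r : ℕ) : ℝ := max 0 (min (2 * (r : ℝ) / 2 ^ i - 1) (2 - (r : ℝ) / 2 ^ i))

theorem chi_nonneg (i r : ℕ) : 0 ≤ chi i r := le_max_left _ _

theorem chi_le_one (i r : ℕ) : chi i r ≤ 1 := by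
  unfold chi
  refine max_le zero_le_one ?_
  have h1 : 2 * (r : ℝ) / 2 ^ i = 2 * ((r : ℝ) / 2 ^ i) := by ring
  rw [h1]
  rcases le_total ((r : ℝ) / 2 ^ i) 1 with h | h
  · exact (min_le_left _ _).trans (by linarith)
  · exact (min_le_right _ _).trans (by linarith)

theorem chi_supp (i r : ℕ) (h : chi i r ≠ 0) : 2 ^ i < 2 * r ∧ r < 2 ^ (i + 1) := by
  have hpos : (0 : ℝ) < 2 ^ i := by positivity
  have h1 : 0 < min (2 * (r : ℝ) / 2 ^ i - 1) (2 - (r : ℝ) / 2 ^ i) := by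
    by_contra hcon
    exact h (max_eq_left (not_lt.1 hcon))
  obtain ⟨h2, h3⟩ := lt_min_iff.1 h1
  constructor
  · have h4 : (1 : ℝ) < 2 * (r : ℝ) / 2 ^ i := by linarith
    rw [lt_div_iff₀ hpos, one_mul] at h4
    exact_mod_cast h4
  · have h4 : (r : ℝ) / 2 ^ i < 2 := by linarith
    rw [div_lt_iff₀ hpos] at h4
    rw [pow_succ']
    exact_mod_cast h4

theorem chi_lip (i r : ℕ) : |chi i (r + 1) - chi i r| ≤ 2 / 2 ^ i := by
  have hpos : (0 : ℝ) < 1 / 2 ^ i := by positivity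
  have h1 : 2 * (r : ℝ) / 2 ^ i = 2 * ((r : ℝ) / 2 ^ i) := by ring
  have h2 : 2 * ((r + 1 : ℕ) : ℝ) / 2 ^ i = 2 * ((r : ℝ) / 2 ^ i) + 2 * (1 / 2 ^ i) := by
    push_cast; ring
  have h3 : ((r + 1 : ℕ) : ℝ) / 2 ^ i = (r : ℝ) / 2 ^ i + 1 / 2 ^ i := by
    push_cast; ring
  have h4 : (2 : ℝ) / 2 ^ i = 2 * (1 / 2 ^ i) := by ring
  unfold chi
  rw [h1, h2, h3, h4]
  generalize (r : ℝ) / 2 ^ i = x
  generalize (1 : ℝ) / 2 ^ i = d at *
  rw [abs_le]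
  constructor
  · rcases max_cases (0 : ℝ) (min (2 * x + 2 * d - 1) (2 - (x + d))) with ⟨ha, hb⟩ | ⟨ha, hb⟩ <;>
    rcases max_cases (0 : ℝ) (min (2 * x - 1) (2 - x)) with ⟨hc, hd⟩ | ⟨hc, hd⟩ <;>
    rcases min_cases (2 * x + 2 * d - 1) (2 - (x + d)) with ⟨he, hf⟩ | ⟨he, hf⟩ <;>
    rcases min_cases (2 * x - 1) (2 - x) with ⟨hg, hh⟩ | ⟨hg, hh⟩ <;>
    linarith
  · rcases max_cases (0 : ℝ) (min (2 * x + 2 * d - 1) (2 - (x + d))) with ⟨ha, hb⟩ | ⟨ha, hb⟩ <;>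
    rcases max_cases (0 : ℝ) (min (2 * x - 1) (2 - x)) with ⟨hc, hd⟩ | ⟨hc, hd⟩ <;>
    rcases min_cases (2 * x + 2 * d - 1) (2 - (x + d)) with ⟨he, hf⟩ | ⟨he, hf⟩ <;>
    rcases min_cases (2 * x - 1) (2 - x) with ⟨hg, hh⟩ | ⟨hg, hh⟩ <;>
    linarith

/-- Partition of unity: for `1 ≤ r < 2^I` only the two bumps `i = log₂ r` and `log₂ r + 1` matter. -/
theorem chi_sum (I r : ℕ) (h1 : 1 ≤ r) (h2 : r < 2 ^ I) : ∑ i ∈ range (I + 1), chi i r = 1 := by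
  obtain ⟨k, hk⟩ : ∃ k, k = Nat.log 2 r := ⟨_, rfl⟩
  have hr0 : r ≠ 0 := by omega
  have hk1 : 2 ^ k ≤ r := by rw [hk]; exact Nat.pow_log_le_self 2 hr0
  have hk2 : r < 2 ^ (k + 1) := by rw [hk]; exact Nat.lt_pow_succ_log_self (by norm_num) r
  have hkI : k < I := (Nat.pow_lt_pow_iff_right (by norm_num : 1 < 2)).1 (lt_of_le_of_lt hk1 h2)
  have hz : ∀ i ∈ range (I + 1), i ∉ ({k, k + 1} : Finset ℕ) → chi i r = 0 := by
    intro i _ hi
    by_contra hne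
    obtain ⟨h3, h4⟩ := chi_supp i r hne
    simp only [Finset.mem_insert, Finset.mem_singleton, not_or] at hi
    rcases lt_or_gt_of_ne hi.1 with h5 | h5
    · have : 2 ^ (i + 1) ≤ 2 ^ k := Nat.pow_le_pow_right (by norm_num) h5
      omega
    · have h6 : k + 2 ≤ i := by omega
      have : 2 ^ (k + 2) ≤ 2 ^ i := Nat.pow_le_pow_right (by norm_num) h6
      have h7 : 2 ^ (k + 2) = 2 * 2 ^ (k + 1) := by ring
      omega
  rw [← Finset.sum_subset (s₁ := ({k, k + 1} : Finset ℕ)) ?_ hz]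
  · rw [Finset.sum_pair (by omega)]
    have hpos : (0 : ℝ) < 2 ^ k := by positivity
    have hx1 : (1 : ℝ) ≤ (r : ℝ) / 2 ^ k := by
      rw [le_div_iff₀ hpos, one_mul]
      exact_mod_cast hk1
    have hx2 : (r : ℝ) / 2 ^ k < 2 := by
      rw [div_lt_iff₀ hpos]
      have : (r : ℝ) < 2 ^ (k + 1) := by exact_mod_cast hk2
      rwa [pow_succ'] at this
    have e1 : 2 * (r : ℝ) / 2 ^ k = 2 * ((r : ℝ) / 2 ^ k) := by ring
    have e2 : 2 * (r : ℝ) / 2 ^ (k + 1) = (r : ℝ) / 2 ^ k := by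
      rw [pow_succ']; field_simp
    have e3 : (r : ℝ) / 2 ^ (k + 1) = (1 / 2) * ((r : ℝ) / 2 ^ k) := by
      rw [pow_succ']; field_simp
    unfold chi
    rw [e1, e2, e3]
    generalize (r : ℝ) / 2 ^ k = x at *
    rw [min_eq_right (by linarith), min_eq_left (by linarith), max_eq_right (by linarith),
      max_eq_right (by linarith)]
    ring
  · intro i hi
    simp only [Finset.mem_insert, Finset.mem_singleton] at hi
    rw [Finset.mem_range]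
    omega

end Crest.Agent.R72.K
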