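import Crest.Agent.R72.K2A
import Crest.Agent.R72.K3A

/-!
Row 72, module K: the shell functions `kap i` (smooth) and `rr i M` (rough remainder).
-/

set_option autoImplicit false

namespace Crest.Agent.R72.K

open Finset Finsupp

/-- `chi i |u| / u` as a function. -/
noncomputable def kapF (i : ℕ) (u : ℤ) : ℂ := (chi i u.natAbs : ℂ) / (u : ℂ)

/-- `(M |u| - M (2^i)) chi i |u| / u` as a function. -/
noncomputable def rrF (i : ℕ) (M : ℕ → ℂ) (u : ℤ) : ℂ :=
  (M u.natAbs - M (2 ^ i)) * (chi i u.natAbs : ℂ) / (u : ℂ)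

private theorem chi_supp_int (i : ℕ) (u : ℤ) (h : chi i u.natAbs ≠ 0) :
    (2 : ℤ) ^ i < 2 * |u| ∧ |u| < 2 ^ (i + 1) := by
  obtain ⟨h1, h2⟩ := chi_supp i u.natAbs h
  rw [Int.abs_eq_natAbs]
  exact ⟨by exact_mod_cast h1, by exact_mod_cast h2⟩

private theorem chi_mem_Ioo (i : ℕ) (u : ℤ) (h : chi i u.natAbs ≠ 0) :
    u ∈ Ioo (-2 ^ (i + 1) : ℤ) (2 ^ (i + 1)) := by
  obtain ⟨_, h2⟩ := chi_supp_int i u h
  rw [abs_lt] at h2
  exact Finset.mem_Ioo.2 h2

theorem kapF_supp (i : ℕ) (u : ℤ) (h : kapF i u ≠ 0) :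
    u ∈ Ioo (-2 ^ (i + 1) : ℤ) (2 ^ (i + 1)) := by
  apply chi_mem_Ioo
  intro hc
  exact h (by simp [kapF, hc])

theorem rrF_supp (i : ℕ) (M : ℕ → ℂ) (u : ℤ) (h : rrF i M u ≠ 0) :
    u ∈ Ioo (-2 ^ (i + 1) : ℤ) (2 ^ (i + 1)) := by
  apply chi_mem_Ioo
  intro hc
  exact h (by simp [rrF, hc])

noncomputable def kap (i : ℕ) : ℤ →₀ ℂ :=
  Finsupp.onFinset (Ioo (-2 ^ (i + 1) : ℤ) (2 ^ (i + 1))) (kapF i) (kapF_supp i)

noncomputable def rr (i : ℕ) (M : ℕ → ℂ) : ℤ →₀ ℂ :=
  Finsupp.onFinset (Ioo (-2 ^ (i + 1) : ℤ) (2 ^ (i + 1))) (rrF i M) (rrF_supp i M)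

/-- Jumps of `M` in the shell `i` (`M (r+1) ≠ M r`, `2^(i-1) ≤ r < 2^(i+1)`, floor division). -/
noncomputable def Jset (i : ℕ) (M : ℕ → ℂ) : Finset ℕ := by
  classical exact (Ico (2 ^ i / 2) (2 ^ (i + 1))).filter fun r => M (r + 1) ≠ M r

private theorem kap_apply (i : ℕ) (u : ℤ) : kap i u = kapF i u := rfl

private theorem rr_apply (i : ℕ) (M : ℕ → ℂ) (u : ℤ) : rr i M u = rrF i M u := rfl

private theorem kapF_neg (i : ℕ) (u : ℤ) : kapF i (-u) = -kapF i u := by
  unfold kapF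
  rw [Int.natAbs_neg]
  push_cast
  rw [div_neg]

private theorem rrF_neg (i : ℕ) (M : ℕ → ℂ) (u : ℤ) : rrF i M (-u) = -rrF i M u := by
  unfold rrF
  rw [Int.natAbs_neg]
  push_cast
  rw [div_neg]

private theorem rrF_eq (i : ℕ) (M : ℕ → ℂ) (u : ℤ) :
    rrF i M u = (M u.natAbs - M (2 ^ i)) * kapF i u := by
  unfold rrF kapF
  rw [mul_div_assoc]

/-- A finitely supported odd function has sum zero. -/
private theorem odd_sum (g : ℤ →₀ ℂ) (h : ∀ u, g (-u) = -g u) : (g.sum fun _ c => c) = 0 := by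
  have h1 : (g.sum fun _ c => c) = ∑ u ∈ g.support, g u := rfl
  have h2 : ∑ u ∈ g.support, g u = ∑ u ∈ g.support, g (-u) := by
    refine Finset.sum_nbij' (fun u => -u) (fun u => -u) ?_ ?_ ?_ ?_ ?_
    · intro u hu
      rw [Finsupp.mem_support_iff] at hu ⊢
      rw [h]
      exact neg_ne_zero.2 hu
    · intro u hu
      rw [Finsupp.mem_support_iff] at hu ⊢
      rw [h]
      exact neg_ne_zero.2 hu
    · intro u _
      exact neg_neg u
    · intro u _
      exact neg_neg u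
    · intro u _
      simp
  have h3 : ∑ u ∈ g.support, g (-u) = -∑ u ∈ g.support, g u := by
    rw [← Finset.sum_neg_distrib]
    exact Finset.sum_congr rfl fun u _ => h u
  rw [h3] at h2
  rw [h1]
  exact self_eq_neg.1 h2

private theorem inv_le_of (i : ℕ) {x : ℝ} (h : (2 : ℝ) ^ i < 2 * x) : 1 / x ≤ 2 / 2 ^ i := by
  have hpos : (0 : ℝ) < 2 ^ i := by positivity
  have hx : 0 < x := by linarith
  rw [div_le_div_iff₀ hx hpos]
  linarith

private theorem kapF_bd (i : ℕ) (u : ℤ) : ‖kapF i u‖ ≤ 2 / 2 ^ i := by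
  by_cases hc : chi i u.natAbs = 0
  · have : kapF i u = 0 := by simp [kapF, hc]
    rw [this, norm_zero]
    positivity
  · obtain ⟨h1, _⟩ := chi_supp_int i u hc
    have h2 : (2 : ℝ) ^ i < 2 * |(u : ℝ)| := by
      rw [← Int.cast_abs]
      exact_mod_cast h1
    unfold kapF
    rw [norm_div, Complex.norm_real, Complex.norm_intCast, Real.norm_of_nonneg (chi_nonneg _ _)]
    refine le_trans ?_ (inv_le_of i h2)
    exact div_le_div_of_nonneg_right (chi_le_one _ _) (abs_nonneg _)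

/-- One-step difference of `kapF` on the nonnegative side. -/
private theorem kapF_diff (i m : ℕ) : ‖kapF i ((m : ℤ) + 1) - kapF i m‖ ≤ 8 / 4 ^ i := by
  have hpos : (0 : ℝ) < 2 ^ i := by positivity
  have h4 : (4 : ℝ) ^ i = 2 ^ i * 2 ^ i := by
    rw [← mul_pow]; norm_num
  have e1 : kapF i ((m : ℤ) + 1) = ((chi i (m + 1) / ((m : ℝ) + 1) : ℝ) : ℂ) := by
    have : ((m : ℤ) + 1).natAbs = m + 1 := by omega
    unfold kapF
    rw [this]
    push_cast
    rfl
  have e2 : kapF i (m : ℤ) = ((chi i m / (m : ℝ) : ℝ) : ℂ) := by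
    unfold kapF
    rw [Int.natAbs_natCast]
    push_cast
    rfl
  rw [e1, e2, ← Complex.ofReal_sub, Complex.norm_real, Real.norm_eq_abs]
  have hm1 : (0 : ℝ) < (m : ℝ) + 1 := by positivity
  have hA : |(chi i (m + 1) - chi i m) / ((m : ℝ) + 1)| ≤ 4 / 4 ^ i := by
    by_cases hz : chi i (m + 1) = 0 ∧ chi i m = 0
    · rw [hz.1, hz.2, sub_self, zero_div, abs_zero]
      positivity
    · have h2 : 2 ^ i < 2 * (m + 1) := by
        by_cases h5 : chi i (m + 1) = 0
        · have h6 : chi i m ≠ 0 := fun h6 => hz ⟨h5, h6⟩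
          have := (chi_supp i m h6).1
          omega
        · exact (chi_supp i (m + 1) h5).1
      have h3 : (2 : ℝ) ^ i < 2 * ((m : ℝ) + 1) := by exact_mod_cast h2
      rw [abs_div, abs_of_pos hm1, div_eq_mul_one_div]
      calc |chi i (m + 1) - chi i m| * (1 / ((m : ℝ) + 1)) ≤ (2 / 2 ^ i) * (2 / 2 ^ i) :=
            mul_le_mul (chi_lip i m) (inv_le_of i h3) (by positivity) (by positivity)
        _ = 4 / 4 ^ i := by rw [h4]; field_simp; norm_num
  have hB : |chi i m * (1 / ((m : ℝ) + 1) - 1 / (m : ℝ))| ≤ 4 / 4 ^ i := by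
    by_cases hz : chi i m = 0
    · rw [hz, zero_mul, abs_zero]
      positivity
    · have h2 := (chi_supp i m hz).1
      have h3 : (2 : ℝ) ^ i < 2 * (m : ℝ) := by exact_mod_cast h2
      have hm : (0 : ℝ) < (m : ℝ) := by linarith
      have h5 : (2 : ℝ) ^ i < 2 * ((m : ℝ) + 1) := by linarith
      have e3 : 1 / ((m : ℝ) + 1) - 1 / (m : ℝ) = -((1 / ((m : ℝ) + 1)) * (1 / (m : ℝ))) := by
        field_simp
        ring
      rw [e3, abs_mul, abs_neg, abs_of_nonneg (chi_nonneg i m),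
        abs_of_nonneg (by positivity : 0 ≤ (1 / ((m : ℝ) + 1)) * (1 / (m : ℝ)))]
      calc chi i m * ((1 / ((m : ℝ) + 1)) * (1 / (m : ℝ)))
          ≤ 1 * ((2 / 2 ^ i) * (2 / 2 ^ i)) := by
            refine mul_le_mul (chi_le_one i m) ?_ (by positivity) zero_le_one
            exact mul_le_mul (inv_le_of i h5) (inv_le_of i h3) (by positivity) (by positivity)
        _ = 4 / 4 ^ i := by rw [h4]; field_simp; norm_num
  have e4 : chi i (m + 1) / ((m : ℝ) + 1) - chi i m / (m : ℝ) =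
      (chi i (m + 1) - chi i m) / ((m : ℝ) + 1) +
        chi i m * (1 / ((m : ℝ) + 1) - 1 / (m : ℝ)) := by
    ring
  rw [e4]
  refine (abs_add_le _ _).trans ?_
  have : (8 : ℝ) / 4 ^ i = 4 / 4 ^ i + 4 / 4 ^ i := by ring
  rw [this]
  exact add_le_add hA hB

/-- Reduction of the one-step difference of an odd function to the nonnegative side. -/
private theorem odd_diff (g : ℤ → ℂ) (hg : ∀ u, g (-u) = -g u) (u : ℤ) :
    ∃ m : ℕ, min |u| |u + 1| = (m : ℤ) ∧ ‖g (u + 1) - g u‖ = ‖g ((m : ℤ) + 1) - g m‖ := by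
  rcases le_or_gt 0 u with hu | hu
  · refine ⟨u.toNat, ?_, ?_⟩
    · rw [abs_of_nonneg hu, abs_of_nonneg (by omega : 0 ≤ u + 1)]
      omega
    · rw [Int.toNat_of_nonneg hu]
  · refine ⟨(-u - 1).toNat, ?_, ?_⟩
    · rw [abs_of_neg hu, abs_of_nonpos (by omega : u + 1 ≤ 0)]
      omega
    · rw [Int.toNat_of_nonneg (by omega : 0 ≤ -u - 1)]
      have e1 : -u - 1 + 1 = -u := by ring
      have e2 : -u - 1 = -(u + 1) := by ring
      rw [e1, e2, hg, hg]
      congr 1
      ring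

theorem shell_kap (i : ℕ) : ShellFn 10 i ∅ (kap i) := by
  have h4 : (0 : ℝ) < 4 ^ i := by positivity
  have h2 : (0 : ℝ) < 2 ^ i := by positivity
  refine ⟨by norm_num, ?_, ?_, ?_, ?_⟩
  · intro u hu
    apply chi_supp_int
    intro hc
    exact hu (by simp [kap_apply, kapF, hc])
  · intro u
    rw [kap_apply]
    refine (kapF_bd i u).trans ?_
    gcongr
    norm_num
  · intro u _
    rw [kap_apply, kap_apply]
    obtain ⟨m, _, hm⟩ := odd_diff (kapF i) (kapF_neg i) u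
    rw [hm]
    refine (kapF_diff i m).trans ?_
    gcongr
    norm_num
  · exact odd_sum _ (kapF_neg i)

/-- If `min |u| |u+1| = r` is not a jump in the shell then either `M |u| = M |u+1|` or both values
of `chi i` vanish. -/
theorem shell_rr (i : ℕ) (M : ℕ → ℂ) (hM : ∀ r, ‖M r‖ ≤ 1) :
    ShellFn 20 i (Jset i M) (rr i M) := by
  classical
  have h4 : (0 : ℝ) < 4 ^ i := by positivity
  have h2 : (0 : ℝ) < 2 ^ i := by positivity
  have hM2 : ∀ r s, ‖M r - M s‖ ≤ 2 := by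
    intro r s
    have h5 := norm_sub_le (M r) (M s)
    have h6 := hM r
    have h7 := hM s
    linarith
  refine ⟨by norm_num, ?_, ?_, ?_, ?_⟩
  · intro u hu
    apply chi_supp_int
    intro hc
    exact hu (by simp [rr_apply, rrF, hc])
  · intro u
    rw [rr_apply, rrF_eq, norm_mul]
    calc ‖M u.natAbs - M (2 ^ i)‖ * ‖kapF i u‖ ≤ 2 * (2 / 2 ^ i) :=
          mul_le_mul (hM2 _ _) (kapF_bd i u) (norm_nonneg _) (by norm_num)
      _ = 4 / 2 ^ i := by ring
      _ ≤ 20 / 2 ^ i := by gcongr; norm_num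
  · intro u hu
    rw [rr_apply, rr_apply]
    obtain ⟨m, hmin, hm⟩ := odd_diff (rrF i M) (rrF_neg i M) u
    rw [hm]
    have hmJ : m ∉ Jset i M := fun h5 => hu m h5 hmin
    by_cases h5 : M (m + 1) = M m
    · rw [rrF_eq, rrF_eq]
      have e1 : ((m : ℤ) + 1).natAbs = m + 1 := by omega
      rw [e1, Int.natAbs_natCast, h5, ← mul_sub, norm_mul]
      calc ‖M m - M (2 ^ i)‖ * ‖kapF i ((m : ℤ) + 1) - kapF i m‖ ≤ 2 * (8 / 4 ^ i) :=
            mul_le_mul (hM2 _ _) (kapF_diff i m) (norm_nonneg _) (by norm_num)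
        _ = 16 / 4 ^ i := by ring
        _ ≤ 20 / 4 ^ i := by gcongr; norm_num
    · have h6 : ¬ (2 ^ i / 2 ≤ m ∧ m < 2 ^ (i + 1)) := by
        intro h6
        exact hmJ (by
          unfold Jset
          rw [Finset.mem_filter, Finset.mem_Ico]
          exact ⟨h6, h5⟩)
      have h7 : chi i m = 0 := by
        by_contra h8
        obtain ⟨h9, h10⟩ := chi_supp i m h8
        exact h6 ⟨by omega, h10⟩
      have h8 : chi i (m + 1) = 0 := by
        by_contra h8
        obtain ⟨h9, h10⟩ := chi_supp i (m + 1) h8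
        exact h6 ⟨by omega, by omega⟩
      have e1 : ((m : ℤ) + 1).natAbs = m + 1 := by omega
      have e2 : rrF i M ((m : ℤ) + 1) = 0 := by simp [rrF, e1, h8]
      have e3 : rrF i M (m : ℤ) = 0 := by simp [rrF, h7]
      rw [e2, e3, sub_zero, norm_zero]
      positivity
  · exact odd_sum _ (rrF_neg i M)

private theorem const_of_no_jump (M : ℕ → ℂ) (a b : ℕ) (h : ∀ r, a ≤ r → r < b → M (r + 1) = M r) :
    ∀ r, a ≤ r → r ≤ b → M r = M a := by
  intro r h1 h2
  induction r, h1 using Nat.le_induction with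
  | base => rfl
  | succ r hr ih => rw [h r hr (by omega), ih (by omega)]

/-- No jump in the shell: the remainder vanishes. -/
theorem rr_zero (i : ℕ) (M : ℕ → ℂ) (h : Jset i M = ∅) : rr i M = 0 := by
  classical
  have hJ : ∀ r, 2 ^ i / 2 ≤ r → r < 2 ^ (i + 1) → M (r + 1) = M r := by
    intro r h1 h2
    by_contra h3
    have h4 : r ∈ Jset i M := by
      unfold Jset
      rw [Finset.mem_filter, Finset.mem_Ico]
      exact ⟨⟨h1, h2⟩, h3⟩
    rw [h] at h4
    exact absurd h4 (Finset.notMem_empty r)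
  have hc := const_of_no_jump M _ _ hJ
  ext u
  rw [rr_apply, Finsupp.zero_apply]
  by_cases h0 : chi i u.natAbs = 0
  · simp [rrF, h0]
  · obtain ⟨h1, h2⟩ := chi_supp i u.natAbs h0
    have h3 : M u.natAbs = M (2 ^ i) := by
      rw [hc u.natAbs (by omega) h2.le, hc (2 ^ i) (Nat.div_le_self _ _)
        (Nat.pow_le_pow_right (by norm_num) (Nat.le_succ i))]
    simp [rrF, h3]

/-- The decomposition of the kernel. -/
theorem kernel_split (I : ℕ) (M : ℕ → ℂ) (u : ℤ) (h0 : u ≠ 0) (h1 : |u| < 2 ^ I) :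
    M u.natAbs / (u : ℂ) = ∑ i ∈ range (I + 1), (M (2 ^ i) * kap i u + rr i M u) := by
  have h2 : 1 ≤ u.natAbs := by omega
  have h3 : u.natAbs < 2 ^ I := by
    rw [Int.abs_eq_natAbs] at h1
    exact_mod_cast h1
  have h4 := chi_sum I u.natAbs h2 h3
  have h5 : ∀ i ∈ range (I + 1), M (2 ^ i) * kap i u + rr i M u =
      (M u.natAbs / (u : ℂ)) * (chi i u.natAbs : ℂ) := by
    intro i _
    rw [kap_apply, rr_apply, rrF_eq]
    unfold kapF
    ring
  rw [Finset.sum_congr rfl h5, ← Finset.mul_sum, ← Complex.ofReal_sum, h4, Complex.ofReal_one,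
    mul_one]

/-- Every radius is in at most two of the intervals `[2^i/2, 2^(i+1))`. -/
theorem sum_card_Jset (I W : ℕ) (M : ℕ → ℂ) (hW : ∀ r, W ≤ r → M r = 0) :
    ∑ i ∈ range I, (Jset i M).card ≤
      2 * Set.ncard {r : ℕ | r < W ∧ M (r + 1) ≠ M r} := by
  classical
  have hS : {r : ℕ | r < W ∧ M (r + 1) ≠ M r} =
      (((range W).filter fun r => M (r + 1) ≠ M r : Finset ℕ) : Set ℕ) := by
    ext r; simp
  rw [hS, Set.ncard_coe_finset]
  set S := (range W).filter fun r => M (r + 1) ≠ M r with hSdef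
  have h1 : ∀ i, Jset i M = S.filter fun r => 2 ^ i / 2 ≤ r ∧ r < 2 ^ (i + 1) := by
    intro i
    ext r
    simp only [Jset, hSdef, Finset.mem_filter, Finset.mem_Ico, Finset.mem_range]
    constructor
    · rintro ⟨h2, h3⟩
      refine ⟨⟨?_, h3⟩, h2⟩
      by_contra h4
      rw [not_lt] at h4
      exact h3 (by rw [hW r h4, hW (r + 1) (by omega)])
    · rintro ⟨⟨_, h3⟩, h2⟩
      exact ⟨h2, h3⟩
  simp only [h1, Finset.card_filter]
  rw [Finset.sum_comm]
  have h2 : ∀ r ∈ S, (∑ i ∈ range I, if 2 ^ i / 2 ≤ r ∧ r < 2 ^ (i + 1) then 1 else 0) ≤ 2 := by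
    intro r _
    rw [← Finset.card_filter]
    by_cases hne : ((range I).filter fun i => 2 ^ i / 2 ≤ r ∧ r < 2 ^ (i + 1)).Nonempty
    · set T := (range I).filter fun i => 2 ^ i / 2 ≤ r ∧ r < 2 ^ (i + 1) with hT
      have hsub : T ⊆ {T.min' hne, T.min' hne + 1} := by
        intro i hi
        have hm := (Finset.mem_filter.1 (T.min'_mem hne))
        have hle := T.min'_le i hi
        have hi := Finset.mem_filter.1 hi
        have h3 : 2 ^ i / 2 < 2 ^ (T.min' hne + 1) := lt_of_le_of_lt hi.2.1 hm.2.2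
        have h4 : i ≤ T.min' hne + 1 := by
          by_contra h5
          rw [not_le] at h5
          obtain ⟨i', rfl⟩ : ∃ i', i = i' + 1 := ⟨i - 1, by omega⟩
          rw [pow_succ, Nat.mul_div_cancel _ (by norm_num : 0 < 2)] at h3
          have h6 := (Nat.pow_lt_pow_iff_right (by norm_num : 1 < 2)).1 h3
          omega
        simp only [Finset.mem_insert, Finset.mem_singleton]
        omega
      exact (Finset.card_le_card hsub).trans Finset.card_le_two
    · rw [Finset.not_nonempty_iff_eq_empty.1 hne]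
      simp
  refine (Finset.sum_le_sum h2).trans ?_
  rw [Finset.sum_const, smul_eq_mul, mul_comm]

open Classical in
/-- For each jump there are at most `20` positions `q` with a hit: `min |u| |u+1| = r` iff
`u = r` or `u = -r-1`. -/
theorem card_hit (J : Finset ℕ) (k : ℕ) (X : ℕ) :
    ((Icc (-(X : ℤ)) X).filter fun q => hit J k 2 8 q).card ≤ 20 * J.card := by
  have hpos : (0 : ℤ) < 2 ^ k := by positivity
  have hsub : ((Icc (-(X : ℤ)) X).filter fun q => hit J k 2 8 q) ⊆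
      J.biUnion fun r => (Icc ((r : ℤ) / 2 ^ k - 7) ((r : ℤ) / 2 ^ k + 2)) ∪
        (Icc ((-(r : ℤ) - 1) / 2 ^ k - 7) ((-(r : ℤ) - 1) / 2 ^ k + 2)) := by
    intro q hq
    rw [Finset.mem_filter] at hq
    obtain ⟨u, h1, h2, r, hr, h3⟩ := hq.2
    rw [Finset.mem_biUnion]
    refine ⟨r, hr, ?_⟩
    have h4 : q - 2 ≤ u / 2 ^ k := (Int.le_ediv_iff_mul_le hpos).2 h1
    have h5 : u / 2 ^ k < q + 8 := (Int.ediv_lt_iff_lt_mul hpos).2 h2
    rw [Finset.mem_union, Finset.mem_Icc, Finset.mem_Icc]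
    rcases le_or_gt 0 u with hu | hu
    · left
      have h6 : u = r := by
        rw [abs_of_nonneg hu, abs_of_nonneg (by omega : 0 ≤ u + 1)] at h3
        omega
      rw [← h6]
      omega
    · right
      have h6 : -(r : ℤ) - 1 = u := by
        rw [abs_of_neg hu, abs_of_nonpos (by omega : u + 1 ≤ 0)] at h3
        omega
      rw [h6]
      omega
  refine (Finset.card_le_card hsub).trans (Finset.card_biUnion_le.trans ?_)
  have h7 : ∀ r ∈ J, ((Icc ((r : ℤ) / 2 ^ k - 7) ((r : ℤ) / 2 ^ k + 2)) ∪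
        (Icc ((-(r : ℤ) - 1) / 2 ^ k - 7) ((-(r : ℤ) - 1) / 2 ^ k + 2))).card ≤ 20 := by
    intro r _
    refine (Finset.card_union_le _ _).trans ?_
    rw [Int.card_Icc, Int.card_Icc]
    omega
  refine (Finset.sum_le_sum h7).trans ?_
  rw [Finset.sum_const, smul_eq_mul, mul_comm]

private theorem exists_jump (M : ℕ → ℂ) (a : ℕ) : ∀ d : ℕ, M (a + d) ≠ M a →
    ∃ r, a ≤ r ∧ r < a + d ∧ M (r + 1) ≠ M r
  | 0, h => absurd rfl h
  | d + 1, h => by
    by_cases h1 : M (a + d) = M a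
    · refine ⟨a + d, by omega, by omega, ?_⟩
      rw [h1]
      exact h
    · obtain ⟨r, h2, h3, h4⟩ := exists_jump M a d h1
      exact ⟨r, h2, by omega, h4⟩

/-- Total variation of the dyadic samples. -/
theorem tv_dyadic (j K W : ℕ) (M : ℕ → ℂ) (hM : ∀ r, ‖M r‖ ≤ 1) (hW : ∀ r, W ≤ r → M r = 0) :
    ∑ k ∈ range K, ‖M (2 ^ (k + 1 + j)) - M (2 ^ (k + j))‖ ≤
      2 * Set.ncard {r : ℕ | r < W ∧ M (r + 1) ≠ M r} := by
  classical
  have hS : {r : ℕ | r < W ∧ M (r + 1) ≠ M r} =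
      (((range W).filter fun r => M (r + 1) ≠ M r : Finset ℕ) : Set ℕ) := by
    ext r; simp
  rw [hS, Set.ncard_coe_finset]
  set S := (range W).filter fun r => M (r + 1) ≠ M r with hSdef
  let A : ℕ → Finset ℕ := fun k => S.filter fun r => 2 ^ (k + j) ≤ r ∧ r < 2 ^ (k + 1 + j)
  have h1 : ∀ k ∈ range K, ‖M (2 ^ (k + 1 + j)) - M (2 ^ (k + j))‖ ≤ 2 * ((A k).card : ℝ) := by
    intro k _
    by_cases h2 : M (2 ^ (k + 1 + j)) = M (2 ^ (k + j))
    · rw [h2, sub_self, norm_zero]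
      positivity
    · have hle : 2 ^ (k + j) ≤ 2 ^ (k + 1 + j) := Nat.pow_le_pow_right (by norm_num) (by omega)
      obtain ⟨r, h3, h4, h5⟩ := exists_jump M (2 ^ (k + j)) (2 ^ (k + 1 + j) - 2 ^ (k + j))
        (by rwa [Nat.add_sub_cancel' hle])
      rw [Nat.add_sub_cancel' hle] at h4
      have h6 : r ∈ A k := by
        simp only [A, hSdef, Finset.mem_filter, Finset.mem_range]
        refine ⟨⟨?_, h5⟩, h3, h4⟩
        by_contra h7
        rw [not_lt] at h7
        exact h5 (by rw [hW r h7, hW (r + 1) (by omega)])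
      have h8 : (1 : ℝ) ≤ (A k).card := by
        exact_mod_cast Finset.card_pos.2 ⟨r, h6⟩
      have h9 := norm_sub_le (M (2 ^ (k + 1 + j))) (M (2 ^ (k + j)))
      have h10 := hM (2 ^ (k + 1 + j))
      have h11 := hM (2 ^ (k + j))
      linarith
  refine (Finset.sum_le_sum h1).trans ?_
  rw [← Finset.mul_sum]
  refine mul_le_mul_of_nonneg_left ?_ (by norm_num)
  have h12 : ∑ k ∈ range K, (A k).card ≤ S.card := by
    rw [← Finset.card_biUnion]
    · refine Finset.card_le_card ?_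
      intro r hr
      obtain ⟨k, _, hk⟩ := Finset.mem_biUnion.1 hr
      exact (Finset.mem_filter.1 hk).1
    · intro a _ b _ hab
      show Disjoint (A a) (A b)
      rw [Finset.disjoint_left]
      intro r hra hrb
      have h13 := (Finset.mem_filter.1 hra).2
      have h14 := (Finset.mem_filter.1 hrb).2
      have h15 := (Nat.pow_lt_pow_iff_right (by norm_num : 1 < 2)).1 (lt_of_le_of_lt h13.1 h14.2)
      have h16 := (Nat.pow_lt_pow_iff_right (by norm_num : 1 < 2)).1 (lt_of_le_of_lt h14.1 h13.2)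
      omega
  exact_mod_cast h12

end Crest.Agent.R72.K
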