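import Crest.Agent.R72.K2B
import Crest.Agent.R72.K3B

/-!
Row 72, module K: square sums of the rough coefficients (one multiplier `M` with at most `2n` jumps).
Imported sorries may be used.
-/

set_option autoImplicit false

namespace Crest.Agent.R72.K

open Finset

/-- `M` has at most `2 n` jumps, `|M| ≤ 1`, `M r = 0` for `r ≥ W`. -/
structure Mult (n W : ℕ) (M : ℕ → ℂ) : Prop where
  bd : ∀ r, ‖M r‖ ≤ 1
  van : ∀ r, W ≤ r → M r = 0
  jumps : ((range W).filter fun r => M (r + 1) ≠ M r).card ≤ 2 * n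

theorem Mult.ncard_le {n W : ℕ} {M : ℕ → ℂ} (h : Mult n W M) :
    Set.ncard {r : ℕ | r < W ∧ M (r + 1) ≠ M r} ≤ 2 * n := by
  classical
  have h1 : {r : ℕ | r < W ∧ M (r + 1) ≠ M r} =
      (((range W).filter fun r => M (r + 1) ≠ M r : Finset ℕ) : Set ℕ) := by
    ext r
    simp
  rw [h1, Set.ncard_coe_finset]
  exact h.jumps


/-- Total variation of `k ↦ M (2^(k+j))`. From `tv_dyadic`. -/
theorem Mult.tv {n W : ℕ} {M : ℕ → ℂ} (h : Mult n W M) (j K : ℕ) :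
    ∑ k ∈ range K, ‖M (2 ^ (k + 1 + j)) - M (2 ^ (k + j))‖ ≤ 4 * n := by
  have h1 := tv_dyadic j K W M h.bd h.van
  have h2 : ((Set.ncard {r : ℕ | r < W ∧ M (r + 1) ≠ M r} : ℕ) : ℝ) ≤ 2 * n := by
    exact_mod_cast h.ncard_le
  linarith


/-- Total variation of `k ↦ M (2^(k-l))` (truncated subtraction: constant for `k ≤ l`). -/
theorem Mult.tv' {n W : ℕ} {M : ℕ → ℂ} (h : Mult n W M) (l K : ℕ) :
    ∑ k ∈ range K, ‖M (2 ^ (k + 1 - l)) - M (2 ^ (k - l))‖ ≤ 4 * n := by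
  rcases le_total K l with hK | hK
  · have h0 : ∑ k ∈ range K, ‖M (2 ^ (k + 1 - l)) - M (2 ^ (k - l))‖ = 0 := by
      refine Finset.sum_eq_zero fun k hk => ?_
      rw [Finset.mem_range] at hk
      have e1 : k + 1 - l = 0 := by omega
      have e2 : k - l = 0 := by omega
      rw [e1, e2, sub_self, norm_zero]
    rw [h0]
    positivity
  · obtain ⟨K', rfl⟩ := Nat.exists_eq_add_of_le hK
    rw [Finset.sum_range_add]
    have h0 : ∑ k ∈ range l, ‖M (2 ^ (k + 1 - l)) - M (2 ^ (k - l))‖ = 0 := by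
      refine Finset.sum_eq_zero fun k hk => ?_
      rw [Finset.mem_range] at hk
      have e1 : k + 1 - l = 0 := by omega
      have e2 : k - l = 0 := by omega
      rw [e1, e2, sub_self, norm_zero]
    rw [h0, zero_add]
    have h1 := h.tv 0 K'
    refine le_trans (le_of_eq (Finset.sum_congr rfl fun k _ => ?_)) h1
    have e1 : l + k + 1 - l = k + 1 + 0 := by omega
    have e2 : l + k - l = k + 0 := by omega
    rw [e1, e2]


private theorem k5a_sumJ {n W : ℕ} {M : ℕ → ℂ} (h : Mult n W M) (I : ℕ) :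
    ∑ i ∈ range I, ((Jset i M).card : ℝ) ≤ 4 * n := by
  have h1 := sum_card_Jset I W M h.van
  have h2 := h.ncard_le
  have h3 : ∑ i ∈ range I, (Jset i M).card ≤ 4 * n := by omega
  exact_mod_cast h3

private theorem k5a_below {n W : ℕ} {M : ℕ → ℂ} (h : Mult n W M) (j k : ℕ) :
    ∑ q ∈ Icc (-((10 * 2 ^ j : ℕ) : ℤ)) ((10 * 2 ^ j : ℕ) : ℤ),
        ‖rho (rr (k + j) M) (k + j) k q‖ ^ 2 ≤ 21254400 * ((Jset (k + j) M).card : ℝ) / 4 ^ j := by
  classical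
  rcases Finset.eq_empty_or_nonempty (Jset (k + j) M) with hJ | hJ
  · rw [rr_zero _ _ hJ, rho_zero, hJ]
    simp
  have hJ1 : (1 : ℝ) ≤ ((Jset (k + j) M).card : ℝ) := by
    have := Finset.card_pos.2 hJ
    exact_mod_cast this
  have hsh := shell_rr (k + j) M h.bd
  have hik : k + j - k = j := by omega
  have h4 : (0 : ℝ) < 4 ^ j := by positivity
  have hrough : ∀ q, ‖rho (rr (k + j) M) (k + j) k q‖ ^ 2 ≤ 518400 / 4 ^ j := by
    intro q
    have h1 := rho_le' hsh (Nat.le_add_right k j) q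
    rw [hik] at h1
    have h2 : (36 * 20 / 2 ^ j : ℝ) ^ 2 = 518400 / 4 ^ j := by
      rw [div_pow, ← pow_mul, mul_comm j 2, pow_mul]
      norm_num
    rw [← h2]
    exact pow_le_pow_left₀ (norm_nonneg _) h1 2
  have hsmooth : ∀ q, ¬ hit (Jset (k + j) M) k 2 8 q →
      ‖rho (rr (k + j) M) (k + j) k q‖ ^ 2 ≤ 518400 / 4 ^ j / 4 ^ j := by
    intro q hq
    have h1 := rho_le hsh (Nat.le_add_right k j) q hq
    rw [hik] at h1
    have h2 : (36 * 20 / 4 ^ j : ℝ) ^ 2 = 518400 / 4 ^ j / 4 ^ j := by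
      rw [div_pow, div_div, ← pow_two]
      norm_num
    rw [← h2]
    exact pow_le_pow_left₀ (norm_nonneg _) h1 2
  have hsplit : ∀ q ∈ Icc (-((10 * 2 ^ j : ℕ) : ℤ)) ((10 * 2 ^ j : ℕ) : ℤ),
      ‖rho (rr (k + j) M) (k + j) k q‖ ^ 2 ≤
        (if hit (Jset (k + j) M) k 2 8 q then (518400 / 4 ^ j : ℝ) else 0) +
          518400 / 4 ^ j / 4 ^ j := by
    intro q _
    have h0 : (0 : ℝ) ≤ 518400 / 4 ^ j / 4 ^ j := by positivity
    split_ifs with hq
    · linarith [hrough q]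
    · linarith [hsmooth q hq]
  refine (Finset.sum_le_sum hsplit).trans ?_
  rw [Finset.sum_add_distrib, ← Finset.sum_filter, Finset.sum_const, Finset.sum_const, nsmul_eq_mul,
    nsmul_eq_mul]
  have hc1 := card_hit (Jset (k + j) M) k (10 * 2 ^ j)
  have hc2 : (Icc (-((10 * 2 ^ j : ℕ) : ℤ)) ((10 * 2 ^ j : ℕ) : ℤ)).card = 20 * 2 ^ j + 1 := by
    rw [Int.card_Icc]
    have : ((10 * 2 ^ j : ℕ) : ℤ) + 1 - -((10 * 2 ^ j : ℕ) : ℤ) = ((20 * 2 ^ j + 1 : ℕ) : ℤ) := by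
      push_cast
      ring
    rw [this, Int.toNat_natCast]
  rw [hc2]
  have hc1' : (((Icc (-((10 * 2 ^ j : ℕ) : ℤ)) ((10 * 2 ^ j : ℕ) : ℤ)).filter
      fun q => hit (Jset (k + j) M) k 2 8 q).card : ℝ) ≤ 20 * ((Jset (k + j) M).card : ℝ) := by
    have hc1r : ((((Icc (-((10 * 2 ^ j : ℕ) : ℤ)) ((10 * 2 ^ j : ℕ) : ℤ)).filter
      fun q => hit (Jset (k + j) M) k 2 8 q).card : ℕ) : ℝ) ≤
        ((20 * (Jset (k + j) M).card : ℕ) : ℝ) := by
      refine Nat.cast_le.2 (le_trans (le_of_eq ?_) hc1)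
      congr
    exact hc1r.trans (le_of_eq (by push_cast; ring))
  have hc3 : (((20 * 2 ^ j + 1 : ℕ)) : ℝ) ≤ 21 * 4 ^ j := by
    have h5 : (1 : ℝ) ≤ 2 ^ j := one_le_pow₀ (by norm_num)
    have h6 : (2 : ℝ) ^ j ≤ 4 ^ j := pow_le_pow_left₀ (by norm_num) (by norm_num) j
    push_cast
    linarith
  have hd : (0 : ℝ) ≤ 518400 / 4 ^ j := by positivity
  have he : (518400 / 4 ^ j / 4 ^ j : ℝ) * (4 ^ j) = 518400 / 4 ^ j := by
    field_simp
  have hd2 : (0 : ℝ) ≤ 518400 / 4 ^ j / 4 ^ j := by positivity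
  have t1 := mul_le_mul_of_nonneg_right hc1' hd
  have t2 := mul_le_mul_of_nonneg_right hc3 hd2
  have t3 : (21 * 4 ^ j : ℝ) * (518400 / 4 ^ j / 4 ^ j) = 21 * (518400 / 4 ^ j) := by
    rw [mul_assoc, mul_comm ((4 : ℝ) ^ j), he]
  rw [t3] at t2
  have t4 : 21254400 * ((Jset (k + j) M).card : ℝ) / 4 ^ j =
      41 * ((Jset (k + j) M).card : ℝ) * (518400 / 4 ^ j) := by
    ring
  rw [t4]
  have t5 := mul_le_mul_of_nonneg_right hJ1 hd
  nlinarith [t1, t2, t5]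

private theorem k5a_above {n W : ℕ} {M : ℕ → ℂ} (h : Mult n W M) (l i : ℕ) :
    ∑ q ∈ Icc (-10 : ℤ) 10, ‖rho (rr i M) i (i + l) q‖ ^ 2 ≤
      1088640000 * ((Jset i M).card : ℝ) / 4 ^ l := by
  classical
  rcases Finset.eq_empty_or_nonempty (Jset i M) with hJ | hJ
  · rw [rr_zero _ _ hJ, rho_zero, hJ]
    simp
  have hJ1 : (1 : ℝ) ≤ ((Jset i M).card : ℝ) := by
    have := Finset.card_pos.2 hJ
    exact_mod_cast this
  have hsh := shell_rr i M h.bd
  have h1 : ∀ q ∈ Icc (-10 : ℤ) 10, ‖rho (rr i M) i (i + l) q‖ ^ 2 ≤ 51840000 / 4 ^ l := by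
    intro q _
    have h1 := rho_top_le hsh l q
    have h2 : (360 * 20 / 2 ^ l : ℝ) ^ 2 = 51840000 / 4 ^ l := by
      rw [div_pow, ← pow_mul, mul_comm l 2, pow_mul]
      norm_num
    rw [← h2]
    exact pow_le_pow_left₀ (norm_nonneg _) h1 2
  refine (Finset.sum_le_sum h1).trans ?_
  rw [Finset.sum_const, nsmul_eq_mul, Int.card_Icc]
  have hd : (0 : ℝ) ≤ 51840000 / 4 ^ l := by positivity
  have t5 := mul_le_mul_of_nonneg_right hJ1 hd
  have t4 : 1088640000 * ((Jset i M).card : ℝ) / 4 ^ l =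
      21 * (((Jset i M).card : ℝ) * (51840000 / 4 ^ l)) := by
    ring
  rw [t4]
  have t7 : ((10 : ℤ) + 1 - -10).toNat = 21 := by decide
  have t6 : ((((10 : ℤ) + 1 - -10).toNat : ℕ) : ℝ) = 21 := by rw [t7]; norm_num
  rw [t6]
  linarith

/-- Coefficients below the shell, fixed distance `j`. For every active shell `i = k + j`
(`Jset i M ≠ ∅`, at most `4 n` of them, `sum_card_Jset`) use `rho_le`, `rho_le'`, `card_hit`,
`shell_rr`; `21 * 2^j` positions. -/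
theorem coef_below {n W : ℕ} {M : ℕ → ℂ} (h : Mult n W M) (hn : 1 ≤ n) (j K : ℕ) :
    ∑ k ∈ range K, ∑ q ∈ Icc (-((10 * 2 ^ j : ℕ) : ℤ)) ((10 * 2 ^ j : ℕ) : ℤ),
        ‖rho (rr (k + j) M) (k + j) k q‖ ^ 2 ≤ 10 ^ 9 * n / 4 ^ j := by
  refine (Finset.sum_le_sum fun k _ => k5a_below h j k).trans ?_
  rw [← Finset.sum_div, ← Finset.mul_sum]
  have h1 : ∑ k ∈ range K, ((Jset (k + j) M).card : ℝ) ≤ 4 * n := by
    refine le_trans ?_ (k5a_sumJ h (j + K))
    rw [Finset.sum_range_add]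
    have h2 : ∑ k ∈ range K, ((Jset (k + j) M).card : ℝ) =
        ∑ k ∈ range K, ((Jset (j + k) M).card : ℝ) :=
      Finset.sum_congr rfl fun k _ => by rw [add_comm]
    rw [h2]
    have h3 : (0 : ℝ) ≤ ∑ k ∈ range j, ((Jset k M).card : ℝ) :=
      Finset.sum_nonneg fun _ _ => Nat.cast_nonneg _
    linarith
  have h4 : (0 : ℝ) < 4 ^ j := by positivity
  refine div_le_div_of_nonneg_right ?_ h4.le
  have hn' : (1 : ℝ) ≤ n := by exact_mod_cast hn
  nlinarith [h1]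


/-- Coefficients above the shell, fixed distance `l`. `rho_top_le`. -/
theorem coef_above {n W : ℕ} {M : ℕ → ℂ} (h : Mult n W M) (hn : 1 ≤ n) (l K : ℕ) :
    ∑ i ∈ range K, ∑ q ∈ Icc (-10 : ℤ) 10,
        ‖rho (rr i M) i (i + l) q‖ ^ 2 ≤ 10 ^ 10 * n / 4 ^ l := by
  refine (Finset.sum_le_sum fun i _ => k5a_above h l i).trans ?_
  rw [← Finset.sum_div, ← Finset.mul_sum]
  have h1 := k5a_sumJ h K
  have h4 : (0 : ℝ) < 4 ^ l := by positivity
  refine div_le_div_of_nonneg_right ?_ h4.le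
  have hn' : (1 : ℝ) ≤ n := by exact_mod_cast hn
  nlinarith [h1]


end Crest.Agent.R72.K
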