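import Crest.Agent.R72.K4
import Crest.Agent.R72.K5A

/-!
Row 72, module K: expansion of the kernel (imported sorries may be used).
-/

set_option autoImplicit false

namespace Crest.Agent.R72.K

open Finset

/-- The kernel as a finitely supported function. -/
noncomputable def gz (I : ℕ) (M : ℕ → ℂ) : ℤ →₀ ℂ :=
  ∑ i ∈ range (I + 1), (M (2 ^ i) • kap i + rr i M)

/-- `M (2^i) kapF i u + rrF i M u = M |u| chi i |u| / u`; for `0 < |u| < 2^I` use `kernel_split`, for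
`|u| ≥ W` `M |u| = 0`. -/
theorem gz_apply {W I : ℕ} (hI : W ≤ 2 ^ I) (M : ℕ → ℂ) (hM : ∀ r, W ≤ r → M r = 0) (u : ℤ) :
    gz I M u = if u ≠ 0 ∧ |u| < W then M u.natAbs / (u : ℂ) else 0 := by
  have h1 : gz I M u = ∑ i ∈ range (I + 1), (M (2 ^ i) * kap i u + rr i M u) := by
    unfold gz
    rw [Finsupp.finsetSum_apply]
    refine Finset.sum_congr rfl fun i _ => ?_
    rw [Finsupp.add_apply, Finsupp.smul_apply, smul_eq_mul]
  have h2 : ∀ i, M (2 ^ i) * kap i u + rr i M u = M u.natAbs * ((chi i u.natAbs : ℂ) / (u : ℂ)) := by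
    intro i
    have e1 : kap i u = (chi i u.natAbs : ℂ) / (u : ℂ) := rfl
    have e2 : rr i M u = (M u.natAbs - M (2 ^ i)) * (chi i u.natAbs : ℂ) / (u : ℂ) := rfl
    rw [e1, e2]
    ring
  split_ifs with h
  · rw [h1, kernel_split I M u h.1 (lt_of_lt_of_le h.2 (by exact_mod_cast hI))]
  · rw [h1]
    refine Finset.sum_eq_zero fun i _ => ?_
    rw [h2]
    by_cases hu : u = 0
    · subst hu
      simp
    · have h3 : W ≤ u.natAbs := by
        by_contra hcon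
        refine h ⟨hu, ?_⟩
        rw [Int.abs_eq_natAbs]
        exact_mod_cast not_le.1 hcon
      rw [hM _ h3, zero_mul]

/-- From `gker_eq` and linearity of `AAs`. -/
theorem gker_expand {N : ℕ} [NeZero N] {W I : ℕ} (hI : W ≤ 2 ^ I) (M : ℕ → ℂ)
    (hM : ∀ r, W ≤ r → M r = 0) (w : ZMod N) :
    gker N W M w = ∑ i ∈ range (I + 1), (M (2 ^ i) * (AAs (sN N) 0 (kap i)).coeff w +
      (AAs (sN N) 0 (rr i M)).coeff w) := by
  rw [gker_eq W M (gz I M) (gz_apply hI M hM) w]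
  unfold gz
  rw [map_sum, AddMonoidAlgebra.coeff_sum, Finsupp.finsetSum_apply]
  refine Finset.sum_congr rfl fun i _ => ?_
  rw [map_add, map_smul, AddMonoidAlgebra.coeff_add, Finsupp.add_apply,
    AddMonoidAlgebra.coeff_smul, Finsupp.smul_apply, smul_eq_mul]

/-- Support of the coefficients, both below and above the shell (truncated subtraction). -/
theorem rho_supp_all {C : ℝ} {i : ℕ} {J : Finset ℕ} {g : ℤ →₀ ℂ} (h : ShellFn C i J g) (k : ℕ)
    (q : ℤ) (hq : q ∉ Icc (-((10 * 2 ^ (i - k) : ℕ) : ℤ)) ((10 * 2 ^ (i - k) : ℕ) : ℤ)) :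
    rho g i k q = 0 := by
  by_contra hne
  apply hq
  rcases le_total k i with hk | hk
  · have h1 := rho_supp h hk q hne
    rw [abs_le] at h1
    rw [Finset.mem_Icc]
    push_cast
    exact h1
  · obtain ⟨l, rfl⟩ := Nat.exists_eq_add_of_le hk
    have h1 := rho_top_supp h l q hne
    rw [abs_le] at h1
    have h2 : i - (i + l) = 0 := by omega
    rw [h2, Finset.mem_Icc]
    push_cast
    constructor <;> linarith [h1.1, h1.2]

/-- `decomp`, `norm_DD_coeff`, `opP_zt_top_l1`. -/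
theorem AAs_approx {N : ℕ} [NeZero N] {C : ℝ} {i : ℕ} {J : Finset ℕ} {g : ℤ →₀ ℂ}
    (h : ShellFn C i J g) {K : ℕ} (hK : i ≤ K) (w : ZMod N) :
    ‖(AAs (sN N) 0 g).coeff w - ∑ k ∈ range (K + 1),
        ∑ q ∈ Icc (-((10 * 2 ^ (i - k) : ℕ) : ℤ)) ((10 * 2 ^ (i - k) : ℕ) : ℤ),
          rho g i k q * (HH (sN N) k q).coeff w‖ ≤ 120 * C / 2 ^ (K - i) := by
  have hHH : ∀ k, (HHs (sN N) k (rho g i k)).coeff w =
      ∑ q ∈ Icc (-((10 * 2 ^ (i - k) : ℕ) : ℤ)) ((10 * 2 ^ (i - k) : ℕ) : ℤ),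
          rho g i k q * (HH (sN N) k q).coeff w := by
    intro k
    have hsub : (rho g i k).support ⊆
        Icc (-((10 * 2 ^ (i - k) : ℕ) : ℤ)) ((10 * 2 ^ (i - k) : ℕ) : ℤ) := by
      intro q hq
      by_contra hcon
      exact (Finsupp.mem_support_iff.1 hq) (rho_supp_all h k q hcon)
    unfold HHs
    rw [Finsupp.linearCombination_apply,
      Finsupp.sum_of_support_subset _ hsub _ (fun v _ => by rw [zero_smul])]
    simp only [AddMonoidAlgebra.coeff_sum, Finsupp.coe_finsetSum, Finset.sum_apply,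
      AddMonoidAlgebra.coeff_smul_apply, smul_eq_mul]
  rw [decomp (sN N) (sN_shift N) g h.sum0 i K hK, AddMonoidAlgebra.coeff_add, Finsupp.add_apply,
    AddMonoidAlgebra.coeff_sum, Finsupp.finsetSum_apply, Finset.sum_congr rfl fun k _ => hHH k,
    add_sub_cancel_left]
  obtain ⟨l, rfl⟩ := Nat.exists_eq_add_of_le hK
  have h1 := opP_zt_top_l1 h l
  have h2 : (DDs (sN N) (i + l + 1) (opP (zt g i (i + l)))).coeff w =
      ∑ q ∈ (opP (zt g i (i + l))).support,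
        opP (zt g i (i + l)) q * (DD (sN N) (i + l + 1) q).coeff w := by
    unfold DDs
    rw [Finsupp.linearCombination_apply, Finsupp.sum]
    simp only [AddMonoidAlgebra.coeff_sum, Finsupp.coe_finsetSum, Finset.sum_apply,
      AddMonoidAlgebra.coeff_smul_apply, smul_eq_mul]
  rw [h2]
  refine (norm_sum_le _ _).trans ?_
  have h3 : ∀ q ∈ (opP (zt g i (i + l))).support,
      ‖opP (zt g i (i + l)) q * (DD (sN N) (i + l + 1) q).coeff w‖ ≤
        ‖opP (zt g i (i + l)) q‖ * 2 := by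
    intro q _
    rw [norm_mul]
    exact mul_le_mul_of_nonneg_left (norm_DD_coeff _ _ _) (norm_nonneg _)
  refine (Finset.sum_le_sum h3).trans ?_
  rw [← Finset.sum_mul]
  have h4 : i + l - i = l := by omega
  rw [h4]
  have h5 : ∑ q ∈ (opP (zt g i (i + l))).support, ‖opP (zt g i (i + l)) q‖ ≤ 60 * C / 2 ^ l := h1
  have h6 : 120 * C / 2 ^ l = 60 * C / 2 ^ l * 2 := by ring
  rw [h6]
  exact mul_le_mul_of_nonneg_right h5 (by norm_num)

theorem gker_approx {N : ℕ} [NeZero N] {n W I K : ℕ} (hI : W ≤ 2 ^ I) (hK : I ≤ K) (M : ℕ → ℂ)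
    (hM : Mult n W M) (w : ZMod N) :
    ‖gker N W M w - ∑ i ∈ range (I + 1), ∑ k ∈ range (K + 1),
        ∑ q ∈ Icc (-((10 * 2 ^ (i - k) : ℕ) : ℤ)) ((10 * 2 ^ (i - k) : ℕ) : ℤ),
          (M (2 ^ i) * rho (kap i) i k q + rho (rr i M) i k q) * (HH (sN N) k q).coeff w‖ ≤
      ∑ i ∈ range (I + 1), 3600 / 2 ^ (K - i) := by
  rw [gker_expand hI M hM.van w, ← Finset.sum_sub_distrib]
  refine (norm_sum_le _ _).trans (Finset.sum_le_sum fun i hi => ?_)
  rw [Finset.mem_range] at hi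
  have hiK : i ≤ K := by omega
  have h1 := AAs_approx (shell_kap i) hiK w
  have h2 := AAs_approx (shell_rr i M hM.bd) hiK w
  have e : M (2 ^ i) * (AAs (sN N) 0 (kap i)).coeff w + (AAs (sN N) 0 (rr i M)).coeff w -
      ∑ k ∈ range (K + 1), ∑ q ∈ Icc (-((10 * 2 ^ (i - k) : ℕ) : ℤ)) ((10 * 2 ^ (i - k) : ℕ) : ℤ),
          (M (2 ^ i) * rho (kap i) i k q + rho (rr i M) i k q) * (HH (sN N) k q).coeff w =
      M (2 ^ i) * ((AAs (sN N) 0 (kap i)).coeff w - ∑ k ∈ range (K + 1),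
        ∑ q ∈ Icc (-((10 * 2 ^ (i - k) : ℕ) : ℤ)) ((10 * 2 ^ (i - k) : ℕ) : ℤ),
          rho (kap i) i k q * (HH (sN N) k q).coeff w) +
      ((AAs (sN N) 0 (rr i M)).coeff w - ∑ k ∈ range (K + 1),
        ∑ q ∈ Icc (-((10 * 2 ^ (i - k) : ℕ) : ℤ)) ((10 * 2 ^ (i - k) : ℕ) : ℤ),
          rho (rr i M) i k q * (HH (sN N) k q).coeff w) := by
    have e1 : ∑ k ∈ range (K + 1),
        ∑ q ∈ Icc (-((10 * 2 ^ (i - k) : ℕ) : ℤ)) ((10 * 2 ^ (i - k) : ℕ) : ℤ),
          (M (2 ^ i) * rho (kap i) i k q + rho (rr i M) i k q) * (HH (sN N) k q).coeff w =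
        M (2 ^ i) * ∑ k ∈ range (K + 1),
          ∑ q ∈ Icc (-((10 * 2 ^ (i - k) : ℕ) : ℤ)) ((10 * 2 ^ (i - k) : ℕ) : ℤ),
            rho (kap i) i k q * (HH (sN N) k q).coeff w +
        ∑ k ∈ range (K + 1),
          ∑ q ∈ Icc (-((10 * 2 ^ (i - k) : ℕ) : ℤ)) ((10 * 2 ^ (i - k) : ℕ) : ℤ),
            rho (rr i M) i k q * (HH (sN N) k q).coeff w := by
      rw [Finset.mul_sum, ← Finset.sum_add_distrib]
      refine Finset.sum_congr rfl fun k _ => ?_
      rw [Finset.mul_sum, ← Finset.sum_add_distrib]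
      refine Finset.sum_congr rfl fun q _ => ?_
      ring
    rw [e1]
    ring
  rw [e]
  refine (norm_add_le _ _).trans ?_
  rw [norm_mul]
  have h3 := mul_le_mul (hM.bd (2 ^ i)) h1 (norm_nonneg _) (by norm_num)
  have h4 : (3600 : ℝ) / 2 ^ (K - i) = 1 * (120 * 10 / 2 ^ (K - i)) + 120 * 20 / 2 ^ (K - i) := by
    ring
  rw [h4]
  exact add_le_add h3 h2

end Crest.Agent.R72.K
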