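import Crest.Agent.R72.K5B
import Crest.Agent.R72.K5C

/-!
Row 72, module K: the lattice main theorem from the two estimates (imported sorries may be used).
-/

set_option autoImplicit false

namespace Crest.Agent.R72.K

open Finset

/-- From `gker_approx` and `pair_HH`. -/
theorem expand {N : ℕ} [NeZero N] {n W I K : ℕ} (hI : W ≤ 2 ^ I) (hK : I ≤ K) (A B H : Fn N)
    (M : ZMod N → ZMod N → ℕ → ℂ) (hM : ∀ x₂ x₀, Mult n W (M x₂ x₀)) :
    ‖∑ x₀ : ZMod N, ∑ x₁ : ZMod N, ∑ x₂ : ZMod N,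
        A x₀ x₁ * B x₁ x₂ * H x₂ x₀ * gker N W (M x₂ x₀) (x₀ + x₁ + x₂)‖ ≤
      ∑ i ∈ range (I + 1), ∑ k ∈ range (K + 1), (Sm A B H M i k + Ro A B H M i k) +
        (∑ x₀ : ZMod N, ∑ x₁ : ZMod N, ∑ x₂ : ZMod N, ‖A x₀ x₁ * B x₁ x₂ * H x₂ x₀‖) *
          ∑ i ∈ range (I + 1), 3600 / 2 ^ (K - i) := by
  classical
  set R : ℝ := ∑ i ∈ range (I + 1), 3600 / 2 ^ (K - i) with hR
  set T : ZMod N → ZMod N → ZMod N → ℂ := fun x₀ x₁ x₂ => A x₀ x₁ * B x₁ x₂ * H x₂ x₀ with hT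
  set Λ : (ZMod N → ZMod N → ZMod N → ℂ) → ℂ := fun f =>
    ∑ x₀ : ZMod N, ∑ x₁ : ZMod N, ∑ x₂ : ZMod N, T x₀ x₁ x₂ * f x₀ x₁ x₂ with hΛ
  have hΛs : ∀ (ι : Type) (s : Finset ι) (f : ι → ZMod N → ZMod N → ZMod N → ℂ),
      Λ (fun x₀ x₁ x₂ => ∑ a ∈ s, f a x₀ x₁ x₂) = ∑ a ∈ s, Λ (f a) := by
    intro ι s f
    simp only [hΛ]
    symm
    rw [Finset.sum_comm]
    refine Finset.sum_congr rfl fun x₀ _ => ?_
    rw [Finset.sum_comm]
    refine Finset.sum_congr rfl fun x₁ _ => ?_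
    rw [Finset.sum_comm]
    refine Finset.sum_congr rfl fun x₂ _ => ?_
    rw [Finset.mul_sum]
  have hΛa : ∀ f g : ZMod N → ZMod N → ZMod N → ℂ,
      Λ (fun x₀ x₁ x₂ => f x₀ x₁ x₂ + g x₀ x₁ x₂) = Λ f + Λ g := by
    intro f g
    simp only [hΛ, mul_add, Finset.sum_add_distrib]
  set G : ZMod N → ZMod N → ZMod N → ℂ := fun x₀ x₁ x₂ =>
    ∑ i ∈ range (I + 1), ∑ k ∈ range (K + 1),
      ∑ q ∈ Icc (-((10 * 2 ^ (i - k) : ℕ) : ℤ)) ((10 * 2 ^ (i - k) : ℕ) : ℤ),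
        (M x₂ x₀ (2 ^ i) * rho (kap i) i k q + rho (rr i (M x₂ x₀)) i k q) *
          (HH (sN N) k q).coeff (x₀ + x₁ + x₂) with hG
  set E : ZMod N → ZMod N → ZMod N → ℂ := fun x₀ x₁ x₂ =>
    gker N W (M x₂ x₀) (x₀ + x₁ + x₂) - G x₀ x₁ x₂ with hE
  have hEb : ∀ x₀ x₁ x₂, ‖E x₀ x₁ x₂‖ ≤ R := fun x₀ x₁ x₂ =>
    gker_approx hI hK (M x₂ x₀) (hM x₂ x₀) (x₀ + x₁ + x₂)
  have hsplit : ∑ x₀ : ZMod N, ∑ x₁ : ZMod N, ∑ x₂ : ZMod N,
        A x₀ x₁ * B x₁ x₂ * H x₂ x₀ * gker N W (M x₂ x₀) (x₀ + x₁ + x₂) = Λ G + Λ E := by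
    rw [← hΛa]
    simp only [hΛ, hT, hE]
    refine Finset.sum_congr rfl fun x₀ _ => Finset.sum_congr rfl fun x₁ _ =>
      Finset.sum_congr rfl fun x₂ _ => ?_
    ring
  have hΛE : ‖Λ E‖ ≤
      (∑ x₀ : ZMod N, ∑ x₁ : ZMod N, ∑ x₂ : ZMod N, ‖A x₀ x₁ * B x₁ x₂ * H x₂ x₀‖) * R := by
    simp only [hΛ]
    rw [Finset.sum_mul]
    refine (norm_sum_le _ _).trans (Finset.sum_le_sum fun x₀ _ => ?_)
    rw [Finset.sum_mul]
    refine (norm_sum_le _ _).trans (Finset.sum_le_sum fun x₁ _ => ?_)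
    rw [Finset.sum_mul]
    refine (norm_sum_le _ _).trans (Finset.sum_le_sum fun x₂ _ => ?_)
    rw [norm_mul]
    exact mul_le_mul_of_nonneg_left (hEb x₀ x₁ x₂) (norm_nonneg _)
  have hΛG : Λ G = ∑ i ∈ range (I + 1), ∑ k ∈ range (K + 1),
      (∑ q ∈ Icc (-((10 * 2 ^ (i - k) : ℕ) : ℤ)) ((10 * 2 ^ (i - k) : ℕ) : ℤ),
        (Phi A B (fun x₂ x₀ => H x₂ x₀ * (M x₂ x₀ (2 ^ i) * rho (kap i) i k q)) (2 ^ k)
            (plm N k q) +
          Phi A B (fun x₂ x₀ => H x₂ x₀ * rho (rr i (M x₂ x₀)) i k q) (2 ^ k) (plm N k q))) := by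
    rw [hG, hΛs]
    refine Finset.sum_congr rfl fun i _ => ?_
    rw [hΛs]
    refine Finset.sum_congr rfl fun k _ => ?_
    rw [hΛs]
    refine Finset.sum_congr rfl fun q _ => ?_
    rw [← pair_HH, ← pair_HH]
    simp only [hΛ, hT]
    rw [← Finset.sum_add_distrib]
    refine Finset.sum_congr rfl fun x₀ _ => ?_
    rw [← Finset.sum_add_distrib]
    refine Finset.sum_congr rfl fun x₁ _ => ?_
    rw [← Finset.sum_add_distrib]
    refine Finset.sum_congr rfl fun x₂ _ => ?_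
    ring
  rw [hsplit]
  refine (norm_add_le _ _).trans (add_le_add ?_ hΛE)
  rw [hΛG]
  refine (norm_sum_le _ _).trans (Finset.sum_le_sum fun i _ => ?_)
  refine (norm_sum_le _ _).trans (Finset.sum_le_sum fun k _ => ?_)
  rw [Sm, Ro, ← Finset.sum_add_distrib]
  refine (norm_sum_le _ _).trans (Finset.sum_le_sum fun q _ => ?_)
  exact norm_add_le _ _

theorem reorg (F : ℕ → ℕ → ℝ) (hF : ∀ i k, 0 ≤ F i k) (I K : ℕ) :
    ∑ i ∈ range (I + 1), ∑ k ∈ range (K + 1), F i k ≤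
      ∑ j ∈ range (I + 1), ∑ k ∈ range (K + 1), F (k + j) k +
        ∑ l ∈ range (K + 1), ∑ i ∈ range (I + 1), F i (i + l) := by
  classical
  rw [← Finset.sum_product', ← Finset.sum_product', ← Finset.sum_product']
  rw [← Finset.sum_filter_add_sum_filter_not (range (I + 1) ×ˢ range (K + 1))
    (fun p : ℕ × ℕ => p.2 ≤ p.1) (fun p => F p.1 p.2)]
  refine add_le_add ?_ ?_
  · have h1 : ∑ p ∈ (range (I + 1) ×ˢ range (K + 1)).filter (fun p : ℕ × ℕ => p.2 ≤ p.1),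
        F p.1 p.2 =
        ∑ p ∈ ((range (I + 1) ×ˢ range (K + 1)).filter (fun p : ℕ × ℕ => p.2 ≤ p.1)).image
          (fun p : ℕ × ℕ => (p.1 - p.2, p.2)), F (p.2 + p.1) p.2 := by
      rw [Finset.sum_image]
      · refine Finset.sum_congr rfl fun p hp => ?_
        have hp' := (Finset.mem_filter.1 hp).2
        show F p.1 p.2 = F (p.2 + (p.1 - p.2)) p.2
        rw [Nat.add_sub_cancel' hp']
      · intro p hp q hq hpq
        have hp' := (Finset.mem_filter.1 (Finset.mem_coe.1 hp)).2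
        have hq' := (Finset.mem_filter.1 (Finset.mem_coe.1 hq)).2
        have e1 : p.1 - p.2 = q.1 - q.2 := (Prod.mk.inj hpq).1
        have e2 : p.2 = q.2 := (Prod.mk.inj hpq).2
        refine Prod.ext ?_ e2
        omega
    rw [h1]
    refine Finset.sum_le_sum_of_subset_of_nonneg ?_ fun p _ _ => hF _ _
    intro p hp
    obtain ⟨q, hq, rfl⟩ := Finset.mem_image.1 hp
    have hq1 := (Finset.mem_filter.1 hq).1
    rw [Finset.mem_product, Finset.mem_range, Finset.mem_range] at hq1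
    rw [Finset.mem_product, Finset.mem_range, Finset.mem_range]
    refine ⟨?_, hq1.2⟩
    show q.1 - q.2 < I + 1
    omega
  · have h1 : ∑ p ∈ (range (I + 1) ×ˢ range (K + 1)).filter (fun p : ℕ × ℕ => ¬ p.2 ≤ p.1),
        F p.1 p.2 =
        ∑ p ∈ ((range (I + 1) ×ˢ range (K + 1)).filter (fun p : ℕ × ℕ => ¬ p.2 ≤ p.1)).image
          (fun p : ℕ × ℕ => (p.2 - p.1, p.1)), F p.2 (p.2 + p.1) := by
      rw [Finset.sum_image]
      · refine Finset.sum_congr rfl fun p hp => ?_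
        have hp' := (Finset.mem_filter.1 hp).2
        show F p.1 p.2 = F p.1 (p.1 + (p.2 - p.1))
        rw [Nat.add_sub_cancel' (not_le.1 hp').le]
      · intro p hp q hq hpq
        have hp' := (Finset.mem_filter.1 (Finset.mem_coe.1 hp)).2
        have hq' := (Finset.mem_filter.1 (Finset.mem_coe.1 hq)).2
        have e1 : p.2 - p.1 = q.2 - q.1 := (Prod.mk.inj hpq).1
        have e2 : p.1 = q.1 := (Prod.mk.inj hpq).2
        refine Prod.ext e2 ?_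
        omega
    rw [h1]
    refine Finset.sum_le_sum_of_subset_of_nonneg ?_ fun p _ _ => hF _ _
    intro p hp
    obtain ⟨q, hq, rfl⟩ := Finset.mem_image.1 hp
    have hq1 := (Finset.mem_filter.1 hq).1
    rw [Finset.mem_product, Finset.mem_range, Finset.mem_range] at hq1
    rw [Finset.mem_product, Finset.mem_range, Finset.mem_range]
    refine ⟨?_, hq1.1⟩
    show q.2 - q.1 < K + 1
    omega

/-- The remainder of `expand` tends to `0`. -/
theorem rem_tendsto (I : ℕ) (D : ℝ) :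
    Filter.Tendsto (fun K : ℕ => D * ∑ i ∈ range (I + 1), (3600 : ℝ) / 2 ^ (K - i))
      Filter.atTop (nhds 0) := by
  have h1 : ∀ i : ℕ, Filter.Tendsto (fun K : ℕ => (3600 : ℝ) / 2 ^ (K - i))
      Filter.atTop (nhds 0) := by
    intro i
    refine Filter.Tendsto.div_atTop tendsto_const_nhds ?_
    exact (tendsto_pow_atTop_atTop_of_one_lt (by norm_num : (1 : ℝ) < 2)).comp
      (Filter.tendsto_sub_atTop_nat i)
  have h2 : Filter.Tendsto (fun K : ℕ => ∑ i ∈ range (I + 1), (3600 : ℝ) / 2 ^ (K - i))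
      Filter.atTop (nhds (∑ i ∈ range (I + 1), (0 : ℝ))) :=
    tendsto_finsetSum _ fun i _ => h1 i
  rw [Finset.sum_const_zero] at h2
  have h3 := h2.const_mul D
  rwa [mul_zero] at h3

/-- **Lattice main theorem** from the two estimates. `I = W`, `expand` for all `K ≥ I`, `reorg`, the
four estimates of K5B with `th_sum`, and `K → ∞` (`ge_of_tendsto`). -/
theorem lmt (hs : ESTsmooth) (hr : ESTrough) : LMT := by
  obtain ⟨C1, hC1, h1⟩ := smooth_below hs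
  obtain ⟨C2, hC2, h2⟩ := smooth_above hs
  obtain ⟨C3, hC3, h3⟩ := rough_below hr
  obtain ⟨C4, hC4, h4⟩ := rough_above hr
  obtain ⟨T, hT, hTs⟩ := th_sum
  refine ⟨(C1 + C3) * T + (C2 + C4) * T, fun N _ n W hn A B H M hb hv hj => ?_⟩
  have hM : ∀ x₂ x₀, Mult n W (M x₂ x₀) := by
    intro x₂ x₀
    refine ⟨hb x₂ x₀, hv x₂ x₀, ?_⟩
    convert hj x₂ x₀
  set X : ℝ := Real.sqrt n * n3 A * n3 B * n3 H with hX
  have hn3 : ∀ P : Fn N, 0 ≤ n3 P := fun P =>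
    Real.rpow_nonneg (Finset.sum_nonneg fun _ _ => Finset.sum_nonneg fun _ _ =>
      pow_nonneg (abs_nonneg _) 3) _
  have hX0 : 0 ≤ X :=
    mul_nonneg (mul_nonneg (mul_nonneg (Real.sqrt_nonneg _) (hn3 A)) (hn3 B)) (hn3 H)
  have hlim := (rem_tendsto W (∑ x₀ : ZMod N, ∑ x₁ : ZMod N, ∑ x₂ : ZMod N,
    ‖A x₀ x₁ * B x₁ x₂ * H x₂ x₀‖)).const_add (((C1 + C3) * T + (C2 + C4) * T) * X)
  rw [add_zero] at hlim
  have hgoal : ((C1 + C3) * T + (C2 + C4) * T) * Real.sqrt n * n3 A * n3 B * n3 H =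
      ((C1 + C3) * T + (C2 + C4) * T) * X := by
    rw [hX]; ring
  rw [hgoal]
  refine ge_of_tendsto hlim (Filter.eventually_atTop.2 ⟨W, fun K hK => ?_⟩)
  refine (expand (Nat.lt_two_pow_self (n := W)).le hK A B H M hM).trans ?_
  refine add_le_add ?_ le_rfl
  refine (reorg (fun i k => Sm A B H M i k + Ro A B H M i k)
    (fun i k => add_nonneg (Sm_nonneg A B H M i k) (Ro_nonneg A B H M i k)) W K).trans ?_
  rw [add_mul]
  have hsum : ∀ (c : ℝ) (m : ℕ), 0 ≤ c →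
      ∑ j ∈ range m, c * ((1 + (j : ℝ)) * th ^ j) * X ≤ c * T * X := by
    intro c m hc
    rw [← Finset.sum_mul, ← Finset.mul_sum]
    exact mul_le_mul_of_nonneg_right (mul_le_mul_of_nonneg_left (hTs m) hc) hX0
  refine add_le_add ?_ ?_
  · refine le_trans (Finset.sum_le_sum fun j _ => ?_) (hsum (C1 + C3) (W + 1) (add_nonneg hC1 hC3))
    rw [Finset.sum_add_distrib, add_mul, add_mul]
    exact add_le_add (h1 N n W hn A B H M hM j (K + 1)) (h3 N n W hn A B H M hM j (K + 1))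
  · refine le_trans (Finset.sum_le_sum fun l _ => ?_) (hsum (C2 + C4) (K + 1) (add_nonneg hC2 hC4))
    rw [Finset.sum_add_distrib, add_mul, add_mul]
    exact add_le_add (h2 N n W hn A B H M hM l (W + 1)) (h4 N n W hn A B H M hM l (W + 1))

end Crest.Agent.R72.K
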