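import Crest.Prelude.Def_TriangularHilbert

/-!
# Row 72, reductions of S0096 and S0095 to the lattice main theorem: interfaces

* `BddSupp F`: bounded, measurable, bounded support.
* `FormLe C`: the linearised continuous form estimate (file R2, helper81, from the lattice main
  theorem `LMT`); consumed by R3 (helper62) to give S0096.
* `S0096Stmt`: the statement of S0096 (consumed by R1, helper26).
-/

set_option autoImplicit false

open MeasureTheory Crest.AnalysisR
open scoped ENNReal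

namespace Crest.Agent.R72

/-- bounded, measurable, bounded support -/
structure BddSupp (F : ℝ × ℝ → ℂ) : Prop where
  meas : Measurable F
  bdd : ∃ K : ℝ, ∀ z, ‖F z‖ ≤ K
  supp : ∃ K : ℝ, ∀ z, F z ≠ 0 → ‖z‖ ≤ K

/-- The continuous linearised form estimate with constant `C`. -/
def FormLe (C : ℝ) : Prop :=
  ∀ n : ℕ, 1 ≤ n → ∀ F G H : ℝ × ℝ → ℂ, BddSupp F → BddSupp G → BddSupp H →
    ∀ (ε R : ℝ × ℝ → Fin n → ℝ) (c : ℝ × ℝ → Fin n → ℂ),
      (∀ j, Measurable fun z => ε z j) → (∀ j, Measurable fun z => R z j) →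
      (∀ j, Measurable fun z => c z j) → (∀ z j, ‖c z j‖ ≤ 1) →
      (∃ e0 : ℝ, 0 < e0 ∧ ∀ z j, e0 ≤ ε z j) → (∃ R0 : ℝ, ∀ z j, R z j ≤ R0) →
      (∀ z i j, i ≠ j → R z i ≤ ε z j ∨ R z j ≤ ε z i) →
      ‖∫ z, H z * ∑ j, c z j * annularTriangularHT F G (ε z j) (R z j) z‖ₑ ≤
        ENNReal.ofReal (C * Real.sqrt n) * eLpNorm F 3 volume * eLpNorm G 3 volume *
          eLpNorm H 3 volume

/-- The statement of S0096. -/
def S0096Stmt : Prop :=
  ∃ C : ℝ, ∀ n : ℕ, 1 ≤ n → ∀ F G : ℝ × ℝ → ℂ,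
    MemLp F 3 volume → MemLp G 3 volume →
      (∫⁻ z, annulusCount n F G z ^ (3 / 2 : ℝ)) ^ (2 / 3 : ℝ) ≤
        ENNReal.ofReal (C * Real.sqrt n * Real.log (2 + n)) * eLpNorm F 3 volume *
          eLpNorm G 3 volume

end Crest.Agent.R72
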