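import Mathlib
import Crest.Prelude.Def_TriangularHilbert
import Crest.Agent.R72.RDefs

/-!
Row 72, reduction of `FormLe` (RDefs) to the lattice main theorem `LMT` (SDefs): definitions
(helper81).
-/

set_option autoImplicit false

namespace Crest.Agent.R72

open MeasureTheory Finset Crest.AnalysisR

/-- A multiplier `M z r` with at most `2 n` jumps in the radius, supported in `e < r < R₀`. -/
structure Mult (n : ℕ) (e R₀ : ℝ) (M : ℝ × ℝ → ℝ → ℂ) : Prop where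
  meas : Measurable (Function.uncurry M)
  bd : ∀ z r, ‖M z r‖ ≤ 1
  supp : ∀ z r, (r ≤ e ∨ R₀ ≤ r) → M z r = 0
  jumps : ∀ z (h : ℝ), 0 < h → ∀ W : ℕ,
    ((range W).filter fun r : ℕ => M z (h * ((r + 1 : ℕ) : ℝ)) ≠ M z (h * (r : ℝ))).card ≤ 2 * n
  cont : ∀ z, ∀ᵐ r : ℝ, ContinuousAt (M z) r

/-- Bounded measurable function supported in the square `[-R, R]²`. -/
structure Nice (B R : ℝ) (F : ℝ × ℝ → ℂ) : Prop where
  meas : Measurable F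
  bd : ∀ z, ‖F z‖ ≤ B
  supp : ∀ z : ℝ × ℝ, R < |z.1| ∨ R < |z.2| → F z = 0

/-- The `L³` norm as a real number. -/
noncomputable def nL3 (F : ℝ × ℝ → ℂ) : ℝ := (∫ z, ‖F z‖ ^ 3) ^ (1 / 3 : ℝ)

/-- The operator with multiplier `M`. -/
noncomputable def TM (M : ℝ × ℝ → ℝ → ℂ) (F G : ℝ × ℝ → ℂ) (z : ℝ × ℝ) : ℂ :=
  ∫ t : ℝ, F (z.1 + t, z.2) * G (z.1, z.2 + t) * (M z |t| / (t : ℂ))

/-- Bound of the trilinear form (from `LMT`). -/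
def FormLeM : Prop :=
  ∃ C : ℝ, 0 ≤ C ∧ ∀ (n : ℕ), 1 ≤ n → ∀ (F G H : ℝ × ℝ → ℂ) (B R e R₀ : ℝ)
    (M : ℝ × ℝ → ℝ → ℂ), Nice B R F → Nice B R G → Nice B R H → 0 < e → Mult n e R₀ M →
    ‖∫ z, H z * TM M F G z‖ ≤ C * Real.sqrt n * nL3 F * nL3 G * nL3 H

/-- The sampled kernel with mesh `h`. -/
noncomputable def Kh (M : ℝ × ℝ → ℝ → ℂ) (h : ℝ) (z : ℝ × ℝ) (t : ℝ) : ℂ :=
  M z (h * |(⌊t / h⌋ : ℝ)|) / ((h * (⌊t / h⌋ : ℝ) : ℝ) : ℂ)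

/-- The trilinear form over the box `[-L, L)³` with kernel `K`. -/
noncomputable def formH (F G H : ℝ × ℝ → ℂ) (K : ℝ × ℝ → ℝ → ℂ) (L : ℕ) : ℂ :=
  ∫ x in Set.Ico (-(L : ℝ)) L, ∫ y in Set.Ico (-(L : ℝ)) L, ∫ t in Set.Ico (-(L : ℝ)) L,
    H (x, y) * F (x + t, y) * G (x, y + t) * K (x, y) t

end Crest.Agent.R72
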