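import Mathlib
import Crest.Prelude.Def_TriangularHilbert
import Crest.Agent.R72.RB0

/-!
Row 72, reduction: multipliers from disjoint annuli (helper81).
-/

set_option autoImplicit false

namespace Crest.Agent.R72

open MeasureTheory Finset Crest.AnalysisR

/-- The multiplier of a family of annuli. -/
noncomputable def annMult {m : ℕ} (c : ℝ × ℝ → Fin m → ℂ) (ε R : ℝ × ℝ → Fin m → ℝ) (z : ℝ × ℝ)
    (r : ℝ) : ℂ :=
  ∑ j, if ε z j < r ∧ r < R z j then c z j else 0

theorem mult_annuli (n : ℕ) (c : ℝ × ℝ → Fin n → ℂ)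
    (ε R : ℝ × ℝ → Fin n → ℝ) (hεm : ∀ j, Measurable fun z => ε z j)
    (hRm : ∀ j, Measurable fun z => R z j) (hc : ∀ j, Measurable fun z => c z j)
    (hc1 : ∀ z j, ‖c z j‖ ≤ 1) (e R₀ : ℝ) (he : ∀ z j, e ≤ ε z j)
    (hR₀ : ∀ z j, R z j ≤ R₀) (hd : ∀ z i j, i ≠ j → R z i ≤ ε z j ∨ R z j ≤ ε z i) :
    Mult n e R₀ (annMult c ε R) := by
  have huniq : ∀ (z : ℝ × ℝ) (r : ℝ) (i j : Fin n), (ε z i < r ∧ r < R z i) →
      (ε z j < r ∧ r < R z j) → i = j := by
    intro z r i j hi hj
    by_contra hne
    rcases hd z i j hne with h | h <;> linarith [hi.1, hi.2, hj.1, hj.2]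
  refine ⟨?_, ?_, ?_, ?_, ?_⟩
  · unfold annMult Function.uncurry
    refine Finset.measurable_fun_sum _ fun j _ => ?_
    refine Measurable.ite ?_ ((hc j).comp measurable_fst) measurable_const
    exact (measurableSet_lt ((hεm j).comp measurable_fst) measurable_snd).inter
      (measurableSet_lt measurable_snd ((hRm j).comp measurable_fst))
  · intro z r
    unfold annMult
    by_cases h : ∃ j, ε z j < r ∧ r < R z j
    · obtain ⟨j, hj⟩ := h
      rw [Finset.sum_eq_single j]
      · rw [if_pos hj]; exact hc1 z j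
      · intro i _ hij
        rw [if_neg]
        intro hi
        exact hij (huniq z r i j hi hj)
      · intro h; exact absurd (Finset.mem_univ _) h
    · push Not at h
      rw [Finset.sum_eq_zero]
      · simp
      · intro j _
        rw [if_neg]
        rintro ⟨h1, h2⟩
        exact absurd h2 (not_lt.mpr (h j h1))
  · intro z r hr
    unfold annMult
    refine Finset.sum_eq_zero fun j _ => if_neg ?_
    rintro ⟨h1, h2⟩
    rcases hr with hr | hr
    · linarith [he z j]
    · linarith [hR₀ z j]
  · intro z h hh W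
    have hsub : ((range W).filter fun r : ℕ => annMult c ε R z (h * ((r + 1 : ℕ) : ℝ)) ≠
        annMult c ε R z (h * (r : ℝ))) ⊆
        (Finset.univ : Finset (Fin n)).biUnion fun j => {⌊ε z j / h⌋₊, ⌈R z j / h⌉₊ - 1} := by
      intro r hr
      rw [Finset.mem_filter] at hr
      obtain ⟨-, hr⟩ := hr
      simp only [Finset.mem_biUnion, Finset.mem_univ, true_and, Finset.mem_insert,
        Finset.mem_singleton]
      by_contra hcon
      push Not at hcon
      apply hr
      unfold annMult
      refine Finset.sum_congr rfl fun j _ => ?_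
      obtain ⟨h1, h2⟩ := hcon j
      have hr1 : h * (r : ℝ) < h * ((r + 1 : ℕ) : ℝ) := by
        push_cast; nlinarith
      have hiff : (ε z j < h * ((r + 1 : ℕ) : ℝ) ∧ h * ((r + 1 : ℕ) : ℝ) < R z j) ↔
          (ε z j < h * (r : ℝ) ∧ h * (r : ℝ) < R z j) := by
        constructor
        · rintro ⟨a, b⟩
          refine ⟨?_, by linarith⟩
          by_contra hle
          push Not at hle
          apply h1
          symm
          rw [Nat.floor_eq_iff (by
            have : 0 ≤ h * (r : ℝ) := by positivity
            exact div_nonneg (this.trans hle) hh.le)]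
          rw [le_div_iff₀ hh, div_lt_iff₀ hh]
          constructor
          · linarith
          · push_cast at a; linarith
        · rintro ⟨a, b⟩
          refine ⟨by linarith, ?_⟩
          by_contra hle
          push Not at hle
          apply h2
          have hc2 : ⌈R z j / h⌉₊ = r + 1 := by
            rw [Nat.ceil_eq_iff (by omega)]
            simp only [Nat.add_sub_cancel]
            rw [lt_div_iff₀ hh, div_le_iff₀ hh]
            constructor
            · linarith
            · linarith
          omega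
      by_cases hq : (ε z j < h * (r : ℝ) ∧ h * (r : ℝ) < R z j)
      · rw [if_pos hq, if_pos (hiff.mpr hq)]
      · rw [if_neg hq, if_neg (fun h' => hq (hiff.mp h'))]
    refine (Finset.card_le_card hsub).trans ?_
    refine (Finset.card_biUnion_le).trans ?_
    calc ∑ j : Fin n, ({⌊ε z j / h⌋₊, ⌈R z j / h⌉₊ - 1} : Finset ℕ).card
        ≤ ∑ j : Fin n, 2 := Finset.sum_le_sum fun j _ => Finset.card_le_two
      _ = 2 * n := by simp [mul_comm]
  · intro z
    have hae : ∀ᵐ r : ℝ, ∀ j, r ≠ ε z j ∧ r ≠ R z j := by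
      rw [ae_all_iff]
      intro j
      filter_upwards [compl_mem_ae_iff.mpr (measure_singleton (ε z j)),
        compl_mem_ae_iff.mpr (measure_singleton (R z j))] with r h1 h2
      exact ⟨h1, h2⟩
    filter_upwards [hae] with r hr
    unfold annMult
    refine tendsto_finsetSum _ fun j _ => ?_
    obtain ⟨h1, h2⟩ := hr j
    by_cases hq : ε z j < r ∧ r < R z j
    · have : ∀ᶠ x in nhds r, (ε z j < x ∧ x < R z j) := (isOpen_Ioo (a := ε z j) (b := R z j)).mem_nhds hq
      refine Filter.Tendsto.congr' ?_ (tendsto_const_nhds (x := c z j))  |>.trans ?_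
      · filter_upwards [this] with x hx
        rw [if_pos hx]
      · rw [if_pos hq]
    · have : ∀ᶠ x in nhds r, ¬(ε z j < x ∧ x < R z j) := by
        have hq' : r < ε z j ∨ R z j < r := by
          by_contra hcon
          push Not at hcon
          exact hq ⟨lt_of_le_of_ne hcon.1 (Ne.symm h1), lt_of_le_of_ne hcon.2 h2⟩
        rcases hq' with hq' | hq'
        · filter_upwards [(isOpen_Iio (a := ε z j)).mem_nhds hq'] with x hx h
          exact absurd h.1 (not_lt.mpr (le_of_lt hx))
        · filter_upwards [(isOpen_Ioi (a := R z j)).mem_nhds hq'] with x hx h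
          exact absurd h.2 (not_lt.mpr (le_of_lt hx))
      refine Filter.Tendsto.congr' ?_ (tendsto_const_nhds (x := (0:ℂ)))  |>.trans ?_
      · filter_upwards [this] with x hx
        rw [if_neg hx]
      · rw [if_neg hq]

/-- measurable selection of a multiplier from a finite family -/
theorem Mult.sel {n : ℕ} {e R₀ : ℝ} {q : ℕ} {M : Fin q → ℝ × ℝ → ℝ → ℂ}
    (hM : ∀ i, Mult n e R₀ (M i)) (s : ℝ × ℝ → Fin q) (hs : Measurable s) :
    Mult n e R₀ (fun z r => M (s z) z r) := by
  refine ⟨?_, fun z r => (hM _).bd z r, fun z r h => (hM _).supp z r h,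
    fun z h hh W => (hM _).jumps z h hh W, fun z => (hM _).cont z⟩
  have h1 : Measurable (fun p : Fin q × ((ℝ × ℝ) × ℝ) => M p.1 p.2.1 p.2.2) := by
    refine measurable_from_prod_countable_right fun i => ?_
    exact (hM i).meas
  exact h1.comp ((hs.comp measurable_fst).prodMk measurable_id)

theorem TM_annMult {m : ℕ} (c : ℝ × ℝ → Fin m → ℂ) (ε R : ℝ × ℝ → Fin m → ℝ)
    (hε : ∀ z j, 0 < ε z j)
    (F G : ℝ × ℝ → ℂ) (B K : ℝ) (hF : Nice B K F) (hG : Nice B K G) (z : ℝ × ℝ) :
    TM (annMult c ε R) F G z = ∑ j, c z j * annularTriangularHT F G (ε z j) (R z j) z := by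
  have habs : Measurable fun t : ℝ => |t| := by fun_prop
  have hmA : ∀ j, MeasurableSet {t : ℝ | ε z j < |t| ∧ |t| < R z j} := fun j =>
    (measurableSet_lt (measurable_const (a := ε z j)) habs).inter
      (measurableSet_lt habs (measurable_const (a := R z j)))
  have hmF := hF.meas
  have hmG := hG.meas
  have hint : ∀ j, IntegrableOn (fun t : ℝ => F (z.1 + t, z.2) * G (z.1, z.2 + t) / (t : ℂ))
      {t : ℝ | ε z j < |t| ∧ |t| < R z j} := by
    intro j
    have hm1 : Measurable (fun t : ℝ => F (z.1 + t, z.2) * G (z.1, z.2 + t)) := by fun_prop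
    refine Measure.integrableOn_of_bounded (M := B * B / ε z j) ?_
      (hm1.div Complex.measurable_ofReal).aestronglyMeasurable ?_
    · refine ne_of_lt (lt_of_le_of_lt (measure_mono ?_)
        (measure_Icc_lt_top (a := -R z j) (b := R z j)))
      intro t ht
      exact ⟨by linarith [neg_abs_le t, ht.2], by linarith [le_abs_self t, ht.2]⟩
    · filter_upwards [ae_restrict_mem (hmA j)] with t ht
      rw [norm_div, norm_mul, Complex.norm_real, Real.norm_eq_abs]
      have hB : 0 ≤ B := (norm_nonneg _).trans (hF.bd z)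
      exact div_le_div₀ (by positivity) (mul_le_mul (hF.bd _) (hG.bd _) (norm_nonneg _) hB)
        (hε z j) ht.1.le
  unfold TM annularTriangularHT annMult
  have e1 : ∀ t : ℝ, F (z.1 + t, z.2) * G (z.1, z.2 + t) *
      ((∑ j, if ε z j < |t| ∧ |t| < R z j then c z j else 0) / (t : ℂ)) =
      ∑ j, c z j * ({t : ℝ | ε z j < |t| ∧ |t| < R z j}.indicator
        (fun t : ℝ => F (z.1 + t, z.2) * G (z.1, z.2 + t) / (t : ℂ)) t) := by
    intro t
    rw [Finset.sum_div, Finset.mul_sum]
    refine Finset.sum_congr rfl fun j _ => ?_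
    by_cases h : ε z j < |t| ∧ |t| < R z j
    · rw [if_pos h, Set.indicator_of_mem (by exact h)]; ring
    · rw [if_neg h, Set.indicator_of_notMem (by exact h)]; ring
  simp_rw [e1]
  rw [integral_finsetSum]
  · refine Finset.sum_congr rfl fun j _ => ?_
    rw [integral_const_mul, integral_indicator (hmA j)]
  · intro j _
    exact ((hint j).integrable_indicator (hmA j)).const_mul _

/-- `TM` only depends on the multiplier at the point. -/
theorem TM_congr (M M' : ℝ × ℝ → ℝ → ℂ) (F G : ℝ × ℝ → ℂ) (z : ℝ × ℝ)
    (h : ∀ r, M z r = M' z r) : TM M F G z = TM M' F G z := by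
  unfold TM; simp only [h]

end Crest.Agent.R72
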