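import Mathlib
import Crest.Agent.R72.RB0
import Crest.Agent.R72.RM
import Crest.Agent.R72.SDefs

/-!
Row 72, reduction: `FormLe` from `FormLeM` (eLpNorm conversions).
-/

set_option autoImplicit false

namespace Crest.Agent.R72

open MeasureTheory Finset Crest.AnalysisR
open scoped ENNReal

theorem Nice.memLp {F : ℝ × ℝ → ℂ} {B R : ℝ} (hF : Nice B R F) (p : ℝ≥0∞) :
    MemLp F p volume := by
  have hS : MeasurableSet (Set.Icc (-R) R ×ˢ Set.Icc (-R) R) := measurableSet_Icc.prod measurableSet_Icc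
  have h1 : F = (Set.Icc (-R) R ×ˢ Set.Icc (-R) R).indicator F := by
    funext z
    by_cases hz : z ∈ Set.Icc (-R) R ×ˢ Set.Icc (-R) R
    · rw [Set.indicator_of_mem hz]
    · rw [Set.indicator_of_notMem hz]
      refine hF.supp z ?_
      by_contra hcon
      push Not at hcon
      exact hz ⟨abs_le.1 hcon.1, abs_le.1 hcon.2⟩
  rw [h1, memLp_indicator_iff_restrict hS]
  have hfin : IsFiniteMeasure ((volume : Measure (ℝ × ℝ)).restrict (Set.Icc (-R) R ×ˢ Set.Icc (-R) R)) := by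
    refine ⟨?_⟩
    rw [Measure.restrict_apply_univ, Measure.volume_eq_prod, Measure.prod_prod]
    exact ENNReal.mul_lt_top measure_Icc_lt_top measure_Icc_lt_top
  exact MemLp.of_bound hF.meas.aestronglyMeasurable B (Filter.Eventually.of_forall hF.bd)

/-- `eLpNorm F 3 = ofReal (nL3 F)` for bounded measurable functions of bounded support -/
theorem eLpNorm_three_eq {F : ℝ × ℝ → ℂ} {B R : ℝ} (hF : Nice B R F) :
    eLpNorm F 3 volume = ENNReal.ofReal (nL3 F) := by
  rw [(hF.memLp 3).eLpNorm_eq_integral_rpow_norm (by norm_num) (by norm_num), nL3]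
  norm_num

theorem Nice.of_bddSupp {F : ℝ × ℝ → ℂ} (hF : BddSupp F) : ∃ B R : ℝ, 0 ≤ B ∧ 0 ≤ R ∧
    ∀ B' R', B ≤ B' → R ≤ R' → Nice B' R' F := by
  obtain ⟨K, hK⟩ := hF.bdd
  obtain ⟨K', hK'⟩ := hF.supp
  refine ⟨|K|, |K'|, abs_nonneg _, abs_nonneg _, fun B' R' hB hR => ⟨hF.meas, ?_, ?_⟩⟩
  · intro z
    exact (hK z).trans ((le_abs_self K).trans hB)
  · intro z hz
    by_contra hne
    have h1 := hK' z hne
    have h2 : |z.1| ≤ ‖z‖ := by
      have := norm_fst_le z
      rwa [Real.norm_eq_abs] at this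
    have h3 : |z.2| ≤ ‖z‖ := by
      have := norm_snd_le z
      rwa [Real.norm_eq_abs] at this
    have h4 := le_abs_self K'
    rcases hz with h | h <;> linarith

/-- uses `mult_annuli`, `TM_annMult` (RM.lean) -/
theorem formLe_of_formLeM (h : FormLeM) : ∃ C, 0 ≤ C ∧ FormLe C := by
  obtain ⟨C, hC0, hC⟩ := h
  refine ⟨C, hC0, ?_⟩
  intro n hn F G H hF hG hH ε R c hε hR hc hc1 he hR0 hd
  obtain ⟨e0, he0, he⟩ := he
  obtain ⟨R0, hR0⟩ := hR0
  obtain ⟨B1, K1, hB1, hK1, hN1⟩ := Nice.of_bddSupp hF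
  obtain ⟨B2, K2, hB2, hK2, hN2⟩ := Nice.of_bddSupp hG
  obtain ⟨B3, K3, hB3, hK3, hN3⟩ := Nice.of_bddSupp hH
  have nF := hN1 (B1 + B2 + B3) (K1 + K2 + K3) (by linarith) (by linarith)
  have nG := hN2 (B1 + B2 + B3) (K1 + K2 + K3) (by linarith) (by linarith)
  have nH := hN3 (B1 + B2 + B3) (K1 + K2 + K3) (by linarith) (by linarith)
  have key := hC n hn F G H (B1 + B2 + B3) (K1 + K2 + K3) e0 R0 (annMult c ε R) nF nG nH he0
    (mult_annuli n c ε R hε hR hc hc1 e0 R0 he hR0 hd)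
  have e1 : (∫ z, H z * ∑ j, c z j * annularTriangularHT F G (ε z j) (R z j) z) =
      ∫ z, H z * TM (annMult c ε R) F G z := by
    refine integral_congr_ae (Filter.Eventually.of_forall fun z => ?_)
    simp only
    rw [TM_annMult c ε R (fun z j => he0.trans_le (he z j)) F G _ _ nF nG z]
  rw [e1, ← ofReal_norm, eLpNorm_three_eq nF, eLpNorm_three_eq nG, eLpNorm_three_eq nH]
  have hn1 : 0 ≤ nL3 F := Real.rpow_nonneg (integral_nonneg fun z => by positivity) _
  have hn2 : 0 ≤ nL3 G := Real.rpow_nonneg (integral_nonneg fun z => by positivity) _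
  have hn3 : 0 ≤ nL3 H := Real.rpow_nonneg (integral_nonneg fun z => by positivity) _
  have hn0 : 0 ≤ C * Real.sqrt n := mul_nonneg hC0 (Real.sqrt_nonneg _)
  rw [← ENNReal.ofReal_mul hn0, ← ENNReal.ofReal_mul (mul_nonneg hn0 hn1),
    ← ENNReal.ofReal_mul (mul_nonneg (mul_nonneg hn0 hn1) hn2)]
  exact ENNReal.ofReal_le_ofReal key

end Crest.Agent.R72
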