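import Crest.Agent.R72.R3B

/-!
# Row 72, R3: the linearised form estimate implies S0096
-/

set_option autoImplicit false

open MeasureTheory Crest.AnalysisR Filter Topology
open scoped ENNReal

namespace Crest.Agent.R72

lemma iSup_rpow' {ι : Sort*} (f : ι → ℝ≥0∞) {y : ℝ} (hy : 0 < y) :
    (⨆ i, f i) ^ y = ⨆ i, f i ^ y :=
  (ENNReal.orderIsoRpow y hy).map_iSup f

lemma rpow_23_le {I D : ℝ≥0∞} : I ^ (2 / 3 : ℝ) ≤ D ↔ I ≤ D ^ (3 / 2 : ℝ) := by
  constructor
  · intro h
    have h1 := ENNReal.rpow_le_rpow h (z := (3 / 2 : ℝ)) (by norm_num)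
    rw [← ENNReal.rpow_mul] at h1
    norm_num at h1
    simpa using h1
  · intro h
    have h1 := ENNReal.rpow_le_rpow h (z := (2 / 3 : ℝ)) (by norm_num)
    rw [← ENNReal.rpow_mul D] at h1
    norm_num at h1
    simpa using h1

lemma sup_bound {C : ℝ} (hC : FormLe C) {n : ℕ} (hn : 1 ≤ n) {F G : ℝ × ℝ → ℂ}
    (hF : BddSupp F) (hG : BddSupp G) :
    ∫⁻ z, (⨆ p : Fam n, Tf F G p z) ^ (3 / 2 : ℝ) ≤
      (ENNReal.ofReal (C * Real.sqrt n) * eLpNorm F 3 volume * eLpNorm G 3 volume) ^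
        (3 / 2 : ℝ) := by
  obtain ⟨e, he⟩ := exists_surjective_nat (Fam n)
  have h1 : ∀ z, (⨆ p : Fam n, Tf F G p z) ^ (3 / 2 : ℝ) =
      ⨆ N : ℕ, (⨆ k, ⨆ (_ : k ≤ N), Tf F G (e k) z) ^ (3 / 2 : ℝ) := by
    intro z
    rw [← iSup_rpow' _ (by norm_num)]
    congr 1
    apply le_antisymm
    · refine iSup_le fun p => ?_
      obtain ⟨k, rfl⟩ := he p
      have h2 : Tf F G (e k) z ≤ ⨆ i, ⨆ (_ : i ≤ k), Tf F G (e i) z :=
        le_iSup₂_of_le (f := fun i (_ : i ≤ k) => Tf F G (e i) z) k le_rfl le_rfl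
      exact h2.trans (le_iSup (fun N : ℕ => ⨆ i, ⨆ (_ : i ≤ N), Tf F G (e i) z) k)
    · exact iSup_le fun N => iSup₂_le fun k _ => le_iSup (fun p : Fam n => Tf F G p z) (e k)
  simp_rw [h1]
  rw [lintegral_iSup]
  · exact iSup_le fun N => rpow_23_le.1 (fin_bound hC hn hF hG e N)
  · intro N
    apply Measurable.pow_const
    exact Measurable.iSup fun k => Measurable.iSup fun _ => Tf_measurable hF.meas hG.meas (e k)
  · intro N M hNM z
    refine ENNReal.rpow_le_rpow ?_ (by norm_num)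
    exact iSup₂_le fun k hk => le_iSup₂_of_le k (hk.trans hNM) le_rfl

/-- Fatou -/
lemma sup_bound_L3 {C : ℝ} (hC : FormLe C) {n : ℕ} (hn : 1 ≤ n) {F G : ℝ × ℝ → ℂ}
    (hF : Measurable F) (hG : Measurable G) (hF3 : MemLp F 3 volume) (hG3 : MemLp G 3 volume) :
    ∫⁻ z, (⨆ p : Fam n, Tf F G p z) ^ (3 / 2 : ℝ) ≤
      (ENNReal.ofReal (C * Real.sqrt n) * eLpNorm F 3 volume * eLpNorm G 3 volume) ^
        (3 / 2 : ℝ) := by
  have h1 : ∀ᵐ z : ℝ × ℝ, (⨆ p : Fam n, Tf F G p z) ^ (3 / 2 : ℝ) ≤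
      liminf (fun j => (⨆ p : Fam n, Tf (trn j F) (trn j G) p z) ^ (3 / 2 : ℝ)) atTop := by
    filter_upwards [ae_integrable hF hG hF3 hG3] with z hz
    rw [iSup_rpow' _ (by norm_num)]
    refine iSup_le fun p => ?_
    have h2 : Tendsto (fun j => Tf (trn j F) (trn j G) p z ^ (3 / 2 : ℝ)) atTop
        (𝓝 (Tf F G p z ^ (3 / 2 : ℝ))) := by
      refine (ENNReal.continuous_rpow_const.tendsto _).comp ?_
      unfold Tf
      refine tendsto_finsetSum _ fun i _ => ?_
      exact (continuous_enorm.tendsto _).comp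
        (tendsto_B hF hG hz (by exact_mod_cast p.2.1 i))
    rw [← h2.liminf_eq]
    refine liminf_le_liminf (Eventually.of_forall fun j => ?_)
    exact ENNReal.rpow_le_rpow (le_iSup (fun p : Fam n => Tf (trn j F) (trn j G) p z) p)
      (by norm_num)
  refine (lintegral_mono_ae h1).trans ?_
  refine (lintegral_liminf_le fun j => ?_).trans ?_
  · apply Measurable.pow_const
    exact Measurable.iSup fun p => Tf_measurable (trn_measurable j hF) (trn_measurable j hG) p
  · refine liminf_le_of_le (by isBoundedDefault) fun b hb => ?_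
    obtain ⟨j, hj⟩ := hb.exists
    refine hj.trans ((sup_bound hC hn (trn_bddSupp j hF) (trn_bddSupp j hG)).trans ?_)
    refine ENNReal.rpow_le_rpow ?_ (by norm_num)
    gcongr
    · exact eLpNorm_trn_le j F
    · exact eLpNorm_trn_le j G

/-- the count is bounded by the supremum over families (padding) -/
lemma count_le (n : ℕ) (F G : ℝ × ℝ → ℂ) (z : ℝ × ℝ) :
    annulusCount n F G z ≤ ⨆ p : Fam n, Tf F G p z := by
  unfold annulusCount
  refine iSup_le fun m => iSup_le fun hm => iSup_le fun ε => iSup_le fun R => iSup_le fun h1 =>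
    iSup_le fun h2 => ?_
  set M : ℚ := 1 + ∑ j, |R j| with hM
  have hM0 : 0 < M := by
    have : 0 ≤ ∑ j, |R j| := Finset.sum_nonneg fun j _ => abs_nonneg _
    linarith
  have hRM : ∀ j, R j ≤ M := by
    intro j
    have h3 : |R j| ≤ ∑ j, |R j| :=
      Finset.single_le_sum (f := fun j => |R j|) (fun j _ => abs_nonneg _) (Finset.mem_univ j)
    linarith [le_abs_self (R j)]
  let ε' : Fin n → ℚ := fun j => if h : (j : ℕ) < m then ε ⟨j, h⟩ else M
  let R' : Fin n → ℚ := fun j => if h : (j : ℕ) < m then R ⟨j, h⟩ else M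
  have hp : (∀ j, 0 < ε' j) ∧ ∀ i j, i ≠ j → R' i ≤ ε' j ∨ R' j ≤ ε' i := by
    refine ⟨fun j => ?_, fun i j hij => ?_⟩
    · dsimp only [ε']
      split_ifs with h
      · exact (h1 _).1
      · exact hM0
    · dsimp only [ε', R']
      by_cases hi : (i : ℕ) < m
      · by_cases hj : (j : ℕ) < m
        · rw [dif_pos hi, dif_pos hj, dif_pos hi, dif_pos hj]
          apply h2
          intro h3
          apply hij
          rw [Fin.mk.injEq] at h3
          exact Fin.ext h3
        · left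
          rw [dif_pos hi, dif_neg hj]
          exact hRM _
      · by_cases hj : (j : ℕ) < m
        · right
          rw [dif_pos hj, dif_neg hi]
          exact hRM _
        · left
          rw [dif_neg hi, dif_neg hj]
  refine le_trans ?_ (le_iSup (fun p : Fam n => Tf F G p z) ⟨(ε', R'), hp⟩)
  unfold Tf
  have h4 : ∀ j : Fin m, ‖annularTriangularHT F G (ε j : ℝ) (R j : ℝ) z‖ₑ =
      (fun i : Fin n => ‖annularTriangularHT F G (ε' i : ℝ) (R' i : ℝ) z‖ₑ) (Fin.castLE hm j) := by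
    intro j
    dsimp only [ε', R']
    have h5 : ((Fin.castLE hm j : Fin n) : ℕ) < m := by simp
    rw [dif_pos h5, dif_pos h5]
    rfl
  rw [Finset.sum_congr rfl fun j _ => h4 j,
    ← Finset.sum_image (s := (Finset.univ : Finset (Fin m))) (g := Fin.castLE hm)
      (f := fun i : Fin n => ‖annularTriangularHT F G (ε' i : ℝ) (R' i : ℝ) z‖ₑ)
      (fun a _ b _ hab => Fin.castLE_injective hm hab)]
  exact Finset.sum_le_sum_of_subset (Finset.subset_univ _)

theorem s0096_of_formLe {C : ℝ} (hC : FormLe C) : S0096Stmt := by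
  refine ⟨max C 0, fun n hn F G hF3 hG3 => ?_⟩
  have hFm := hF3.1.stronglyMeasurable_mk.measurable
  have hGm := hG3.1.stronglyMeasurable_mk.measurable
  have hFe := hF3.1.ae_eq_mk
  have hGe := hG3.1.ae_eq_mk
  have hF3' : MemLp (hF3.1.mk F) 3 volume := hF3.ae_eq hFe
  have hG3' : MemLp (hG3.1.mk G) 3 volume := hG3.ae_eq hGe
  have h1 := sup_bound_L3 hC hn hFm hGm hF3' hG3'
  rw [← eLpNorm_congr_ae hFe, ← eLpNorm_congr_ae hGe] at h1
  rw [rpow_23_le]
  refine le_trans ?_ (h1.trans ?_)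
  · apply lintegral_mono_ae
    filter_upwards [ae_congr_B hFe hGe] with z hz
    refine ENNReal.rpow_le_rpow ((count_le n F G z).trans (iSup_mono fun p => ?_)) (by norm_num)
    unfold Tf
    refine (Finset.sum_congr rfl fun j _ => ?_).le
    rw [hz]
  · refine ENNReal.rpow_le_rpow ?_ (by norm_num)
    gcongr ?_ * _ * _
    apply ENNReal.ofReal_le_ofReal
    have hlog : 1 ≤ Real.log (2 + n) := by
      rw [Real.le_log_iff_exp_le (by positivity)]
      have h2 : Real.exp 1 < 3 := Real.exp_one_lt_d9.trans (by norm_num)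
      have h3 : (1 : ℝ) ≤ n := by exact_mod_cast hn
      linarith
    have h4 : C * Real.sqrt n ≤ max C 0 * Real.sqrt n :=
      mul_le_mul_of_nonneg_right (le_max_left _ _) (Real.sqrt_nonneg _)
    have h5 : 0 ≤ max C 0 * Real.sqrt n := mul_nonneg (le_max_right _ _) (Real.sqrt_nonneg _)
    nlinarith

end Crest.Agent.R72
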