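import Mathlib
import Crest.Agent.R72.DDefs
import Crest.Agent.R72.D2

/-!
Row 72, reduction S0096 <= LMT: sampling of triple integrals, complex valued version.
-/

set_option autoImplicit false

namespace Crest.Agent.R72

open MeasureTheory Finset

theorem integrableC_of_bdd {α : Type*} [MeasurableSpace α] {μ : Measure α} [IsFiniteMeasure μ]
    {g : α → ℂ} (hg : Measurable g) (M : ℝ) (hM : ∀ x, ‖g x‖ ≤ M) : Integrable g μ := by
  refine Integrable.of_bound hg.aestronglyMeasurable M (Filter.Eventually.of_forall fun x => ?_)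
  exact hM x

theorem cells_integralC (δ : ℝ) (hδ : 0 < δ) (A : ℝ) (m : ℕ) (g : ℝ → ℂ) (hg : Measurable g)
    (M : ℝ) (hM : ∀ x, ‖g x‖ ≤ M) :
    ∫ x in Set.Ico (δ * A) (δ * (A + m)), g x =
      δ * ∫ s, ∑ i ∈ range m, g (δ * ((A + i) + s)) ∂mu01 := by
  have hint : ∀ a b : ℝ, IntervalIntegrable g volume a b := by
    intro a b
    rw [intervalIntegrable_iff]
    refine Measure.integrableOn_of_bounded (M := M) ?_ hg.aestronglyMeasurable
      (Filter.Eventually.of_forall fun x => ?_)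
    · simp [Set.uIoc]
    · exact hM x
  have h1 : ∫ x in Set.Ico (δ * A) (δ * (A + m)), g x = ∫ x in (δ * A)..(δ * (A + m)), g x := by
    rw [integral_Ico_eq_integral_Ioc, intervalIntegral.integral_of_le]
    have : (0:ℝ) ≤ m := Nat.cast_nonneg m
    nlinarith
  have h2 := intervalIntegral.sum_integral_adjacent_intervals (μ := volume) (f := g)
    (a := fun i : ℕ => δ * (A + i)) (n := m) (fun k _ => hint _ _)
  simp only [Nat.cast_zero, add_zero] at h2
  rw [h1, ← h2, integral_finsetSum, Finset.mul_sum]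
  · refine Finset.sum_congr rfl fun i _ => ?_
    have h3 := intervalIntegral.smul_integral_comp_mul_add (a := 0) (b := 1) g δ (δ * (A + i))
    rw [mu01, integral_Ico_eq_integral_Ioc,
      ← intervalIntegral.integral_of_le (zero_le_one' ℝ)]
    simp only [Complex.real_smul] at h3
    have e1 : (fun s : ℝ => g (δ * (A + i + s))) = fun s => g (δ * s + δ * (A + i)) := by
      funext s; congr 1; ring
    rw [e1, h3]
    congr 1
    · ring
    · push_cast; ring
  · intro i _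
    exact integrableC_of_bdd (by fun_prop) M (fun x => hM _)

theorem norm_setIntegral_le_bdd {α : Type*} [MeasurableSpace α] {μ : Measure α} [IsFiniteMeasure μ]
    {g : α → ℂ} (M : ℝ) (hM : ∀ x, ‖g x‖ ≤ M) : ‖∫ x, g x ∂μ‖ ≤ M * μ.real Set.univ := by
  have := norm_integral_le_of_norm_le_const (μ := μ) (f := g) (C := M)
    (Filter.Eventually.of_forall fun x => hM x)
  exact this

theorem triple_cellsC (δ : ℝ) (hδ : 0 < δ) (A₀ A₁ A₂ : ℝ) (m : ℕ) (G : ℝ × ℝ × ℝ → ℂ)
    (hG : Measurable G) (M : ℝ) (hM : ∀ x, ‖G x‖ ≤ M) :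
    ∫ x₀ in Set.Ico (δ * A₀) (δ * (A₀ + m)), ∫ x₁ in Set.Ico (δ * A₁) (δ * (A₁ + m)),
      ∫ x₂ in Set.Ico (δ * A₂) (δ * (A₂ + m)), G (x₀, x₁, x₂) =
      δ ^ 3 * ∫ t : ℝ × ℝ × ℝ, ∑ i ∈ range m, ∑ j ∈ range m, ∑ l ∈ range m,
        G (δ * ((A₀ + i) + t.1), δ * ((A₁ + j) + t.2.1), δ * ((A₂ + l) + t.2.2))
        ∂(mu01.prod (mu01.prod mu01)) := by
  have hM0 : 0 ≤ M := (norm_nonneg _).trans (hM (0, 0, 0))
  set J₂ : Set ℝ := Set.Ico (δ * A₂) (δ * (A₂ + m)) with hJ₂
  set J₁ : Set ℝ := Set.Ico (δ * A₁) (δ * (A₁ + m)) with hJ₁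
  have : IsFiniteMeasure (volume.restrict J₂) := by
    constructor; simp [hJ₂]
  have : IsFiniteMeasure (volume.restrict J₁) := by
    constructor; simp [hJ₁]
  have hBm : Measurable fun z : ℝ × ℝ => ∫ x₂ in J₂, G (z.1, z.2, x₂) := by
    have : Measurable (Function.uncurry fun (z : ℝ × ℝ) (x₂ : ℝ) => G (z.1, z.2, x₂)) := by
      simp only [Function.uncurry_def]
      fun_prop
    exact (this.stronglyMeasurable.integral_prod_right (ν := volume.restrict J₂)).measurable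
  set V₂ : ℝ := (volume.restrict J₂).real Set.univ with hV₂
  set V₁ : ℝ := (volume.restrict J₁).real Set.univ with hV₁
  have hBb : ∀ x₀ x₁ : ℝ, ‖∫ x₂ in J₂, G (x₀, x₁, x₂)‖ ≤ M * V₂ := fun x₀ x₁ =>
    norm_setIntegral_le_bdd M fun x => hM _
  have hAm : Measurable fun x₀ : ℝ => ∫ x₁ in J₁, ∫ x₂ in J₂, G (x₀, x₁, x₂) := by
    have : Measurable (Function.uncurry fun (x₀ : ℝ) (x₁ : ℝ) => ∫ x₂ in J₂, G (x₀, x₁, x₂)) := by
      simp only [Function.uncurry_def]
      exact hBm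
    exact (this.stronglyMeasurable.integral_prod_right (ν := volume.restrict J₁)).measurable
  have hAb : ∀ x₀ : ℝ, ‖∫ x₁ in J₁, ∫ x₂ in J₂, G (x₀, x₁, x₂)‖ ≤ M * V₂ * V₁ := fun x₀ =>
    norm_setIntegral_le_bdd _ fun x => hBb x₀ x
  rw [cells_integralC δ hδ A₀ m _ hAm _ hAb]
  have hbig : ∀ t : ℝ × ℝ × ℝ, ‖∑ i ∈ range m, ∑ j ∈ range m, ∑ l ∈ range m,
        G (δ * ((A₀ + i) + t.1), δ * ((A₁ + j) + t.2.1), δ * ((A₂ + l) + t.2.2))‖ ≤
        m * (m * (m * M)) := by
    intro t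
    refine (norm_sum_le _ _).trans ?_
    refine (Finset.sum_le_card_nsmul _ _ (m * (m * M)) fun i _ => ?_).trans (by simp)
    refine (norm_sum_le _ _).trans ?_
    refine (Finset.sum_le_card_nsmul _ _ (m * M) fun i _ => ?_).trans (by simp)
    refine (norm_sum_le _ _).trans ?_
    exact (Finset.sum_le_card_nsmul _ _ (M) fun i _ => hM _).trans (by simp)
  have hbigm : Measurable fun t : ℝ × ℝ × ℝ => ∑ i ∈ range m, ∑ j ∈ range m, ∑ l ∈ range m,
        G (δ * ((A₀ + i) + t.1), δ * ((A₁ + j) + t.2.1), δ * ((A₂ + l) + t.2.2)) := by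
    fun_prop
  have hbigi := integrableC_of_bdd (μ := mu01.prod (mu01.prod mu01)) hbigm _ hbig
  rw [integral_prod _ hbigi]
  have e : (δ : ℂ) ^ 3 = (δ : ℂ) * (δ * δ) := by ring
  rw [e, mul_assoc]
  congr 1
  rw [← integral_const_mul]
  refine integral_congr_ae (Filter.Eventually.of_forall fun s₀ => ?_)
  simp only
  have hbigi2 : Integrable (fun t : ℝ × ℝ => ∑ i ∈ range m, ∑ j ∈ range m, ∑ l ∈ range m,
        G (δ * ((A₀ + i) + s₀), δ * ((A₁ + j) + t.1), δ * ((A₂ + l) + t.2)))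
        (mu01.prod mu01) := by
    refine integrableC_of_bdd (by fun_prop) (m * (m * (m * M))) fun t => ?_
    exact hbig (s₀, t)
  rw [integral_prod _ hbigi2, mul_assoc]
  have hI : ∀ i : ℕ, ∫ x₁ in J₁, ∫ x₂ in J₂, G (δ * ((A₀ + i) + s₀), x₁, x₂) =
      δ * (δ * ∫ s₁, ∫ s₂, ∑ j ∈ range m, ∑ l ∈ range m,
        G (δ * ((A₀ + i) + s₀), δ * ((A₁ + j) + s₁), δ * ((A₂ + l) + s₂)) ∂mu01 ∂mu01) := by
    intro i
    rw [cells_integralC δ hδ A₁ m (fun x₁ => ∫ x₂ in J₂, G (δ * ((A₀ + i) + s₀), x₁, x₂))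
      (hBm.comp (by fun_prop : Measurable fun x₁ : ℝ => ((δ * ((A₀ + i) + s₀), x₁) : ℝ × ℝ))) _
      (fun x => hBb _ x)]
    congr 1
    rw [← integral_const_mul]
    refine integral_congr_ae (Filter.Eventually.of_forall fun s₁ => ?_)
    simp only
    rw [integral_finsetSum, Finset.mul_sum]
    · refine Finset.sum_congr rfl fun j _ => ?_
      exact cells_integralC δ hδ A₂ m (fun x₂ => G (δ * ((A₀ + i) + s₀), δ * ((A₁ + j) + s₁), x₂))
        (by fun_prop) _ (fun x => hM _)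
    · intro j _
      refine integrableC_of_bdd (by fun_prop) (m * M) fun t => ?_
      refine (norm_sum_le _ _).trans ?_
      exact (Finset.sum_le_card_nsmul _ _ (M) fun i _ => hM _).trans (by simp)
  simp_rw [hI]
  rw [← Finset.mul_sum, ← Finset.mul_sum]
  congr 2
  have hjl : ∀ (i : ℕ) (s₁ s₂ : ℝ), ‖∑ j ∈ range m, ∑ l ∈ range m,
        G (δ * ((A₀ + i) + s₀), δ * ((A₁ + j) + s₁), δ * ((A₂ + l) + s₂))‖ ≤ m * (m * M) := by
    intro i s₁ s₂
    refine (norm_sum_le _ _).trans ?_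
    refine (Finset.sum_le_card_nsmul _ _ (m * M) fun i _ => ?_).trans (by simp)
    refine (norm_sum_le _ _).trans ?_
    exact (Finset.sum_le_card_nsmul _ _ (M) fun i _ => hM _).trans (by simp)
  have hjm : ∀ i : ℕ, Measurable (fun z : ℝ × ℝ => ∑ j ∈ range m, ∑ l ∈ range m,
        G (δ * ((A₀ + i) + s₀), δ * ((A₁ + j) + z.1), δ * ((A₂ + l) + z.2))) := by
    intro i; fun_prop
  rw [← integral_finsetSum]
  · refine integral_congr_ae (Filter.Eventually.of_forall fun s₁ => ?_)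
    simp only
    rw [← integral_finsetSum]
    intro i _
    exact integrableC_of_bdd (by fun_prop) _ fun t => hjl i s₁ t
  · intro i _
    refine integrableC_of_bdd ?_ (m * (m * M) * mu01.real Set.univ) fun t => ?_
    · have : Measurable (Function.uncurry fun (s₁ : ℝ) (s₂ : ℝ) => ∑ j ∈ range m, ∑ l ∈ range m,
        G (δ * ((A₀ + i) + s₀), δ * ((A₁ + j) + s₁), δ * ((A₂ + l) + s₂))) := by
        simp only [Function.uncurry_def]
        exact hjm i
      exact (this.stronglyMeasurable.integral_prod_right (ν := mu01)).measurable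
    · exact norm_setIntegral_le_bdd _ fun x => hjl i t x


end Crest.Agent.R72
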