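import Mathlib
import Crest.Agent.R72.SDefs

/-!
Row 72, reduction: the lattice main theorem on `ℤ` from the one on `ZMod N` (helper81).
-/

set_option autoImplicit false

namespace Crest.Agent.R72

open Finset

/-- The box `[-Q, Q)`. -/
noncomputable def bx (Q : ℕ) : Finset ℤ := Finset.Ico (-(Q : ℤ)) Q

/-- The lattice form over `ℤ`. -/
noncomputable def lform (Q : ℕ) (f g H : ℤ → ℤ → ℂ) (M : ℤ → ℤ → ℕ → ℂ) : ℂ :=
  ∑ a ∈ bx Q, ∑ b ∈ bx Q, ∑ m ∈ bx Q,
    H a b * f (a + m) b * g a (b + m) * (M a b m.natAbs / (m : ℂ))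

/-- cube sums over the box -/
noncomputable def cs (Q : ℕ) (f : ℤ → ℤ → ℂ) : ℝ := ∑ a ∈ bx Q, ∑ b ∈ bx Q, ‖f a b‖ ^ 3

theorem mem_bx (Q : ℕ) (a : ℤ) : a ∈ bx Q ↔ -(Q : ℤ) ≤ a ∧ a < Q := by
  unfold bx; rw [Finset.mem_Ico]

theorem vma_cast (N : ℕ) [NeZero N] (Q : ℕ) (hQ : 4 * Q < N) (a : ℤ)
    (ha : -(2 * Q : ℤ) ≤ a ∧ a ≤ 2 * Q) : ((a : ZMod N)).valMinAbs = a := by
  rw [ZMod.valMinAbs_spec]
  refine ⟨rfl, ?_, ?_⟩
  · omega
  · omega

theorem sum_vma {E : Type*} [AddCommMonoid E] (N : ℕ) [NeZero N] (Q : ℕ) (hQ : 4 * Q < N)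
    (φ : ℤ → E) (hφ : ∀ a, a ∉ bx Q → φ a = 0) :
    ∑ x : ZMod N, φ x.valMinAbs = ∑ a ∈ bx Q, φ a := by
  symm
  refine Finset.sum_of_injOn (fun a : ℤ => (a : ZMod N)) ?_ (fun _ _ => Finset.mem_coe.mpr (Finset.mem_univ _)) ?_ ?_
  · intro a ha b hb hab
    rw [Finset.mem_coe, mem_bx] at ha hb
    have h1 := vma_cast N Q hQ a ⟨by omega, by omega⟩
    have h2 := vma_cast N Q hQ b ⟨by omega, by omega⟩
    simp only at hab
    rw [← h1, ← h2, hab]
  · intro x _ hx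
    apply hφ
    intro hmem
    apply hx
    refine ⟨x.valMinAbs, Finset.mem_coe.mpr hmem, ?_⟩
    simp
  · intro a ha
    rw [mem_bx] at ha
    rw [vma_cast N Q hQ a ⟨by omega, by omega⟩]

theorem sum_bx {E : Type*} [AddCommMonoid E] (Q : ℕ) (ψ : ℤ → E) :
    ∑ m ∈ bx Q, ψ m = ∑ r ∈ range Q, (ψ (r : ℤ) + ψ (-((r : ℤ) + 1))) := by
  induction Q with
  | zero => simp [bx]
  | succ Q ih =>
    rw [Finset.sum_range_succ, ← ih]
    have h1 : bx (Q + 1) = insert (-((Q : ℤ) + 1)) (insert (Q : ℤ) (bx Q)) := by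
      ext a
      simp only [Finset.mem_insert, mem_bx]
      push_cast
      omega
    rw [h1, Finset.sum_insert, Finset.sum_insert]
    · abel
    · rw [mem_bx]; omega
    · rw [Finset.mem_insert, mem_bx]; omega

theorem sum_bx' (Q : ℕ) (ψ : ℤ → ℂ) (h0 : ψ 0 = 0) (hQ : ψ (-(Q : ℤ)) = 0) :
    ∑ m ∈ bx Q, ψ m = ∑ r ∈ Ico 1 Q, (ψ (r : ℤ) + ψ (-(r : ℤ))) := by
  rw [sum_bx]
  rcases Nat.eq_zero_or_pos Q with rfl | hpos
  · simp
  obtain ⟨P, rfl⟩ : ∃ P, Q = P + 1 := ⟨Q - 1, by omega⟩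
  rw [Finset.sum_add_distrib, Finset.sum_add_distrib, Finset.sum_range_succ', Finset.sum_range_succ
    (fun x : ℕ => ψ (-((x : ℤ) + 1)))]
  rw [Finset.sum_Ico_eq_sum_range, Finset.sum_Ico_eq_sum_range]
  have e1 : ψ (-((P : ℤ) + 1)) = 0 := by rw [← hQ]; congr 1
  simp only [Nat.add_sub_cancel, Nat.cast_zero, h0, e1, add_zero]
  congr 1
  · refine Finset.sum_congr rfl fun r _ => ?_
    congr 1; push_cast; ring
  · refine Finset.sum_congr rfl fun r _ => ?_
    congr 1; push_cast; ring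

/-- pairing with the periodised kernel -/
theorem sum_gker (N W : ℕ) [NeZero N] (μ : ℕ → ℂ) (φ : ZMod N → ℂ) :
    ∑ w : ZMod N, φ w * gker N W μ w =
      ∑ r ∈ Ico 1 W, (φ (r : ZMod N) - φ (-(r : ZMod N))) * (μ r / r) := by
  unfold gker
  simp_rw [Finset.mul_sum]
  rw [Finset.sum_comm]
  refine Finset.sum_congr rfl fun r _ => ?_
  simp_rw [mul_sub]
  rw [Finset.sum_sub_distrib, sub_mul]
  congr 1
  · simp
  · simp

theorem lmtz (hL : LMT) : ∃ C : ℝ, 0 ≤ C ∧ ∀ (n : ℕ), 1 ≤ n → ∀ (Q : ℕ) (f g H : ℤ → ℤ → ℂ)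
    (M : ℤ → ℤ → ℕ → ℂ), (∀ a b, a ∉ bx Q ∨ b ∉ bx Q → f a b = 0) →
    (∀ a b, a ∉ bx Q ∨ b ∉ bx Q → g a b = 0) →
    (∀ a b r, ‖M a b r‖ ≤ 1) → (∀ a b r, Q ≤ r → M a b r = 0) →
    (∀ a b, ((range Q).filter fun r => M a b (r + 1) ≠ M a b r).card ≤ 2 * n) →
    ‖lform Q f g H M‖ ≤ C * Real.sqrt n * cs Q f ^ (1 / 3 : ℝ) * cs Q g ^ (1 / 3 : ℝ) *
      cs Q H ^ (1 / 3 : ℝ) := by
  obtain ⟨C, hC⟩ := hL
  refine ⟨|C|, abs_nonneg _, ?_⟩
  intro n hn Q f g H M hf hg hM1 hM0 hMj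
  have : NeZero (4 * Q + 1) := ⟨by omega⟩
  set N := 4 * Q + 1 with hN
  have hQN : 4 * Q < N := by omega
  set A : Fn N := fun x0 x1 => f (-x0 - x1).valMinAbs x0.valMinAbs with hA
  set B : Fn N := fun x1 x2 => g x2.valMinAbs (-x1 - x2).valMinAbs with hB
  set H' : ℤ → ℤ → ℂ := fun a b => if a ∈ bx Q ∧ b ∈ bx Q then H a b else 0 with hH'
  set Hh : Fn N := fun x2 x0 => H' x2.valMinAbs x0.valMinAbs with hHh
  have key := hC N n Q hn A B Hh (fun x2 x0 r => M x2.valMinAbs x0.valMinAbs r)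
    (fun _ _ _ => hM1 _ _ _) (fun _ _ r hr => hM0 _ _ r hr) (fun _ _ => hMj _ _)
  have hnA : n3 A = cs Q f ^ (1 / 3 : ℝ) := by
    unfold n3 l3 cs
    congr 1
    simp only [abs_norm]
    have e1 : ∀ x0 : ZMod N, ∑ x1 : ZMod N, ‖A x0 x1‖ ^ 3 =
        ∑ a ∈ bx Q, ‖f a x0.valMinAbs‖ ^ 3 := by
      intro x0
      rw [← sum_vma N Q hQN (fun a => ‖f a x0.valMinAbs‖ ^ 3)
        (fun a ha => by rw [hf _ _ (Or.inl ha)]; simp)]
      refine Fintype.sum_equiv ((Equiv.neg (ZMod N)).trans (Equiv.addLeft (-x0))) _ _ fun x1 => ?_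
      simp only [hA, Equiv.trans_apply, Equiv.neg_apply, Equiv.coe_addLeft, sub_eq_add_neg]
    simp_rw [e1]
    rw [sum_vma N Q hQN (fun b => ∑ a ∈ bx Q, ‖f a b‖ ^ 3)
      (fun b hb => Finset.sum_eq_zero fun a _ => by rw [hf _ _ (Or.inr hb)]; simp),
      Finset.sum_comm]
  have hnB : n3 B = cs Q g ^ (1 / 3 : ℝ) := by
    unfold n3 l3 cs
    congr 1
    simp only [abs_norm]
    rw [Finset.sum_comm]
    have e1 : ∀ x2 : ZMod N, ∑ x1 : ZMod N, ‖B x1 x2‖ ^ 3 =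
        ∑ b ∈ bx Q, ‖g x2.valMinAbs b‖ ^ 3 := by
      intro x2
      rw [← sum_vma N Q hQN (fun b => ‖g x2.valMinAbs b‖ ^ 3)
        (fun a ha => by rw [hg _ _ (Or.inr ha)]; simp)]
      refine Fintype.sum_equiv ((Equiv.neg (ZMod N)).trans (Equiv.addRight (-x2))) _ _ fun x1 => ?_
      simp only [hB, Equiv.trans_apply, Equiv.neg_apply, Equiv.coe_addRight, sub_eq_add_neg]
    simp_rw [e1]
    rw [sum_vma N Q hQN (fun a => ∑ b ∈ bx Q, ‖g a b‖ ^ 3)
      (fun a ha => Finset.sum_eq_zero fun b _ => by rw [hg _ _ (Or.inl ha)]; simp)]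
  have hnH : n3 Hh = cs Q H ^ (1 / 3 : ℝ) := by
    unfold n3 l3 cs
    congr 1
    simp only [abs_norm]
    have e1 : ∀ x2 : ZMod N, ∑ x0 : ZMod N, ‖Hh x2 x0‖ ^ 3 =
        ∑ b ∈ bx Q, ‖H' x2.valMinAbs b‖ ^ 3 := by
      intro x2
      rw [← sum_vma N Q hQN (fun b => ‖H' x2.valMinAbs b‖ ^ 3)]
      intro b hb
      simp [hH', hb]
    simp_rw [e1]
    rw [sum_vma N Q hQN (fun a => ∑ b ∈ bx Q, ‖H' a b‖ ^ 3)]
    · refine Finset.sum_congr rfl fun a ha => Finset.sum_congr rfl fun b hb => ?_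
      simp [hH', ha, hb]
    · intro a ha
      refine Finset.sum_eq_zero fun b _ => ?_
      simp [hH', ha]
  have hform : ∑ x₀ : ZMod N, ∑ x₁ : ZMod N, ∑ x₂ : ZMod N,
          A x₀ x₁ * B x₁ x₂ * Hh x₂ x₀ *
            gker N Q (fun r => M x₂.valMinAbs x₀.valMinAbs r) (x₀ + x₁ + x₂) =
        - lform Q f g H M := by
    have e1 : ∀ x0 : ZMod N, ∑ x₁ : ZMod N, ∑ x₂ : ZMod N,
          A x0 x₁ * B x₁ x₂ * Hh x₂ x0 *
            gker N Q (fun r => M x₂.valMinAbs x0.valMinAbs r) (x0 + x₁ + x₂) =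
          ∑ x₂ : ZMod N, Hh x₂ x0 * ∑ w : ZMod N,
            (f (x₂ - w).valMinAbs x0.valMinAbs * g x₂.valMinAbs (x0 - w).valMinAbs) *
            gker N Q (fun r => M x₂.valMinAbs x0.valMinAbs r) w := by
      intro x0
      rw [Finset.sum_comm]
      refine Finset.sum_congr rfl fun x2 _ => ?_
      rw [Finset.mul_sum]
      refine Fintype.sum_equiv (Equiv.addLeft (x0 + x2)) _ _ fun x1 => ?_
      simp only [Equiv.coe_addLeft, hA, hB]
      have a1 : x2 - (x0 + x2 + x1) = -x0 - x1 := by ring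
      have a2 : x0 - (x0 + x2 + x1) = -x1 - x2 := by ring
      have a3 : x0 + x2 + x1 = x0 + x1 + x2 := by ring
      rw [a1, a2, a3]
      ring
    simp_rw [e1]
    rw [Finset.sum_comm]
    simp_rw [sum_gker]
    have e2 : ∀ x2 x0 : ZMod N, Hh x2 x0 * ∑ r ∈ Ico 1 Q,
        (f (x2 - (r : ZMod N)).valMinAbs x0.valMinAbs * g x2.valMinAbs (x0 - (r : ZMod N)).valMinAbs -
          f (x2 - -(r : ZMod N)).valMinAbs x0.valMinAbs *
            g x2.valMinAbs (x0 - -(r : ZMod N)).valMinAbs) *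
          (M x2.valMinAbs x0.valMinAbs r / r) =
        (fun a b => - (H' a b * ∑ m ∈ bx Q, f (a + m) b * g a (b + m) * (M a b m.natAbs / (m : ℂ))))
          x2.valMinAbs x0.valMinAbs := by
      intro x2 x0
      simp only [hHh]
      by_cases hmem : x2.valMinAbs ∈ bx Q ∧ x0.valMinAbs ∈ bx Q
      · rw [← mul_neg]
        congr 1
        rw [sum_bx', ← Finset.sum_neg_distrib]
        · refine Finset.sum_congr rfl fun r hr => ?_
          rw [Finset.mem_Ico] at hr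
          obtain ⟨ha, hb⟩ := hmem
          rw [mem_bx] at ha hb
          have c1 : (x2 - (r : ZMod N)).valMinAbs = x2.valMinAbs - r := by
            have := vma_cast N Q hQN (x2.valMinAbs - r) ⟨by omega, by omega⟩
            rw [← this]; congr 1; push_cast; simp
          have c2 : (x0 - (r : ZMod N)).valMinAbs = x0.valMinAbs - r := by
            have := vma_cast N Q hQN (x0.valMinAbs - r) ⟨by omega, by omega⟩
            rw [← this]; congr 1; push_cast; simp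
          have c3 : (x2 - -(r : ZMod N)).valMinAbs = x2.valMinAbs + r := by
            have := vma_cast N Q hQN (x2.valMinAbs + r) ⟨by omega, by omega⟩
            rw [← this]; congr 1; push_cast; simp
          have c4 : (x0 - -(r : ZMod N)).valMinAbs = x0.valMinAbs + r := by
            have := vma_cast N Q hQN (x0.valMinAbs + r) ⟨by omega, by omega⟩
            rw [← this]; congr 1; push_cast; simp
          rw [c1, c2, c3, c4]
          simp only [Int.natAbs_natCast, Int.natAbs_neg]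
          push_cast
          rw [← sub_eq_add_neg, ← sub_eq_add_neg, div_neg]
          ring
        · simp
        · simp only [Int.natAbs_neg, Int.natAbs_natCast]
          rw [hM0 _ _ Q le_rfl]; simp
      · simp [hH', hmem]
    simp_rw [e2]
    have e3 : ∀ x2 : ZMod N, ∑ x0 : ZMod N,
        (fun a b => - (H' a b * ∑ m ∈ bx Q, f (a + m) b * g a (b + m) * (M a b m.natAbs / (m : ℂ))))
          x2.valMinAbs x0.valMinAbs = ∑ b ∈ bx Q,
        - (H' x2.valMinAbs b * ∑ m ∈ bx Q, f (x2.valMinAbs + m) b * g x2.valMinAbs (b + m) *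
          (M x2.valMinAbs b m.natAbs / (m : ℂ))) := by
      intro x2
      rw [← sum_vma N Q hQN]
      intro b hb
      simp [hH', hb]
    simp_rw [e3]
    rw [sum_vma N Q hQN (fun a => ∑ b ∈ bx Q,
        - (H' a b * ∑ m ∈ bx Q, f (a + m) b * g a (b + m) * (M a b m.natAbs / (m : ℂ))))]
    · unfold lform
      rw [← Finset.sum_neg_distrib]
      refine Finset.sum_congr rfl fun a ha => ?_
      rw [← Finset.sum_neg_distrib]
      refine Finset.sum_congr rfl fun b hb => ?_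
      simp only [hH', ha, hb, and_self, if_true]
      rw [Finset.mul_sum]
      congr 1
      refine Finset.sum_congr rfl fun m _ => ?_
      ring
    · intro a ha
      refine Finset.sum_eq_zero fun b _ => ?_
      simp [hH', ha]
  rw [hform, norm_neg, hnA, hnB, hnH] at key
  refine key.trans ?_
  have hcs : ∀ u : ℤ → ℤ → ℂ, 0 ≤ cs Q u := fun u => by unfold cs; positivity
  have q1 := Real.rpow_nonneg (hcs f) (1 / 3)
  have q2 := Real.rpow_nonneg (hcs g) (1 / 3)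
  have q3 := Real.rpow_nonneg (hcs H) (1 / 3)
  have q4 := Real.sqrt_nonneg (n : ℝ)
  have := le_abs_self C
  gcongr

end Crest.Agent.R72
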