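import Mathlib
import Crest.Agent.R72.D3
import Crest.Agent.R72.RB0
import Crest.Agent.R72.RB1
import Crest.Agent.R72.RB2

/-!
Row 72, reduction: the sampled form is bounded by the lattice theorem (helper81).
-/

set_option autoImplicit false

namespace Crest.Agent.R72

open MeasureTheory Finset Filter Topology

/-! ### optimisation over scalings -/

theorem opt3 (S c X Y Z : ℝ) (hc : 0 ≤ c) (hX : 0 ≤ X) (hY : 0 ≤ Y) (hZ : 0 ≤ Z)
    (h : ∀ α β γ : ℝ, 0 < α → 0 < β → 0 < γ → α * β * γ = 1 →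
      S ≤ c / 3 * (α * X + β * Y + γ * Z)) :
    S ≤ c * X ^ (1 / 3 : ℝ) * Y ^ (1 / 3 : ℝ) * Z ^ (1 / 3 : ℝ) := by
  have hcube : ∀ x : ℝ, 0 ≤ x → (x ^ (1 / 3 : ℝ)) ^ 3 = x := by
    intro x hx
    rw [← Real.rpow_natCast, ← Real.rpow_mul hx]
    norm_num
  have hpos : ∀ δ : ℝ, 0 < δ →
      S ≤ c * (X + δ) ^ (1 / 3 : ℝ) * (Y + δ) ^ (1 / 3 : ℝ) * (Z + δ) ^ (1 / 3 : ℝ) := by
    intro δ hδ
    have hX' : 0 < X + δ := by linarith
    have hY' : 0 < Y + δ := by linarith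
    have hZ' : 0 < Z + δ := by linarith
    set x := (X + δ) ^ (1 / 3 : ℝ) with hx
    set y := (Y + δ) ^ (1 / 3 : ℝ) with hy
    set z := (Z + δ) ^ (1 / 3 : ℝ) with hz
    have hx0 : 0 < x := Real.rpow_pos_of_pos hX' _
    have hy0 : 0 < y := Real.rpow_pos_of_pos hY' _
    have hz0 : 0 < z := Real.rpow_pos_of_pos hZ' _
    have hx3 : x ^ 3 = X + δ := hcube _ hX'.le
    have hy3 : y ^ 3 = Y + δ := hcube _ hY'.le
    have hz3 : z ^ 3 = Z + δ := hcube _ hZ'.le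
    have h1 := h (x * y * z / x ^ 3) (x * y * z / y ^ 3) (x * y * z / z ^ 3) (by positivity)
      (by positivity) (by positivity) (by field_simp)
    have hX1 : X ≤ x ^ 3 := by linarith
    have hY1 : Y ≤ y ^ 3 := by linarith
    have hZ1 : Z ≤ z ^ 3 := by linarith
    calc S ≤ c / 3 * (x * y * z / x ^ 3 * X + x * y * z / y ^ 3 * Y + x * y * z / z ^ 3 * Z) := h1
      _ ≤ c / 3 * (x * y * z / x ^ 3 * x ^ 3 + x * y * z / y ^ 3 * y ^ 3 +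
          x * y * z / z ^ 3 * z ^ 3) := by gcongr
      _ = c * x * y * z := by field_simp; ring
  have hlim : Tendsto (fun δ : ℝ =>
      c * (X + δ) ^ (1 / 3 : ℝ) * (Y + δ) ^ (1 / 3 : ℝ) * (Z + δ) ^ (1 / 3 : ℝ)) (𝓝[>] 0)
      (𝓝 (c * (X + 0) ^ (1 / 3 : ℝ) * (Y + 0) ^ (1 / 3 : ℝ) * (Z + 0) ^ (1 / 3 : ℝ))) := by
    refine Tendsto.mono_left ?_ nhdsWithin_le_nhds
    have hc1 : ∀ x : ℝ, Tendsto (fun δ : ℝ => (x + δ) ^ (1 / 3 : ℝ)) (𝓝 0)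
        (𝓝 ((x + 0) ^ (1 / 3 : ℝ))) := by
      intro x
      refine Tendsto.rpow_const ?_ (Or.inr (by norm_num))
      exact (continuous_const.add continuous_id).tendsto 0
    exact ((tendsto_const_nhds.mul (hc1 X)).mul (hc1 Y)).mul (hc1 Z)
  simp only [add_zero] at hlim
  exact ge_of_tendsto hlim (eventually_nhdsWithin_of_forall fun δ hδ => hpos δ hδ)

theorem amgm3 (X Y Z α β γ : ℝ) (hX : 0 ≤ X) (hY : 0 ≤ Y) (hZ : 0 ≤ Z) (hα : 0 < α) (hβ : 0 < β)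
    (hγ : 0 < γ) (h : α * β * γ = 1) :
    X ^ (1 / 3 : ℝ) * Y ^ (1 / 3 : ℝ) * Z ^ (1 / 3 : ℝ) ≤ (α * X + β * Y + γ * Z) / 3 := by
  have h1 := Real.geom_mean_le_arith_mean3_weighted (w₁ := 1 / 3) (w₂ := 1 / 3) (w₃ := 1 / 3)
    (p₁ := α * X) (p₂ := β * Y) (p₃ := γ * Z) (by norm_num) (by norm_num) (by norm_num)
    (by positivity) (by positivity) (by positivity) (by norm_num)
  have h2 : (α * X) ^ (1 / 3 : ℝ) * (β * Y) ^ (1 / 3 : ℝ) * (γ * Z) ^ (1 / 3 : ℝ) =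
      X ^ (1 / 3 : ℝ) * Y ^ (1 / 3 : ℝ) * Z ^ (1 / 3 : ℝ) := by
    rw [Real.mul_rpow hα.le hX, Real.mul_rpow hβ.le hY, Real.mul_rpow hγ.le hZ]
    have h3 : α ^ (1 / 3 : ℝ) * β ^ (1 / 3 : ℝ) * γ ^ (1 / 3 : ℝ) = 1 := by
      rw [← Real.mul_rpow hα.le hβ.le, ← Real.mul_rpow (by positivity) hγ.le, h, Real.one_rpow]
    calc _ = (α ^ (1 / 3 : ℝ) * β ^ (1 / 3 : ℝ) * γ ^ (1 / 3 : ℝ)) *
        (X ^ (1 / 3 : ℝ) * Y ^ (1 / 3 : ℝ) * Z ^ (1 / 3 : ℝ)) := by ring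
      _ = _ := by rw [h3, one_mul]
  rw [h2] at h1
  linarith

/-! ### averages of cube sums -/

theorem sum_range_bx {E : Type*} [AddCommMonoid E] (Q : ℕ) (φ : ℝ → E) :
    ∑ i ∈ range (2 * Q), φ (-(Q : ℝ) + i) = ∑ a ∈ bx Q, φ (a : ℝ) := by
  refine Finset.sum_nbij' (fun i => (i : ℤ) - Q) (fun a => (a + Q).toNat) ?_ ?_ ?_ ?_ ?_
  · intro i hi
    rw [Finset.mem_range] at hi
    rw [mem_bx]; omega
  · intro a ha
    rw [mem_bx] at ha
    rw [Finset.mem_range]; omega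
  · intro i hi; omega
  · intro a ha
    rw [mem_bx] at ha; omega
  · intro i hi
    congr 1
    push_cast; ring

theorem avg_pair_le (h : ℝ) (hh : 0 < h) (Q : ℕ) (φ : ℝ × ℝ → ℝ) (hφ : Measurable φ)
    (hφ0 : ∀ z, 0 ≤ φ z) (K : ℝ) (hK : ∀ z, φ z ≤ K) (hi : Integrable φ) (w : ℝ × ℝ) :
    h ^ 2 * ∫ s : ℝ × ℝ, ∑ a ∈ bx Q, ∑ b ∈ bx Q,
      φ (h * (a + s.1) + w.1, h * (b + s.2) + w.2) ∂(mu01.prod mu01) ≤ ∫ z, φ z := by
  have hm : Measurable fun z : ℝ × ℝ => φ (z.1 + w.1, z.2 + w.2) := by fun_prop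
  have hb : ∀ z : ℝ × ℝ, |φ (z.1 + w.1, z.2 + w.2)| ≤ K := fun z => by
    rw [abs_of_nonneg (hφ0 _)]; exact hK _
  have h1 := pair_cells h hh (-(Q : ℝ)) (-(Q : ℝ)) (2 * Q)
    (fun z : ℝ × ℝ => φ (z.1 + w.1, z.2 + w.2)) hm K hb
  have h2 : (fun t : ℝ × ℝ => ∑ i ∈ range (2 * Q), ∑ j ∈ range (2 * Q),
      φ (h * ((-(Q : ℝ) + i) + t.1) + w.1, h * ((-(Q : ℝ) + j) + t.2) + w.2)) =
      fun s : ℝ × ℝ => ∑ a ∈ bx Q, ∑ b ∈ bx Q, φ (h * (a + s.1) + w.1, h * (b + s.2) + w.2) := by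
    funext t
    rw [sum_range_bx Q (fun x => ∑ j ∈ range (2 * Q),
      φ (h * (x + t.1) + w.1, h * ((-(Q : ℝ) + j) + t.2) + w.2))]
    refine Finset.sum_congr rfl fun a _ => ?_
    exact sum_range_bx Q (fun y => φ (h * (a + t.1) + w.1, h * (y + t.2) + w.2))
  simp only at h1
  rw [h2] at h1
  rw [← h1]
  set J : Set ℝ := Set.Ico (h * -(Q : ℝ)) (h * (-(Q : ℝ) + ((2 * Q : ℕ) : ℝ))) with hJ
  have hfin : IsFiniteMeasure ((volume : Measure ℝ).restrict J) := by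
    constructor; simp [hJ]
  have h3 : ∫ x₀ in J, ∫ x₁ in J, φ (x₀ + w.1, x₁ + w.2) =
      ∫ z in J ×ˢ J, φ (z.1 + w.1, z.2 + w.2) := by
    rw [show ((volume : Measure (ℝ × ℝ)).restrict (J ×ˢ J)) =
      ((volume : Measure ℝ).restrict J).prod ((volume : Measure ℝ).restrict J) from by
        rw [Measure.prod_restrict]; rfl]
    rw [integral_prod _ (integrable_of_bdd hm _ hb)]
  rw [h3]
  have hi' : Integrable (fun z : ℝ × ℝ => φ (z.1 + w.1, z.2 + w.2)) := by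
    have := hi.comp_add_right w
    exact this
  calc ∫ z in J ×ˢ J, φ (z.1 + w.1, z.2 + w.2) ≤ ∫ z : ℝ × ℝ, φ (z.1 + w.1, z.2 + w.2) :=
        setIntegral_le_integral hi' (Eventually.of_forall fun z => hφ0 _)
    _ = ∫ z, φ z := integral_add_right_eq_self (μ := (volume : Measure (ℝ × ℝ))) φ w

theorem abs_sum_bx_le (Q : ℕ) (φ : ℤ → ℤ → ℝ) (K : ℝ) (hK : ∀ a b, |φ a b| ≤ K) :
    |∑ a ∈ bx Q, ∑ b ∈ bx Q, φ a b| ≤ (bx Q).card * ((bx Q).card * K) := by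
  refine (abs_sum_le_sum_abs _ _).trans ?_
  refine (Finset.sum_le_card_nsmul _ _ ((bx Q).card * K) fun i _ => ?_).trans (by simp)
  refine (abs_sum_le_sum_abs _ _).trans ?_
  exact (Finset.sum_le_card_nsmul _ _ K fun i _ => hK _ _).trans (by simp)

theorem avg_triple_le (h : ℝ) (hh : 0 < h) (Q : ℕ) (φ : ℝ × ℝ → ℝ) (hφ : Measurable φ)
    (hφ0 : ∀ z, 0 ≤ φ z) (K : ℝ) (hK : ∀ z, φ z ≤ K) (hi : Integrable φ) (w : ℝ → ℝ × ℝ)
    (hw : Measurable w) :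
    h ^ 2 * ∫ s : ℝ × ℝ × ℝ, ∑ a ∈ bx Q, ∑ b ∈ bx Q,
      φ (h * (a + s.1) + (w s.2.2).1, h * (b + s.2.1) + (w s.2.2).2)
        ∂(mu01.prod (mu01.prod mu01)) ≤ ∫ z, φ z := by
  set Ψ : ℝ × (ℝ × ℝ) → ℝ := fun p => ∑ a ∈ bx Q, ∑ b ∈ bx Q,
      φ (h * (a + p.2.1) + (w p.1).1, h * (b + p.2.2) + (w p.1).2) with hΨ
  have hΨm : Measurable Ψ := by
    simp only [hΨ]; fun_prop
  have hΨb : ∀ p, |Ψ p| ≤ (bx Q).card * ((bx Q).card * K) := fun p =>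
    abs_sum_bx_le Q _ K fun a b => by rw [abs_of_nonneg (hφ0 _)]; exact hK _
  have hmp : MeasurePreserving (fun s : ℝ × ℝ × ℝ => (s.2.2, (s.1, s.2.1)))
      (mu01.prod (mu01.prod mu01)) (mu01.prod (mu01.prod mu01)) := by
    have h1 := (measurePreserving_prodAssoc mu01 mu01 mu01).symm
    have h2 := Measure.measurePreserving_swap (μ := mu01.prod mu01) (ν := mu01)
    exact h2.comp h1
  have h1 : ∫ s : ℝ × ℝ × ℝ, Ψ (s.2.2, (s.1, s.2.1)) ∂(mu01.prod (mu01.prod mu01)) =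
      ∫ p, Ψ p ∂(mu01.prod (mu01.prod mu01)) := by
    have h2 := integral_map (μ := mu01.prod (mu01.prod mu01)) hmp.aemeasurable (f := Ψ)
      hΨm.aestronglyMeasurable
    rw [hmp.map_eq] at h2
    exact h2.symm
  have h3 : ∫ s : ℝ × ℝ × ℝ, ∑ a ∈ bx Q, ∑ b ∈ bx Q,
      φ (h * (a + s.1) + (w s.2.2).1, h * (b + s.2.1) + (w s.2.2).2)
        ∂(mu01.prod (mu01.prod mu01)) = ∫ p, Ψ p ∂(mu01.prod (mu01.prod mu01)) := h1
  rw [h3, integral_prod _ (integrable_of_bdd hΨm _ hΨb), ← integral_const_mul]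
  have h4 : ∀ u : ℝ, h ^ 2 * ∫ s : ℝ × ℝ, Ψ (u, s) ∂(mu01.prod mu01) ≤ ∫ z, φ z := fun u =>
    avg_pair_le h hh Q φ hφ hφ0 K hK hi (w u)
  calc ∫ u, h ^ 2 * ∫ s : ℝ × ℝ, Ψ (u, s) ∂(mu01.prod mu01) ∂mu01 ≤ ∫ _u : ℝ, (∫ z, φ z) ∂mu01 := by
        refine integral_mono ?_ (integrable_const _) h4
        refine (integrable_of_bdd ?_ ((bx Q).card * ((bx Q).card * K) *
          (mu01.prod mu01).real Set.univ) fun u => ?_).const_mul _
        · have h5 : Measurable (Function.uncurry fun (u : ℝ) (s : ℝ × ℝ) => Ψ (u, s)) := by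
            simp only [Function.uncurry_def]
            exact hΨm
          exact (h5.stronglyMeasurable.integral_prod_right (ν := mu01.prod mu01)).measurable
        · exact abs_setIntegral_le_bdd _ fun x => hΨb _
    _ = ∫ z, φ z := by simp

/-! ### the sampled form -/

/-- The lattice theorem on `ℤ` with constant `C`. -/
def LMTZ (C : ℝ) : Prop :=
  ∀ (n : ℕ), 1 ≤ n → ∀ (Q : ℕ) (f g H : ℤ → ℤ → ℂ)
    (M : ℤ → ℤ → ℕ → ℂ), (∀ a b, a ∉ bx Q ∨ b ∉ bx Q → f a b = 0) →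
    (∀ a b, a ∉ bx Q ∨ b ∉ bx Q → g a b = 0) →
    (∀ a b r, ‖M a b r‖ ≤ 1) → (∀ a b r, Q ≤ r → M a b r = 0) →
    (∀ a b, ((range Q).filter fun r => M a b (r + 1) ≠ M a b r).card ≤ 2 * n) →
    ‖lform Q f g H M‖ ≤ C * Real.sqrt n * cs Q f ^ (1 / 3 : ℝ) * cs Q g ^ (1 / 3 : ℝ) *
      cs Q H ^ (1 / 3 : ℝ)

theorem measurable_Kh {n : ℕ} {e R₀ : ℝ} {M : ℝ × ℝ → ℝ → ℂ} (hM : Mult n e R₀ M) (h : ℝ) :
    Measurable (fun p : (ℝ × ℝ) × ℝ => Kh M h p.1 p.2) := by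
  have hfl : Measurable (fun p : (ℝ × ℝ) × ℝ => ((⌊p.2 / h⌋ : ℤ) : ℝ)) := by
    have h1 : Measurable (fun t : ℝ => ((⌊t / h⌋ : ℤ) : ℝ)) := by fun_prop
    exact h1.comp measurable_snd
  have h1 : Measurable (fun p : (ℝ × ℝ) × ℝ => M p.1 (h * |((⌊p.2 / h⌋ : ℤ) : ℝ)|)) := by
    have h2 : Measurable (fun p : (ℝ × ℝ) × ℝ => (p.1, h * |((⌊p.2 / h⌋ : ℤ) : ℝ)|)) := by
      fun_prop
    exact hM.meas.comp h2
  unfold Kh
  exact h1.div (Complex.measurable_ofReal.comp (hfl.const_mul h))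

theorem norm_Kh_le {n : ℕ} {e R₀ : ℝ} {M : ℝ × ℝ → ℝ → ℂ} (hM : Mult n e R₀ M) (he : 0 < e)
    {h : ℝ} (hh : 0 < h) (z : ℝ × ℝ) (t : ℝ) : ‖Kh M h z t‖ ≤ 1 / e := by
  unfold Kh
  rw [norm_div, Complex.norm_real, Real.norm_eq_abs, abs_mul, abs_of_pos hh]
  by_cases hle : h * |((⌊t / h⌋ : ℤ) : ℝ)| ≤ e
  · rw [hM.supp z _ (Or.inl hle)]
    simp; positivity
  · push Not at hle
    exact div_le_div₀ zero_le_one (hM.bd _ _) he hle.le

theorem sum_bx_zero_outside (Q : ℕ) (a : ℤ) (ha : a ∉ bx Q) : a < -(Q : ℤ) ∨ (Q : ℤ) ≤ a := by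
  rw [mem_bx] at ha; omega

/-- the pointwise lattice inequality, scaled -/
theorem lform_sample_le {C : ℝ} (hC0 : 0 ≤ C) (hC : LMTZ C) {n : ℕ} (hn : 1 ≤ n)
    {F G H : ℝ × ℝ → ℂ} {B R e R₀ : ℝ} {M : ℝ × ℝ → ℝ → ℂ}
    (hF : Nice B R F) (hG : Nice B R G) (hM : Mult n e R₀ M)
    (hR : 0 ≤ R) (h : ℝ) (hh : 0 < h) (hh1 : h ≤ 1) (Q : ℕ) (hQ : R + |R₀| + 2 ≤ h * Q)
    (s : ℝ × ℝ × ℝ) (h0 : s.1 ∈ Set.Ico (0 : ℝ) 1) (h1 : s.2.1 ∈ Set.Ico (0 : ℝ) 1)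
    (h2 : s.2.2 ∈ Set.Ico (0 : ℝ) 1) (α β γ : ℝ) (hα : 0 < α) (hβ : 0 < β) (hγ : 0 < γ)
    (hαβγ : α * β * γ = 1) :
    ‖lform Q (fun a b => F (h * (a + s.1) + h * s.2.2, h * (b + s.2.1)))
      (fun a b => G (h * (a + s.1), h * (b + s.2.1) + h * s.2.2))
      (fun a b => H (h * (a + s.1), h * (b + s.2.1)))
      (fun a b r => M (h * (a + s.1), h * (b + s.2.1)) (h * r))‖ ≤
      C * Real.sqrt n / 3 *
        (α * (∑ a ∈ bx Q, ∑ b ∈ bx Q, ‖F (h * (a + s.1) + h * s.2.2, h * (b + s.2.1))‖ ^ 3) +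
        β * (∑ a ∈ bx Q, ∑ b ∈ bx Q, ‖G (h * (a + s.1), h * (b + s.2.1) + h * s.2.2)‖ ^ 3) +
        γ * (∑ a ∈ bx Q, ∑ b ∈ bx Q, ‖H (h * (a + s.1), h * (b + s.2.1))‖ ^ 3)) := by
  obtain ⟨h00, h01⟩ := h0
  obtain ⟨h10, h11⟩ := h1
  obtain ⟨h20, h21⟩ := h2
  have hR0 : 0 ≤ |R₀| := abs_nonneg _
  have hout : ∀ (a : ℤ) (v : ℝ), 0 ≤ v → v < 2 → a ∉ bx Q → R < |h * (a + v)| := by
    intro a v hv0 hv2 ha
    rcases sum_bx_zero_outside Q a ha with ha | ha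
    · have ha' : (a : ℝ) + 1 ≤ -(Q : ℝ) := by exact_mod_cast ha
      rw [lt_abs]; right
      nlinarith
    · have ha' : (Q : ℝ) ≤ a := by exact_mod_cast ha
      rw [lt_abs]; left
      nlinarith
  have key := hC n hn Q (fun a b => F (h * (a + s.1) + h * s.2.2, h * (b + s.2.1)))
      (fun a b => G (h * (a + s.1), h * (b + s.2.1) + h * s.2.2))
      (fun a b => H (h * (a + s.1), h * (b + s.2.1)))
      (fun a b r => M (h * (a + s.1), h * (b + s.2.1)) (h * r)) ?_ ?_ ?_ ?_ ?_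
  · refine key.trans ?_
    have hcs : ∀ u : ℤ → ℤ → ℂ, 0 ≤ cs Q u := fun u => by unfold cs; positivity
    have := amgm3 _ _ _ α β γ (hcs (fun a b => F (h * (a + s.1) + h * s.2.2, h * (b + s.2.1))))
      (hcs (fun a b => G (h * (a + s.1), h * (b + s.2.1) + h * s.2.2)))
      (hcs (fun a b => H (h * (a + s.1), h * (b + s.2.1)))) hα hβ hγ hαβγ
    have h3 : 0 ≤ C * Real.sqrt n := by positivity
    calc _ = C * Real.sqrt n * (cs Q (fun a b => F (h * (a + s.1) + h * s.2.2, h * (b + s.2.1))) ^ (1 / 3 : ℝ) *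
        cs Q (fun a b => G (h * (a + s.1), h * (b + s.2.1) + h * s.2.2)) ^ (1 / 3 : ℝ) *
        cs Q (fun a b => H (h * (a + s.1), h * (b + s.2.1))) ^ (1 / 3 : ℝ)) := by ring
      _ ≤ C * Real.sqrt n * ((α * cs Q (fun a b => F (h * (a + s.1) + h * s.2.2, h * (b + s.2.1))) +
        β * cs Q (fun a b => G (h * (a + s.1), h * (b + s.2.1) + h * s.2.2)) +
        γ * cs Q (fun a b => H (h * (a + s.1), h * (b + s.2.1)))) / 3) :=
          mul_le_mul_of_nonneg_left this h3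
      _ = _ := by unfold cs; ring
  · intro a b hab
    refine hF.supp _ ?_
    rcases hab with ha | hb
    · left
      have := hout a (s.1 + s.2.2) (by linarith) (by linarith) ha
      simp only
      rwa [show h * ((a : ℝ) + s.1) + h * s.2.2 = h * (a + (s.1 + s.2.2)) by ring]
    · right
      exact hout b s.2.1 h10 (by linarith) hb
  · intro a b hab
    refine hG.supp _ ?_
    rcases hab with ha | hb
    · left
      exact hout a s.1 h00 (by linarith) ha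
    · right
      have := hout b (s.2.1 + s.2.2) (by linarith) (by linarith) hb
      simp only
      rwa [show h * ((b : ℝ) + s.2.1) + h * s.2.2 = h * (b + (s.2.1 + s.2.2)) by ring]
  · intro a b r; exact hM.bd _ _
  · intro a b r hr
    refine hM.supp _ _ (Or.inr ?_)
    have hr' : (Q : ℝ) ≤ r := by exact_mod_cast hr
    have h4 : h * Q ≤ h * r := by gcongr
    have h5 := le_abs_self R₀
    linarith
  · intro a b
    have := hM.jumps (h * ((a : ℝ) + s.1), h * ((b : ℝ) + s.2.1)) h hh Q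
    exact this

theorem sampled_point {M : ℝ × ℝ → ℝ → ℂ} (F G H : ℝ × ℝ → ℂ) (h : ℝ) (hh : 0 < h) (Q : ℕ)
    (s : ℝ × ℝ × ℝ) (h2 : s.2.2 ∈ Set.Ico (0 : ℝ) 1) :
    ∑ i ∈ range (2 * Q), ∑ j ∈ range (2 * Q), ∑ l ∈ range (2 * Q),
      (fun p : ℝ × ℝ × ℝ => H (p.1, p.2.1) * F (p.1 + p.2.2, p.2.1) * G (p.1, p.2.1 + p.2.2) *
        Kh M h (p.1, p.2.1) p.2.2)
        (h * ((-(Q : ℝ) + i) + s.1), h * ((-(Q : ℝ) + j) + s.2.1), h * ((-(Q : ℝ) + l) + s.2.2)) =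
      (h : ℂ)⁻¹ * lform Q (fun a b => F (h * (a + s.1) + h * s.2.2, h * (b + s.2.1)))
      (fun a b => G (h * (a + s.1), h * (b + s.2.1) + h * s.2.2))
      (fun a b => H (h * (a + s.1), h * (b + s.2.1)))
      (fun a b r => M (h * (a + s.1), h * (b + s.2.1)) (h * r)) := by
  obtain ⟨h20, h21⟩ := h2
  set Φ : ℝ × ℝ × ℝ → ℂ := fun p => H (p.1, p.2.1) * F (p.1 + p.2.2, p.2.1) *
    G (p.1, p.2.1 + p.2.2) * Kh M h (p.1, p.2.1) p.2.2 with hΦ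
  rw [sum_range_bx Q (fun x => ∑ j ∈ range (2 * Q), ∑ l ∈ range (2 * Q),
    Φ (h * (x + s.1), h * ((-(Q : ℝ) + j) + s.2.1), h * ((-(Q : ℝ) + l) + s.2.2)))]
  unfold lform
  rw [Finset.mul_sum]
  refine Finset.sum_congr rfl fun a _ => ?_
  rw [sum_range_bx Q (fun y => ∑ l ∈ range (2 * Q),
    Φ (h * (a + s.1), h * (y + s.2.1), h * ((-(Q : ℝ) + l) + s.2.2)))]
  rw [Finset.mul_sum]
  refine Finset.sum_congr rfl fun b _ => ?_
  rw [sum_range_bx Q (fun y => Φ (h * (a + s.1), h * (b + s.2.1), h * (y + s.2.2)))]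
  rw [Finset.mul_sum]
  refine Finset.sum_congr rfl fun m _ => ?_
  have hfl : ⌊h * ((m : ℝ) + s.2.2) / h⌋ = m := by
    rw [mul_div_cancel_left₀ _ hh.ne', Int.floor_eq_iff]
    constructor <;> linarith
  simp only [hΦ, Kh, hfl]
  have e1 : h * ((a : ℝ) + s.1) + h * ((m : ℝ) + s.2.2) =
      h * (((a + m : ℤ) : ℝ) + s.1) + h * s.2.2 := by push_cast; ring
  have e2 : h * ((b : ℝ) + s.2.1) + h * ((m : ℝ) + s.2.2) =
      h * (((b + m : ℤ) : ℝ) + s.2.1) + h * s.2.2 := by push_cast; ring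
  have e3 : |(m : ℝ)| = ((m.natAbs : ℕ) : ℝ) := by
    rw [Nat.cast_natAbs]; push_cast; rfl
  rw [e1, e2, e3]
  have hne : (h : ℂ) ≠ 0 := by exact_mod_cast hh.ne'
  push_cast
  rw [mul_comm ((h : ℂ)) (m : ℂ), ← div_div]
  rw [div_eq_mul_inv _ (h : ℂ)]
  ring

theorem formH_le {C : ℝ} (hC0 : 0 ≤ C) (hC : LMTZ C) {n : ℕ} (hn : 1 ≤ n)
    {F G H : ℝ × ℝ → ℂ} {B R e R₀ : ℝ} {M : ℝ × ℝ → ℝ → ℂ}
    (hF : Nice B R F) (hG : Nice B R G) (hH : Nice B R H) (he : 0 < e) (hM : Mult n e R₀ M)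
    (hR : 0 ≤ R) (L : ℕ) (hL : R + |R₀| + 2 ≤ L) (N : ℕ) :
    ‖formH F G H (Kh M (1 / ((N : ℝ) + 1))) L‖ ≤ C * Real.sqrt n * nL3 F * nL3 G * nL3 H := by
  set h : ℝ := 1 / ((N : ℝ) + 1) with hh_def
  have hh : 0 < h := by positivity
  have hh1 : h ≤ 1 := by
    rw [hh_def, div_le_one (by positivity)]
    have : (0 : ℝ) ≤ N := Nat.cast_nonneg N
    linarith
  set Q : ℕ := L * (N + 1) with hQ_def
  have hQ : h * Q = L := by
    rw [hh_def, hQ_def]; push_cast; field_simp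
  have hB : 0 ≤ B := (norm_nonneg _).trans (hF.bd (0, 0))
  have hmF := hF.meas
  have hmG := hG.meas
  have hmH := hH.meas
  have hmK := measurable_Kh hM h
  set Φ : ℝ × ℝ × ℝ → ℂ := fun p => H (p.1, p.2.1) * F (p.1 + p.2.2, p.2.1) *
    G (p.1, p.2.1 + p.2.2) * Kh M h (p.1, p.2.1) p.2.2 with hΦ
  have hΦm : Measurable Φ := by
    have hk : Measurable (fun p : ℝ × ℝ × ℝ => Kh M h (p.1, p.2.1) p.2.2) := by
      have h1 : Measurable (fun p : ℝ × ℝ × ℝ => (((p.1, p.2.1), p.2.2) : (ℝ × ℝ) × ℝ)) := by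
        fun_prop
      exact hmK.comp h1
    simp only [hΦ]
    fun_prop
  have hΦb : ∀ p, ‖Φ p‖ ≤ B * B * B * (1 / e) := by
    intro p
    simp only [hΦ]
    rw [norm_mul, norm_mul, norm_mul]
    have h1 := hH.bd (p.1, p.2.1)
    have h2 := hF.bd (p.1 + p.2.2, p.2.1)
    have h3 := hG.bd (p.1, p.2.1 + p.2.2)
    have h4 := norm_Kh_le hM he hh (p.1, p.2.1) p.2.2
    gcongr
  have h1 := triple_cellsC h hh (-(Q : ℝ)) (-(Q : ℝ)) (-(Q : ℝ)) (2 * Q) Φ hΦm _ hΦb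
  have e1 : h * -(Q : ℝ) = -(L : ℝ) := by rw [mul_neg, hQ]
  have e2 : h * (-(Q : ℝ) + ((2 * Q : ℕ) : ℝ)) = L := by
    push_cast
    rw [mul_add, mul_neg, mul_left_comm, hQ]; ring
  rw [e1, e2] at h1
  have h2 : formH F G H (Kh M h) L = (h : ℂ) ^ 3 * ∫ t : ℝ × ℝ × ℝ, (h : ℂ)⁻¹ *
      lform Q (fun a b => F (h * (a + t.1) + h * t.2.2, h * (b + t.2.1)))
      (fun a b => G (h * (a + t.1), h * (b + t.2.1) + h * t.2.2))
      (fun a b => H (h * (a + t.1), h * (b + t.2.1)))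
      (fun a b r => M (h * (a + t.1), h * (b + t.2.1)) (h * r))
      ∂(mu01.prod (mu01.prod mu01)) := by
    have h3 : formH F G H (Kh M h) L = _ := h1
    rw [h3]
    congr 1
    refine integral_congr_ae ?_
    have hae : ∀ᵐ t : ℝ × ℝ × ℝ ∂(mu01.prod (mu01.prod mu01)), t.2.2 ∈ Set.Ico (0 : ℝ) 1 := by
      have h1 : ∀ᵐ t : ℝ ∂mu01, t ∈ Set.Ico (0 : ℝ) 1 := by
        unfold mu01; exact ae_restrict_mem measurableSet_Ico
      exact (Measure.quasiMeasurePreserving_snd).ae ((Measure.quasiMeasurePreserving_snd).ae h1)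
    filter_upwards [hae] with t ht
    exact sampled_point F G H h hh Q t ht
  rw [h2]
  have hne : (h : ℂ) ≠ 0 := by exact_mod_cast hh.ne'
  rw [integral_const_mul, ← mul_assoc, show (h : ℂ) ^ 3 * (h : ℂ)⁻¹ = (h : ℂ) ^ 2 by field_simp,
    norm_mul, norm_pow, Complex.norm_real, Real.norm_eq_abs, abs_of_pos hh]
  unfold nL3
  refine opt3 _ (C * Real.sqrt n) _ _ _ (by positivity) (by positivity) (by positivity)
    (by positivity) fun α β γ hα hβ hγ hαβγ => ?_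
  have hint : ∀ U : ℝ × ℝ → ℂ, Nice B R U → Integrable (fun z => ‖U z‖ ^ 3) := by
    intro U hU
    have hmU := hU.meas
    have h5 : IntegrableOn (fun z => ‖U z‖ ^ 3) (Set.Icc (-R) R ×ˢ Set.Icc (-R) R) := by
      refine Measure.integrableOn_of_bounded (M := B ^ 3) ?_ (by fun_prop) ?_
      · exact (isCompact_Icc.prod isCompact_Icc).measure_lt_top.ne
      · refine Eventually.of_forall fun z => ?_
        rw [norm_pow, norm_norm]
        exact pow_le_pow_left₀ (norm_nonneg _) (hU.bd z) 3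
    rw [← integrableOn_iff_integrable_of_support_subset (s := Set.Icc (-R) R ×ˢ Set.Icc (-R) R)]
    · exact h5
    · intro z hz
      by_contra hz'
      apply hz
      have : R < |z.1| ∨ R < |z.2| := by
        by_contra hcon
        push Not at hcon
        apply hz'
        exact ⟨abs_le.mp hcon.1, abs_le.mp hcon.2⟩
      simp only
      rw [hU.supp z this]; simp
  have hK3 : ∀ U : ℝ × ℝ → ℂ, Nice B R U → ∀ z, ‖U z‖ ^ 3 ≤ B ^ 3 := fun U hU z =>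
    pow_le_pow_left₀ (norm_nonneg _) (hU.bd z) 3
  have avg := fun (U : ℝ × ℝ → ℂ) (hU : Nice B R U) (w : ℝ → ℝ × ℝ) (hw : Measurable w) =>
    avg_triple_le h hh Q (fun z => ‖U z‖ ^ 3) (by have := hU.meas; fun_prop)
      (fun z => by positivity) (B ^ 3) (hK3 U hU) (hint U hU) w hw
  have aF := avg F hF (fun u => (h * u, 0)) (by fun_prop)
  have aG := avg G hG (fun u => (0, h * u)) (by fun_prop)
  have aH := avg H hH (fun u => (0, 0)) (by fun_prop)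
  simp only [add_zero] at aF aG aH
  set XF : ℝ × ℝ × ℝ → ℝ := fun s => ∑ a ∈ bx Q, ∑ b ∈ bx Q,
    ‖F (h * (a + s.1) + h * s.2.2, h * (b + s.2.1))‖ ^ 3 with hXF
  set XG : ℝ × ℝ × ℝ → ℝ := fun s => ∑ a ∈ bx Q, ∑ b ∈ bx Q,
    ‖G (h * (a + s.1), h * (b + s.2.1) + h * s.2.2)‖ ^ 3 with hXG
  set XH : ℝ × ℝ × ℝ → ℝ := fun s => ∑ a ∈ bx Q, ∑ b ∈ bx Q,
    ‖H (h * (a + s.1), h * (b + s.2.1))‖ ^ 3 with hXH
  have iF : Integrable XF (mu01.prod (mu01.prod mu01)) := by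
    refine integrable_of_bdd (by simp only [hXF]; fun_prop) _ fun s => abs_sum_bx_le Q _ (B ^ 3)
      fun a b => ?_
    rw [abs_of_nonneg (by positivity)]; exact hK3 F hF _
  have iG : Integrable XG (mu01.prod (mu01.prod mu01)) := by
    refine integrable_of_bdd (by simp only [hXG]; fun_prop) _ fun s => abs_sum_bx_le Q _ (B ^ 3)
      fun a b => ?_
    rw [abs_of_nonneg (by positivity)]; exact hK3 G hG _
  have iH : Integrable XH (mu01.prod (mu01.prod mu01)) := by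
    refine integrable_of_bdd (by simp only [hXH]; fun_prop) _ fun s => abs_sum_bx_le Q _ (B ^ 3)
      fun a b => ?_
    rw [abs_of_nonneg (by positivity)]; exact hK3 H hH _
  have hae : ∀ᵐ t : ℝ × ℝ × ℝ ∂(mu01.prod (mu01.prod mu01)),
      t.1 ∈ Set.Ico (0 : ℝ) 1 ∧ t.2.1 ∈ Set.Ico (0 : ℝ) 1 ∧ t.2.2 ∈ Set.Ico (0 : ℝ) 1 := by
    have h1 : ∀ᵐ t : ℝ ∂mu01, t ∈ Set.Ico (0 : ℝ) 1 := by
      unfold mu01; exact ae_restrict_mem measurableSet_Ico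
    have q1 : ∀ᵐ t : ℝ × ℝ × ℝ ∂(mu01.prod (mu01.prod mu01)), t.1 ∈ Set.Ico (0 : ℝ) 1 :=
      (Measure.quasiMeasurePreserving_fst).ae h1
    have q2 : ∀ᵐ t : ℝ × ℝ × ℝ ∂(mu01.prod (mu01.prod mu01)), t.2.1 ∈ Set.Ico (0 : ℝ) 1 :=
      (Measure.quasiMeasurePreserving_snd).ae ((Measure.quasiMeasurePreserving_fst).ae h1)
    have q3 : ∀ᵐ t : ℝ × ℝ × ℝ ∂(mu01.prod (mu01.prod mu01)), t.2.2 ∈ Set.Ico (0 : ℝ) 1 :=
      (Measure.quasiMeasurePreserving_snd).ae ((Measure.quasiMeasurePreserving_snd).ae h1)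
    filter_upwards [q1, q2, q3] with t a b c using ⟨a, b, c⟩
  have hbound := norm_integral_le_of_norm_le (μ := mu01.prod (mu01.prod mu01))
    (((iF.const_mul α).add (iG.const_mul β)).add (iH.const_mul γ) |>.const_mul
      (C * Real.sqrt n / 3)) (f := fun t : ℝ × ℝ × ℝ =>
      lform Q (fun a b => F (h * (a + t.1) + h * t.2.2, h * (b + t.2.1)))
      (fun a b => G (h * (a + t.1), h * (b + t.2.1) + h * t.2.2))
      (fun a b => H (h * (a + t.1), h * (b + t.2.1)))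
      (fun a b r => M (h * (a + t.1), h * (b + t.2.1)) (h * r))) (by
    filter_upwards [hae] with t ht
    exact lform_sample_le hC0 hC hn hF hG hM hR h hh hh1 Q (by rw [hQ]; exact hL) t ht.1 ht.2.1
      ht.2.2 α β γ hα hβ hγ hαβγ)
  have hsum : ∫ t : ℝ × ℝ × ℝ, C * Real.sqrt n / 3 * ((α * XF t + β * XG t) + γ * XH t)
      ∂(mu01.prod (mu01.prod mu01)) = C * Real.sqrt n / 3 *
      (α * ∫ t, XF t ∂(mu01.prod (mu01.prod mu01)) + β * ∫ t, XG t ∂(mu01.prod (mu01.prod mu01)) +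
        γ * ∫ t, XH t ∂(mu01.prod (mu01.prod mu01))) := by
    rw [integral_const_mul, integral_add, integral_add, integral_const_mul, integral_const_mul,
      integral_const_mul]
    · exact iF.const_mul α
    · exact iG.const_mul β
    · exact (iF.const_mul α).add (iG.const_mul β)
    · exact iH.const_mul γ
  have hb2 : ‖∫ t : ℝ × ℝ × ℝ, lform Q (fun a b => F (h * (a + t.1) + h * t.2.2, h * (b + t.2.1)))
      (fun a b => G (h * (a + t.1), h * (b + t.2.1) + h * t.2.2))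
      (fun a b => H (h * (a + t.1), h * (b + t.2.1)))
      (fun a b r => M (h * (a + t.1), h * (b + t.2.1)) (h * r)) ∂(mu01.prod (mu01.prod mu01))‖ ≤
      C * Real.sqrt n / 3 *
      (α * ∫ t, XF t ∂(mu01.prod (mu01.prod mu01)) + β * ∫ t, XG t ∂(mu01.prod (mu01.prod mu01)) +
        γ * ∫ t, XH t ∂(mu01.prod (mu01.prod mu01))) := by
    rw [← hsum]; exact hbound
  calc _ ≤ h ^ 2 * (C * Real.sqrt n / 3 *
      (α * ∫ t, XF t ∂(mu01.prod (mu01.prod mu01)) + β * ∫ t, XG t ∂(mu01.prod (mu01.prod mu01)) +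
        γ * ∫ t, XH t ∂(mu01.prod (mu01.prod mu01)))) :=
        mul_le_mul_of_nonneg_left hb2 (by positivity)
    _ = C * Real.sqrt n / 3 *
      (α * (h ^ 2 * ∫ t, XF t ∂(mu01.prod (mu01.prod mu01))) +
        β * (h ^ 2 * ∫ t, XG t ∂(mu01.prod (mu01.prod mu01))) +
        γ * (h ^ 2 * ∫ t, XH t ∂(mu01.prod (mu01.prod mu01)))) := by ring
    _ ≤ _ := by gcongr

end Crest.Agent.R72
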