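import Mathlib
import Crest.Agent.R72.RB0

/-!
Row 72, reduction: the limit of mesh `h → 0` (helper26).

Iterated dominated convergence (in `t`, then `y`, then `x`): `‖Kh‖ ≤ 1/e` since `M z (h|m|) ≠ 0` forces `h|m| > e`.
For every `z` and a.e. `t`: `M z` is continuous at `|t|` and `t ≠ 0`, hence `Kh M (1/(N+1)) z t → M z |t| / t`
(`⌊t (N+1)⌋/(N+1) → t`).  Finally
`∫ z, H z * TM M F G z = formH F G H (fun z t => M z |t| / t) L` by the supports.
-/

set_option autoImplicit false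

namespace Crest.Agent.R72

open MeasureTheory Finset Filter Topology

/-- dominated convergence on a bounded interval -/
private theorem dct {L : ℝ} {f : ℕ → ℝ → ℂ} {g : ℝ → ℂ} (C : ℝ)
    (hf : ∀ N, AEStronglyMeasurable (f N) volume) (hb : ∀ N x, ‖f N x‖ ≤ C)
    (hlim : ∀ᵐ x : ℝ, Tendsto (fun N => f N x) atTop (𝓝 (g x))) :
    Tendsto (fun N => ∫ x in Set.Ico (-L) L, f N x) atTop (𝓝 (∫ x in Set.Ico (-L) L, g x)) := by
  have hfin : IsFiniteMeasure ((volume : Measure ℝ).restrict (Set.Ico (-L) L)) :=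
    ⟨by rw [Measure.restrict_apply_univ]; exact measure_Ico_lt_top⟩
  refine tendsto_integral_of_dominated_convergence (fun _ => C) (fun N => (hf N).restrict)
    (integrable_const C) (fun N => Eventually.of_forall (hb N)) (ae_restrict_of_ae hlim)

private theorem norm_int_le {L C : ℝ} {f : ℝ → ℂ} (hL : 0 ≤ L) (hC : ∀ x, ‖f x‖ ≤ C) :
    ‖∫ x in Set.Ico (-L) L, f x‖ ≤ C * (2 * L) := by
  have h := norm_setIntegral_le_of_norm_le_const (μ := (volume : Measure ℝ)) (s := Set.Ico (-L) L)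
    (C := C) (f := f) measure_Ico_lt_top (fun x _ => hC x)
  have e : (volume : Measure ℝ).real (Set.Ico (-L) L) = 2 * L := by
    rw [Measure.real, Real.volume_Ico, ENNReal.toReal_ofReal (by linarith)]
    ring
  rwa [e] at h

private theorem floor_tendsto (t : ℝ) :
    Tendsto (fun N : ℕ => (1 / ((N : ℝ) + 1)) * (⌊t / (1 / ((N : ℝ) + 1))⌋ : ℝ)) atTop (𝓝 t) := by
  have h0 : Tendsto (fun N : ℕ => t - 1 / ((N : ℝ) + 1)) atTop (𝓝 t) := by
    have := (tendsto_const_nhds (x := t)).sub (tendsto_one_div_add_atTop_nhds_zero_nat (𝕜 := ℝ))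
    simpa using this
  refine tendsto_of_tendsto_of_tendsto_of_le_of_le h0 (tendsto_const_nhds (x := t)) ?_ ?_
  · intro N
    have hN : (0 : ℝ) < 1 / ((N : ℝ) + 1) := by positivity
    have h1 := Int.lt_floor_add_one (t / (1 / ((N : ℝ) + 1)))
    rw [div_lt_iff₀ hN] at h1
    show t - 1 / ((N : ℝ) + 1) ≤ _
    nlinarith
  · intro N
    have hN : (0 : ℝ) < 1 / ((N : ℝ) + 1) := by positivity
    have h1 := Int.floor_le (t / (1 / ((N : ℝ) + 1)))
    rw [le_div_iff₀ hN] at h1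
    show _ ≤ t
    nlinarith

private theorem Kh_tendsto {M : ℝ × ℝ → ℝ → ℂ} {z : ℝ × ℝ} {t : ℝ} (ht : t ≠ 0)
    (hc : ContinuousAt (M z) |t|) :
    Tendsto (fun N : ℕ => Kh M (1 / ((N : ℝ) + 1)) z t) atTop (𝓝 (M z |t| / (t : ℂ))) := by
  have h1 := floor_tendsto t
  have h2 : Tendsto (fun N : ℕ => (1 / ((N : ℝ) + 1)) * |(⌊t / (1 / ((N : ℝ) + 1))⌋ : ℝ)|) atTop
      (𝓝 |t|) := by
    refine (h1.abs).congr fun N => ?_
    rw [abs_mul, abs_of_pos (by positivity : (0 : ℝ) < 1 / ((N : ℝ) + 1))]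
  have h3 : Tendsto (fun N : ℕ => M z ((1 / ((N : ℝ) + 1)) * |(⌊t / (1 / ((N : ℝ) + 1))⌋ : ℝ)|)) atTop
      (𝓝 (M z |t|)) := hc.tendsto.comp h2
  have h4 : Tendsto (fun N : ℕ => (((1 / ((N : ℝ) + 1)) * (⌊t / (1 / ((N : ℝ) + 1))⌋ : ℝ) : ℝ) : ℂ)) atTop
      (𝓝 (t : ℂ)) := (Complex.continuous_ofReal.tendsto t).comp h1
  exact h3.div h4 (by exact_mod_cast ht)

private theorem Kh_bound {n : ℕ} {e R₀ : ℝ} {M : ℝ × ℝ → ℝ → ℂ} (he : 0 < e) (hM : Mult n e R₀ M)
    {h : ℝ} (hh : 0 < h) (z : ℝ × ℝ) (t : ℝ) : ‖Kh M h z t‖ ≤ 1 / e := by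
  unfold Kh
  by_cases h0 : M z (h * |(⌊t / h⌋ : ℝ)|) = 0
  · rw [h0, zero_div, norm_zero]; positivity
  · have h1 : e < h * |(⌊t / h⌋ : ℝ)| := by
      by_contra hcon
      exact h0 (hM.supp z _ (Or.inl (not_lt.1 hcon)))
    rw [norm_div, Complex.norm_real, Real.norm_eq_abs, abs_mul, abs_of_pos hh]
    exact div_le_div₀ zero_le_one (hM.bd _ _) he h1.le

private theorem K_bound {n : ℕ} {e R₀ : ℝ} {M : ℝ × ℝ → ℝ → ℂ} (he : 0 < e) (hM : Mult n e R₀ M)
    (z : ℝ × ℝ) (t : ℝ) : ‖M z |t| / (t : ℂ)‖ ≤ 1 / e := by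
  by_cases h0 : M z |t| = 0
  · rw [h0, zero_div, norm_zero]; positivity
  · have h1 : e < |t| := by
      by_contra hcon
      exact h0 (hM.supp z _ (Or.inl (not_lt.1 hcon)))
    rw [norm_div, Complex.norm_real, Real.norm_eq_abs]
    exact div_le_div₀ zero_le_one (hM.bd _ _) he h1.le

private theorem Kh_meas {n : ℕ} {e R₀ : ℝ} {M : ℝ × ℝ → ℝ → ℂ} (hM : Mult n e R₀ M) (h : ℝ) :
    Measurable (fun p : (ℝ × ℝ) × ℝ => Kh M h p.1 p.2) := by
  unfold Kh
  have hfl : Measurable (fun p : (ℝ × ℝ) × ℝ => ((⌊p.2 / h⌋ : ℤ) : ℝ)) := by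
    have h1 : Measurable (fun p : (ℝ × ℝ) × ℝ => ⌊p.2 / h⌋) :=
      Int.measurable_floor.comp (by fun_prop)
    exact (measurable_from_top (f := fun m : ℤ => (m : ℝ))).comp h1
  have h2 : Measurable (fun p : (ℝ × ℝ) × ℝ => h * |((⌊p.2 / h⌋ : ℤ) : ℝ)|) :=
    hfl.norm.const_mul h
  have h3 : Measurable (fun p : (ℝ × ℝ) × ℝ => M p.1 (h * |((⌊p.2 / h⌋ : ℤ) : ℝ)|)) :=
    hM.meas.comp (measurable_fst.prodMk h2)
  have h4 : Measurable (fun p : (ℝ × ℝ) × ℝ => (((h * ((⌊p.2 / h⌋ : ℤ) : ℝ) : ℝ)) : ℂ)) :=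
    Complex.measurable_ofReal.comp (hfl.const_mul h)
  exact h3.div h4

private theorem K_meas {n : ℕ} {e R₀ : ℝ} {M : ℝ × ℝ → ℝ → ℂ} (hM : Mult n e R₀ M) :
    Measurable (fun p : (ℝ × ℝ) × ℝ => M p.1 |p.2| / (p.2 : ℂ)) := by
  have h2 : Measurable (fun p : (ℝ × ℝ) × ℝ => |p.2|) := measurable_snd.norm
  have h3 : Measurable (fun p : (ℝ × ℝ) × ℝ => M p.1 |p.2|) :=
    hM.meas.comp (measurable_fst.prodMk h2)
  exact h3.div (Complex.measurable_ofReal.comp measurable_snd)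

/-- generic facts on the iterated integral -/
private theorem form_facts {F G H : ℝ × ℝ → ℂ} {B R : ℝ} (hF : Nice B R F) (hG : Nice B R G)
    (hH : Nice B R H) {K : ℝ × ℝ → ℝ → ℂ} {D : ℝ} (hKm : Measurable (fun p : (ℝ × ℝ) × ℝ => K p.1 p.2))
    (hKb : ∀ z t, ‖K z t‖ ≤ D) {L : ℝ} (hL : 0 ≤ L) :
    (∀ z : ℝ × ℝ, Measurable (fun t => H z * F (z.1 + t, z.2) * G (z.1, z.2 + t) * K z t)) ∧
    (∀ (z : ℝ × ℝ) (t : ℝ), ‖H z * F (z.1 + t, z.2) * G (z.1, z.2 + t) * K z t‖ ≤ B * B * B * D) ∧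
    StronglyMeasurable (fun z : ℝ × ℝ => ∫ t in Set.Ico (-L) L,
      H z * F (z.1 + t, z.2) * G (z.1, z.2 + t) * K z t) ∧
    (∀ z : ℝ × ℝ, ‖∫ t in Set.Ico (-L) L,
      H z * F (z.1 + t, z.2) * G (z.1, z.2 + t) * K z t‖ ≤ B * B * B * D * (2 * L)) ∧
    StronglyMeasurable (fun x : ℝ => ∫ y in Set.Ico (-L) L, ∫ t in Set.Ico (-L) L,
      H (x, y) * F (x + t, y) * G (x, y + t) * K (x, y) t) ∧
    (∀ x : ℝ, ‖∫ y in Set.Ico (-L) L, ∫ t in Set.Ico (-L) L,
      H (x, y) * F (x + t, y) * G (x, y + t) * K (x, y) t‖ ≤ B * B * B * D * (2 * L) * (2 * L)) := by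
  have hmF := hF.meas
  have hmG := hG.meas
  have hmH := hH.meas
  have hB : 0 ≤ B := (norm_nonneg _).trans (hF.bd 0)
  have hD : 0 ≤ D := (norm_nonneg _).trans (hKb 0 0)
  have hm : Measurable (fun p : (ℝ × ℝ) × ℝ =>
      H p.1 * F (p.1.1 + p.2, p.1.2) * G (p.1.1, p.1.2 + p.2) * K p.1 p.2) := by
    have h1 : Measurable (fun p : (ℝ × ℝ) × ℝ =>
      H p.1 * F (p.1.1 + p.2, p.1.2) * G (p.1.1, p.1.2 + p.2)) := by fun_prop
    exact h1.mul hKm
  have hb : ∀ (z : ℝ × ℝ) (t : ℝ), ‖H z * F (z.1 + t, z.2) * G (z.1, z.2 + t) * K z t‖ ≤ B * B * B * D := by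
    intro z t
    rw [norm_mul, norm_mul, norm_mul]
    exact mul_le_mul (mul_le_mul (mul_le_mul (hH.bd _) (hF.bd _) (norm_nonneg _) hB) (hG.bd _)
      (norm_nonneg _) (mul_nonneg hB hB)) (hKb _ _) (norm_nonneg _) (mul_nonneg (mul_nonneg hB hB) hB)
  have hs : StronglyMeasurable (fun z : ℝ × ℝ => ∫ t in Set.Ico (-L) L,
      H z * F (z.1 + t, z.2) * G (z.1, z.2 + t) * K z t) :=
    StronglyMeasurable.integral_prod_right
      (f := fun (z : ℝ × ℝ) (t : ℝ) => H z * F (z.1 + t, z.2) * G (z.1, z.2 + t) * K z t)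
      hm.stronglyMeasurable
  have hsb : ∀ z : ℝ × ℝ, ‖∫ t in Set.Ico (-L) L,
      H z * F (z.1 + t, z.2) * G (z.1, z.2 + t) * K z t‖ ≤ B * B * B * D * (2 * L) :=
    fun z => norm_int_le hL (hb z)
  refine ⟨fun z => hm.comp (measurable_const.prodMk measurable_id), hb, hs, hsb, ?_, ?_⟩
  · exact StronglyMeasurable.integral_prod_right
      (f := fun (x : ℝ) (y : ℝ) => ∫ t in Set.Ico (-L) L,
        H (x, y) * F (x + t, y) * G (x, y + t) * K (x, y) t) hs
  · intro x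
    exact norm_int_le hL (fun y => hsb (x, y))

theorem formH_tendsto {n : ℕ} {F G H : ℝ × ℝ → ℂ} {B R e R₀ : ℝ} {M : ℝ × ℝ → ℝ → ℂ}
    (hF : Nice B R F) (hG : Nice B R G) (hH : Nice B R H) (he : 0 < e) (hM : Mult n e R₀ M)
    (L : ℕ) (hL : R + |R₀| + 2 ≤ L) (hR : 0 ≤ R) :
    Tendsto (fun N : ℕ => formH F G H (Kh M (1 / ((N : ℝ) + 1))) L) atTop
      (𝓝 (∫ z, H z * TM M F G z)) := by
  have hL0 : (0 : ℝ) ≤ L := by positivity
  have hpos : ∀ N : ℕ, (0 : ℝ) < 1 / ((N : ℝ) + 1) := fun N => by positivity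
  have fN := fun N : ℕ => form_facts hF hG hH (Kh_meas hM (1 / ((N : ℝ) + 1)))
    (Kh_bound he hM (hpos N)) hL0
  have fI := form_facts (K := fun z t => M z |t| / (t : ℂ)) hF hG hH (K_meas hM) (K_bound he hM) hL0
  -- the limit
  have hlim : Tendsto (fun N : ℕ => formH F G H (Kh M (1 / ((N : ℝ) + 1))) L) atTop
      (𝓝 (formH F G H (fun z t => M z |t| / (t : ℂ)) L)) := by
    unfold formH
    refine dct (B * B * B * (1 / e) * (2 * L) * (2 * L))
      (fun N => (fN N).2.2.2.2.1.aestronglyMeasurable) (fun N => (fN N).2.2.2.2.2)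
      (Eventually.of_forall fun x => ?_)
    refine dct (B * B * B * (1 / e) * (2 * L))
      (fun N => ((fN N).2.2.1.comp_measurable
        (by fun_prop : Measurable fun y : ℝ => (x, y))).aestronglyMeasurable)
      (fun N y => (fN N).2.2.2.1 (x, y)) (Eventually.of_forall fun y => ?_)
    refine dct (B * B * B * (1 / e)) (fun N => ((fN N).1 (x, y)).aestronglyMeasurable)
      (fun N t => (fN N).2.1 (x, y) t) ?_
    have h1 : ∀ᵐ t : ℝ, ContinuousAt (M (x, y)) t := hM.cont (x, y)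
    have h2 : ∀ᵐ t : ℝ, ContinuousAt (M (x, y)) (-t) :=
      (Measure.measurePreserving_neg (volume : Measure ℝ)).quasiMeasurePreserving.ae h1
    have h3 : ∀ᵐ t : ℝ, t ≠ 0 := by
      rw [ae_iff]
      simp
    filter_upwards [h1, h2, h3] with t ht1 ht2 ht3
    refine Tendsto.const_mul _ (Kh_tendsto ht3 ?_)
    rcases abs_choice t with h | h
    · rw [h]; exact ht1
    · rw [h]; exact ht2
  have heq : formH F G H (fun z t => M z |t| / (t : ℂ)) L = ∫ z, H z * TM M F G z := by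
    -- the inner integral
    have hin : ∀ z : ℝ × ℝ, (∫ t in Set.Ico (-(L : ℝ)) L,
        H z * F (z.1 + t, z.2) * G (z.1, z.2 + t) * (M z |t| / (t : ℂ))) = H z * TM M F G z := by
      intro z
      rw [setIntegral_eq_integral_of_forall_compl_eq_zero]
      · unfold TM
        rw [← integral_const_mul]
        refine integral_congr_ae (Eventually.of_forall fun t => ?_)
        simp only
        ring
      · intro t ht
        have h1 : R₀ ≤ |t| := by
          by_contra hcon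
          push Not at hcon
          apply ht
          have h2 := le_abs_self R₀
          have h3 : |t| < L := by linarith
          exact ⟨(abs_lt.1 h3).1.le, (abs_lt.1 h3).2⟩
        rw [hM.supp z _ (Or.inr h1), zero_div, mul_zero]
    have hS : MeasurableSet (Set.Ico (-(L : ℝ)) L ×ˢ Set.Ico (-(L : ℝ)) L) :=
      measurableSet_Ico.prod measurableSet_Ico
    have hout : (∫ z, H z * TM M F G z) =
        ∫ z in Set.Ico (-(L : ℝ)) L ×ˢ Set.Ico (-(L : ℝ)) L, H z * TM M F G z := by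
      rw [setIntegral_eq_integral_of_forall_compl_eq_zero]
      intro z hz
      have : H z = 0 := by
        refine hH.supp z ?_
        by_contra hcon
        push Not at hcon
        apply hz
        have h2 := abs_nonneg R₀
        exact ⟨⟨by linarith [(abs_le.1 hcon.1).1], by linarith [(abs_le.1 hcon.1).2]⟩,
          ⟨by linarith [(abs_le.1 hcon.2).1], by linarith [(abs_le.1 hcon.2).2]⟩⟩
      rw [this, zero_mul]
    rw [hout, Measure.volume_eq_prod, setIntegral_prod]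
    · unfold formH
      refine integral_congr_ae (Eventually.of_forall fun x => ?_)
      simp only
      refine integral_congr_ae (Eventually.of_forall fun y => ?_)
      exact hin (x, y)
    · have hfin : IsFiniteMeasure (((volume : Measure ℝ).prod (volume : Measure ℝ)).restrict
          (Set.Ico (-(L : ℝ)) L ×ˢ Set.Ico (-(L : ℝ)) L)) := by
        refine ⟨?_⟩
        rw [Measure.restrict_apply_univ, Measure.prod_prod]
        exact ENNReal.mul_lt_top measure_Ico_lt_top measure_Ico_lt_top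
      have hfe : (fun z : ℝ × ℝ => H z * TM M F G z) = fun z => ∫ t in Set.Ico (-(L : ℝ)) L,
          H z * F (z.1 + t, z.2) * G (z.1, z.2 + t) * (M z |t| / (t : ℂ)) := by
        funext z
        exact (hin z).symm
      rw [hfe, IntegrableOn]
      exact (integrable_const (B * B * B * (1 / e) * (2 * L))).mono'
        fI.2.2.1.aestronglyMeasurable (Eventually.of_forall fI.2.2.2.1)
  rw [← heq]
  exact hlim

end Crest.Agent.R72
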