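import Mathlib
import Crest.Agent.R72.RB3
import Crest.Agent.R72.RB4
import Crest.Agent.R72.R2

/-!
Row 72, reduction: `FormLe` from the lattice main theorem `LMT` (helper81).
-/

set_option autoImplicit false

namespace Crest.Agent.R72

open MeasureTheory Finset Filter Topology

theorem formLeM_of_LMT (h : LMT) : FormLeM := by
  obtain ⟨C, hC0, hC⟩ := lmtz h
  refine ⟨C, hC0, ?_⟩
  intro n hn F G H B R e R₀ M hF hG hH he hM
  have hup : ∀ U : ℝ × ℝ → ℂ, Nice B R U → Nice B (max R 0) U := fun U hU =>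
    ⟨hU.meas, hU.bd, fun z hz => hU.supp z (hz.imp (lt_of_le_of_lt (le_max_left _ _))
      (lt_of_le_of_lt (le_max_left _ _)))⟩
  have hR : 0 ≤ max R 0 := le_max_right _ _
  set L : ℕ := ⌈max R 0 + |R₀| + 2⌉₊ with hL_def
  have hL : max R 0 + |R₀| + 2 ≤ L := Nat.le_ceil _
  have hlim := formH_tendsto (hup F hF) (hup G hG) (hup H hH) he hM L hL hR
  exact le_of_tendsto hlim.norm (Eventually.of_forall fun N =>
    formH_le hC0 hC hn (hup F hF) (hup G hG) (hup H hH) he hM hR L hL N)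

theorem formLe_of_LMT (h : LMT) : ∃ C, 0 ≤ C ∧ FormLe C :=
  formLe_of_formLeM (formLeM_of_LMT h)

end Crest.Agent.R72
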