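import Crest.Agent.R72.WA2
import Crest.Agent.R72.FS3
import Crest.Agent.R72.FR3
import Crest.Agent.R72.K5D
import Crest.Agent.R72.RB5
import Crest.Agent.R72.R2
import Crest.Agent.R72.R3

/-!
# Row 72: final assembly of S0096
-/

set_option autoImplicit false

namespace Crest.Agent.R72

theorem lmt_final : LMT :=
  K.lmt (est_smooth mi_fixed mi_var) (est_rough mi_fixed)

theorem s0096_final : S0096Stmt := by
  obtain ⟨C, _, hC⟩ := formLe_of_LMT lmt_final
  exact s0096_of_formLe hC

end Crest.Agent.R72
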