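import Mathlib

/-!
# Row 72, module HL (helper44), part 1: maximal ergodic inequality and the strong type inequality
for a bijection `T` of a finite set (Garsia's proof; applied to the translations of `ZMod N`).
-/

set_option autoImplicit false

namespace Crest.Agent.R72.HL

open Finset

variable {X : Type*} [Fintype X] (T : X ≃ X) (u : X → ℝ)

/-- forward average of length `L + 1` -/
noncomputable def av (L : ℕ) (x : X) : ℝ :=
  ((L + 1 : ℕ) : ℝ)⁻¹ * ∑ l ∈ range (L + 1), u ((T ^ l) x)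

/-- truncated one-sided maximal function: `max_{L ≤ n} av L` -/
noncomputable def mt (n : ℕ) (x : X) : ℝ :=
  (range (n + 1)).sup' ⟨0, by simp⟩ fun L => av T u L x

theorem av_le_mt {n L : ℕ} (h : L ≤ n) (x : X) : av T u L x ≤ mt T u n x :=
  Finset.le_sup' (fun L => av T u L x) (Finset.mem_range.2 (Nat.lt_succ_of_le h))

/-- **maximal ergodic inequality** (Garsia). Put `f = u - t`, `S_L = ∑_{l<L} f(T^l x)`,
`F(x) = max_{0 ≤ L ≤ n+1} S_L(x) ≥ 0`. `t ≤ mt n x` iff `max_{1≤L≤n+1} S_L(x) ≥ 0`; on this set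
`F(x) ≤ f(x) + F(T x)`, off this set `F(x) = 0 ≤ F(T x)`; sum over `x`. -/
theorem garsia (n : ℕ) (t : ℝ) :
    0 ≤ ∑ x, (if t ≤ mt T u n x then u x - t else 0) := by
  classical
  set S : ℕ → X → ℝ := fun L x => ∑ l ∈ range L, (u ((T ^ l) x) - t) with hS
  have hne : (range (n + 2)).Nonempty := ⟨0, by simp⟩
  set F : X → ℝ := fun x => (range (n + 2)).sup' hne fun L => S L x with hF
  have hSF : ∀ L, L ≤ n + 1 → ∀ x, S L x ≤ F x := fun L hL x =>
    Finset.le_sup' (fun L => S L x) (Finset.mem_range.2 (by omega))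
  have hS0 : ∀ x, S 0 x = 0 := fun x => by simp [hS]
  have hF0 : ∀ x, 0 ≤ F x := fun x => (hS0 x).symm.le.trans (hSF 0 (by omega) x)
  have hSs : ∀ L x, S (L + 1) x = (u x - t) + S L (T x) := by
    intro L x
    simp only [hS]
    rw [Finset.sum_range_succ', add_comm]
    congr 1
  have hav : ∀ L x, S (L + 1) x = ((L + 1 : ℕ) : ℝ) * (av T u L x - t) := by
    intro L x
    simp only [hS, av]
    rw [Finset.sum_sub_distrib, mul_sub, ← mul_assoc, mul_inv_cancel₀ (by positivity), one_mul]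
    simp
  have key : ∀ x, F x - F (T x) ≤ if t ≤ mt T u n x then u x - t else 0 := by
    intro x
    split_ifs with h
    · have h1 : ∀ L ∈ range (n + 2), S L x ≤ (u x - t) + F (T x) := by
        have h2 : ∀ L, L ≤ n → S (L + 1) x ≤ (u x - t) + F (T x) := by
          intro L hL
          rw [hSs]
          have := hSF L (by omega) (T x)
          linarith
        intro L hL
        rcases L with _ | L
        · obtain ⟨L', hL', h3⟩ := (Finset.le_sup'_iff (s := range (n + 1)) ⟨0, by simp⟩).1 h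
          have h4 := h2 L' (by simpa [Nat.lt_succ_iff] using hL')
          have h5 : 0 ≤ S (L' + 1) x := by
            rw [hav]
            exact mul_nonneg (by positivity) (sub_nonneg.2 h3)
          rw [hS0]
          linarith
        · exact h2 L (by have := Finset.mem_range.1 hL; omega)
      have h6 : F x ≤ (u x - t) + F (T x) := Finset.sup'_le hne _ h1
      linarith
    · have h1 : ∀ L ∈ range (n + 2), S L x ≤ 0 := by
        intro L hL
        rcases L with _ | L
        · rw [hS0]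
        · rw [hav]
          have h2 := av_le_mt T u (n := n) (L := L) (by have := Finset.mem_range.1 hL; omega) x
          have h3 : mt T u n x < t := not_le.1 h
          exact mul_nonpos_of_nonneg_of_nonpos (by positivity) (by linarith)
      have h6 : F x ≤ 0 := Finset.sup'_le hne _ h1
      have := hF0 (T x)
      linarith
  have h7 : ∑ x, (F x - F (T x)) = 0 := by
    rw [Finset.sum_sub_distrib, Equiv.sum_comp T F, sub_self]
  calc (0 : ℝ) = ∑ x, (F x - F (T x)) := h7.symm
    _ ≤ _ := Finset.sum_le_sum fun x _ => key x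

variable {T u}

private theorem av_nonneg' (hu : ∀ x, 0 ≤ u x) (L : ℕ) (x : X) : 0 ≤ av T u L x :=
  mul_nonneg (by positivity) (Finset.sum_nonneg fun l _ => hu _)

private theorem mt_nonneg' (hu : ∀ x, 0 ≤ u x) (n : ℕ) (x : X) : 0 ≤ mt T u n x :=
  (av_nonneg' hu 0 x).trans (av_le_mt T u (Nat.zero_le n) x)

private theorem ii_aux (p : ℝ) (hp : 1 < p) (c R : ℝ) :
    IntervalIntegrable (fun t : ℝ => t ^ (p - 2) * (c - t)) MeasureTheory.volume 0 R := by
  have h1 : IntervalIntegrable (fun t : ℝ => t ^ (p - 2)) MeasureTheory.volume 0 R :=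
    intervalIntegral.intervalIntegrable_rpow' (by linarith)
  exact h1.mul_continuousOn (by fun_prop)

private theorem int_aux (p : ℝ) (hp : 1 < p) (c M : ℝ) (hM : 0 ≤ M) :
    ∫ t in (0 : ℝ)..M, t ^ (p - 2) * (c - t) = c * (M ^ (p - 1) / (p - 1)) - M ^ p / p := by
  have h1 : ∫ t in (0 : ℝ)..M, t ^ (p - 2) * (c - t) =
      ∫ t in (0 : ℝ)..M, (c * t ^ (p - 2) - t ^ (p - 1)) := by
    refine intervalIntegral.integral_congr fun t ht => ?_
    rw [Set.uIcc_of_le hM] at ht
    have ht0 : 0 ≤ t := ht.1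
    have h2 : t ^ (p - 2) * t = t ^ (p - 1) := by
      rcases ht0.eq_or_lt with h | h
      · rw [← h, mul_zero, Real.zero_rpow (by linarith)]
      · rw [← Real.rpow_add_one h.ne']
        congr 1; ring
    show t ^ (p - 2) * (c - t) = c * t ^ (p - 2) - t ^ (p - 1)
    rw [mul_sub, h2]; ring
  have i1 : IntervalIntegrable (fun t : ℝ => t ^ (p - 2)) MeasureTheory.volume 0 M :=
    intervalIntegral.intervalIntegrable_rpow' (by linarith)
  have i2 : IntervalIntegrable (fun t : ℝ => t ^ (p - 1)) MeasureTheory.volume 0 M :=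
    intervalIntegral.intervalIntegrable_rpow' (by linarith)
  rw [h1, intervalIntegral.integral_sub (i1.const_mul c) i2, intervalIntegral.integral_const_mul,
    integral_rpow (Or.inl (by linarith)), integral_rpow (Or.inl (by linarith))]
  have e1 : p - 2 + 1 = p - 1 := by ring
  have e2 : p - 1 + 1 = p := by ring
  rw [e1, e2, Real.zero_rpow (by linarith), Real.zero_rpow (by linarith), sub_zero, sub_zero]

/-- `∑ M^p ≤ p/(p-1) ∑ u M^(p-1)`: multiply `garsia` by `t^(p-2)` and integrate over `t ∈ (0, R)`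
(`intervalIntegral.integral_indicator`, `integral_rpow`), `R ≥` all values. -/
theorem layer (hu : ∀ x, 0 ≤ u x) (n : ℕ) {p : ℝ} (hp : 1 < p) :
    ∑ x, (mt T u n x) ^ p ≤ p / (p - 1) * ∑ x, u x * (mt T u n x) ^ (p - 1) := by
  classical
  set M : X → ℝ := fun x => mt T u n x with hM
  have hM0 : ∀ x, 0 ≤ M x := fun x => mt_nonneg' hu n x
  set R : ℝ := ∑ x, M x with hR
  have hMR : ∀ x, M x ≤ R := fun x => Finset.single_le_sum (fun y _ => hM0 y) (Finset.mem_univ x)
  have hR0 : 0 ≤ R := Finset.sum_nonneg fun x _ => hM0 x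
  set g : X → ℝ → ℝ := fun x => Set.indicator {t | t ≤ M x} (fun t : ℝ => t ^ (p - 2) * (u x - t))
    with hg
  have hint : ∀ x, IntervalIntegrable (g x) MeasureTheory.volume 0 R := by
    intro x
    rw [intervalIntegrable_iff_integrableOn_Ioc_of_le hR0]
    have := (intervalIntegrable_iff_integrableOn_Ioc_of_le hR0).1 (ii_aux p hp (u x) R)
    exact MeasureTheory.Integrable.indicator this measurableSet_Iic
  have hval : ∀ x, ∫ t in (0 : ℝ)..R, g x t = u x * (M x ^ (p - 1) / (p - 1)) - M x ^ p / p := by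
    intro x
    rw [hg]
    show ∫ t in (0 : ℝ)..R, Set.indicator {t | t ≤ M x} (fun t : ℝ => t ^ (p - 2) * (u x - t)) t = _
    rw [intervalIntegral.integral_indicator ⟨hM0 x, hMR x⟩, int_aux p hp (u x) (M x) (hM0 x)]
  have hnn : 0 ≤ ∫ t in (0 : ℝ)..R, ∑ x, g x t := by
    refine intervalIntegral.integral_nonneg hR0 fun t ht => ?_
    have h1 : ∑ x, g x t = t ^ (p - 2) * ∑ x, (if t ≤ mt T u n x then u x - t else 0) := by
      rw [Finset.mul_sum]
      refine Finset.sum_congr rfl fun x _ => ?_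
      simp only [hg, Set.indicator_apply, Set.mem_setOf_eq, hM]
      split_ifs <;> simp
    rw [h1]
    exact mul_nonneg (Real.rpow_nonneg ht.1 _) (garsia T u n t)
  rw [intervalIntegral.integral_finset_sum (fun x _ => hint x), Finset.sum_congr rfl fun x _ => hval x,
    Finset.sum_sub_distrib] at hnn
  have hp0 : 0 < p := by linarith
  have hp1 : 0 < p - 1 := by linarith
  have h3 : ∑ x, M x ^ p / p = (∑ x, M x ^ p) / p := by rw [Finset.sum_div]
  have h4 : ∑ x, u x * (M x ^ (p - 1) / (p - 1)) = (∑ x, u x * M x ^ (p - 1)) / (p - 1) := by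
    rw [Finset.sum_div]
    exact Finset.sum_congr rfl fun x _ => by ring
  rw [h3, h4] at hnn
  have h5 : (∑ x, M x ^ p) / p ≤ (∑ x, u x * M x ^ (p - 1)) / (p - 1) := by linarith
  rw [div_le_iff₀ hp0] at h5
  calc ∑ x, M x ^ p ≤ (∑ x, u x * M x ^ (p - 1)) / (p - 1) * p := h5
    _ = p / (p - 1) * ∑ x, u x * M x ^ (p - 1) := by ring

/-- strong type `(p,p)` for the truncated maximal function (Hölder `Real.inner_le_Lp_mul_Lq`) -/
theorem strong_mt (hu : ∀ x, 0 ≤ u x) (n : ℕ) {p : ℝ} (hp : 1 < p) :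
    ∑ x, (mt T u n x) ^ p ≤ (p / (p - 1)) ^ p * ∑ x, (u x) ^ p := by
  have hp0 : 0 < p := by linarith
  have hp1 : 0 < p - 1 := by linarith
  have hM0 : ∀ x, 0 ≤ mt T u n x := fun x => mt_nonneg' hu n x
  have hpq : p.HolderConjugate (p / (p - 1)) := Real.HolderConjugate.conjExponent hp
  set A : ℝ := ∑ x, (mt T u n x) ^ p with hA
  set B : ℝ := ∑ x, (u x) ^ p with hB
  have hA0 : 0 ≤ A := Finset.sum_nonneg fun x _ => Real.rpow_nonneg (hM0 x) _
  have hB0 : 0 ≤ B := Finset.sum_nonneg fun x _ => Real.rpow_nonneg (hu x) _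
  have h1 := layer (T := T) hu n hp
  have h2 := Real.inner_le_Lp_mul_Lq_of_nonneg Finset.univ hpq (f := u)
    (g := fun x => (mt T u n x) ^ (p - 1)) (fun x _ => hu x)
    (fun x _ => Real.rpow_nonneg (hM0 x) _)
  have h3 : ∑ x, ((mt T u n x) ^ (p - 1)) ^ (p / (p - 1)) = A := by
    refine Finset.sum_congr rfl fun x _ => ?_
    rw [← Real.rpow_mul (hM0 x)]
    congr 1; field_simp
  rw [h3] at h2
  have hc0 : 0 ≤ p / (p - 1) := by positivity
  have h4 : A ≤ p / (p - 1) * (B ^ (1 / p) * A ^ (1 / (p / (p - 1)))) :=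
    h1.trans (mul_le_mul_of_nonneg_left h2 hc0)
  rcases hA0.eq_or_lt with h0 | hpos
  · rw [← h0]; positivity
  have h5 : A ^ (1 / p) ≤ p / (p - 1) * B ^ (1 / p) := by
    have h6 : A = A ^ (1 / p) * A ^ (1 / (p / (p - 1))) := by
      rw [← Real.rpow_add hpos]
      have : 1 / p + 1 / (p / (p - 1)) = 1 := by field_simp; ring
      rw [this, Real.rpow_one]
    have h7 : 0 < A ^ (1 / (p / (p - 1))) := Real.rpow_pos_of_pos hpos _
    refine le_of_mul_le_mul_right ?_ h7
    rw [← h6]
    calc A ≤ _ := h4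
      _ = _ := by ring
  have h8 : (A ^ (1 / p)) ^ p ≤ (p / (p - 1) * B ^ (1 / p)) ^ p :=
    Real.rpow_le_rpow (Real.rpow_nonneg hA0 _) h5 hp0.le
  rw [← Real.rpow_mul hA0, Real.mul_rpow hc0 (Real.rpow_nonneg hB0 _), ← Real.rpow_mul hB0] at h8
  have h9 : 1 / p * p = 1 := by field_simp
  rw [h9, Real.rpow_one, Real.rpow_one] at h8
  exact h8

/-- strong type for a choice of lengths -/
theorem strong_av (T : X ≃ X) (hu : ∀ x, 0 ≤ u x) (L : X → ℕ) {p : ℝ} (hp : 1 < p) :
    ∑ x, (av T u (L x) x) ^ p ≤ (p / (p - 1)) ^ p * ∑ x, (u x) ^ p := by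
  refine le_trans (Finset.sum_le_sum fun x _ => ?_) (strong_mt (T := T) hu (∑ y, L y) hp)
  refine Real.rpow_le_rpow (av_nonneg' hu _ x) (av_le_mt T u ?_ x) (by linarith)
  exact Finset.single_le_sum (f := L) (fun y _ => Nat.zero_le _) (Finset.mem_univ x)

end Crest.Agent.R72.HL
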