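import Crest.Agent.R72.HL0
import Crest.Agent.R72.HL1

/-!
# Row 72, module HL (helper44), part 2: window averages and the maximal function `mx` on `ZMod N`
-/

set_option autoImplicit false

namespace Crest.Agent.R72

open Finset

variable {N : ℕ} [NeZero N]

/-- average over the window `[x - a, x + b]` -/
noncomputable def wavg (u : ZMod N → ℝ) (a b : ℕ) (x : ZMod N) : ℝ :=
  (((a + b + 1 : ℕ) : ℝ))⁻¹ * ∑ l ∈ range (a + b + 1), u (x - (a : ZMod N) + (l : ZMod N))

theorem mx_eq (u : ZMod N → ℝ) (x : ZMod N) : mx u x = ⨆ p : ℕ × ℕ, wavg u p.1 p.2 x := rfl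

theorem wavg_mono {u v : ZMod N → ℝ} (h : ∀ y, u y ≤ v y) (a b : ℕ) (x : ZMod N) :
    wavg u a b x ≤ wavg v a b x := by
  unfold wavg
  exact mul_le_mul_of_nonneg_left (Finset.sum_le_sum fun l _ => h _) (by positivity)

theorem wavg_nonneg {u : ZMod N → ℝ} (h : ∀ y, 0 ≤ u y) (a b : ℕ) (x : ZMod N) :
    0 ≤ wavg u a b x := by
  unfold wavg
  exact mul_nonneg (by positivity) (Finset.sum_nonneg fun l _ => h _)

theorem wavg_bdd (u : ZMod N → ℝ) (x : ZMod N) :
    BddAbove (Set.range fun p : ℕ × ℕ => wavg u p.1 p.2 x) := by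
  refine ⟨∑ y, |u y|, ?_⟩
  rintro _ ⟨p, rfl⟩
  show wavg u p.1 p.2 x ≤ ∑ y, |u y|
  have h1 : ∀ y, u y ≤ ∑ y, |u y| := fun y =>
    (le_abs_self _).trans (Finset.single_le_sum (f := fun y => |u y|) (fun _ _ => abs_nonneg _)
      (Finset.mem_univ y))
  have h2 : ∑ l ∈ range (p.1 + p.2 + 1), u (x - (p.1 : ZMod N) + (l : ZMod N)) ≤
      ((p.1 + p.2 + 1 : ℕ) : ℝ) * ∑ y, |u y| := by
    refine (Finset.sum_le_sum fun l _ => h1 _).trans (le_of_eq ?_)
    rw [Finset.sum_const, Finset.card_range, nsmul_eq_mul]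
  have h3 : (0 : ℝ) < ((p.1 + p.2 + 1 : ℕ) : ℝ) := by positivity
  unfold wavg
  rw [inv_mul_le_iff₀ h3]
  exact h2

theorem wavg_le_mx (u : ZMod N → ℝ) (a b : ℕ) (x : ZMod N) : wavg u a b x ≤ mx u x := by
  rw [mx_eq]
  exact le_ciSup (wavg_bdd u x) (a, b)

theorem le_mx (u : ZMod N → ℝ) (x : ZMod N) : u x ≤ mx u x := by
  have h := wavg_le_mx u 0 0 x
  have h1 : wavg u 0 0 x = u x := by simp [wavg]
  rwa [h1] at h

theorem mx_nonneg {u : ZMod N → ℝ} (h : ∀ y, 0 ≤ u y) (x : ZMod N) : 0 ≤ mx u x := by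
  exact (wavg_nonneg h 0 0 x).trans (wavg_le_mx u 0 0 x)

theorem mx_mono {u v : ZMod N → ℝ} (h : ∀ y, u y ≤ v y) (x : ZMod N) : mx u x ≤ mx v x := by
  rw [mx_eq]
  exact ciSup_le fun p => (wavg_mono h p.1 p.2 x).trans (wavg_le_mx v p.1 p.2 x)

theorem mx_add_le (u v : ZMod N → ℝ) (x : ZMod N) :
    mx (fun y => u y + v y) x ≤ mx u x + mx v x := by
  rw [mx_eq]
  refine ciSup_le fun p => ?_
  have h1 : wavg (fun y => u y + v y) p.1 p.2 x = wavg u p.1 p.2 x + wavg v p.1 p.2 x := by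
    unfold wavg
    rw [Finset.sum_add_distrib, mul_add]
  rw [h1]
  exact add_le_add (wavg_le_mx u p.1 p.2 x) (wavg_le_mx v p.1 p.2 x)

theorem mx_const_mul {c : ℝ} (hc : 0 ≤ c) (u : ZMod N → ℝ) (x : ZMod N) :
    mx (fun y => c * u y) x = c * mx u x := by
  rw [mx_eq, mx_eq, Real.mul_iSup_of_nonneg hc]
  refine iSup_congr fun p => ?_
  unfold wavg
  rw [← Finset.mul_sum]
  ring

/-- a window containing `x` -/
theorem sum_window_le (u : ZMod N → ℝ) (a b : ℕ) (x : ZMod N) :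
    ∑ l ∈ range (a + b + 1), u (x - (a : ZMod N) + (l : ZMod N)) ≤ ((a + b + 1 : ℕ) : ℝ) * mx u x := by
  have h := wavg_le_mx u a b x
  have h3 : (0 : ℝ) < ((a + b + 1 : ℕ) : ℝ) := by positivity
  unfold wavg at h
  rwa [inv_mul_le_iff₀ h3] at h

/-- a window `[y, y + L)` inside `[x - a, x + b]`: `y = x - a + c`, `c + L ≤ a + b + 1` -/
theorem sum_window_le' {u : ZMod N → ℝ} (hu : ∀ y, 0 ≤ u y) {a b c L : ℕ} (h : c + L ≤ a + b + 1)
    (x : ZMod N) :
    ∑ l ∈ range L, u (x - (a : ZMod N) + (c : ZMod N) + (l : ZMod N)) ≤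
      ((a + b + 1 : ℕ) : ℝ) * mx u x := by
  refine le_trans ?_ (sum_window_le u a b x)
  have h1 : ∑ l ∈ range L, u (x - (a : ZMod N) + (c : ZMod N) + (l : ZMod N)) =
      ∑ m ∈ Ico c (c + L), u (x - (a : ZMod N) + (m : ZMod N)) := by
    rw [Finset.sum_Ico_eq_sum_range, Nat.add_sub_cancel_left]
    refine Finset.sum_congr rfl fun l _ => ?_
    congr 1
    push_cast
    ring
  rw [h1]
  refine Finset.sum_le_sum_of_subset_of_nonneg ?_ fun _ _ _ => hu _
  intro m hm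
  rw [Finset.mem_Ico] at hm
  rw [Finset.mem_range]
  omega

/-- adjoint of a window average -/
theorem sum_wavg_mul (u w : ZMod N → ℝ) (a b : ℕ) :
    ∑ x, wavg u a b x * w x = ∑ x, u x * wavg w b a x := by
  unfold wavg
  have e1 : ∀ x, (((a + b + 1 : ℕ) : ℝ))⁻¹ *
      (∑ l ∈ range (a + b + 1), u (x - (a : ZMod N) + (l : ZMod N))) * w x =
      ∑ l ∈ range (a + b + 1), (((a + b + 1 : ℕ) : ℝ))⁻¹ *
        (u (x - (a : ZMod N) + (l : ZMod N)) * w x) := by
    intro x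
    rw [Finset.mul_sum, Finset.sum_mul]
    exact Finset.sum_congr rfl fun l _ => by ring
  have e2 : ∀ x, u x * ((((b + a + 1 : ℕ) : ℝ))⁻¹ *
      ∑ l ∈ range (b + a + 1), w (x - (b : ZMod N) + (l : ZMod N))) =
      ∑ l ∈ range (a + b + 1), (((a + b + 1 : ℕ) : ℝ))⁻¹ *
        (u x * w (x + (a : ZMod N) - (l : ZMod N))) := by
    intro x
    rw [Finset.mul_sum, Finset.mul_sum, add_comm b a, ← Finset.sum_range_reflect]
    refine Finset.sum_congr rfl fun l hl => ?_
    rw [Finset.mem_range] at hl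
    have h1 : ((a + b + 1 - 1 - l : ℕ) : ZMod N) = (a : ZMod N) + b - l := by
      rw [Nat.add_sub_cancel, Nat.cast_sub (by omega)]
      push_cast
      ring
    rw [h1]
    have h2 : x - (b : ZMod N) + ((a : ZMod N) + b - l) = x + (a : ZMod N) - (l : ZMod N) := by ring
    rw [h2]
    ring
  simp only [e1, e2]
  rw [Finset.sum_comm]
  conv_rhs => rw [Finset.sum_comm]
  refine Finset.sum_congr rfl fun l _ => ?_
  rw [← Equiv.sum_comp (Equiv.addRight ((a : ZMod N) - (l : ZMod N)))]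
  refine Finset.sum_congr rfl fun x _ => ?_
  have h1 : (Equiv.addRight ((a : ZMod N) - (l : ZMod N))) x - (a : ZMod N) + (l : ZMod N) = x := by
    simp only [Equiv.coe_addRight]
    ring
  have h2 : (Equiv.addRight ((a : ZMod N) - (l : ZMod N))) x = x + (a : ZMod N) - (l : ZMod N) := by
    simp only [Equiv.coe_addRight]
    ring
  rw [h1, h2]

/-- a window average is at most the sum of the two one-sided averages -/
theorem wavg_le_add {u : ZMod N → ℝ} (hu : ∀ y, 0 ≤ u y) (a b : ℕ) (x : ZMod N) :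
    wavg u a b x ≤ HL.av (Equiv.addRight (1 : ZMod N)).symm u a x
      + HL.av (Equiv.addRight (1 : ZMod N)) u b x := by
  have hT : ∀ (l : ℕ) (y : ZMod N), ((Equiv.addRight (1 : ZMod N)) ^ l) y = y + l := by
    intro l
    induction l with
    | zero => intro y; simp
    | succ l ih =>
      intro y
      rw [pow_succ, Equiv.Perm.mul_apply, ih]
      simp only [Equiv.coe_addRight]
      push_cast
      ring
  have hT' : ∀ (l : ℕ) (y : ZMod N), ((Equiv.addRight (1 : ZMod N)).symm ^ l) y = y - l := by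
    intro l
    induction l with
    | zero => intro y; simp
    | succ l ih =>
      intro y
      rw [pow_succ, Equiv.Perm.mul_apply, ih]
      simp only [Equiv.addRight_symm, Equiv.coe_addRight]
      push_cast
      ring
  unfold HL.av wavg
  simp only [hT, hT']
  have e1 : ∑ l ∈ range (a + b + 1), u (x - (a : ZMod N) + (l : ZMod N)) =
      ∑ l ∈ range (a + 1), u (x - (l : ZMod N)) + ∑ l ∈ range b, u (x + ((l + 1 : ℕ) : ZMod N)) := by
    rw [show a + b + 1 = (a + 1) + b by ring, Finset.sum_range_add]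
    congr 1
    · rw [← Finset.sum_range_reflect]
      refine Finset.sum_congr rfl fun l hl => ?_
      rw [Finset.mem_range] at hl
      congr 1
      rw [Nat.add_sub_cancel, Nat.cast_sub (by omega)]
      ring
    · refine Finset.sum_congr rfl fun l _ => ?_
      congr 1
      push_cast
      ring
  have e2 : ∑ l ∈ range b, u (x + ((l + 1 : ℕ) : ZMod N)) ≤
      ∑ l ∈ range (b + 1), u (x + (l : ZMod N)) := by
    rw [Finset.sum_range_succ']
    have := hu (x + ((0 : ℕ) : ZMod N))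
    linarith
  rw [e1, mul_add]
  have n1 : 0 ≤ ∑ l ∈ range (a + 1), u (x - (l : ZMod N)) := Finset.sum_nonneg fun _ _ => hu _
  have n2 : 0 ≤ ∑ l ∈ range b, u (x + ((l + 1 : ℕ) : ZMod N)) := Finset.sum_nonneg fun _ _ => hu _
  have i1 : (((a + b + 1 : ℕ) : ℝ))⁻¹ ≤ (((a + 1 : ℕ) : ℝ))⁻¹ := by
    apply inv_anti₀ (by positivity)
    push_cast
    have : (0 : ℝ) ≤ b := by positivity
    linarith
  have i2 : (((a + b + 1 : ℕ) : ℝ))⁻¹ ≤ (((b + 1 : ℕ) : ℝ))⁻¹ := by
    apply inv_anti₀ (by positivity)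
    push_cast
    have : (0 : ℝ) ≤ a := by positivity
    linarith
  exact add_le_add (mul_le_mul_of_nonneg_right i1 n1)
    ((mul_le_mul_of_nonneg_right i2 n2).trans (mul_le_mul_of_nonneg_left e2 (by positivity)))

/-- **Hardy–Littlewood** on `ZMod N`: two-sided maximal function, any exponent `p > 1`.
From `HL.strong_av` for the two translations, choice of nearly optimal windows (`wavg_le_add`,
`(α + β)^p ≤ 2^(p-1) (α^p + β^p)`: `Real.add_rpow_le...`/`inner_le_nnorm_mul_nnorm`), and a limit. -/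
theorem hl_p {u : ZMod N → ℝ} (hu : ∀ y, 0 ≤ u y) {p : ℝ} (hp : 1 < p) :
    ∑ x, (mx u x) ^ p ≤ (2 * (p / (p - 1))) ^ p * ∑ x, (u x) ^ p := by
  have hp0 : 0 < p := by linarith
  have hav : ∀ (T : ZMod N ≃ ZMod N) (L : ℕ) (x : ZMod N), 0 ≤ HL.av T u L x := fun T L x =>
    mul_nonneg (by positivity) (Finset.sum_nonneg fun _ _ => hu _)
  -- choice of windows
  have h1 : ∀ a b : ZMod N → ℕ, ∑ x, (wavg u (a x) (b x) x) ^ p
      ≤ (2 * (p / (p - 1))) ^ p * ∑ x, (u x) ^ p := by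
    intro a b
    have h2 : ∀ x, (wavg u (a x) (b x) x) ^ p ≤ 2 ^ p / 2 *
        ((HL.av (Equiv.addRight (1 : ZMod N)).symm u (a x) x) ^ p
          + (HL.av (Equiv.addRight (1 : ZMod N)) u (b x) x) ^ p) := by
      intro x
      set α := HL.av (Equiv.addRight (1 : ZMod N)).symm u (a x) x with hα
      set β := HL.av (Equiv.addRight (1 : ZMod N)) u (b x) x with hβ
      have h0α : 0 ≤ α := hav _ _ _
      have h0β : 0 ≤ β := hav _ _ _
      have h3 : (1 / 2 * α + 1 / 2 * β) ^ p ≤ 1 / 2 * α ^ p + 1 / 2 * β ^ p :=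
        (convexOn_rpow hp.le).2 (Set.mem_Ici.2 h0α) (Set.mem_Ici.2 h0β)
          (by norm_num : (0 : ℝ) ≤ 1 / 2) (by norm_num : (0 : ℝ) ≤ 1 / 2) (by norm_num)
      calc (wavg u (a x) (b x) x) ^ p ≤ (α + β) ^ p :=
            Real.rpow_le_rpow (wavg_nonneg hu _ _ _) (wavg_le_add hu _ _ _) hp0.le
        _ = 2 ^ p * (1 / 2 * α + 1 / 2 * β) ^ p := by
            rw [← Real.mul_rpow (by norm_num) (by positivity)]
            congr 1
            ring
        _ ≤ 2 ^ p * (1 / 2 * α ^ p + 1 / 2 * β ^ p) :=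
            mul_le_mul_of_nonneg_left h3 (by positivity)
        _ = _ := by ring
    refine (Finset.sum_le_sum fun x _ => h2 x).trans ?_
    rw [← Finset.mul_sum, Finset.sum_add_distrib]
    have h4 := HL.strong_av (Equiv.addRight (1 : ZMod N)).symm hu a hp
    have h5 := HL.strong_av (Equiv.addRight (1 : ZMod N)) hu b hp
    have h6 : (0 : ℝ) ≤ p / (p - 1) := div_nonneg hp0.le (by linarith)
    rw [Real.mul_rpow (by norm_num) h6]
    calc (2 : ℝ) ^ p / 2 * (∑ x, (HL.av (Equiv.addRight (1 : ZMod N)).symm u (a x) x) ^ p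
          + ∑ x, (HL.av (Equiv.addRight (1 : ZMod N)) u (b x) x) ^ p)
        ≤ (2 : ℝ) ^ p / 2 * ((p / (p - 1)) ^ p * ∑ x, (u x) ^ p
          + (p / (p - 1)) ^ p * ∑ x, (u x) ^ p) :=
          mul_le_mul_of_nonneg_left (add_le_add h4 h5) (by positivity)
      _ = _ := by ring
  -- limit
  have h2 : ∀ (n : ℕ) (x : ZMod N), ∃ q : ℕ × ℕ, mx u x - 1 / ((n : ℝ) + 1) < wavg u q.1 q.2 x := by
    intro n x
    have h3 : mx u x - 1 / ((n : ℝ) + 1) < mx u x := by
      have : (0 : ℝ) < 1 / ((n : ℝ) + 1) := by positivity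
      linarith
    exact exists_lt_of_lt_ciSup h3
  choose q hq using h2
  have h3 : ∀ x, Filter.Tendsto (fun n => wavg u (q n x).1 (q n x).2 x) Filter.atTop
      (nhds (mx u x)) := by
    intro x
    have h4 : Filter.Tendsto (fun n : ℕ => mx u x - 1 / ((n : ℝ) + 1)) Filter.atTop
        (nhds (mx u x - 0)) := tendsto_const_nhds.sub tendsto_one_div_add_atTop_nhds_zero_nat
    rw [sub_zero] at h4
    exact tendsto_of_tendsto_of_tendsto_of_le_of_le h4 tendsto_const_nhds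
      (fun n => (hq n x).le) (fun n => wavg_le_mx u _ _ x)
  have h4 : Filter.Tendsto (fun n => ∑ x, (wavg u (q n x).1 (q n x).2 x) ^ p) Filter.atTop
      (nhds (∑ x, (mx u x) ^ p)) :=
    tendsto_finsetSum _ fun x _ => (h3 x).rpow_const (Or.inr hp0.le)
  exact le_of_tendsto' h4 fun n => h1 (fun x => (q n x).1) fun x => (q n x).2

theorem hl_three {u : ZMod N → ℝ} (hu : ∀ y, 0 ≤ u y) :
    ∑ x, (mx u x) ^ 3 ≤ 27 * ∑ x, (u x) ^ 3 := by
  have h := hl_p hu (p := ((3 : ℕ) : ℝ)) (by norm_num)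
  simp only [Real.rpow_natCast] at h
  refine h.trans (le_of_eq ?_)
  congr 1
  norm_num

theorem hl_three_half {u : ZMod N → ℝ} (hu : ∀ y, 0 ≤ u y) :
    ∑ x, (mx u x) ^ (3 / 2 : ℝ) ≤ 27 * ∑ x, (u x) ^ (3 / 2 : ℝ) := by
  have h := hl_p hu (p := (3 / 2 : ℝ)) (by norm_num)
  refine h.trans (mul_le_mul_of_nonneg_right ?_
    (Finset.sum_nonneg fun x _ => Real.rpow_nonneg (hu x) _))
  have h1 : (2 * ((3 / 2 : ℝ) / (3 / 2 - 1))) = 6 := by norm_num
  rw [h1]
  calc (6 : ℝ) ^ (3 / 2 : ℝ) ≤ 9 ^ (3 / 2 : ℝ) :=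
        Real.rpow_le_rpow (by norm_num) (by norm_num) (by norm_num)
    _ = ((3 : ℝ) ^ (2 : ℝ)) ^ (3 / 2 : ℝ) := by norm_num
    _ = 27 := by
        rw [← Real.rpow_mul (by norm_num)]
        norm_num

end Crest.Agent.R72
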