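import Mathlib

/-!
Row 72, module K (kernel decomposition), ring level identities.

`σ : ℤ → R` is a "shift": `σ 0 = 1`, `σ (a + b) = σ a * σ b` in a commutative `ℂ`-algebra.
`bb k = ∑_{i < 2^k} σ i`, `AA k = 8^{-k} bb(k)^3 σ(-(2^k - 1))`,
`DD k m = AA k * (σ(m 2^k) - σ((m+1) 2^k))`, `HH k m = (1/8) AA k (1 - σ(2^k))^3 σ(m 2^k)`.

With `w = σ (2^k)`, `w⁻¹ = σ (-2^k)` everything is a Laurent polynomial identity in `w` after
`bb (k+1) = bb k * (1 + w)` (split `range (2^(k+1))`), i.e. `AA (k+1) = AA k (w⁻¹ + 3 + 3 w + w²)/8`.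
-/

set_option autoImplicit false

namespace Crest.Agent.R72.K

open Finset

variable {R : Type*} [CommRing R] [Algebra ℂ R]

/-- Axioms for the shift. -/
structure IsShift (σ : ℤ → R) : Prop where
  zero : σ 0 = 1
  add : ∀ a b, σ (a + b) = σ a * σ b

/-- Box of length `2^k`. -/
noncomputable def bb (σ : ℤ → R) (k : ℕ) : R := ∑ i ∈ range (2 ^ k), σ (i : ℤ)

/-- Centred cube of the normalised box. -/
noncomputable def AA (σ : ℤ → R) (k : ℕ) : R :=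
  ((1 / 8 : ℂ) ^ k) • (bb σ k ^ 3 * σ (-(2 ^ k - 1)))

/-- First differences. -/
noncomputable def DD (σ : ℤ → R) (k : ℕ) (m : ℤ) : R :=
  AA σ k * (σ (m * 2 ^ k) - σ ((m + 1) * 2 ^ k))

/-- Third differences (Haar cubed). -/
noncomputable def HH (σ : ℤ → R) (k : ℕ) (m : ℤ) : R :=
  (1 / 8 : ℂ) • (AA σ k * (1 - σ (2 ^ k)) ^ 3 * σ (m * 2 ^ k))

/-- `AA (k+1) = AA k (w⁻¹ + 3 + 3 w + w²)/8`.
Proof: `bb (k+1) = bb k * (1 + w)` (`Finset.sum_range_add`/`pow_succ`), cube, and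
`-(2^(k+1) - 1) = -(2^k - 1) - 2^k`. -/
theorem AA_succ (σ : ℤ → R) (h : IsShift σ) (k : ℕ) :
    AA σ (k + 1) = (1 / 8 : ℂ) • (AA σ k * (σ (-2 ^ k) + 3 + 3 * σ (2 ^ k) + σ (2 ^ k) ^ 2)) := by
  have h1 : bb σ (k + 1) = bb σ k * (1 + σ (2 ^ k)) := by
    unfold bb
    rw [pow_succ, mul_two, Finset.sum_range_add]
    have h2 : ∀ i ∈ range (2 ^ k), σ (((2 ^ k + i : ℕ)) : ℤ) = σ (2 ^ k) * σ (i : ℤ) := by
      intro i _
      rw [← h.add]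
      norm_num
    rw [Finset.sum_congr rfl h2, ← Finset.mul_sum]
    ring
  have h3 : σ (-(2 ^ (k + 1) - 1)) = σ (-(2 ^ k - 1)) * σ (-2 ^ k) := by
    rw [← h.add]
    congr 1
    ring
  have hw : σ (2 ^ k) * σ (-2 ^ k) = 1 := by
    rw [← h.add, add_neg_cancel, h.zero]
  unfold AA
  rw [h1, h3, pow_succ', mul_smul, smul_mul_assoc]
  congr 2
  linear_combination (bb σ k ^ 3 * σ (-(2 ^ k - 1)) * (3 + 3 * σ (2 ^ k) + σ (2 ^ k) ^ 2)) * hw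

/-- `AA (k+1) w = (1/8) AA k (1+w)^3` -/
private theorem AA_mul_w (σ : ℤ → R) (h : IsShift σ) (k : ℕ) :
    AA σ (k + 1) * σ (2 ^ k) = algebraMap ℂ R (1 / 8) * AA σ k * (1 + σ (2 ^ k)) ^ 3 := by
  have hw : σ (2 ^ k) * σ (-2 ^ k) = 1 := by
    rw [← h.add, add_neg_cancel, h.zero]
  rw [AA_succ σ h k, Algebra.smul_def]
  linear_combination (algebraMap ℂ R (1 / 8) * AA σ k) * hw

omit [CommRing R] [Algebra ℂ R] in
private theorem eight_e {R : Type*} [CommRing R] [Algebra ℂ R] :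
    (8 : R) * algebraMap ℂ R (1 / 8) = 1 := by
  have h1 : (8 : R) = algebraMap ℂ R 8 := (map_ofNat _ 8).symm
  rw [h1, ← map_mul]
  norm_num

omit [CommRing R] [Algebra ℂ R] in
private theorem half_e {R : Type*} [CommRing R] [Algebra ℂ R] :
    algebraMap ℂ R (1 / 2) = 4 * algebraMap ℂ R (1 / 8) := by
  have h1 : (4 : R) = algebraMap ℂ R 4 := (map_ofNat _ 4).symm
  rw [h1, ← map_mul]
  norm_num

omit [CommRing R] [Algebra ℂ R] in
private theorem quarter_e {R : Type*} [CommRing R] [Algebra ℂ R] :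
    algebraMap ℂ R (1 / 4) = 2 * algebraMap ℂ R (1 / 8) := by
  have h1 : (2 : R) = algebraMap ℂ R 2 := (map_ofNat _ 2).symm
  rw [h1, ← map_mul]
  norm_num

/-- `DD k (2m+1) = 1/2 DD (k+1) m - 1/2 (HH k (2m-1) + 6 HH k (2m) + HH k (2m+1))`.
Proof: rewrite `AA (k+1)` by `AA_succ`, all shifts as `σ(2 m 2^k)` times powers of `w = σ(2^k)` and
`wi = σ(-2^k)`, `w * wi = 1`; the identity is `16 w² - (1+w)^4 = -(1-w)² (1 + 6 w + w²)`. -/
theorem DD_odd (σ : ℤ → R) (h : IsShift σ) (k : ℕ) (m : ℤ) :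
    DD σ k (2 * m + 1) = (1 / 2 : ℂ) • DD σ (k + 1) m -
      (1 / 2 : ℂ) • (HH σ k (2 * m - 1) + (6 : ℂ) • HH σ k (2 * m) + HH σ k (2 * m + 1)) := by
  have hA := AA_mul_w σ h k
  have h8 : (8 : R) * algebraMap ℂ R (1 / 8) = 1 := eight_e
  have h2' : algebraMap ℂ R (1 / 2) = 4 * algebraMap ℂ R (1 / 8) := half_e
  have h4' : algebraMap ℂ R (1 / 4) = 2 * algebraMap ℂ R (1 / 8) := quarter_e
  have h6' : algebraMap ℂ R 6 = 6 := map_ofNat _ 6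
  have h18' : algebraMap ℂ R 18 = 18 := map_ofNat _ 18
  have e0 : σ ((2 * m) * 2 ^ k) = σ ((2 * m - 1) * 2 ^ k) * σ (2 ^ k) := by
    rw [← h.add]; congr 1; ring
  have e1 : σ ((2 * m + 1) * 2 ^ k) = σ ((2 * m - 1) * 2 ^ k) * σ (2 ^ k) ^ 2 := by
    rw [pow_two, ← h.add, ← h.add]; congr 1; ring
  have e2 : σ ((2 * m + 1 + 1) * 2 ^ k) = σ ((2 * m - 1) * 2 ^ k) * σ (2 ^ k) ^ 3 := by
    rw [pow_succ, pow_two, ← h.add, ← h.add, ← h.add]; congr 1; ring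
  have e3 : σ (m * 2 ^ (k + 1)) = σ ((2 * m - 1) * 2 ^ k) * σ (2 ^ k) := by
    rw [← h.add]; congr 1; ring
  have e4 : σ ((m + 1) * 2 ^ (k + 1)) = σ ((2 * m - 1) * 2 ^ k) * σ (2 ^ k) ^ 3 := by
    rw [pow_succ (σ (2 ^ k)), pow_two, ← h.add, ← h.add, ← h.add]; congr 1; ring
  unfold DD HH
  simp only [Algebra.smul_def, h2', h6']
  rw [e0, e1, e2, e3, e4]
  generalize σ ((2 * m - 1) * 2 ^ k) = U
  generalize σ (2 ^ k) = w at *
  generalize AA σ k = A at *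
  generalize AA σ (k + 1) = A1 at *
  generalize algebraMap ℂ R (1 / 8) = e at *
  linear_combination (-4 * e * U * (1 - w ^ 2)) * hA - A * U * (1 - w) * w ^ 2 * (8 * e + 1) * h8

/-- `DD k (2m) = 1/4 (DD (k+1) m + DD (k+1) (m-1))
  - 1/4 (HH (2m-3) + 6 HH (2m-2) + 18 HH (2m-1) + 6 HH (2m) + HH (2m+1))`.
The identity is `32 w³ - (1+w)^4 (1+w²) = -(1-w)² (1 + 6w + 18w² + 6w³ + w⁴)`. -/
theorem DD_even (σ : ℤ → R) (h : IsShift σ) (k : ℕ) (m : ℤ) :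
    DD σ k (2 * m) = (1 / 4 : ℂ) • (DD σ (k + 1) m + DD σ (k + 1) (m - 1)) -
      (1 / 4 : ℂ) • (HH σ k (2 * m - 3) + (6 : ℂ) • HH σ k (2 * m - 2) +
        (18 : ℂ) • HH σ k (2 * m - 1) + (6 : ℂ) • HH σ k (2 * m) + HH σ k (2 * m + 1)) := by
  have hA := AA_mul_w σ h k
  have h8 : (8 : R) * algebraMap ℂ R (1 / 8) = 1 := eight_e
  have h2' : algebraMap ℂ R (1 / 2) = 4 * algebraMap ℂ R (1 / 8) := half_e
  have h4' : algebraMap ℂ R (1 / 4) = 2 * algebraMap ℂ R (1 / 8) := quarter_e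
  have h6' : algebraMap ℂ R 6 = 6 := map_ofNat _ 6
  have h18' : algebraMap ℂ R 18 = 18 := map_ofNat _ 18
  have e0 : σ ((2 * m - 2) * 2 ^ k) = σ ((2 * m - 3) * 2 ^ k) * σ (2 ^ k) := by
    rw [← h.add]; congr 1; ring
  have e1 : σ ((2 * m - 1) * 2 ^ k) = σ ((2 * m - 3) * 2 ^ k) * σ (2 ^ k) ^ 2 := by
    rw [pow_two, ← h.add, ← h.add]; congr 1; ring
  have e2 : σ ((2 * m) * 2 ^ k) = σ ((2 * m - 3) * 2 ^ k) * σ (2 ^ k) ^ 3 := by
    rw [pow_succ, pow_two, ← h.add, ← h.add, ← h.add]; congr 1; ring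
  have e3 : σ ((2 * m + 1) * 2 ^ k) = σ ((2 * m - 3) * 2 ^ k) * σ (2 ^ k) ^ 4 := by
    rw [pow_succ, pow_succ, pow_two, ← h.add, ← h.add, ← h.add, ← h.add]; congr 1; ring
  have e4 : σ (m * 2 ^ (k + 1)) = σ ((2 * m - 3) * 2 ^ k) * σ (2 ^ k) ^ 3 := by
    rw [pow_succ (σ (2 ^ k)), pow_two, ← h.add, ← h.add, ← h.add]; congr 1; ring
  have e5 : σ ((m + 1) * 2 ^ (k + 1)) = σ ((2 * m - 3) * 2 ^ k) * σ (2 ^ k) ^ 5 := by
    rw [pow_succ (σ (2 ^ k)), pow_succ (σ (2 ^ k)), pow_succ (σ (2 ^ k)), pow_two, ← h.add,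
      ← h.add, ← h.add, ← h.add, ← h.add]; congr 1; ring
  have e6 : σ ((m - 1) * 2 ^ (k + 1)) = σ ((2 * m - 3) * 2 ^ k) * σ (2 ^ k) := by
    rw [← h.add]; congr 1; ring
  have e7 : σ ((m - 1 + 1) * 2 ^ (k + 1)) = σ ((2 * m - 3) * 2 ^ k) * σ (2 ^ k) ^ 3 := by
    rw [pow_succ (σ (2 ^ k)), pow_two, ← h.add, ← h.add, ← h.add]; congr 1; ring
  unfold DD HH
  simp only [Algebra.smul_def, h4', h6', h18']
  rw [e0, e1, e2, e3, e4, e5, e6, e7]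
  generalize σ ((2 * m - 3) * 2 ^ k) = U
  generalize σ (2 ^ k) = w at *
  generalize AA σ k = A at *
  generalize AA σ (k + 1) = A1 at *
  generalize algebraMap ℂ R (1 / 8) = e at *
  linear_combination (-2 * e * U * (1 - w ^ 4)) * hA - A * U * (1 - w) * w ^ 3 * (8 * e + 1) * h8

/-- Even block. -/
theorem AA_even (σ : ℤ → R) (h : IsShift σ) (k : ℕ) (n : ℤ) :
    AA σ k * σ ((2 * n) * 2 ^ k) = AA σ (k + 1) * σ (n * 2 ^ (k + 1)) +
      ((1 / 2 : ℂ) • DD σ k (2 * n) -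
        (1 / 8 : ℂ) • (DD σ k (2 * n - 1) - DD σ k (2 * n + 1))) := by
  have hA := AA_mul_w σ h k
  have h8 : (8 : R) * algebraMap ℂ R (1 / 8) = 1 := eight_e
  have h2' : algebraMap ℂ R (1 / 2) = 4 * algebraMap ℂ R (1 / 8) := half_e
  have h4' : algebraMap ℂ R (1 / 4) = 2 * algebraMap ℂ R (1 / 8) := quarter_e
  have h6' : algebraMap ℂ R 6 = 6 := map_ofNat _ 6
  have h18' : algebraMap ℂ R 18 = 18 := map_ofNat _ 18
  have e0 : σ ((2 * n) * 2 ^ k) = σ ((2 * n - 1) * 2 ^ k) * σ (2 ^ k) := by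
    rw [← h.add]; congr 1; ring
  have e1 : σ ((2 * n + 1) * 2 ^ k) = σ ((2 * n - 1) * 2 ^ k) * σ (2 ^ k) ^ 2 := by
    rw [pow_two, ← h.add, ← h.add]; congr 1; ring
  have e2 : σ ((2 * n + 1 + 1) * 2 ^ k) = σ ((2 * n - 1) * 2 ^ k) * σ (2 ^ k) ^ 3 := by
    rw [pow_succ, pow_two, ← h.add, ← h.add, ← h.add]; congr 1; ring
  have e3 : σ (n * 2 ^ (k + 1)) = σ ((2 * n - 1) * 2 ^ k) * σ (2 ^ k) := by
    rw [← h.add]; congr 1; ring
  have e4 : σ ((2 * n - 1 + 1) * 2 ^ k) = σ ((2 * n - 1) * 2 ^ k) * σ (2 ^ k) := by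
    rw [← h.add]; congr 1; ring
  unfold DD
  simp only [Algebra.smul_def, h2']
  rw [e0, e1, e2, e3, e4]
  generalize σ ((2 * n - 1) * 2 ^ k) = U
  generalize σ (2 ^ k) = w at *
  generalize AA σ k = A at *
  generalize AA σ (k + 1) = A1 at *
  generalize algebraMap ℂ R (1 / 8) = e at *
  linear_combination (-U) * hA - A * U * w * h8

/-- Odd block. -/
theorem AA_odd (σ : ℤ → R) (h : IsShift σ) (k : ℕ) (n : ℤ) :
    AA σ k * σ ((2 * n + 1) * 2 ^ k) = AA σ (k + 1) * σ (n * 2 ^ (k + 1)) +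
      (-(1 / 2 : ℂ) • DD σ k (2 * n) -
        (1 / 8 : ℂ) • (DD σ k (2 * n - 1) - DD σ k (2 * n + 1))) := by
  have hA := AA_mul_w σ h k
  have h8 : (8 : R) * algebraMap ℂ R (1 / 8) = 1 := eight_e
  have h2' : algebraMap ℂ R (1 / 2) = 4 * algebraMap ℂ R (1 / 8) := half_e
  have h4' : algebraMap ℂ R (1 / 4) = 2 * algebraMap ℂ R (1 / 8) := quarter_e
  have h6' : algebraMap ℂ R 6 = 6 := map_ofNat _ 6
  have h18' : algebraMap ℂ R 18 = 18 := map_ofNat _ 18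
  have e0 : σ ((2 * n) * 2 ^ k) = σ ((2 * n - 1) * 2 ^ k) * σ (2 ^ k) := by
    rw [← h.add]; congr 1; ring
  have e1 : σ ((2 * n + 1) * 2 ^ k) = σ ((2 * n - 1) * 2 ^ k) * σ (2 ^ k) ^ 2 := by
    rw [pow_two, ← h.add, ← h.add]; congr 1; ring
  have e2 : σ ((2 * n + 1 + 1) * 2 ^ k) = σ ((2 * n - 1) * 2 ^ k) * σ (2 ^ k) ^ 3 := by
    rw [pow_succ, pow_two, ← h.add, ← h.add, ← h.add]; congr 1; ring
  have e3 : σ (n * 2 ^ (k + 1)) = σ ((2 * n - 1) * 2 ^ k) * σ (2 ^ k) := by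
    rw [← h.add]; congr 1; ring
  have e4 : σ ((2 * n - 1 + 1) * 2 ^ k) = σ ((2 * n - 1) * 2 ^ k) * σ (2 ^ k) := by
    rw [← h.add]; congr 1; ring
  unfold DD
  simp only [Algebra.smul_def, map_neg, h2']
  rw [e0, e1, e2, e3, e4]
  generalize σ ((2 * n - 1) * 2 ^ k) = U
  generalize σ (2 ^ k) = w at *
  generalize AA σ k = A at *
  generalize AA σ (k + 1) = A1 at *
  generalize algebraMap ℂ R (1 / 8) = e at *
  linear_combination (-U) * hA - A * U * w ^ 2 * h8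

end Crest.Agent.R72.K
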