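import Crest.Agent.R72.K1Defs

/-!
Row 72, module K: pointwise formulas for the operators (linearity + basis vectors, parity).
Hint: `Finsupp.linearCombination_apply`, or `Finsupp.induction_linear` in the argument, then for
`single p c`: split on `p % 2`, `Finsupp.single_apply`, `omega`.
-/

set_option autoImplicit false

namespace Crest.Agent.R72.K

open Finset Finsupp

theorem opP_apply (ζ : ℤ →₀ ℂ) (m : ℤ) :
    opP ζ m = 1 / 2 * ζ (2 * m + 1) + 1 / 4 * ζ (2 * m) + 1 / 4 * ζ (2 * m + 2) := by
  induction ζ using Finsupp.induction_linear with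
  | zero => simp
  | add f g hf hg => rw [map_add, Finsupp.add_apply, hf, hg]; simp only [Finsupp.add_apply]; ring
  | single p c =>
    unfold opP
    rw [Finsupp.linearCombination_single]
    by_cases hp : p % 2 = 0
    · rw [if_pos hp]
      simp only [Finsupp.smul_apply, Finsupp.add_apply, Finsupp.single_apply, smul_eq_mul]
      split_ifs <;> first | omega | ring
    · rw [if_neg hp]
      simp only [Finsupp.smul_apply, Finsupp.single_apply, smul_eq_mul]
      split_ifs <;> first | omega | ring

theorem opF_even (ζ : ℤ →₀ ℂ) (q : ℤ) (hq : q % 2 = 0) :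
    opF ζ q = -(3 * ζ (q + 1) + 3 / 2 * ζ (q + 2) + 3 / 2 * ζ q) := by
  induction ζ using Finsupp.induction_linear with
  | zero => simp
  | add f g hf hg => rw [map_add, Finsupp.add_apply, hf, hg]; simp only [Finsupp.add_apply]; ring
  | single p c =>
    unfold opF
    rw [Finsupp.linearCombination_single]
    by_cases hp : p % 2 = 0
    · rw [if_pos hp]
      simp only [Finsupp.smul_apply, Finsupp.add_apply, Finsupp.single_apply, smul_eq_mul]
      split_ifs <;> first | omega | ring
    · rw [if_neg hp]
      simp only [Finsupp.smul_apply, Finsupp.add_apply, Finsupp.single_apply, smul_eq_mul]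
      split_ifs <;> first | omega | ring

theorem opF_odd (ζ : ℤ →₀ ℂ) (q : ℤ) (hq : q % 2 = 1) :
    opF ζ q = -(1 / 2 * ζ q + 1 / 2 * ζ (q + 2) + 1 / 4 * ζ (q + 3) + 9 / 2 * ζ (q + 1) +
      1 / 4 * ζ (q - 1)) := by
  induction ζ using Finsupp.induction_linear with
  | zero => simp
  | add f g hf hg => rw [map_add, Finsupp.add_apply, hf, hg]; simp only [Finsupp.add_apply]; ring
  | single p c =>
    unfold opF
    rw [Finsupp.linearCombination_single]
    by_cases hp : p % 2 = 0
    · rw [if_pos hp]
      simp only [Finsupp.smul_apply, Finsupp.add_apply, Finsupp.single_apply, smul_eq_mul]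
      split_ifs <;> first | omega | ring
    · rw [if_neg hp]
      simp only [Finsupp.smul_apply, Finsupp.add_apply, Finsupp.single_apply, smul_eq_mul]
      split_ifs <;> first | omega | ring

theorem opB_apply (γ : ℤ →₀ ℂ) (n : ℤ) : opB γ n = γ (2 * n) + γ (2 * n + 1) := by
  induction γ using Finsupp.induction_linear with
  | zero => simp
  | add f g hf hg => rw [map_add, Finsupp.add_apply, hf, hg]; simp only [Finsupp.add_apply]; ring
  | single p c =>
    unfold opB
    rw [Finsupp.linearCombination_single]
    simp only [Finsupp.smul_apply, Finsupp.single_apply, smul_eq_mul]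
    split_ifs <;> first | omega | ring

theorem opE_even (γ : ℤ →₀ ℂ) (n : ℤ) :
    opE γ (2 * n) = 1 / 2 * (γ (2 * n) - γ (2 * n + 1)) := by
  induction γ using Finsupp.induction_linear with
  | zero => simp
  | add f g hf hg => rw [map_add, Finsupp.add_apply, hf, hg]; simp only [Finsupp.add_apply]; ring
  | single p c =>
    unfold opE
    rw [Finsupp.linearCombination_single]
    by_cases hp : p % 2 = 0
    · rw [if_pos hp]
      simp only [Finsupp.smul_apply, Finsupp.add_apply, Finsupp.sub_apply, Finsupp.single_apply,
        smul_eq_mul]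
      split_ifs <;> first | omega | ring
    · rw [if_neg hp]
      simp only [Finsupp.smul_apply, Finsupp.add_apply, Finsupp.sub_apply, Finsupp.single_apply,
        smul_eq_mul]
      split_ifs <;> first | omega | ring

theorem opE_odd (γ : ℤ →₀ ℂ) (n : ℤ) :
    opE γ (2 * n - 1) = 1 / 8 * (γ (2 * n - 2) + γ (2 * n - 1) - γ (2 * n) - γ (2 * n + 1)) := by
  induction γ using Finsupp.induction_linear with
  | zero => simp
  | add f g hf hg => rw [map_add, Finsupp.add_apply, hf, hg]; simp only [Finsupp.add_apply]; ring
  | single p c =>
    unfold opE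
    rw [Finsupp.linearCombination_single]
    by_cases hp : p % 2 = 0
    · rw [if_pos hp]
      simp only [Finsupp.smul_apply, Finsupp.add_apply, Finsupp.sub_apply, Finsupp.single_apply,
        smul_eq_mul]
      split_ifs <;> first | omega | ring
    · rw [if_neg hp]
      simp only [Finsupp.smul_apply, Finsupp.add_apply, Finsupp.sub_apply, Finsupp.single_apply,
        smul_eq_mul]
      split_ifs <;> first | omega | ring

end Crest.Agent.R72.K
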