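import Mathlib

/-!
Row 72, module K: cumulative sums.
`exists_cums`: `c = onFinset` of `m ↦ ∑_{n ∈ support, n ≤ m} γ n`; it vanishes for `m` below the
support and above it (there the sum is the total mass `0`).
-/

set_option autoImplicit false

namespace Crest.Agent.R72.K

open Finset Finsupp

/-- Cumulative sums of a finitely supported sequence of total mass `0` (and `0` otherwise). -/
theorem exists_cums (γ : ℤ →₀ ℂ) (h : (γ.sum fun _ c => c) = 0) :
    ∃ c : ℤ →₀ ℂ, ∀ m, c m = ∑ n ∈ γ.support.filter (· ≤ m), γ n := by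
  classical
  refine ⟨Finsupp.onFinset (Finset.Icc (-∑ n ∈ γ.support, |n|) (∑ n ∈ γ.support, |n|))
    (fun m => ∑ n ∈ γ.support.filter (· ≤ m), γ n) ?_, fun m => rfl⟩
  intro m hm
  have hb : ∀ n ∈ γ.support, |n| ≤ ∑ n ∈ γ.support, |n| := fun n hn =>
    Finset.single_le_sum (f := fun n : ℤ => |n|) (fun _ _ => abs_nonneg _) hn
  rw [Finset.mem_Icc]
  constructor
  · by_contra hcon
    apply hm
    rw [Finset.filter_eq_empty_iff.2, Finset.sum_empty]
    intro n hn hnm
    have h1 := hb n hn
    have h2 := neg_abs_le n
    omega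
  · by_contra hcon
    apply hm
    rw [Finset.filter_eq_self.2]
    · exact h
    · intro n hn
      have h1 := hb n hn
      have h2 := le_abs_self n
      omega

open Classical in
/-- Cumulative sums of a finitely supported sequence of total mass `0` (and `0` otherwise). -/
noncomputable def cums (γ : ℤ →₀ ℂ) : ℤ →₀ ℂ :=
  if h : (γ.sum fun _ c => c) = 0 then (exists_cums γ h).choose else 0

end Crest.Agent.R72.K
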