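import Crest.Agent.R72.K0
import Crest.Agent.R72.K1A
import Crest.Agent.R72.K1B

/-!
Row 72, module K: the decomposition theorem at the level of finitely supported sequences.

`step_AA`, `step_DD`: linearity in the sequence (`Finsupp.induction_linear` or
`LinearMap.congr_fun` + `Finsupp.lhom_ext`), basis vectors by `AA_even/AA_odd`, `DD_even/DD_odd` of
K0.lean (`p = 2 * (p/2) + p % 2`).  `AAs_eq_DDs`: `σ(n 2^k)` telescopes:
`∑_n γ n σ(n 2^k) = ∑_m c m (σ(m 2^k) - σ((m+1) 2^k))` with `c m - c (m-1) = γ m`.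
`decomp`: first `AAs 0 g = ∑_{k<i} DDs k (ee k) + AAs i (gam i)` (induction with `step_AA`), so
`= ∑_{k ≤ i} DDs k (ee k)`, then by induction on `K`
`∑_{k ≤ K} DDs k (ee k) = ∑_{k ≤ K} HHs k (rho k) + DDs (K+1) (opP (zt K))`; for `k > i` `ee = 0`.
-/

set_option autoImplicit false

namespace Crest.Agent.R72.K

open Finset Finsupp

/-- Block sums at level `k`. -/
noncomputable def gam (g : ℤ →₀ ℂ) (k : ℕ) : ℤ →₀ ℂ := (opB^[k]) g

/-- First difference coefficients at level `k` (`i` = level of the shell). -/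
noncomputable def ee (g : ℤ →₀ ℂ) (i k : ℕ) : ℤ →₀ ℂ :=
  if k < i then opE (gam g k) else if k = i then cums (gam g i) else 0

/-- Accumulated first difference coefficients. -/
noncomputable def zt (g : ℤ →₀ ℂ) (i : ℕ) : ℕ → (ℤ →₀ ℂ)
  | 0 => ee g i 0
  | k + 1 => ee g i (k + 1) + opP (zt g i k)

/-- The `HH` coefficients at level `k`. -/
noncomputable def rho (g : ℤ →₀ ℂ) (i k : ℕ) : ℤ →₀ ℂ := opF (zt g i k)

variable {R : Type*} [CommRing R] [Algebra ℂ R]

noncomputable def AAs (σ : ℤ → R) (k : ℕ) : (ℤ →₀ ℂ) →ₗ[ℂ] R :=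
  Finsupp.linearCombination ℂ fun n : ℤ => AA σ k * σ (n * 2 ^ k)

noncomputable def DDs (σ : ℤ → R) (k : ℕ) : (ℤ →₀ ℂ) →ₗ[ℂ] R :=
  Finsupp.linearCombination ℂ (DD σ k)

noncomputable def HHs (σ : ℤ → R) (k : ℕ) : (ℤ →₀ ℂ) →ₗ[ℂ] R :=
  Finsupp.linearCombination ℂ (HH σ k)

private theorem AAs_single (σ : ℤ → R) (k : ℕ) (n : ℤ) :
    AAs σ k (single n 1) = AA σ k * σ (n * 2 ^ k) := by
  unfold AAs
  rw [Finsupp.linearCombination_single, one_smul]

private theorem DDs_single (σ : ℤ → R) (k : ℕ) (n : ℤ) :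
    DDs σ k (single n 1) = DD σ k n := by
  unfold DDs
  rw [Finsupp.linearCombination_single, one_smul]

private theorem HHs_single (σ : ℤ → R) (k : ℕ) (n : ℤ) :
    HHs σ k (single n 1) = HH σ k n := by
  unfold HHs
  rw [Finsupp.linearCombination_single, one_smul]

private theorem ev_or_odd (p : ℤ) : (∃ n, p = 2 * n) ∨ ∃ n, p = 2 * n + 1 := by
  rcases Int.even_or_odd' p with ⟨n, h | h⟩
  · exact Or.inl ⟨n, h⟩
  · exact Or.inr ⟨n, h⟩

theorem step_AA (σ : ℤ → R) (h : IsShift σ) (k : ℕ) (γ : ℤ →₀ ℂ) :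
    AAs σ k γ = AAs σ (k + 1) (opB γ) + DDs σ k (opE γ) := by
  have key : AAs σ k = (AAs σ (k + 1)).comp opB + (DDs σ k).comp opE := by
    refine Finsupp.lhom_ext' fun p => LinearMap.ext_ring ?_
    rw [LinearMap.comp_apply, LinearMap.comp_apply, LinearMap.add_apply, LinearMap.comp_apply,
      LinearMap.comp_apply, Finsupp.lsingle_apply, AAs_single]
    rcases ev_or_odd p with ⟨n, rfl⟩ | ⟨n, rfl⟩
    · have e1 : opB (single (2 * n) 1) = single n 1 := by
        unfold opB
        rw [Finsupp.linearCombination_single, one_smul]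
        congr 1; omega
      have e2 : opE (single (2 * n) 1) = (1 / 2 : ℂ) • single (2 * n) (1 : ℂ) -
          (1 / 8 : ℂ) • (single (2 * n - 1) (1 : ℂ) - single (2 * n + 1) 1) := by
        unfold opE
        rw [Finsupp.linearCombination_single, one_smul, if_pos (by omega)]
      rw [e1, e2, map_sub, map_smul, map_smul, map_sub, AAs_single, DDs_single, DDs_single,
        DDs_single, AA_even σ h]
    · have e1 : opB (single (2 * n + 1) 1) = single n 1 := by
        unfold opB
        rw [Finsupp.linearCombination_single, one_smul]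
        congr 1; omega
      have e2 : opE (single (2 * n + 1) 1) = -(1 / 2 : ℂ) • single (2 * n) (1 : ℂ) -
          (1 / 8 : ℂ) • (single (2 * n - 1) (1 : ℂ) - single (2 * n + 1) 1) := by
        unfold opE
        rw [Finsupp.linearCombination_single, one_smul, if_neg (by omega)]
        have e3 : 2 * n + 1 - 1 = 2 * n := by ring
        have e4 : 2 * n + 1 - 2 = 2 * n - 1 := by ring
        rw [e3, e4]
      rw [e1, e2, map_sub, map_smul, map_smul, map_sub, AAs_single, DDs_single, DDs_single,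
        DDs_single, AA_odd σ h]
  exact LinearMap.congr_fun key γ

theorem step_DD (σ : ℤ → R) (h : IsShift σ) (k : ℕ) (ζ : ℤ →₀ ℂ) :
    DDs σ k ζ = DDs σ (k + 1) (opP ζ) + HHs σ k (opF ζ) := by
  have key : DDs σ k = (DDs σ (k + 1)).comp opP + (HHs σ k).comp opF := by
    refine Finsupp.lhom_ext' fun p => LinearMap.ext_ring ?_
    rw [LinearMap.comp_apply, LinearMap.comp_apply, LinearMap.add_apply, LinearMap.comp_apply,
      LinearMap.comp_apply, Finsupp.lsingle_apply, DDs_single]
    rcases ev_or_odd p with ⟨n, rfl⟩ | ⟨n, rfl⟩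
    · have e1 : opP (single (2 * n) 1) = (1 / 4 : ℂ) • (single n (1 : ℂ) + single (n - 1) 1) := by
        unfold opP
        rw [Finsupp.linearCombination_single, one_smul, if_pos (by omega)]
        have e3 : 2 * n / 2 = n := by omega
        rw [e3]
      have e2 : opF (single (2 * n) 1) = -(1 / 4 : ℂ) • (single (2 * n - 3) (1 : ℂ) +
          (6 : ℂ) • single (2 * n - 2) (1 : ℂ) + (18 : ℂ) • single (2 * n - 1) (1 : ℂ) +
          (6 : ℂ) • single (2 * n) (1 : ℂ) + single (2 * n + 1) 1) := by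
        unfold opF
        rw [Finsupp.linearCombination_single, one_smul, if_pos (by omega)]
      rw [e1, e2]
      simp only [map_add, map_smul, DDs_single, HHs_single]
      rw [DD_even σ h, neg_smul, sub_eq_add_neg]
    · have e1 : opP (single (2 * n + 1) 1) = (1 / 2 : ℂ) • single n (1 : ℂ) := by
        unfold opP
        rw [Finsupp.linearCombination_single, one_smul, if_neg (by omega)]
        have e3 : (2 * n + 1) / 2 = n := by omega
        rw [e3]
      have e2 : opF (single (2 * n + 1) 1) = -(1 / 2 : ℂ) • (single (2 * n - 1) (1 : ℂ) +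
          (6 : ℂ) • single (2 * n) (1 : ℂ) + single (2 * n + 1) 1) := by
        unfold opF
        rw [Finsupp.linearCombination_single, one_smul, if_neg (by omega)]
        have e3 : 2 * n + 1 - 1 = 2 * n := by ring
        have e4 : 2 * n + 1 - 2 = 2 * n - 1 := by ring
        rw [e3, e4]
      rw [e1, e2]
      simp only [map_add, map_smul, DDs_single, HHs_single]
      rw [DD_odd σ h, neg_smul, sub_eq_add_neg]
  exact LinearMap.congr_fun key ζ

/-- Summation by parts. -/
theorem AAs_eq_DDs (σ : ℤ → R) (h : IsShift σ) (k : ℕ) (γ : ℤ →₀ ℂ)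
    (h0 : (γ.sum fun _ c => c) = 0) : AAs σ k γ = DDs σ k (cums γ) := by
  classical
  set c := cums γ with hc
  have hcm : ∀ m, c m = ∑ n ∈ γ.support.filter (· ≤ m), γ n := by
    rw [hc, cums, dif_pos h0]
    exact (exists_cums γ h0).choose_spec
  have hγ : γ = c - Finsupp.mapDomain (· + 1) c := by
    ext m
    have e1 : Finsupp.mapDomain (· + 1) c m = c (m - 1) := by
      have h1 := Finsupp.mapDomain_apply (f := fun x : ℤ => x + 1) (add_left_injective 1) c (m - 1)
      simpa using h1
    rw [Finsupp.sub_apply, e1, hcm, hcm]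
    have e2 : γ.support.filter (· ≤ m - 1) = (γ.support.filter (· ≤ m)).erase m := by
      ext x
      simp only [Finset.mem_filter, Finset.mem_erase]
      constructor
      · rintro ⟨h1, h2⟩; exact ⟨by omega, h1, by omega⟩
      · rintro ⟨h1, h2, h3⟩; exact ⟨h2, by omega⟩
    rw [e2]
    by_cases hm : m ∈ γ.support.filter (· ≤ m)
    · rw [← Finset.add_sum_erase _ _ hm]; ring
    · rw [Finset.erase_eq_of_notMem hm, sub_self]
      have h3 : m ∉ γ.support := fun h => hm (Finset.mem_filter.2 ⟨h, le_rfl⟩)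
      rwa [Finsupp.notMem_support_iff] at h3
  have key : (AAs σ k).comp (LinearMap.id - Finsupp.lmapDomain ℂ ℂ (· + 1)) = DDs σ k := by
    refine Finsupp.lhom_ext' fun p => LinearMap.ext_ring ?_
    rw [LinearMap.comp_apply, LinearMap.comp_apply, LinearMap.comp_apply, LinearMap.sub_apply,
      LinearMap.id_apply, Finsupp.lsingle_apply, Finsupp.lmapDomain_apply,
      Finsupp.mapDomain_single, map_sub, AAs_single, AAs_single, DDs_single]
    unfold DD
    ring
  have h2 := LinearMap.congr_fun key c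
  rw [LinearMap.comp_apply, LinearMap.sub_apply, LinearMap.id_apply,
    Finsupp.lmapDomain_apply, ← hγ] at h2
  exact h2

theorem sum_opB (γ : ℤ →₀ ℂ) : ((opB γ).sum fun _ c => c) = γ.sum fun _ c => c := by
  have e : ∀ ζ : ℤ →₀ ℂ, (ζ.sum fun _ c => c) = Finsupp.linearCombination ℂ (fun _ : ℤ => (1 : ℂ)) ζ := by
    intro ζ
    rw [Finsupp.linearCombination_apply]
    simp only [smul_eq_mul, mul_one]
  have key : (Finsupp.linearCombination ℂ (fun _ : ℤ => (1 : ℂ))).comp opB =
      Finsupp.linearCombination ℂ (fun _ : ℤ => (1 : ℂ)) := by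
    refine Finsupp.lhom_ext' fun p => LinearMap.ext_ring ?_
    rw [LinearMap.comp_apply, LinearMap.comp_apply, LinearMap.comp_apply, Finsupp.lsingle_apply]
    unfold opB
    rw [Finsupp.linearCombination_single, one_smul, Finsupp.linearCombination_single,
      Finsupp.linearCombination_single]
  rw [e, e]
  exact LinearMap.congr_fun key γ

private theorem gam_succ (g : ℤ →₀ ℂ) (k : ℕ) : gam g (k + 1) = opB (gam g k) := by
  unfold gam
  rw [Function.iterate_succ_apply']

private theorem gam_sum (g : ℤ →₀ ℂ) (h0 : (g.sum fun _ c => c) = 0) (k : ℕ) :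
    ((gam g k).sum fun _ c => c) = 0 := by
  induction k with
  | zero => exact h0
  | succ k ih => rw [gam_succ, sum_opB, ih]

private theorem decomp1 (σ : ℤ → R) (h : IsShift σ) (g : ℤ →₀ ℂ) (i : ℕ) :
    AAs σ 0 g = ∑ k ∈ range i, DDs σ k (opE (gam g k)) + AAs σ i (gam g i) := by
  induction i with
  | zero => rw [Finset.range_zero, Finset.sum_empty, zero_add]; rfl
  | succ i ih =>
    rw [ih, Finset.sum_range_succ, step_AA σ h i (gam g i), gam_succ]
    ring

private theorem decomp2 (σ : ℤ → R) (h : IsShift σ) (g : ℤ →₀ ℂ) (h0 : (g.sum fun _ c => c) = 0)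
    (i K : ℕ) (hK : i ≤ K) : AAs σ 0 g = ∑ k ∈ range (K + 1), DDs σ k (ee g i k) := by
  induction K, hK using Nat.le_induction with
  | base =>
    rw [decomp1 σ h g i, Finset.sum_range_succ, AAs_eq_DDs σ h i _ (gam_sum g h0 i)]
    congr 1
    · refine Finset.sum_congr rfl fun k hk => ?_
      rw [Finset.mem_range] at hk
      rw [ee, if_pos hk]
    · rw [ee, if_neg (lt_irrefl _), if_pos rfl]
  | succ K hK ih =>
    rw [Finset.sum_range_succ, ← ih, ee, if_neg (by omega), if_neg (by omega), map_zero, add_zero]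

private theorem decomp3 (σ : ℤ → R) (h : IsShift σ) (g : ℤ →₀ ℂ) (i K : ℕ) :
    ∑ k ∈ range (K + 1), DDs σ k (ee g i k) = ∑ k ∈ range (K + 1), HHs σ k (rho g i k) +
      DDs σ (K + 1) (opP (zt g i K)) := by
  induction K with
  | zero =>
    rw [Finset.sum_range_one, Finset.sum_range_one, step_DD σ h]
    rw [rho, zt, add_comm]
  | succ K ih =>
    rw [Finset.sum_range_succ, ih, Finset.sum_range_succ _ (K + 1)]
    have e : DDs σ (K + 1) (opP (zt g i K)) + DDs σ (K + 1) (ee g i (K + 1)) =
        DDs σ (K + 2) (opP (zt g i (K + 1))) + HHs σ (K + 1) (rho g i (K + 1)) := by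
      rw [← map_add, add_comm (opP _), rho, ← step_DD σ h (K + 1), zt]
    rw [add_assoc, e]
    ring

/-- **Decomposition theorem.** -/
theorem decomp (σ : ℤ → R) (h : IsShift σ) (g : ℤ →₀ ℂ) (h0 : (g.sum fun _ c => c) = 0)
    (i K : ℕ) (hK : i ≤ K) :
    AAs σ 0 g = ∑ k ∈ range (K + 1), HHs σ k (rho g i k) +
      DDs σ (K + 1) (opP (zt g i K)) := by
  rw [decomp2 σ h g h0 i K hK, decomp3 σ h g i K]

end Crest.Agent.R72.K
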