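import Mathlib

/-!
Row 72, module K: the operators on finitely supported sequences (`ℤ →₀ ℂ`).
-/

set_option autoImplicit false

namespace Crest.Agent.R72.K

open Finset Finsupp

/-- The averaging operator: `(opP ζ) m = ζ(2m+1)/2 + ζ(2m)/4 + ζ(2m+2)/4`. -/
noncomputable def opP : (ℤ →₀ ℂ) →ₗ[ℂ] (ℤ →₀ ℂ) :=
  Finsupp.linearCombination ℂ fun p : ℤ =>
    if p % 2 = 0 then (1 / 4 : ℂ) • (single (p / 2) (1 : ℂ) + single (p / 2 - 1) 1)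
    else (1 / 2 : ℂ) • single (p / 2) (1 : ℂ)

/-- The filter producing the `HH` coefficients. -/
noncomputable def opF : (ℤ →₀ ℂ) →ₗ[ℂ] (ℤ →₀ ℂ) :=
  Finsupp.linearCombination ℂ fun p : ℤ =>
    if p % 2 = 0 then -(1 / 4 : ℂ) • (single (p - 3) (1 : ℂ) + (6 : ℂ) • single (p - 2) (1 : ℂ) +
      (18 : ℂ) • single (p - 1) (1 : ℂ) + (6 : ℂ) • single p (1 : ℂ) + single (p + 1) 1)
    else -(1 / 2 : ℂ) • (single (p - 2) (1 : ℂ) + (6 : ℂ) • single (p - 1) (1 : ℂ) + single p 1)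

/-- Block sums. -/
noncomputable def opB : (ℤ →₀ ℂ) →ₗ[ℂ] (ℤ →₀ ℂ) :=
  Finsupp.linearCombination ℂ fun p : ℤ => single (p / 2) (1 : ℂ)

/-- First difference coefficients. -/
noncomputable def opE : (ℤ →₀ ℂ) →ₗ[ℂ] (ℤ →₀ ℂ) :=
  Finsupp.linearCombination ℂ fun p : ℤ =>
    if p % 2 = 0 then (1 / 2 : ℂ) • single p (1 : ℂ) -
      (1 / 8 : ℂ) • (single (p - 1) (1 : ℂ) - single (p + 1) 1)
    else -(1 / 2 : ℂ) • single (p - 1) (1 : ℂ) -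
      (1 / 8 : ℂ) • (single (p - 2) (1 : ℂ) - single p 1)

end Crest.Agent.R72.K
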