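import Crest.Agent.R72.K1C

/-!
Row 72, module K: bounds for the first difference coefficients of a shell function.
-/

set_option autoImplicit false

namespace Crest.Agent.R72.K

open Finset Finsupp

/-- Functions living on the shell `2^(i-1) < |u| < 2^(i+1)`, of size `2^{-i}`, Lipschitz with
constant `4^{-i}` except for jumps between the radii `R` and `R + 1`, `R ∈ J`. -/
structure ShellFn (C : ℝ) (i : ℕ) (J : Finset ℕ) (g : ℤ →₀ ℂ) : Prop where
  nonneg : 0 ≤ C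
  supp : ∀ u : ℤ, g u ≠ 0 → (2 : ℤ) ^ i < 2 * |u| ∧ |u| < 2 ^ (i + 1)
  bd : ∀ u, ‖g u‖ ≤ C / 2 ^ i
  tv : ∀ u : ℤ, (∀ r ∈ J, min |u| |u + 1| ≠ (r : ℤ)) → ‖g (u + 1) - g u‖ ≤ C / 4 ^ i
  sum0 : (g.sum fun _ c => c) = 0

/-- A jump is within the window `[(q-a) 2^k, (q+b) 2^k)`. -/
def hit (J : Finset ℕ) (k : ℕ) (a b q : ℤ) : Prop :=
  ∃ u : ℤ, (q - a) * 2 ^ k ≤ u ∧ u < (q + b) * 2 ^ k ∧ ∃ r ∈ J, min |u| |u + 1| = (r : ℤ)

theorem hit_mono {J : Finset ℕ} {k k' : ℕ} {a b q a' b' q' : ℤ}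
    (h₁ : (q' - a') * 2 ^ k' ≤ (q - a) * 2 ^ k) (h₂ : (q + b) * 2 ^ k ≤ (q' + b') * 2 ^ k')
    (h : hit J k a b q) : hit J k' a' b' q' := by
  obtain ⟨u, h3, h4, h5⟩ := h
  exact ⟨u, h₁.trans h3, h4.trans_le h₂, h5⟩

private theorem k2a_split (g : ℤ → ℂ) {a b c : ℤ} (h1 : a ≤ b) (h2 : b ≤ c) :
    ∑ v ∈ Ico a c, g v = ∑ v ∈ Ico a b, g v + ∑ v ∈ Ico b c, g v := by
  rw [← Finset.Ico_union_Ico_eq_Ico h1 h2]
  exact Finset.sum_union (Finset.Ico_disjoint_Ico_consecutive a b c)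

private theorem k2a_pow_pos (k : ℕ) : (0 : ℤ) < 2 ^ k := by positivity

private theorem k2a_gam_succ (g : ℤ →₀ ℂ) (k : ℕ) : gam g (k + 1) = opB (gam g k) := by
  unfold gam
  rw [Function.iterate_succ_apply']

/-- `gam g k n` is the sum of `g` over the dyadic block. Induction with `opB_apply`. -/
theorem gam_apply (g : ℤ →₀ ℂ) (k : ℕ) (n : ℤ) :
    gam g k n = ∑ v ∈ Ico (n * 2 ^ k) ((n + 1) * 2 ^ k), g v := by
  induction k generalizing n with
  | zero =>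
    have e : Ico (n * 2 ^ 0) ((n + 1) * 2 ^ 0) = {n} := by
      ext x
      simp only [pow_zero, mul_one, Finset.mem_Ico, Finset.mem_singleton]
      omega
    rw [e, Finset.sum_singleton]
    rfl
  | succ k ih =>
    rw [k2a_gam_succ, opB_apply, ih, ih]
    have hp := k2a_pow_pos k
    have e1 : (2 * n) * 2 ^ k = n * 2 ^ (k + 1) := by ring
    have e2 : (2 * n + 1 + 1) * 2 ^ k = (n + 1) * 2 ^ (k + 1) := by ring
    rw [e1, e2]
    refine (k2a_split g ?_ ?_).symm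
    · rw [← e1]
      nlinarith
    · rw [← e2]
      nlinarith

private theorem k2a_tele (g : ℤ →₀ ℂ) (D : ℝ) (m : ℕ) (v : ℤ)
    (h : ∀ u : ℤ, v ≤ u → u < v + m → ‖g (u + 1) - g u‖ ≤ D) : ‖g (v + m) - g v‖ ≤ m * D := by
  induction m with
  | zero => simp
  | succ m ih =>
    have h1 := ih (fun u hu1 hu2 => h u hu1 (by push_cast; omega))
    have h2 := h (v + m) (by omega) (by push_cast; omega)
    have e : g (v + ((m + 1 : ℕ) : ℤ)) - g v = (g (v + m + 1) - g (v + m)) + (g (v + m) - g v) := by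
      have : v + ((m + 1 : ℕ) : ℤ) = v + m + 1 := by push_cast; ring
      rw [this]
      ring
    rw [e]
    refine (norm_add_le _ _).trans ?_
    push_cast
    linarith

/-- Difference of two adjacent sums of length `ℓ`, without jumps. -/
theorem diff_sum_le (g : ℤ →₀ ℂ) (a : ℤ) (ℓ : ℕ) (D : ℝ)
    (h : ∀ u : ℤ, a ≤ u → u < a + 2 * ℓ → ‖g (u + 1) - g u‖ ≤ D) :
    ‖∑ v ∈ Ico a (a + ℓ), g v - ∑ v ∈ Ico (a + ℓ) (a + 2 * ℓ), g v‖ ≤ ℓ ^ 2 * D := by
  have e : ∑ v ∈ Ico (a + ℓ) (a + 2 * ℓ), g v = ∑ v ∈ Ico a (a + ℓ), g (v + ℓ) := by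
    have e0 := Finset.sum_map (Ico a (a + ℓ)) (addRightEmbedding (ℓ : ℤ)) (fun v => g v)
    rw [Finset.map_add_right_Ico] at e0
    have e1 : a + ℓ + ℓ = a + 2 * ℓ := by ring
    rw [e1] at e0
    exact e0
  rw [e, ← Finset.sum_sub_distrib]
  refine (norm_sum_le _ _).trans ?_
  have h1 : ∀ v ∈ Ico a (a + ℓ), ‖g v - g (v + ℓ)‖ ≤ ℓ * D := by
    intro v hv
    rw [Finset.mem_Ico] at hv
    rw [norm_sub_rev]
    exact k2a_tele g D ℓ v (fun u hu1 hu2 => h u (by omega) (by omega))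
  refine (Finset.sum_le_sum h1).trans ?_
  rw [Finset.sum_const, Int.card_Ico, nsmul_eq_mul]
  have e2 : (a + ℓ - a).toNat = ℓ := by omega
  rw [e2]
  exact le_of_eq (by ring)

private theorem k2a_pow (i k : ℕ) (hk : k < i) : (2 : ℝ) ^ i = 2 ^ k * 2 ^ (i - k) := by
  rw [← pow_add]
  congr 1
  omega

private theorem k2a_pow4 (i k : ℕ) (hk : k < i) : (4 : ℝ) ^ i = 4 ^ k * 4 ^ (i - k) := by
  rw [← pow_add]
  congr 1
  omega

/-- `k < i`, no jump nearby. -/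
theorem ee_le_smooth {C : ℝ} {i : ℕ} {J : Finset ℕ} {g : ℤ →₀ ℂ} (h : ShellFn C i J g)
    {k : ℕ} (hk : k < i) (q : ℤ) (hq : ¬ hit J k 1 3 q) :
    ‖ee g i k q‖ ≤ C / 4 ^ (i - k) := by
  have hC := h.nonneg
  have hp := k2a_pow_pos k
  have htv : ∀ u : ℤ, (q - 1) * 2 ^ k ≤ u → u < (q + 3) * 2 ^ k → ‖g (u + 1) - g u‖ ≤ C / 4 ^ i := by
    intro u h1 h2
    apply h.tv
    intro r hr he
    exact hq ⟨u, h1, h2, r, hr, he⟩
  have h4 : (4 : ℝ) ^ i = 4 ^ k * 4 ^ (i - k) := k2a_pow4 i k hk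
  have hpos : (0 : ℝ) < 4 ^ (i - k) := by positivity
  have hposk : (0 : ℝ) < 4 ^ k := by positivity
  have hpk : ((2 : ℝ) ^ k) ^ 2 = 4 ^ k := by
    rw [← pow_mul, mul_comm, pow_mul]
    norm_num
  unfold ee
  rw [if_pos hk]
  rcases Int.even_or_odd' q with ⟨n, hn | hn⟩
  · have h1 := diff_sum_le g (q * 2 ^ k) (2 ^ k) (C / 4 ^ i) (by
      intro u hu1 hu2
      push_cast at hu2
      apply htv u
      · nlinarith
      · nlinarith)
    push_cast at h1
    have e1 : q * 2 ^ k + 2 ^ k = (q + 1) * 2 ^ k := by ring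
    have e2 : q * 2 ^ k + 2 * 2 ^ k = (q + 1 + 1) * 2 ^ k := by ring
    rw [e1, e2, ← gam_apply, ← gam_apply] at h1
    have h2 := opE_even (gam g k) n
    rw [← hn] at h2
    rw [h2, norm_mul]
    have e3 : ‖(1 / 2 : ℂ)‖ = 1 / 2 := by norm_num
    rw [e3]
    have e4 : ((2 : ℝ) ^ k) ^ 2 * (C / 4 ^ i) = C / 4 ^ (i - k) := by
      rw [hpk, h4]
      field_simp
    rw [e4] at h1
    have h5 : 0 ≤ C / 4 ^ (i - k) := by positivity
    linarith
  · have h1 := diff_sum_le g ((q - 1) * 2 ^ k) (2 * 2 ^ k) (C / 4 ^ i) (by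
      intro u hu1 hu2
      push_cast at hu2
      apply htv u hu1
      nlinarith)
    push_cast at h1
    have e1 : (q - 1) * 2 ^ k + 2 * 2 ^ k = (q + 1) * 2 ^ k := by ring
    have e2 : (q - 1) * 2 ^ k + 2 * (2 * 2 ^ k) = (q + 3) * 2 ^ k := by ring
    rw [e1, e2] at h1
    have s1 : ∑ v ∈ Ico ((q - 1) * 2 ^ k) ((q + 1) * 2 ^ k), g v =
        gam g k (q - 1) + gam g k q := by
      rw [gam_apply, gam_apply, sub_add_cancel]
      exact k2a_split g (by nlinarith) (by nlinarith)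
    have s2 : ∑ v ∈ Ico ((q + 1) * 2 ^ k) ((q + 3) * 2 ^ k), g v =
        gam g k (q + 1) + gam g k (q + 2) := by
      have e5 : q + 3 = q + 2 + 1 := by ring
      have e6 : q + 1 + 1 = q + 2 := by ring
      rw [gam_apply, gam_apply, e6, e5]
      exact k2a_split g (by nlinarith) (by nlinarith)
    rw [s1, s2] at h1
    have h2 := opE_odd (gam g k) (n + 1)
    have e7 : 2 * (n + 1) - 1 = q := by omega
    have e8 : 2 * (n + 1) - 2 = q - 1 := by omega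
    have e9 : 2 * (n + 1) = q + 1 := by omega
    rw [e7, e8, e9] at h2
    have e10 : q + 1 + 1 = q + 2 := by ring
    rw [e10] at h2
    have e11 : gam g k (q - 1) + gam g k q - gam g k (q + 1) - gam g k (q + 2) =
        gam g k (q - 1) + gam g k q - (gam g k (q + 1) + gam g k (q + 2)) := by ring
    rw [h2, e11, norm_mul]
    have e3 : ‖(1 / 8 : ℂ)‖ = 1 / 8 := by norm_num
    rw [e3]
    have e4 : (2 * (2 : ℝ) ^ k) ^ 2 * (C / 4 ^ i) = 4 * (C / 4 ^ (i - k)) := by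
      rw [mul_pow, hpk, h4]
      field_simp
      ring
    rw [e4] at h1
    have h5 : 0 ≤ C / 4 ^ (i - k) := by positivity
    linarith

private theorem k2a_gam_le {C : ℝ} {i : ℕ} {J : Finset ℕ} {g : ℤ →₀ ℂ} (h : ShellFn C i J g)
    (k : ℕ) (n : ℤ) : ‖gam g k n‖ ≤ 2 ^ k * (C / 2 ^ i) := by
  rw [gam_apply]
  refine (norm_sum_le _ _).trans ?_
  refine (Finset.sum_le_sum (fun v _ => h.bd v)).trans ?_
  rw [Finset.sum_const, Int.card_Ico, nsmul_eq_mul]
  have e : ((n + 1) * 2 ^ k - n * 2 ^ k).toNat = 2 ^ k := by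
    have : (n + 1) * 2 ^ k - n * 2 ^ k = ((2 ^ k : ℕ) : ℤ) := by push_cast; ring
    rw [this]
    exact Int.toNat_natCast _
  rw [e]
  push_cast
  exact le_rfl

/-- `k < i`, in general. -/
theorem ee_le_rough {C : ℝ} {i : ℕ} {J : Finset ℕ} {g : ℤ →₀ ℂ} (h : ShellFn C i J g)
    {k : ℕ} (hk : k < i) (q : ℤ) : ‖ee g i k q‖ ≤ C / 2 ^ (i - k) := by
  have hC := h.nonneg
  have e0 : (2 : ℝ) ^ k * (C / 2 ^ i) = C / 2 ^ (i - k) := by
    rw [k2a_pow i k hk]
    field_simp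
  have hb : ∀ n, ‖gam g k n‖ ≤ C / 2 ^ (i - k) := by
    intro n
    rw [← e0]
    exact k2a_gam_le h k n
  unfold ee
  rw [if_pos hk]
  rcases Int.even_or_odd' q with ⟨n, hn | hn⟩
  · rw [hn, opE_even, norm_mul]
    have e3 : ‖(1 / 2 : ℂ)‖ = 1 / 2 := by norm_num
    rw [e3]
    have h1 := norm_sub_le (gam g k (2 * n)) (gam g k (2 * n + 1))
    have h2 := hb (2 * n)
    have h3 := hb (2 * n + 1)
    linarith
  · have e7 : q = 2 * (n + 1) - 1 := by omega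
    rw [e7, opE_odd, norm_mul]
    have e3 : ‖(1 / 8 : ℂ)‖ = 1 / 8 := by norm_num
    rw [e3]
    have h1 := norm_sub_le (gam g k (2 * (n + 1) - 2) + gam g k (2 * (n + 1) - 1) -
      gam g k (2 * (n + 1))) (gam g k (2 * (n + 1) + 1))
    have h2 := norm_sub_le (gam g k (2 * (n + 1) - 2) + gam g k (2 * (n + 1) - 1))
      (gam g k (2 * (n + 1)))
    have h3 := norm_add_le (gam g k (2 * (n + 1) - 2)) (gam g k (2 * (n + 1) - 1))
    have b1 := hb (2 * (n + 1) - 2)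
    have b2 := hb (2 * (n + 1) - 1)
    have b3 := hb (2 * (n + 1))
    have b4 := hb (2 * (n + 1) + 1)
    have h5 : 0 ≤ C / 2 ^ (i - k) := by positivity
    linarith

private theorem k2a_gam_ne {g : ℤ →₀ ℂ} {k : ℕ} {n : ℤ} (h : gam g k n ≠ 0) :
    ∃ u, n * 2 ^ k ≤ u ∧ u < (n + 1) * 2 ^ k ∧ g u ≠ 0 := by
  rw [gam_apply] at h
  obtain ⟨u, hu, hg⟩ := Finset.exists_ne_zero_of_sum_ne_zero h
  rw [Finset.mem_Ico] at hu
  exact ⟨u, hu.1, hu.2, hg⟩

/-- `k < i`, support. -/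
theorem ee_supp {C : ℝ} {i : ℕ} {J : Finset ℕ} {g : ℤ →₀ ℂ} (h : ShellFn C i J g)
    {k : ℕ} (hk : k < i) (q : ℤ) (hq : ee g i k q ≠ 0) :
    q - 1 < 2 * 2 ^ (i - k) ∧ -(2 * 2 ^ (i - k)) < q + 3 := by
  have hp := k2a_pow_pos k
  have hex : ∃ u, (q - 1) * 2 ^ k ≤ u ∧ u < (q + 3) * 2 ^ k ∧ g u ≠ 0 := by
    unfold ee at hq
    rw [if_pos hk] at hq
    by_contra hcon
    push Not at hcon
    have hz : ∀ n, q - 1 ≤ n → n ≤ q + 2 → gam g k n = 0 := by
      intro n h1 h2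
      by_contra h3
      obtain ⟨u, hu1, hu2, hu3⟩ := k2a_gam_ne h3
      refine hu3 (hcon u ?_ ?_)
      · nlinarith
      · nlinarith
    apply hq
    rcases Int.even_or_odd' q with ⟨n, hn | hn⟩
    · rw [hn, opE_even, hz _ (by omega) (by omega), hz _ (by omega) (by omega)]
      simp
    · have e7 : q = 2 * (n + 1) - 1 := by omega
      rw [e7, opE_odd, hz _ (by omega) (by omega), hz _ (by omega) (by omega),
        hz _ (by omega) (by omega), hz _ (by omega) (by omega)]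
      simp
  obtain ⟨u, hu1, hu2, hu3⟩ := hex
  have h1 := (h.supp u hu3).2
  rw [abs_lt] at h1
  have e : (2 : ℤ) ^ (i + 1) = (2 * 2 ^ (i - k)) * 2 ^ k := by
    rw [pow_succ, mul_comm ((2 : ℤ) ^ i) 2, mul_assoc, ← pow_add]
    congr 2
    omega
  rw [e] at h1
  constructor
  · exact lt_of_mul_lt_mul_right (lt_of_le_of_lt hu1 h1.2) hp.le
  · have h2 : -(2 * 2 ^ (i - k)) * 2 ^ k < (q + 3) * 2 ^ k := by
      rw [neg_mul]
      exact lt_trans h1.1 hu2
    exact lt_of_mul_lt_mul_right h2 hp.le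

private theorem k2a_sum0 {C : ℝ} {i : ℕ} {J : Finset ℕ} {g : ℤ →₀ ℂ} (h : ShellFn C i J g) (k : ℕ) :
    ((gam g k).sum fun _ c => c) = 0 := by
  induction k with
  | zero => exact h.sum0
  | succ k ih => rw [k2a_gam_succ, sum_opB, ih]

private theorem k2a_cums {γ : ℤ →₀ ℂ} (h0 : (γ.sum fun _ c => c) = 0) (m : ℤ) :
    cums γ m = ∑ n ∈ γ.support.filter (· ≤ m), γ n := by
  rw [cums, dif_pos h0]
  exact (exists_cums γ h0).choose_spec m

private theorem k2a_top_supp {C : ℝ} {i : ℕ} {J : Finset ℕ} {g : ℤ →₀ ℂ} (h : ShellFn C i J g)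
    {n : ℤ} (hn : gam g i n ≠ 0) : -2 ≤ n ∧ n ≤ 1 := by
  obtain ⟨u, hu1, hu2, hu3⟩ := k2a_gam_ne hn
  have hp := k2a_pow_pos i
  have h1 := (h.supp u hu3).2
  rw [abs_lt, pow_succ] at h1
  constructor
  · by_contra h2
    push Not at h2
    have : (n + 1) * 2 ^ i ≤ (-2) * 2 ^ i := by nlinarith
    nlinarith
  · by_contra h2
    push Not at h2
    have : 2 * 2 ^ i ≤ n * 2 ^ i := by nlinarith
    nlinarith

/-- `k = i`: cumulative sums of the four block sums `gam g i n`, `n = -2, -1, 0, 1`. -/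
theorem ee_top_le {C : ℝ} {i : ℕ} {J : Finset ℕ} {g : ℤ →₀ ℂ} (h : ShellFn C i J g) (q : ℤ) :
    ‖ee g i i q‖ ≤ 4 * C := by
  have hC := h.nonneg
  unfold ee
  rw [if_neg (lt_irrefl i), if_pos rfl, k2a_cums (k2a_sum0 h i)]
  refine (norm_sum_le _ _).trans ?_
  have hb : ∀ n, ‖gam g i n‖ ≤ C := by
    intro n
    have h1 := k2a_gam_le h i n
    have e : (2 : ℝ) ^ i * (C / 2 ^ i) = C := by field_simp
    rwa [e] at h1
  refine (Finset.sum_le_sum (fun n _ => hb n)).trans ?_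
  rw [Finset.sum_const, nsmul_eq_mul]
  have hsub : (gam g i).support.filter (· ≤ q) ⊆ Finset.Icc (-2 : ℤ) 1 := by
    intro n hn
    rw [Finset.mem_filter, Finsupp.mem_support_iff] at hn
    rw [Finset.mem_Icc]
    exact k2a_top_supp h hn.1
  have hcard : ((gam g i).support.filter (· ≤ q)).card ≤ 4 := by
    refine (Finset.card_le_card hsub).trans ?_
    rw [Int.card_Icc]
    decide
  have hcard' : (((gam g i).support.filter (· ≤ q)).card : ℝ) ≤ 4 := by exact_mod_cast hcard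
  exact mul_le_mul_of_nonneg_right hcard' hC

theorem ee_top_supp {C : ℝ} {i : ℕ} {J : Finset ℕ} {g : ℤ →₀ ℂ} (h : ShellFn C i J g) (q : ℤ)
    (hq : ee g i i q ≠ 0) : -2 ≤ q ∧ q ≤ 0 := by
  unfold ee at hq
  rw [if_neg (lt_irrefl i), if_pos rfl, k2a_cums (k2a_sum0 h i)] at hq
  constructor
  · obtain ⟨n, hn, hn0⟩ := Finset.exists_ne_zero_of_sum_ne_zero hq
    rw [Finset.mem_filter] at hn
    have := (k2a_top_supp h hn0).1
    omega
  · by_contra h1
    push Not at h1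
    apply hq
    have e : (gam g i).support.filter (· ≤ q) = (gam g i).support := by
      apply Finset.filter_true_of_mem
      intro n hn
      rw [Finsupp.mem_support_iff] at hn
      have := (k2a_top_supp h hn).2
      omega
    rw [e]
    exact k2a_sum0 h i

end Crest.Agent.R72.K
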