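import Crest.Agent.R72.K2A

/-!
Row 72, module K: bounds for `zt` and `rho` (imported sorries of K2A may be used).

`zt (k+1) m = ee (k+1) m + zt k (2m+1)/2 + zt k (2m)/4 + zt k (2m+2)/4` (`opP_apply`), and the
windows `[(p-1) 2^k, (p+5) 2^k)` for `p ∈ {2m, 2m+1, 2m+2}` and `[(m-1) 2^(k+1), (m+3) 2^(k+1))` are
contained in `[(m-1) 2^(k+1), (m+5) 2^(k+1))`.  Induction claims for `k < i`: `≤ (4/3) C / 4^(i-k)`
(no hit), `≤ 2 C / 2^(i-k)`; for `k = i`: `≤ 5 C`.
-/

set_option autoImplicit false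

namespace Crest.Agent.R72.K

open Finset Finsupp

variable {C : ℝ} {i : ℕ} {J : Finset ℕ} {g : ℤ →₀ ℂ}

private theorem norm_opP (z : ℤ →₀ ℂ) (m : ℤ) :
    ‖opP z m‖ ≤ 1 / 2 * ‖z (2 * m + 1)‖ + 1 / 4 * ‖z (2 * m)‖ + 1 / 4 * ‖z (2 * m + 2)‖ := by
  rw [opP_apply]
  have h2 : ‖(1 / 2 : ℂ)‖ = 1 / 2 := by simp
  have h4 : ‖(1 / 4 : ℂ)‖ = 1 / 4 := by simp
  refine (norm_add_le _ _).trans (add_le_add ((norm_add_le _ _).trans (add_le_add ?_ ?_)) ?_)
  · rw [norm_mul, h2]
  · rw [norm_mul, h4]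
  · rw [norm_mul, h4]

private theorem norm_opF (z : ℤ →₀ ℂ) (q : ℤ) (B : ℝ)
    (h : ∀ p, q - 1 ≤ p → p ≤ q + 3 → ‖z p‖ ≤ B) : ‖opF z q‖ ≤ 6 * B := by
  have h0 := h q (by omega) (by omega)
  have h1 := h (q + 1) (by omega) (by omega)
  have h2 := h (q + 2) (by omega) (by omega)
  have h3 := h (q + 3) (by omega) (by omega)
  have hm := h (q - 1) (by omega) (by omega)
  have c3 : ‖(3 : ℂ)‖ = 3 := by simp
  have c32 : ‖(3 / 2 : ℂ)‖ = 3 / 2 := by simp
  have c2 : ‖(1 / 2 : ℂ)‖ = 1 / 2 := by simp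
  have c4 : ‖(1 / 4 : ℂ)‖ = 1 / 4 := by simp
  have c92 : ‖(9 / 2 : ℂ)‖ = 9 / 2 := by simp
  rcases Int.emod_two_eq_zero_or_one q with hq | hq
  · rw [opF_even z q hq, norm_neg]
    have : ‖3 * z (q + 1) + 3 / 2 * z (q + 2) + 3 / 2 * z q‖ ≤
        3 * ‖z (q + 1)‖ + 3 / 2 * ‖z (q + 2)‖ + 3 / 2 * ‖z q‖ := by
      refine (norm_add_le _ _).trans (add_le_add ((norm_add_le _ _).trans (add_le_add ?_ ?_)) ?_)
      · rw [norm_mul, c3]
      · rw [norm_mul, c32]
      · rw [norm_mul, c32]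
    linarith
  · rw [opF_odd z q hq, norm_neg]
    have : ‖1 / 2 * z q + 1 / 2 * z (q + 2) + 1 / 4 * z (q + 3) + 9 / 2 * z (q + 1) +
        1 / 4 * z (q - 1)‖ ≤ 1 / 2 * ‖z q‖ + 1 / 2 * ‖z (q + 2)‖ + 1 / 4 * ‖z (q + 3)‖ +
          9 / 2 * ‖z (q + 1)‖ + 1 / 4 * ‖z (q - 1)‖ := by
      refine (norm_add_le _ _).trans (add_le_add ((norm_add_le _ _).trans (add_le_add
        ((norm_add_le _ _).trans (add_le_add ((norm_add_le _ _).trans (add_le_add ?_ ?_)) ?_))
        ?_)) ?_)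
      · rw [norm_mul, c2]
      · rw [norm_mul, c2]
      · rw [norm_mul, c4]
      · rw [norm_mul, c92]
      · rw [norm_mul, c4]
    linarith

private theorem opF_ne {z : ℤ →₀ ℂ} {q : ℤ} (h : opF z q ≠ 0) :
    ∃ p, q - 1 ≤ p ∧ p ≤ q + 3 ∧ z p ≠ 0 := by
  by_contra hc
  push Not at hc
  have := norm_opF z q 0 (fun p h1 h2 => by rw [hc p h1 h2, norm_zero])
  rw [mul_zero] at this
  exact h (norm_le_zero_iff.1 this)

private theorem opP_ne {z : ℤ →₀ ℂ} {q : ℤ} (h : opP z q ≠ 0) :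
    ∃ p, 2 * q ≤ p ∧ p ≤ 2 * q + 2 ∧ z p ≠ 0 := by
  by_contra hc
  push Not at hc
  apply h
  rw [opP_apply, hc (2 * q + 1) (by omega) (by omega), hc (2 * q) (by omega) (by omega),
    hc (2 * q + 2) (by omega) (by omega)]
  ring

private theorem zt_succ (g : ℤ →₀ ℂ) (i k : ℕ) (q : ℤ) :
    zt g i (k + 1) q = ee g i (k + 1) q + opP (zt g i k) q := by
  rw [zt, Finsupp.add_apply]

private theorem smooth_lt (h : ShellFn C i J g) {k : ℕ} (hk : k < i) : ∀ q : ℤ,
    ¬ hit J k 1 5 q → ‖zt g i k q‖ ≤ 4 / 3 * (C / 4 ^ (i - k)) := by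
  induction k with
  | zero =>
    intro q hq
    have hq' : ¬ hit J 0 1 3 q := fun hh => hq (hit_mono le_rfl (by norm_num) hh)
    have h1 := ee_le_smooth h hk q hq'
    have h2 : 0 ≤ C / 4 ^ (i - 0) := by
      have := h.nonneg
      positivity
    rw [zt]
    linarith
  | succ k ih =>
    intro q hq
    have hpos : (0 : ℤ) < 2 ^ k := by positivity
    have hq' : ¬ hit J (k + 1) 1 3 q := fun hh => hq (hit_mono le_rfl
      (mul_le_mul_of_nonneg_right (by omega) (by positivity)) hh)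
    have h1 := ee_le_smooth h hk q hq'
    have hp : ∀ p, 2 * q ≤ p → p ≤ 2 * q + 2 → ‖zt g i k p‖ ≤ 4 / 3 * (C / 4 ^ (i - k)) := by
      intro p hp1 hp2
      refine ih (by omega) p fun hh => hq (hit_mono ?_ ?_ hh)
      · rw [pow_succ]
        have : (q - 1) * (2 ^ k * 2) = (2 * q - 2) * 2 ^ k := by ring
        rw [this]
        exact mul_le_mul_of_nonneg_right (by omega) hpos.le
      · rw [pow_succ]
        have : (q + 5) * (2 ^ k * 2) = (2 * q + 10) * 2 ^ k := by ring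
        rw [this]
        exact mul_le_mul_of_nonneg_right (by omega) hpos.le
    have h2 := norm_opP (zt g i k) q
    have a1 := hp (2 * q + 1) (by omega) (by omega)
    have a2 := hp (2 * q) (by omega) (by omega)
    have a3 := hp (2 * q + 2) (by omega) (by omega)
    have e : C / 4 ^ (i - k) = 1 / 4 * (C / 4 ^ (i - (k + 1))) := by
      have : i - k = i - (k + 1) + 1 := by omega
      rw [this, pow_succ]
      field_simp
    rw [e] at a1 a2 a3
    rw [zt_succ]
    have := norm_add_le (ee g i (k + 1) q) (opP (zt g i k) q)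
    linarith

theorem zt_le_smooth (h : ShellFn C i J g) {k : ℕ} (hk : k ≤ i) (q : ℤ)
    (hq : ¬ hit J k 1 5 q) : ‖zt g i k q‖ ≤ 6 * C / 4 ^ (i - k) := by
  have hC := h.nonneg
  rcases hk.lt_or_eq with hk | rfl
  · have h1 := smooth_lt h hk q hq
    have h2 : 0 ≤ C / 4 ^ (i - k) := by positivity
    rw [mul_div_assoc]
    linarith
  · rw [Nat.sub_self, pow_zero, div_one]
    have h1 := ee_top_le h q
    cases k with
    | zero =>
      rw [zt]
      linarith
    | succ k =>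
      have hpos : (0 : ℤ) < 2 ^ k := by positivity
      have hp : ∀ p, 2 * q ≤ p → p ≤ 2 * q + 2 → ‖zt g (k + 1) k p‖ ≤ 4 / 3 * (C / 4) := by
        intro p hp1 hp2
        have := smooth_lt h (Nat.lt_succ_self k) p (fun hh => hq (hit_mono ?_ ?_ hh))
        · rwa [Nat.add_sub_cancel_left, pow_one] at this
        · rw [pow_succ]
          have : (q - 1) * (2 ^ k * 2) = (2 * q - 2) * 2 ^ k := by ring
          rw [this]
          exact mul_le_mul_of_nonneg_right (by omega) hpos.le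
        · rw [pow_succ]
          have : (q + 5) * (2 ^ k * 2) = (2 * q + 10) * 2 ^ k := by ring
          rw [this]
          exact mul_le_mul_of_nonneg_right (by omega) hpos.le
      have h2 := norm_opP (zt g (k + 1) k) q
      have a1 := hp (2 * q + 1) (by omega) (by omega)
      have a2 := hp (2 * q) (by omega) (by omega)
      have a3 := hp (2 * q + 2) (by omega) (by omega)
      rw [zt_succ]
      have := norm_add_le (ee g (k + 1) (k + 1) q) (opP (zt g (k + 1) k) q)
      linarith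

private theorem rough_lt (h : ShellFn C i J g) {k : ℕ} (hk : k < i) : ∀ q : ℤ,
    ‖zt g i k q‖ ≤ 2 * (C / 2 ^ (i - k)) := by
  induction k with
  | zero =>
    intro q
    have h1 := ee_le_rough h hk q
    have h2 : 0 ≤ C / 2 ^ (i - 0) := by
      have := h.nonneg
      positivity
    rw [zt]
    linarith
  | succ k ih =>
    intro q
    have h1 := ee_le_rough h hk q
    have h2 := norm_opP (zt g i k) q
    have a1 := ih (by omega) (2 * q + 1)
    have a2 := ih (by omega) (2 * q)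
    have a3 := ih (by omega) (2 * q + 2)
    have e : C / 2 ^ (i - k) = 1 / 2 * (C / 2 ^ (i - (k + 1))) := by
      have : i - k = i - (k + 1) + 1 := by omega
      rw [this, pow_succ]
      field_simp
    rw [e] at a1 a2 a3
    rw [zt_succ]
    have := norm_add_le (ee g i (k + 1) q) (opP (zt g i k) q)
    linarith

theorem zt_le_rough (h : ShellFn C i J g) {k : ℕ} (hk : k ≤ i) (q : ℤ) :
    ‖zt g i k q‖ ≤ 6 * C / 2 ^ (i - k) := by
  have hC := h.nonneg
  rcases hk.lt_or_eq with hk | rfl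
  · have h1 := rough_lt h hk q
    have h2 : 0 ≤ C / 2 ^ (i - k) := by positivity
    rw [mul_div_assoc]
    linarith
  · rw [Nat.sub_self, pow_zero, div_one]
    have h1 := ee_top_le h q
    cases k with
    | zero =>
      rw [zt]
      linarith
    | succ k =>
      have hp : ∀ p, ‖zt g (k + 1) k p‖ ≤ 2 * (C / 2) := by
        intro p
        have := rough_lt h (Nat.lt_succ_self k) p
        rwa [Nat.add_sub_cancel_left, pow_one] at this
      have h2 := norm_opP (zt g (k + 1) k) q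
      have a1 := hp (2 * q + 1)
      have a2 := hp (2 * q)
      have a3 := hp (2 * q + 2)
      rw [zt_succ]
      have := norm_add_le (ee g (k + 1) (k + 1) q) (opP (zt g (k + 1) k) q)
      linarith

theorem zt_supp (h : ShellFn C i J g) {k : ℕ} (hk : k ≤ i) (q : ℤ) (hq : zt g i k q ≠ 0) :
    q - 1 < 2 * 2 ^ (i - k) ∧ -(2 * 2 ^ (i - k)) < q + 5 := by
  have hee : ∀ (k : ℕ) (q : ℤ), k ≤ i → ee g i k q ≠ 0 →
      q - 1 < 2 * 2 ^ (i - k) ∧ -(2 * 2 ^ (i - k)) < q + 5 := by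
    intro k q hk hq
    rcases hk.lt_or_eq with hk | rfl
    · have := ee_supp h hk q hq
      constructor
      · exact this.1
      · linarith [this.2]
    · have := ee_top_supp h q hq
      rw [Nat.sub_self, pow_zero]
      omega
  induction k generalizing q with
  | zero =>
    rw [zt] at hq
    exact hee 0 q hk hq
  | succ k ih =>
    rw [zt_succ] at hq
    by_cases h1 : ee g i (k + 1) q = 0
    · rw [h1, zero_add] at hq
      obtain ⟨p, hp1, hp2, hp3⟩ := opP_ne hq
      have h2 := ih (by omega) p hp3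
      have e : i - k = i - (k + 1) + 1 := by omega
      rw [e, pow_succ] at h2
      obtain ⟨h3, h4⟩ := h2
      constructor <;> omega
    · exact hee (k + 1) q hk h1

private theorem zt_top_succ (g : ℤ →₀ ℂ) (i l : ℕ) :
    zt g i (i + (l + 1)) = opP (zt g i (i + l)) := by
  have e : ee g i (i + l + 1) = 0 := by
    rw [ee, if_neg (by omega), if_neg (by omega)]
  rw [← add_assoc, zt, e, zero_add]

/-- Above the shell: support in `[-6, 2]` and geometric decay of the `ℓ¹` norm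
(`opP` halves the `ℓ¹` norm). -/
theorem zt_top_supp (h : ShellFn C i J g) (l : ℕ) (q : ℤ) (hq : zt g i (i + l) q ≠ 0) :
    -6 ≤ q ∧ q ≤ 2 := by
  induction l generalizing q with
  | zero =>
    have h1 := zt_supp h (le_refl i) q hq
    rw [Nat.sub_self, pow_zero] at h1
    omega
  | succ l ih =>
    rw [zt_top_succ] at hq
    obtain ⟨p, hp1, hp2, hp3⟩ := opP_ne hq
    have := ih p hp3
    omega

private theorem Icc9 (f : ℤ → ℝ) : ∑ q ∈ Icc (-6 : ℤ) 2, f q =
    f (-6) + f (-5) + f (-4) + f (-3) + f (-2) + f (-1) + f 0 + f 1 + f 2 := by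
  have e : Icc (-6 : ℤ) 2 = {-6, -5, -4, -3, -2, -1, 0, 1, 2} := by decide
  rw [e, Finset.sum_insert (by decide), Finset.sum_insert (by decide),
    Finset.sum_insert (by decide), Finset.sum_insert (by decide),
    Finset.sum_insert (by decide), Finset.sum_insert (by decide),
    Finset.sum_insert (by decide), Finset.sum_insert (by decide), Finset.sum_singleton]
  ring

private theorem half_l1 (z : ℤ →₀ ℂ) (hz : ∀ q, z q ≠ 0 → -6 ≤ q ∧ q ≤ 2) :
    ∑ q ∈ Icc (-6 : ℤ) 2, ‖opP z q‖ ≤ 1 / 2 * ∑ q ∈ Icc (-6 : ℤ) 2, ‖z q‖ := by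
  have hz' : ∀ q, q < -6 ∨ 2 < q → ‖z q‖ = 0 := by
    intro q hq
    rw [norm_eq_zero]
    by_contra hc
    have := hz q hc
    omega
  rw [Icc9, Icc9]
  have a1 := norm_opP z (-6)
  have a2 := norm_opP z (-5)
  have a3 := norm_opP z (-4)
  have a4 := norm_opP z (-3)
  have a5 := norm_opP z (-2)
  have a6 := norm_opP z (-1)
  have a7 := norm_opP z 0
  have a8 := norm_opP z 1
  have a9 := norm_opP z 2
  norm_num at a1 a2 a3 a4 a5 a6 a7 a8 a9
  have b1 := hz' (-12) (by norm_num)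
  have b2 := hz' (-11) (by norm_num)
  have b3 := hz' (-10) (by norm_num)
  have b4 := hz' (-9) (by norm_num)
  have b5 := hz' (-8) (by norm_num)
  have b6 := hz' (-7) (by norm_num)
  have b7 := hz' 3 (by norm_num)
  have b8 := hz' 4 (by norm_num)
  have b9 := hz' 5 (by norm_num)
  have b10 := hz' 6 (by norm_num)
  linarith

theorem zt_top_l1 (h : ShellFn C i J g) (l : ℕ) :
    ∑ q ∈ Icc (-6 : ℤ) 2, ‖zt g i (i + l) q‖ ≤ 60 * C / 2 ^ l := by
  have hC := h.nonneg
  induction l with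
  | zero =>
    have h1 : ∀ q ∈ Icc (-6 : ℤ) 2, ‖zt g i (i + 0) q‖ ≤ 6 * C := by
      intro q _
      have := zt_le_rough h (le_refl i) q
      rwa [Nat.sub_self, pow_zero, div_one] at this
    have h2 := Finset.sum_le_sum h1
    rw [Finset.sum_const, nsmul_eq_mul] at h2
    have h3 : ((Icc (-6 : ℤ) 2).card : ℝ) = 9 := by
      have : (Icc (-6 : ℤ) 2).card = 9 := by decide
      rw [this]
      norm_num
    rw [h3] at h2
    rw [pow_zero, div_one]
    linarith
  | succ l ih =>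
    rw [zt_top_succ]
    have h1 := half_l1 (zt g i (i + l)) (zt_top_supp h l)
    have e : 60 * C / 2 ^ (l + 1) = 1 / 2 * (60 * C / 2 ^ l) := by
      rw [pow_succ]
      field_simp
    rw [e]
    linarith

/-- (1a) -/
theorem rho_le (h : ShellFn C i J g) {k : ℕ} (hk : k ≤ i) (q : ℤ)
    (hq : ¬ hit J k 2 8 q) : ‖rho g i k q‖ ≤ 36 * C / 4 ^ (i - k) := by
  have hpos : (0 : ℤ) < 2 ^ k := by positivity
  have h1 := norm_opF (zt g i k) q (6 * C / 4 ^ (i - k)) (fun p h1 h2 =>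
    zt_le_smooth h hk p (fun hh => hq (hit_mono
      (mul_le_mul_of_nonneg_right (by omega) hpos.le)
      (mul_le_mul_of_nonneg_right (by omega) hpos.le) hh)))
  rw [rho]
  refine h1.trans (le_of_eq ?_)
  ring

/-- (1b) -/
theorem rho_le' (h : ShellFn C i J g) {k : ℕ} (hk : k ≤ i) (q : ℤ) :
    ‖rho g i k q‖ ≤ 36 * C / 2 ^ (i - k) := by
  have h1 := norm_opF (zt g i k) q (6 * C / 2 ^ (i - k)) (fun p _ _ => zt_le_rough h hk p)
  rw [rho]
  refine h1.trans (le_of_eq ?_)
  ring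

/-- (1c) -/
theorem rho_supp (h : ShellFn C i J g) {k : ℕ} (hk : k ≤ i) (q : ℤ) (hq : rho g i k q ≠ 0) :
    |q| ≤ 10 * 2 ^ (i - k) := by
  rw [rho] at hq
  obtain ⟨p, h1, h2, h3⟩ := opF_ne hq
  have h4 := zt_supp h hk p h3
  have h5 : (1 : ℤ) ≤ 2 ^ (i - k) := one_le_pow₀ (by norm_num)
  rw [abs_le]
  constructor <;> omega

private theorem zt_top_pt (h : ShellFn C i J g) (l : ℕ) (q : ℤ) :
    ‖zt g i (i + l) q‖ ≤ 60 * C / 2 ^ l := by
  have hC := h.nonneg
  by_cases hq : zt g i (i + l) q = 0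
  · rw [hq, norm_zero]
    positivity
  · have h1 := zt_top_supp h l q hq
    exact (Finset.single_le_sum (f := fun q => ‖zt g i (i + l) q‖) (fun _ _ => norm_nonneg _)
      (Finset.mem_Icc.2 h1)).trans (zt_top_l1 h l)

/-- (2a) -/
theorem rho_top_le (h : ShellFn C i J g) (l : ℕ) (q : ℤ) :
    ‖rho g i (i + l) q‖ ≤ 360 * C / 2 ^ l := by
  have h1 := norm_opF (zt g i (i + l)) q (60 * C / 2 ^ l) (fun p _ _ => zt_top_pt h l p)
  rw [rho]
  refine h1.trans (le_of_eq ?_)
  ring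

/-- (2b) -/
theorem rho_top_supp (h : ShellFn C i J g) (l : ℕ) (q : ℤ) (hq : rho g i (i + l) q ≠ 0) :
    |q| ≤ 10 := by
  rw [rho] at hq
  obtain ⟨p, h1, h2, h3⟩ := opF_ne hq
  have h4 := zt_top_supp h l p h3
  rw [abs_le]
  constructor <;> omega

/-- (3) -/
theorem opP_zt_top_l1 (h : ShellFn C i J g) (l : ℕ) :
    ((opP (zt g i (i + l))).sum fun _ c => ‖c‖) ≤ 60 * C / 2 ^ l := by
  have hC := h.nonneg
  rw [← zt_top_succ]
  have hsub : (zt g i (i + (l + 1))).support ⊆ Icc (-6 : ℤ) 2 := by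
    intro q hq
    exact Finset.mem_Icc.2 (zt_top_supp h (l + 1) q (Finsupp.mem_support_iff.1 hq))
  have h1 : ((zt g i (i + (l + 1))).sum fun _ c => ‖c‖) ≤
      ∑ q ∈ Icc (-6 : ℤ) 2, ‖zt g i (i + (l + 1)) q‖ :=
    Finset.sum_le_sum_of_subset_of_nonneg hsub fun _ _ _ => norm_nonneg _
  refine (h1.trans (zt_top_l1 h (l + 1))).trans ?_
  rw [pow_succ]
  have : 0 ≤ 60 * C / 2 ^ l := by positivity
  have e : 60 * C / (2 ^ l * 2) = 1 / 2 * (60 * C / 2 ^ l) := by
    field_simp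
  rw [e]
  linarith

/-- A vanishing function has vanishing coefficients. -/
theorem rho_zero (i k : ℕ) : rho 0 i k = 0 := by
  have hg : ∀ k, gam 0 k = 0 := by
    intro k
    induction k with
    | zero => rfl
    | succ k ih =>
      unfold gam at ih ⊢
      rw [Function.iterate_succ_apply', ih, map_zero]
  have hc : cums 0 = 0 := by
    have h0 : ((0 : ℤ →₀ ℂ).sum fun _ c => c) = 0 := Finsupp.sum_zero_index
    unfold cums
    rw [dif_pos h0]
    ext m
    rw [(exists_cums 0 h0).choose_spec m]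
    simp
  have he : ∀ k, ee 0 i k = 0 := by
    intro k
    unfold ee
    split_ifs
    · rw [hg, map_zero]
    · rw [hg, hc]
    · rfl
  have hz : ∀ k, zt 0 i k = 0 := by
    intro k
    induction k with
    | zero => rw [zt, he]
    | succ k ih => rw [zt, he, ih, map_zero, add_zero]
  rw [rho, hz, map_zero]

end Crest.Agent.R72.K
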