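import Crest.Agent.R72.SDefs

/-!
Row 72, module K, piece K_4B (helper55): re-indexing the planes.
-/

set_option autoImplicit false

namespace Crest.Agent.R72.K

open Finset

/-- Plane `1 + (m - 1) 2^k` (parent windows of length `2^(k+1)`). -/
def plm (N k : ℕ) (m : ℤ) : ZMod N := 1 + (((m - 1) * 2 ^ k : ℤ) : ZMod N)

/-- The planes of `n` are the `plm N k m` with `m = 2 t - 3 n + 1`. -/
theorem pl_eq_plm (N n k t : ℕ) : pl N n (2 ^ k) t = plm N k (2 * t - 3 * n + 1) := by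
  unfold pl sC plm
  have h : n * (2 * 2 ^ k) / 2 = n * 2 ^ k := by
    rw [show n * (2 * 2 ^ k) = n * 2 ^ k * 2 by ring]
    exact Nat.mul_div_cancel _ (by norm_num)
  rw [h]
  push_cast
  ring

private theorem sum_le_inj {α β : Type} [DecidableEq β] (s : Finset α) (t : Finset β) (e : α → β)
    (he : ∀ a ∈ s, ∀ b ∈ s, e a = e b → a = b) (hm : ∀ a ∈ s, e a ∈ t) (f : α → ℝ) (g : β → ℝ)
    (hfg : ∀ a ∈ s, f a ≤ g (e a)) (hg : ∀ b ∈ t, 0 ≤ g b) :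
    ∑ a ∈ s, f a ≤ ∑ b ∈ t, g b :=
  calc ∑ a ∈ s, f a ≤ ∑ a ∈ s, g (e a) := sum_le_sum hfg
    _ = ∑ b ∈ s.image e, g b := (sum_image fun a ha b hb h => he a ha b hb h).symm
    _ ≤ ∑ b ∈ t, g b :=
      sum_le_sum_of_subset_of_nonneg (image_subset_iff.2 hm) fun b hb _ => hg b hb

private theorem reidx (X : ℕ) (f : ℤ → ℝ) (hf : ∀ q, 0 ≤ f q) :
    ∑ q ∈ Icc (-(X : ℤ)) X, f q ≤
      ∑ t ∈ Ico (X + 3 - 1) (2 * (X + 3) - 1), f (2 * (t : ℤ) - 3 * ((X + 3 : ℕ) : ℤ) + 1) +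
      ∑ t ∈ Ico (X + 4 - 1) (2 * (X + 4) - 1), f (2 * (t : ℤ) - 3 * ((X + 4 : ℕ) : ℤ) + 1) := by
  rw [← sum_filter_add_sum_filter_not (Icc (-(X : ℤ)) X) (fun q => (q + X) % 2 = 0) f]
  refine add_le_add ?_ ?_
  · refine sum_le_inj _ _ (fun q : ℤ => ((q + 3 * X + 8) / 2).toNat) ?_ ?_ _ _ ?_ (fun b _ => hf _)
    · intro a ha b hb h
      simp only [mem_filter, mem_Icc] at ha hb
      omega
    · intro a ha
      simp only [mem_filter, mem_Icc] at ha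
      simp only [mem_Ico]
      omega
    · intro a ha
      simp only [mem_filter, mem_Icc] at ha
      refine le_of_eq (congrArg f ?_)
      push_cast
      omega
  · refine sum_le_inj _ _ (fun q : ℤ => ((q + 3 * X + 11) / 2).toNat) ?_ ?_ _ _ ?_ (fun b _ => hf _)
    · intro a ha b hb h
      simp only [mem_filter, mem_Icc] at ha hb
      omega
    · intro a ha
      simp only [mem_filter, mem_Icc] at ha
      simp only [mem_Ico]
      omega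
    · intro a ha
      simp only [mem_filter, mem_Icc] at ha
      refine le_of_eq (congrArg f ?_)
      push_cast
      omega

private theorem l3_nonneg {N : ℕ} [NeZero N] (u : ZMod N → ZMod N → ℝ) : 0 ≤ l3 u :=
  Real.rpow_nonneg (sum_nonneg fun _ _ => sum_nonneg fun _ _ => by positivity) _

private theorem l3_mono' {N : ℕ} [NeZero N] (u v : ZMod N → ZMod N → ℝ)
    (h : ∀ x y, |u x y| ≤ v x y) : l3 u ≤ l3 v := by
  refine Real.rpow_le_rpow (sum_nonneg fun _ _ => sum_nonneg fun _ _ => by positivity) ?_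
    (by norm_num)
  refine sum_le_sum fun x _ => sum_le_sum fun y _ => ?_
  exact pow_le_pow_left₀ (abs_nonneg _) ((h x y).trans (le_abs_self _)) 3

private theorem log_bd {X n : ℕ} (hX : 1 ≤ X) (hn : 1 ≤ n) (hnX : n ≤ 5 * X) :
    0 ≤ 1 + Real.log n ∧ 1 + Real.log n ≤ 5 * (1 + Real.log X) ∧ 0 ≤ 1 + Real.log X := by
  have hX' : (1 : ℝ) ≤ X := by exact_mod_cast hX
  have hn' : (1 : ℝ) ≤ n := by exact_mod_cast hn
  have h1 : Real.log n ≤ Real.log (5 * X) := by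
    refine Real.log_le_log (by linarith) ?_
    exact_mod_cast hnX
  have h2 : Real.log (5 * X) = Real.log 5 + Real.log X :=
    Real.log_mul (by norm_num) (by linarith)
  have h3 : Real.log 5 ≤ 4 := by
    have := Real.log_le_sub_one_of_pos (show (0 : ℝ) < 5 by norm_num)
    linarith
  have h4 : 0 ≤ Real.log X := Real.log_nonneg hX'
  have h5 : 0 ≤ Real.log n := Real.log_nonneg hn'
  refine ⟨by linarith, by linarith, by linarith⟩

theorem est_smooth_m (h : ESTsmooth) :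
    ∃ C : ℝ, 0 ≤ C ∧ ∀ (N : ℕ) [NeZero N] (X K : ℕ), 1 ≤ X →
    ∀ (A B H : Fn N) (m : ℕ → ZMod N → ZMod N → ℂ) (V : ℝ), 1 ≤ V →
      (∀ k x₂ x₀, ‖m k x₂ x₀‖ ≤ 1) →
      (∀ x₂ x₀, ∑ k ∈ range K, ‖m (k + 1) x₂ x₀ - m k x₂ x₀‖ ≤ V) →
      ∑ k ∈ range K, ∑ q ∈ Icc (-(X : ℤ)) X,
          PhiAbs A B (fun x₂ x₀ => H x₂ x₀ * m k x₂ x₀) (2 ^ k) (plm N k q) ≤
        C * X * (1 + Real.log X) * Real.sqrt V * n3 A * n3 B * n3 H := by
  obtain ⟨C, hC⟩ := h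
  refine ⟨50 * |C|, by positivity, ?_⟩
  intro N _ X K hX A B H m V hV hm hV2
  set P : ℝ := Real.sqrt V * n3 A * n3 B * n3 H with hP
  have hP0 : 0 ≤ P := by
    have hA := l3_nonneg fun x y => ‖A x y‖
    have hB := l3_nonneg fun x y => ‖B x y‖
    have hH := l3_nonneg fun x y => ‖H x y‖
    exact mul_nonneg (mul_nonneg (mul_nonneg (Real.sqrt_nonneg _) hA) hB) hH
  have hX' : (1 : ℝ) ≤ X := by exact_mod_cast hX
  have key : ∀ n : ℕ, 1 ≤ n → n ≤ 5 * X →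
      ∑ k ∈ range K, ∑ t ∈ Ico (n - 1) (2 * n - 1),
        PhiAbs A B (fun x₂ x₀ => H x₂ x₀ * m k x₂ x₀) (2 ^ k) (pl N n (2 ^ k) t) ≤
      25 * |C| * X * (1 + Real.log X) * P := by
    intro n hn hnX
    refine (hC N n K hn A B H m V hV hm hV2).trans ?_
    obtain ⟨h1, h2, h3⟩ := log_bd hX hn hnX
    have hn5 : (n : ℝ) ≤ 5 * X := by exact_mod_cast hnX
    have e1 : C * n * (1 + Real.log n) * Real.sqrt V * n3 A * n3 B * n3 H =
        C * (n * (1 + Real.log n)) * P := by rw [hP]; ring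
    rw [e1]
    have h4 : (n : ℝ) * (1 + Real.log n) ≤ (5 * X) * (5 * (1 + Real.log X)) :=
      mul_le_mul hn5 h2 h1 (by positivity)
    have h5 : 0 ≤ (n : ℝ) * (1 + Real.log n) := mul_nonneg (Nat.cast_nonneg _) h1
    calc C * (n * (1 + Real.log n)) * P ≤ |C| * ((5 * X) * (5 * (1 + Real.log X))) * P := by
          refine mul_le_mul_of_nonneg_right ?_ hP0
          exact mul_le_mul (le_abs_self C) h4 h5 (abs_nonneg C)
      _ = 25 * |C| * X * (1 + Real.log X) * P := by ring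
  have k1 := key (X + 3) (by omega) (by omega)
  have k2 := key (X + 4) (by omega) (by omega)
  have hsum : ∑ k ∈ range K, ∑ q ∈ Icc (-(X : ℤ)) X,
      PhiAbs A B (fun x₂ x₀ => H x₂ x₀ * m k x₂ x₀) (2 ^ k) (plm N k q) ≤
      (∑ k ∈ range K, ∑ t ∈ Ico (X + 3 - 1) (2 * (X + 3) - 1),
        PhiAbs A B (fun x₂ x₀ => H x₂ x₀ * m k x₂ x₀) (2 ^ k) (pl N (X + 3) (2 ^ k) t)) +
      ∑ k ∈ range K, ∑ t ∈ Ico (X + 4 - 1) (2 * (X + 4) - 1),
        PhiAbs A B (fun x₂ x₀ => H x₂ x₀ * m k x₂ x₀) (2 ^ k) (pl N (X + 4) (2 ^ k) t) := by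
    rw [← sum_add_distrib]
    refine sum_le_sum fun k _ => ?_
    simp only [pl_eq_plm]
    refine reidx X (fun q => PhiAbs A B (fun x₂ x₀ => H x₂ x₀ * m k x₂ x₀) (2 ^ k) (plm N k q))
      fun q => ?_
    exact mul_nonneg (by positivity) (sum_nonneg fun _ _ => sum_nonneg fun _ _ => norm_nonneg _)
  calc _ ≤ _ := hsum
    _ ≤ 25 * |C| * X * (1 + Real.log X) * P + 25 * |C| * X * (1 + Real.log X) * P :=
      add_le_add k1 k2
    _ = 50 * |C| * X * (1 + Real.log X) * Real.sqrt V * n3 A * n3 B * n3 H := by rw [hP]; ring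

theorem est_rough_m (h : ESTrough) :
    ∃ C : ℝ, 0 ≤ C ∧ ∀ (N : ℕ) [NeZero N] (X K : ℕ), 1 ≤ X →
    ∀ (A B : Fn N) (H : ℕ → ℤ → Fn N),
      ∑ k ∈ range K, ∑ q ∈ Icc (-(X : ℤ)) X, ‖Phi A B (H k q) (2 ^ k) (plm N k q)‖ ≤
        C * (X : ℝ) ^ (3 / 4 : ℝ) * Real.sqrt (1 + Real.log X) * n3 A * n3 B *
          l3 fun x₂ x₀ => Real.sqrt
            (∑ k ∈ range K, ∑ q ∈ Icc (-(X : ℤ)) X, ‖H k q x₂ x₀‖ ^ 2) := by
  classical
  obtain ⟨C, hC⟩ := h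
  refine ⟨30 * |C|, by positivity, ?_⟩
  intro N _ X K hX A B H
  set Λ : ℝ := l3 fun x₂ x₀ => Real.sqrt
    (∑ k ∈ range K, ∑ q ∈ Icc (-(X : ℤ)) X, ‖H k q x₂ x₀‖ ^ 2) with hΛ
  have hΛ0 : 0 ≤ Λ := l3_nonneg _
  have hA : 0 ≤ n3 A := l3_nonneg fun x y => ‖A x y‖
  have hB : 0 ≤ n3 B := l3_nonneg fun x y => ‖B x y‖
  have hX' : (1 : ℝ) ≤ X := by exact_mod_cast hX
  let H' : ℕ → ℤ → Fn N := fun k q => if q ∈ Icc (-(X : ℤ)) X then H k q else 0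
  have key : ∀ n : ℕ, 1 ≤ n → n ≤ 5 * X →
      ∑ k ∈ range K, ∑ t ∈ Ico (n - 1) (2 * n - 1),
        ‖Phi A B (H' k (2 * (t : ℤ) - 3 * (n : ℤ) + 1)) (2 ^ k) (pl N n (2 ^ k) t)‖ ≤
      15 * |C| * (X : ℝ) ^ (3 / 4 : ℝ) * Real.sqrt (1 + Real.log X) * n3 A * n3 B * Λ := by
    intro n hn hnX
    refine (hC N n K hn A B (fun k t => H' k (2 * (t : ℤ) - 3 * (n : ℤ) + 1))).trans ?_
    obtain ⟨h1, h2, h3⟩ := log_bd hX hn hnX
    have hn5 : (n : ℝ) ≤ 5 * X := by exact_mod_cast hnX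
    set Λ' : ℝ := l3 fun x₂ x₀ => Real.sqrt (∑ k ∈ range K, ∑ t ∈ Ico (n - 1) (2 * n - 1),
      ‖H' k (2 * (t : ℤ) - 3 * (n : ℤ) + 1) x₂ x₀‖ ^ 2) with hΛ'
    have hΛΛ : Λ' ≤ Λ := by
      refine l3_mono' _ _ fun x y => ?_
      rw [abs_of_nonneg (Real.sqrt_nonneg _)]
      refine Real.sqrt_le_sqrt ?_
      refine sum_le_sum fun k _ => ?_
      have e1 : ∑ t ∈ Ico (n - 1) (2 * n - 1), ‖H' k (2 * (t : ℤ) - 3 * (n : ℤ) + 1) x y‖ ^ 2 =
          ∑ t ∈ (Ico (n - 1) (2 * n - 1)).filter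
            (fun t : ℕ => 2 * (t : ℤ) - 3 * (n : ℤ) + 1 ∈ Icc (-(X : ℤ)) X),
            ‖H' k (2 * (t : ℤ) - 3 * (n : ℤ) + 1) x y‖ ^ 2 := by
        rw [sum_filter_of_ne]
        intro t _ ht
        by_contra hc
        apply ht
        simp only [H', if_neg hc]
        simp
      rw [e1]
      refine sum_le_inj _ _ (fun t : ℕ => 2 * (t : ℤ) - 3 * (n : ℤ) + 1) ?_ ?_ _ _ ?_
        (fun b _ => by positivity)
      · intro a _ b _ hab
        omega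
      · intro a ha
        exact (mem_filter.1 ha).2
      · intro a ha
        have := (mem_filter.1 ha).2
        simp only [H', if_pos this]
        exact le_rfl
    have hΛ'0 : 0 ≤ Λ' := l3_nonneg _
    have hpow : (n : ℝ) ^ (3 / 4 : ℝ) ≤ 5 * (X : ℝ) ^ (3 / 4 : ℝ) := by
      calc (n : ℝ) ^ (3 / 4 : ℝ) ≤ (5 * X : ℝ) ^ (3 / 4 : ℝ) :=
            Real.rpow_le_rpow (Nat.cast_nonneg _) hn5 (by norm_num)
        _ = (5 : ℝ) ^ (3 / 4 : ℝ) * (X : ℝ) ^ (3 / 4 : ℝ) :=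
            Real.mul_rpow (by norm_num) (by positivity)
        _ ≤ 5 * (X : ℝ) ^ (3 / 4 : ℝ) := by
            refine mul_le_mul_of_nonneg_right ?_ (by positivity)
            calc (5 : ℝ) ^ (3 / 4 : ℝ) ≤ (5 : ℝ) ^ (1 : ℝ) :=
                  Real.rpow_le_rpow_of_exponent_le (by norm_num) (by norm_num)
              _ = 5 := Real.rpow_one 5
    have hsq : Real.sqrt (1 + Real.log n) ≤ 3 * Real.sqrt (1 + Real.log X) := by
      have e : (3 : ℝ) * Real.sqrt (1 + Real.log X) = Real.sqrt (9 * (1 + Real.log X)) := by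
        rw [Real.sqrt_mul (by norm_num), show (9 : ℝ) = 3 ^ 2 by norm_num,
          Real.sqrt_sq (by norm_num)]
      rw [e]
      exact Real.sqrt_le_sqrt (by linarith)
    have hXp : 0 ≤ (X : ℝ) ^ (3 / 4 : ℝ) := by positivity
    have hnp : 0 ≤ (n : ℝ) ^ (3 / 4 : ℝ) := by positivity
    have s1 := Real.sqrt_nonneg (1 + Real.log n)
    have s2 := Real.sqrt_nonneg (1 + Real.log X)
    have m1 : C * (n : ℝ) ^ (3 / 4 : ℝ) ≤ |C| * (5 * (X : ℝ) ^ (3 / 4 : ℝ)) :=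
      mul_le_mul (le_abs_self C) hpow hnp (abs_nonneg C)
    have m1' : 0 ≤ |C| * (5 * (X : ℝ) ^ (3 / 4 : ℝ)) := by positivity
    have m2 : C * (n : ℝ) ^ (3 / 4 : ℝ) * Real.sqrt (1 + Real.log n) ≤
        |C| * (5 * (X : ℝ) ^ (3 / 4 : ℝ)) * (3 * Real.sqrt (1 + Real.log X)) :=
      mul_le_mul m1 hsq s1 m1'
    have m2' : 0 ≤ |C| * (5 * (X : ℝ) ^ (3 / 4 : ℝ)) * (3 * Real.sqrt (1 + Real.log X)) := by
      positivity
    have m3 := mul_le_mul_of_nonneg_right m2 hA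
    have m4 := mul_le_mul_of_nonneg_right m3 hB
    have m4' : 0 ≤ |C| * (5 * (X : ℝ) ^ (3 / 4 : ℝ)) * (3 * Real.sqrt (1 + Real.log X)) * n3 A *
        n3 B := mul_nonneg (mul_nonneg m2' hA) hB
    have m5 := mul_le_mul m4 hΛΛ hΛ'0 m4'
    calc _ ≤ _ := m5
      _ = 15 * |C| * (X : ℝ) ^ (3 / 4 : ℝ) * Real.sqrt (1 + Real.log X) * n3 A * n3 B * Λ := by
        ring
  have k1 := key (X + 3) (by omega) (by omega)
  have k2 := key (X + 4) (by omega) (by omega)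
  have hsum : ∑ k ∈ range K, ∑ q ∈ Icc (-(X : ℤ)) X, ‖Phi A B (H k q) (2 ^ k) (plm N k q)‖ ≤
      (∑ k ∈ range K, ∑ t ∈ Ico (X + 3 - 1) (2 * (X + 3) - 1),
        ‖Phi A B (H' k (2 * (t : ℤ) - 3 * ((X + 3 : ℕ) : ℤ) + 1)) (2 ^ k)
          (pl N (X + 3) (2 ^ k) t)‖) +
      ∑ k ∈ range K, ∑ t ∈ Ico (X + 4 - 1) (2 * (X + 4) - 1),
        ‖Phi A B (H' k (2 * (t : ℤ) - 3 * ((X + 4 : ℕ) : ℤ) + 1)) (2 ^ k)
          (pl N (X + 4) (2 ^ k) t)‖ := by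
    rw [← sum_add_distrib]
    refine sum_le_sum fun k _ => ?_
    simp only [pl_eq_plm]
    have e1 : ∑ q ∈ Icc (-(X : ℤ)) X, ‖Phi A B (H k q) (2 ^ k) (plm N k q)‖ =
        ∑ q ∈ Icc (-(X : ℤ)) X, ‖Phi A B (H' k q) (2 ^ k) (plm N k q)‖ := by
      refine sum_congr rfl fun q hq => ?_
      simp only [H', if_pos hq]
    rw [e1]
    exact reidx X (fun q => ‖Phi A B (H' k q) (2 ^ k) (plm N k q)‖) fun q => norm_nonneg _
  calc _ ≤ _ := hsum
    _ ≤ _ := add_le_add k1 k2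
    _ = _ := by ring

end Crest.Agent.R72.K
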