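import Crest.Agent.R72.SDefs
import Crest.Agent.R72.K4B
import Crest.Agent.R72.K1C

/-!
Row 72, module K: the shift on the group algebra of `ZMod N`, the pairing with the plane forms,
and the estimates of SDefs indexed by all integers `q` with `|q| ≤ X` instead of planes of `n`.
-/

set_option autoImplicit false

namespace Crest.Agent.R72.K

open Finset

/-- The shift in the group algebra of `ZMod N`. -/
noncomputable def sN (N : ℕ) (v : ℤ) : AddMonoidAlgebra ℂ (ZMod N) :=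
  AddMonoidAlgebra.single ((v : ℤ) : ZMod N) (1 : ℂ)

theorem sN_shift (N : ℕ) : IsShift (sN N) := by
  constructor
  · unfold sN
    rw [Int.cast_zero]
    rfl
  · intro a b
    unfold sN
    rw [AddMonoidAlgebra.single_mul_single, Int.cast_add, mul_one]

private theorem bb_haar {R : Type*} [CommRing R] [Algebra ℂ R] (σ : ℤ → R) (h : IsShift σ) (k : ℕ) :
    bb σ k * (1 - σ (2 ^ k)) = ∑ i ∈ range (2 * 2 ^ k), hs (2 ^ k) i • σ (i : ℤ) := by
  rw [two_mul, Finset.sum_range_add]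
  have h1 : ∑ i ∈ range (2 ^ k), hs (2 ^ k) i • σ (i : ℤ) = bb σ k := by
    unfold bb
    refine Finset.sum_congr rfl fun i hi => ?_
    rw [Finset.mem_range] at hi
    rw [hs, if_pos hi, one_smul]
  have h2 : ∑ i ∈ range (2 ^ k), hs (2 ^ k) (2 ^ k + i) • σ ((2 ^ k + i : ℕ) : ℤ) =
      - (bb σ k * σ (2 ^ k)) := by
    unfold bb
    rw [Finset.sum_mul, ← Finset.sum_neg_distrib]
    refine Finset.sum_congr rfl fun i hi => ?_
    rw [hs, if_neg (by omega), neg_smul, one_smul, ← h.add]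
    congr 2
    push_cast
    ring
  rw [h1, h2]
  ring

private theorem cube_expand {R : Type*} [CommRing R] [Algebra ℂ R] (σ : ℤ → R) (h : IsShift σ)
    (n : ℕ) (u : ℕ → ℂ) (c : ℤ) :
    (∑ i ∈ range n, u i • σ (i : ℤ)) ^ 3 * σ c =
      ∑ i ∈ range n, ∑ j ∈ range n, ∑ l ∈ range n, (u i * u j * u l) • σ (c + i + j + l) := by
  have key : ∀ i j l : ℕ, (u i * u j * u l) • σ (c + i + j + l) =
      (u i • σ (i : ℤ)) * ((u j • σ (j : ℤ)) * ((u l • σ (l : ℤ)) * σ c)) := by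
    intro i j l
    rw [h.add, h.add, h.add]
    simp only [Algebra.smul_def, map_mul]
    ring
  simp_rw [key, ← Finset.mul_sum, ← Finset.sum_mul]
  ring

private theorem HH_expand {R : Type*} [CommRing R] [Algebra ℂ R] (σ : ℤ → R) (h : IsShift σ)
    (k : ℕ) (m : ℤ) :
    HH σ k m = ∑ i ∈ range (2 * 2 ^ k), ∑ j ∈ range (2 * 2 ^ k), ∑ l ∈ range (2 * 2 ^ k),
      ((1 / 8 : ℂ) ^ (k + 1) * (hs (2 ^ k) i * hs (2 ^ k) j * hs (2 ^ k) l)) •
        σ (1 + (m - 1) * 2 ^ k + i + j + l) := by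
  have h1 : HH σ k m = (1 / 8 : ℂ) ^ (k + 1) •
      ((bb σ k * (1 - σ (2 ^ k))) ^ 3 * σ (1 + (m - 1) * 2 ^ k)) := by
    have h2 : σ (1 + (m - 1) * 2 ^ k) = σ (-(2 ^ k - 1)) * σ (m * 2 ^ k) := by
      rw [← h.add]
      congr 1
      ring
    unfold HH AA
    rw [h2]
    simp only [Algebra.smul_def, pow_succ, map_mul]
    ring
  rw [h1, bb_haar σ h, cube_expand σ h]
  simp only [Finset.smul_sum, smul_smul]

private theorem coeff_sN (N : ℕ) (v : ℤ) (w : ZMod N) :
    (sN N v).coeff w = if ((v : ℤ) : ZMod N) = w then 1 else 0 := by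
  classical
  unfold sN
  rw [AddMonoidAlgebra.coeff_single, Finsupp.single_apply]

private theorem sum_swap {N : ℕ} [NeZero N] (n : ℕ) (g : ZMod N → ZMod N → ℕ → ℂ) :
    ∑ x : ZMod N, ∑ y : ZMod N, ∑ i ∈ range n, g x y i =
      ∑ i ∈ range n, ∑ x : ZMod N, ∑ y : ZMod N, g x y i := by
  refine Eq.trans (Finset.sum_congr rfl fun x _ => Finset.sum_comm) ?_
  exact Finset.sum_comm

private theorem norm_bbcube {N : ℕ} (k : ℕ) (c : ℤ) (w : ZMod N) :
    ‖(bb (sN N) k ^ 3 * sN N c).coeff w‖ ≤ 8 ^ k := by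
  have h1 : bb (sN N) k = ∑ i ∈ range (2 ^ k), (fun _ : ℕ => (1 : ℂ)) i • sN N (i : ℤ) := by
    unfold bb
    simp only [one_smul]
  rw [h1, cube_expand (sN N) (sN_shift N)]
  simp only [AddMonoidAlgebra.coeff_sum, Finsupp.coe_finsetSum, Finset.sum_apply,
    AddMonoidAlgebra.coeff_smul_apply, smul_eq_mul, coeff_sN, mul_one, one_mul]
  have h2 : ∀ v : ℤ, ‖(if ((v : ℤ) : ZMod N) = w then (1 : ℂ) else 0)‖ ≤ 1 := by
    intro v
    split_ifs
    · rw [norm_one]
    · rw [norm_zero]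
      exact zero_le_one
  calc _ ≤ ∑ i ∈ range (2 ^ k), ∑ j ∈ range (2 ^ k), ∑ l ∈ range (2 ^ k), (1 : ℝ) := by
        refine (norm_sum_le _ _).trans (Finset.sum_le_sum fun i _ => ?_)
        refine (norm_sum_le _ _).trans (Finset.sum_le_sum fun j _ => ?_)
        refine (norm_sum_le _ _).trans (Finset.sum_le_sum fun l _ => ?_)
        exact h2 _
    _ = 8 ^ k := by
        simp only [Finset.sum_const, Finset.card_range, nsmul_eq_mul, mul_one]
        push_cast
        rw [← mul_pow, ← mul_pow]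
        norm_num

/-- `HH k m = 8^{-(k+1)} (∑_{i < 2^(k+1)} hs i σ i)^3 σ(1 + (m-1) 2^k)`, so its coefficient at `w` is
`8^{-(k+1)} ∑_{i,j,l} hs i hs j hs l [w = plm + i + j + l]`; substitute `x₀ = q₀ + i`,
`x₁ = q₁ + j`, `x₂ = s + i + j + l - x₀ - x₁` in `Phi`. -/
theorem pair_HH {N : ℕ} [NeZero N] (A B H : Fn N) (k : ℕ) (m : ℤ) :
    ∑ x₀ : ZMod N, ∑ x₁ : ZMod N, ∑ x₂ : ZMod N,
        A x₀ x₁ * B x₁ x₂ * H x₂ x₀ * (HH (sN N) k m).coeff (x₀ + x₁ + x₂) =
      Phi A B H (2 ^ k) (plm N k m) := by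
  set n := 2 * 2 ^ k with hn
  set s := plm N k m with hs0
  have hcoef : ∀ w : ZMod N, (HH (sN N) k m).coeff w =
      ∑ i ∈ range n, ∑ j ∈ range n, ∑ l ∈ range n,
        ((1 / 8 : ℂ) ^ (k + 1) * (hs (2 ^ k) i * hs (2 ^ k) j * hs (2 ^ k) l)) *
          (if s + i + j + l = w then 1 else 0) := by
    intro w
    rw [HH_expand (sN N) (sN_shift N)]
    simp only [AddMonoidAlgebra.coeff_sum, Finsupp.coe_finsetSum, Finset.sum_apply,
      AddMonoidAlgebra.coeff_smul_apply, smul_eq_mul, coeff_sN]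
    refine Finset.sum_congr rfl fun i _ => Finset.sum_congr rfl fun j _ =>
      Finset.sum_congr rfl fun l _ => ?_
    have e : ((1 + (m - 1) * 2 ^ k + (i : ℤ) + (j : ℤ) + (l : ℤ) : ℤ) : ZMod N) = s + i + j + l := by
      rw [hs0, plm]
      push_cast
      ring
    rw [e]
  have hL : ∀ x₀ x₁ : ZMod N, ∑ x₂ : ZMod N,
      A x₀ x₁ * B x₁ x₂ * H x₂ x₀ * (HH (sN N) k m).coeff (x₀ + x₁ + x₂) =
      ∑ i ∈ range n, ∑ j ∈ range n, ∑ l ∈ range n,
        ((1 / 8 : ℂ) ^ (k + 1) * (hs (2 ^ k) i * hs (2 ^ k) j * hs (2 ^ k) l)) *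
          (A x₀ x₁ * B x₁ (s + i + j + l - x₀ - x₁) * H (s + i + j + l - x₀ - x₁) x₀) := by
    intro x₀ x₁
    simp only [hcoef, Finset.mul_sum]
    rw [Finset.sum_comm]
    refine Finset.sum_congr rfl fun i _ => ?_
    rw [Finset.sum_comm]
    refine Finset.sum_congr rfl fun j _ => ?_
    rw [Finset.sum_comm]
    refine Finset.sum_congr rfl fun l _ => ?_
    rw [Finset.sum_eq_single (s + i + j + l - x₀ - x₁)]
    · rw [if_pos (by ring)]
      ring
    · intro b _ hb
      rw [if_neg, mul_zero, mul_zero]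
      intro e
      apply hb
      rw [e]
      ring
    · intro h
      exact absurd (Finset.mem_univ _) h
  have hsh : ∀ (i j l : ℕ),
      ∑ x : ZMod N, ∑ y : ZMod N, (A (x + i) (y + j) * B (y + j) (s - x - y + l) *
        H (s - x - y + l) (x + i)) =
      ∑ x : ZMod N, ∑ y : ZMod N,
        (A x y * B y (s + i + j + l - x - y) * H (s + i + j + l - x - y) x) := by
    intro i j l
    rw [← Equiv.sum_comp (Equiv.addRight (i : ZMod N))
      (fun x => ∑ y : ZMod N, (A x y * B y (s + i + j + l - x - y) * H (s + i + j + l - x - y) x))]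
    refine Finset.sum_congr rfl fun x _ => ?_
    rw [← Equiv.sum_comp (Equiv.addRight (j : ZMod N))
      (fun y => (A (Equiv.addRight (i : ZMod N) x) y *
        B y (s + i + j + l - Equiv.addRight (i : ZMod N) x - y) *
        H (s + i + j + l - Equiv.addRight (i : ZMod N) x - y) (Equiv.addRight (i : ZMod N) x)))]
    refine Finset.sum_congr rfl fun y _ => ?_
    simp only [Equiv.coe_addRight]
    have e : s + i + j + l - (x + i) - (y + j) = s - x - y + l := by ring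
    rw [e]
  have hc : ((((2 * 2 ^ k : ℕ) : ℂ)) ^ 3)⁻¹ = (1 / 8 : ℂ) ^ (k + 1) := by
    have e : (((2 * 2 ^ k : ℕ) : ℂ)) ^ 3 = 8 ^ (k + 1) := by
      push_cast
      rw [← pow_succ', ← pow_mul, mul_comm, pow_mul]
      norm_num
    rw [e, one_div, inv_pow]
  unfold Phi tau
  rw [hc]
  simp only [hL]
  rw [sum_swap, sum_swap, Finset.mul_sum]
  refine Finset.sum_congr rfl fun i _ => ?_
  rw [sum_swap, sum_swap, Finset.mul_sum]
  refine Finset.sum_congr rfl fun j _ => ?_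
  rw [sum_swap, sum_swap, Finset.mul_sum]
  refine Finset.sum_congr rfl fun l _ => ?_
  simp only [← Finset.mul_sum]
  rw [hsh i j l]
  ring

/-- `AA k` has nonnegative coefficients of total mass `1`, so those of `DD` are `≤ 1` in absolute
value. -/
theorem norm_DD_coeff {N : ℕ} [NeZero N] (k : ℕ) (m : ℤ) (w : ZMod N) :
    ‖(DD (sN N) k m).coeff w‖ ≤ 2 := by
  have h1 : DD (sN N) k m = (1 / 8 : ℂ) ^ k •
      (bb (sN N) k ^ 3 * sN N (-(2 ^ k - 1) + m * 2 ^ k) -
        bb (sN N) k ^ 3 * sN N (-(2 ^ k - 1) + (m + 1) * 2 ^ k)) := by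
    unfold DD AA
    rw [(sN_shift N).add, (sN_shift N).add]
    simp only [Algebra.smul_def]
    ring
  rw [h1, AddMonoidAlgebra.coeff_smul_apply, AddMonoidAlgebra.coeff_sub, Finsupp.sub_apply,
    smul_eq_mul, norm_mul, norm_pow]
  have h2 : ‖(1 / 8 : ℂ)‖ = 1 / 8 := by
    simp
  rw [h2]
  have h3 := norm_bbcube (N := N) k (-(2 ^ k - 1) + m * 2 ^ k) w
  have h4 := norm_bbcube (N := N) k (-(2 ^ k - 1) + (m + 1) * 2 ^ k) w
  have h5 := norm_sub_le ((bb (sN N) k ^ 3 * sN N (-(2 ^ k - 1) + m * 2 ^ k)).coeff w)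
    ((bb (sN N) k ^ 3 * sN N (-(2 ^ k - 1) + (m + 1) * 2 ^ k)).coeff w)
  have h6 : (0 : ℝ) ≤ (1 / 8) ^ k := by positivity
  calc _ ≤ (1 / 8 : ℝ) ^ k * (8 ^ k + 8 ^ k) := by
        apply mul_le_mul_of_nonneg_left _ h6
        linarith
    _ = 2 * ((1 / 8) * 8) ^ k := by
        rw [mul_pow]
        ring
    _ = 2 := by norm_num

theorem gker_eq {N : ℕ} [NeZero N] (W : ℕ) (M : ℕ → ℂ) (g : ℤ →₀ ℂ)
    (hg : ∀ v : ℤ, g v = if v ≠ 0 ∧ |v| < W then M v.natAbs / (v : ℂ) else 0) (w : ZMod N) :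
    gker N W M w = (AAs (sN N) 0 g).coeff w := by
  classical
  have hAA : AA (sN N) 0 = 1 := by
    unfold AA bb
    have h0 := (sN_shift N).zero
    simp [h0]
  have h1 : AAs (sN N) 0 g = g.sum fun v c => c • sN N v := by
    unfold AAs
    rw [Finsupp.linearCombination_apply]
    simp only [hAA, one_mul, pow_zero, mul_one]
  have hsupp : g.support ⊆ (Ico 1 W).image (fun r : ℕ => (r : ℤ)) ∪
      (Ico 1 W).image (fun r : ℕ => -(r : ℤ)) := by
    intro v hv
    rw [Finsupp.mem_support_iff, hg v] at hv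
    have hc : v ≠ 0 ∧ |v| < W := by
      by_contra h
      rw [if_neg h] at hv
      exact hv rfl
    rw [Finset.mem_union, Finset.mem_image, Finset.mem_image]
    rcases le_total 0 v with h | h
    · left
      rw [abs_of_nonneg h] at hc
      exact ⟨v.toNat, by rw [Finset.mem_Ico]; omega, by omega⟩
    · right
      rw [abs_of_nonpos h] at hc
      exact ⟨(-v).toNat, by rw [Finset.mem_Ico]; omega, by omega⟩
  have hdis : Disjoint ((Ico 1 W).image (fun r : ℕ => (r : ℤ)))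
      ((Ico 1 W).image (fun r : ℕ => -(r : ℤ))) := by
    rw [Finset.disjoint_left]
    intro v h1 h2
    rw [Finset.mem_image] at h1 h2
    obtain ⟨a, ha, rfl⟩ := h1
    obtain ⟨b, hb, hab⟩ := h2
    rw [Finset.mem_Ico] at ha hb
    omega
  have h2 : (AAs (sN N) 0 g).coeff w = ∑ v ∈ (Ico 1 W).image (fun r : ℕ => (r : ℤ)) ∪
      (Ico 1 W).image (fun r : ℕ => -(r : ℤ)), g v * (if ((v : ℤ) : ZMod N) = w then 1 else 0) := by
    rw [h1, Finsupp.sum_of_support_subset g hsupp _ (fun v _ => by rw [zero_smul])]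
    simp only [AddMonoidAlgebra.coeff_sum, Finsupp.coe_finsetSum, Finset.sum_apply,
      AddMonoidAlgebra.coeff_smul_apply, smul_eq_mul, coeff_sN]
  rw [h2, Finset.sum_union hdis, Finset.sum_image (fun a _ b _ h => by
    simpa using h), Finset.sum_image (fun a _ b _ h => by simpa using h), ← Finset.sum_add_distrib]
  unfold gker
  refine Finset.sum_congr rfl fun r hr => ?_
  rw [Finset.mem_Ico] at hr
  have g1 : g (r : ℤ) = M r / r := by
    rw [hg, if_pos]
    · simp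
    · rw [abs_of_nonneg (by omega)]
      omega
  have g2 : g (-(r : ℤ)) = - (M r / r) := by
    rw [hg, if_pos]
    · rw [Int.natAbs_neg, Int.natAbs_natCast]
      push_cast
      rw [div_neg]
    · rw [abs_neg, abs_of_nonneg (by omega)]
      omega
  rw [g1, g2]
  push_cast
  rw [sub_eq_add_neg]
  congr 1
  · by_cases h : w = (r : ZMod N)
    · rw [if_pos h, if_pos h.symm, mul_one]
    · rw [if_neg h, if_neg (fun e => h e.symm), mul_zero]
  · by_cases h : w = -(r : ZMod N)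
    · rw [if_pos h, if_pos h.symm, mul_one]
    · rw [if_neg h, if_neg (fun e => h e.symm), mul_zero, neg_zero]

theorem norm_Phi_le {N : ℕ} [NeZero N] (A B H : Fn N) (L : ℕ) (s : ZMod N) :
    ‖Phi A B H L s‖ ≤ PhiAbs A B H L s := by
  unfold Phi PhiAbs
  rw [norm_mul]
  have h1 : ‖((((2 * L : ℕ) : ℂ)) ^ 3)⁻¹‖ = ((((2 * L : ℕ) : ℝ)) ^ 3)⁻¹ := by
    rw [norm_inv, norm_pow, Complex.norm_natCast]
  rw [h1]
  apply mul_le_mul_of_nonneg_left _ (by positivity)
  refine (norm_sum_le _ _).trans (Finset.sum_le_sum fun x _ => ?_)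
  exact norm_sum_le _ _

/-- `Phi` is linear in `H`. -/
theorem Phi_smul {N : ℕ} [NeZero N] (A B H : Fn N) (c : ℂ) (L : ℕ) (s : ZMod N) :
    Phi A B (fun x₂ x₀ => H x₂ x₀ * c) L s = c * Phi A B H L s := by
  unfold Phi tau
  rw [mul_left_comm, Finset.mul_sum (a := c)]
  congr 1
  refine Finset.sum_congr rfl fun x _ => ?_
  rw [Finset.mul_sum]
  refine Finset.sum_congr rfl fun y _ => ?_
  rw [Finset.mul_sum]
  refine Finset.sum_congr rfl fun i _ => ?_
  rw [Finset.mul_sum]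
  refine Finset.sum_congr rfl fun j _ => ?_
  rw [Finset.mul_sum]
  refine Finset.sum_congr rfl fun l _ => ?_
  ring

theorem l3_mono {N : ℕ} [NeZero N] (u v : ZMod N → ZMod N → ℝ)
    (h : ∀ x y, |u x y| ≤ v x y) : l3 u ≤ l3 v := by
  unfold l3
  apply Real.rpow_le_rpow
  · exact Finset.sum_nonneg fun x _ => Finset.sum_nonneg fun y _ => by positivity
  · refine Finset.sum_le_sum fun x _ => Finset.sum_le_sum fun y _ => ?_
    exact pow_le_pow_left₀ (abs_nonneg _) ((h x y).trans (le_abs_self _)) 3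
  · norm_num

theorem l3_smul {N : ℕ} [NeZero N] (c : ℝ) (hc : 0 ≤ c) (u : ZMod N → ZMod N → ℝ) :
    l3 (fun x y => c * u x y) = c * l3 u := by
  unfold l3
  have h1 : ∑ x : ZMod N, ∑ y : ZMod N, |c * u x y| ^ 3 =
      c ^ 3 * ∑ x : ZMod N, ∑ y : ZMod N, |u x y| ^ 3 := by
    rw [Finset.mul_sum]
    refine Finset.sum_congr rfl fun x _ => ?_
    rw [Finset.mul_sum]
    refine Finset.sum_congr rfl fun y _ => ?_
    rw [abs_mul, mul_pow, abs_of_nonneg hc]
  rw [h1, Real.mul_rpow (by positivity)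
    (Finset.sum_nonneg fun x _ => Finset.sum_nonneg fun y _ => by positivity)]
  congr 1
  rw [← Real.rpow_natCast, ← Real.rpow_mul hc]
  norm_num

end Crest.Agent.R72.K
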