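import Crest.Agent.R72.K4
import Crest.Agent.R72.K5A

/-!
Row 72, module K: the smooth and rough terms at fixed distance between shell and level
(imported sorries may be used).
-/

set_option autoImplicit false

namespace Crest.Agent.R72.K

open Finset

/-- Decay rate. -/
noncomputable def th : ℝ := (2 : ℝ) ^ (-(1 / 4) : ℝ)

theorem th_pos : 0 < th := by
  unfold th
  exact Real.rpow_pos_of_pos (by norm_num) _


theorem th_sum : ∃ T : ℝ, 0 ≤ T ∧ ∀ n : ℕ, ∑ j ∈ range n, (1 + (j : ℝ)) * th ^ j ≤ T := by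
  have h0 : 0 < th := th_pos
  have h1 : th < 1 := by
    unfold th
    exact Real.rpow_lt_one_of_one_lt_of_neg (by norm_num) (by norm_num)
  have hn : ‖th‖ < 1 := by
    rw [Real.norm_eq_abs, abs_of_pos h0]
    exact h1
  have hs : Summable fun j : ℕ => (1 + (j : ℝ)) * th ^ j := by
    have h2 := summable_geometric_of_lt_one h0.le h1
    have h3 := summable_pow_mul_geometric_of_norm_lt_one 1 hn
    refine (h2.add h3).congr fun j => ?_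
    rw [pow_one]
    ring
  refine ⟨∑' j : ℕ, (1 + (j : ℝ)) * th ^ j, tsum_nonneg fun j => by positivity, fun n => ?_⟩
  exact hs.sum_le_tsum _ fun j _ => by positivity


/-- Smooth terms, shell `i`, level `k` (truncated subtraction `i - k`). -/
noncomputable def Sm {N : ℕ} [NeZero N] (A B H : Fn N) (M : ZMod N → ZMod N → ℕ → ℂ)
    (i k : ℕ) : ℝ :=
  ∑ q ∈ Icc (-((10 * 2 ^ (i - k) : ℕ) : ℤ)) ((10 * 2 ^ (i - k) : ℕ) : ℤ),
    ‖Phi A B (fun x₂ x₀ => H x₂ x₀ * (M x₂ x₀ (2 ^ i) * rho (kap i) i k q)) (2 ^ k) (plm N k q)‖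

/-- Rough terms, shell `i`, level `k`. -/
noncomputable def Ro {N : ℕ} [NeZero N] (A B H : Fn N) (M : ZMod N → ZMod N → ℕ → ℂ)
    (i k : ℕ) : ℝ :=
  ∑ q ∈ Icc (-((10 * 2 ^ (i - k) : ℕ) : ℤ)) ((10 * 2 ^ (i - k) : ℕ) : ℤ),
    ‖Phi A B (fun x₂ x₀ => H x₂ x₀ * rho (rr i (M x₂ x₀)) i k q) (2 ^ k) (plm N k q)‖

theorem Sm_nonneg {N : ℕ} [NeZero N] (A B H : Fn N) (M : ZMod N → ZMod N → ℕ → ℂ)
    (i k : ℕ) : 0 ≤ Sm A B H M i k := by
  unfold Sm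
  exact Finset.sum_nonneg fun _ _ => norm_nonneg _


theorem Ro_nonneg {N : ℕ} [NeZero N] (A B H : Fn N) (M : ZMod N → ZMod N → ℕ → ℂ)
    (i k : ℕ) : 0 ≤ Ro A B H M i k := by
  unfold Ro
  exact Finset.sum_nonneg fun _ _ => norm_nonneg _


private theorem sb_half_le_th : (1 / 2 : ℝ) ≤ th := by
  unfold th
  have h : (1 / 2 : ℝ) = (2 : ℝ) ^ (-1 : ℝ) := by rw [Real.rpow_neg_one]; norm_num
  rw [h]
  exact Real.rpow_le_rpow_of_exponent_le (by norm_num) (by norm_num)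

private theorem sb_n3_nonneg {N : ℕ} [NeZero N] (P : Fn N) : 0 ≤ n3 P :=
  Real.rpow_nonneg (sum_nonneg fun _ _ => sum_nonneg fun _ _ => by positivity) _

private theorem sb_log (j : ℕ) : 1 + Real.log ((10 * 2 ^ j : ℕ) : ℝ) ≤ 10 * (1 + (j : ℝ)) := by
  have hj : (0 : ℝ) ≤ j := Nat.cast_nonneg j
  push_cast
  rw [Real.log_mul (by norm_num) (by positivity), Real.log_pow]
  have h3 : Real.log 10 ≤ 9 := by
    have := Real.log_le_sub_one_of_pos (show (0 : ℝ) < 10 by norm_num)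
    linarith
  have h4 : Real.log 2 ≤ 1 := by
    have := Real.log_le_sub_one_of_pos (show (0 : ℝ) < 2 by norm_num)
    linarith
  nlinarith

private theorem sb_term {N : ℕ} [NeZero N] (A B H : Fn N) (M : ZMod N → ZMod N → ℕ → ℂ)
    (j k : ℕ) : Sm A B H M (k + j) k ≤ 360 / 4 ^ j *
      ∑ q ∈ Icc (-((10 * 2 ^ j : ℕ) : ℤ)) ((10 * 2 ^ j : ℕ) : ℤ),
      PhiAbs A B (fun x₂ x₀ => H x₂ x₀ * M x₂ x₀ (2 ^ (k + j))) (2 ^ k) (plm N k q) := by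
  unfold Sm
  have e0 : k + j - k = j := by omega
  rw [e0, Finset.mul_sum]
  refine Finset.sum_le_sum fun q _ => ?_
  have e1 : (fun x₂ x₀ => H x₂ x₀ * (M x₂ x₀ (2 ^ (k + j)) * rho (kap (k + j)) (k + j) k q)) =
      (fun x₂ x₀ => (fun x₂ x₀ => H x₂ x₀ * M x₂ x₀ (2 ^ (k + j))) x₂ x₀ *
        rho (kap (k + j)) (k + j) k q) := by
    funext x₂ x₀
    ring
  rw [e1, Phi_smul, norm_mul]
  have h0 : ¬ hit ∅ k 2 8 q := by
    rintro ⟨u, _, _, r, hr, _⟩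
    simp at hr
  have h1 := rho_le (shell_kap (k + j)) (Nat.le_add_right k j) q h0
  rw [e0] at h1
  have h2 : (36 * 10 / 4 ^ j : ℝ) = 360 / 4 ^ j := by norm_num
  rw [h2] at h1
  exact mul_le_mul h1 (norm_Phi_le _ _ _ _ _) (norm_nonneg _) (by positivity)

/-- `‖Phi (H m c)‖ ≤ ‖c‖ PhiAbs (H m)` (`Phi_smul`, `norm_Phi_le`), `‖c‖ ≤ 360 / 4^j` (`rho_le`,
`shell_kap`, `hit ∅` is false), `est_smooth_m` with `X = 10 * 2^j`, `m k = M (2^(k+j))`, `V = 4 n`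
(`Mult.tv`); `X (1 + log X) ≤ 40 * 2^j * (1 + j)` and `2^{-j} ≤ th^j`. -/
theorem smooth_below (h : ESTsmooth) : ∃ C : ℝ, 0 ≤ C ∧ ∀ (N : ℕ) [NeZero N] (n W : ℕ), 1 ≤ n →
    ∀ (A B H : Fn N) (M : ZMod N → ZMod N → ℕ → ℂ), (∀ x₂ x₀, Mult n W (M x₂ x₀)) →
    ∀ j K : ℕ, ∑ k ∈ range K, Sm A B H M (k + j) k ≤
      C * ((1 + j) * th ^ j) * (Real.sqrt n * n3 A * n3 B * n3 H) := by
  obtain ⟨C, hC0, hC⟩ := est_smooth_m h
  refine ⟨72000 * C, by positivity, ?_⟩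
  intro N _ n W hn A B H M hM j K
  have hn' : (1 : ℝ) ≤ n := by exact_mod_cast hn
  have hX : 1 ≤ 10 * 2 ^ j := by
    have := Nat.one_le_two_pow (n := j)
    omega
  have h1 := hC N (10 * 2 ^ j) K hX A B H (fun k x₂ x₀ => M x₂ x₀ (2 ^ (k + j))) (4 * n)
    (by linarith) (fun k x₂ x₀ => (hM x₂ x₀).bd _) (fun x₂ x₀ => (hM x₂ x₀).tv j K)
  set P : ℝ := Real.sqrt n * n3 A * n3 B * n3 H with hP
  have hP0 : 0 ≤ P := mul_nonneg (mul_nonneg (mul_nonneg (Real.sqrt_nonneg _) (sb_n3_nonneg A))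
    (sb_n3_nonneg B)) (sb_n3_nonneg H)
  have hsq : Real.sqrt (4 * n) = 2 * Real.sqrt n := by
    rw [Real.sqrt_mul (by norm_num), show (4 : ℝ) = 2 ^ 2 by norm_num,
      Real.sqrt_sq (by norm_num)]
  have h3 : C * ((10 * 2 ^ j : ℕ) : ℝ) * (1 + Real.log ((10 * 2 ^ j : ℕ) : ℝ)) *
      Real.sqrt (4 * n) * n3 A * n3 B * n3 H ≤ 200 * C * P * (2 ^ j * (1 + (j : ℝ))) := by
    have e : C * ((10 * 2 ^ j : ℕ) : ℝ) * (1 + Real.log ((10 * 2 ^ j : ℕ) : ℝ)) *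
      Real.sqrt (4 * n) * n3 A * n3 B * n3 H =
        (20 * C * P * 2 ^ j) * (1 + Real.log ((10 * 2 ^ j : ℕ) : ℝ)) := by
      rw [hsq, hP]
      push_cast
      ring
    rw [e]
    have := mul_le_mul_of_nonneg_left (sb_log j) (show 0 ≤ 20 * C * P * 2 ^ j by positivity)
    linarith
  have h4 : ∑ k ∈ range K, Sm A B H M (k + j) k ≤
      360 / 4 ^ j * (200 * C * P * (2 ^ j * (1 + (j : ℝ)))) := by
    calc ∑ k ∈ range K, Sm A B H M (k + j) k ≤ ∑ k ∈ range K, 360 / 4 ^ j *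
          ∑ q ∈ Icc (-((10 * 2 ^ j : ℕ) : ℤ)) ((10 * 2 ^ j : ℕ) : ℤ),
          PhiAbs A B (fun x₂ x₀ => H x₂ x₀ * M x₂ x₀ (2 ^ (k + j))) (2 ^ k) (plm N k q) :=
          Finset.sum_le_sum fun k _ => sb_term A B H M j k
      _ = 360 / 4 ^ j * ∑ k ∈ range K,
          ∑ q ∈ Icc (-((10 * 2 ^ j : ℕ) : ℤ)) ((10 * 2 ^ j : ℕ) : ℤ),
          PhiAbs A B (fun x₂ x₀ => H x₂ x₀ * M x₂ x₀ (2 ^ (k + j))) (2 ^ k) (plm N k q) := by
          rw [Finset.mul_sum]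
      _ ≤ _ := mul_le_mul_of_nonneg_left (h1.trans h3) (by positivity)
  refine h4.trans ?_
  have h5 : (1 : ℝ) / 2 ^ j ≤ th ^ j := by
    have h6 : (1 : ℝ) / 2 ^ j = (1 / 2) ^ j := by rw [div_pow, one_pow]
    rw [h6]
    exact pow_le_pow_left₀ (by norm_num) sb_half_le_th j
  have h7 : (4 : ℝ) ^ j = 2 ^ j * 2 ^ j := by
    rw [← mul_pow]
    norm_num
  have hj : (0 : ℝ) ≤ j := Nat.cast_nonneg j
  calc 360 / 4 ^ j * (200 * C * P * (2 ^ j * (1 + (j : ℝ)))) =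
        (72000 * C * P * (1 + (j : ℝ))) * (1 / 2 ^ j) := by
        rw [h7]
        field_simp
        ring
    _ ≤ (72000 * C * P * (1 + (j : ℝ))) * th ^ j :=
        mul_le_mul_of_nonneg_left h5 (by positivity)
    _ = _ := by ring


private theorem sa_half_le_th : (1 / 2 : ℝ) ≤ th := by
  unfold th
  have h : (1 / 2 : ℝ) = (2 : ℝ) ^ (-1 : ℝ) := by rw [Real.rpow_neg_one]; norm_num
  rw [h]
  exact Real.rpow_le_rpow_of_exponent_le (by norm_num) (by norm_num)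

private theorem sa_n3_nonneg {N : ℕ} [NeZero N] (P : Fn N) : 0 ≤ n3 P :=
  Real.rpow_nonneg (sum_nonneg fun _ _ => sum_nonneg fun _ _ => by positivity) _

private theorem sa_PhiAbs_nonneg {N : ℕ} [NeZero N] (A B H : Fn N) (L : ℕ) (s : ZMod N) :
    0 ≤ PhiAbs A B H L s :=
  mul_nonneg (by positivity) (sum_nonneg fun _ _ => sum_nonneg fun _ _ => norm_nonneg _)

private theorem sa_log : 1 + Real.log ((10 : ℕ) : ℝ) ≤ 10 := by
  have h := Real.log_le_sub_one_of_pos (show (0 : ℝ) < 10 by norm_num)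
  push_cast
  linarith

private theorem sa_term {N : ℕ} [NeZero N] (A B H : Fn N) (M : ZMod N → ZMod N → ℕ → ℂ)
    (i l : ℕ) : Sm A B H M i (i + l) ≤ 3600 / 2 ^ l * ∑ q ∈ Icc (-((10 : ℕ) : ℤ)) ((10 : ℕ) : ℤ),
      PhiAbs A B (fun x₂ x₀ => H x₂ x₀ * M x₂ x₀ (2 ^ (i + l - l))) (2 ^ (i + l))
        (plm N (i + l) q) := by
  unfold Sm
  have e0 : i - (i + l) = 0 := by omega
  rw [e0, pow_zero, mul_one, Nat.add_sub_cancel, Finset.mul_sum]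
  refine Finset.sum_le_sum fun q _ => ?_
  have e1 : (fun x₂ x₀ => H x₂ x₀ * (M x₂ x₀ (2 ^ i) * rho (kap i) i (i + l) q)) =
      (fun x₂ x₀ => (fun x₂ x₀ => H x₂ x₀ * M x₂ x₀ (2 ^ i)) x₂ x₀ * rho (kap i) i (i + l) q) := by
    funext x₂ x₀
    ring
  rw [e1, Phi_smul, norm_mul]
  have h1 := rho_top_le (shell_kap i) l q
  have h2 : (360 * 10 / 2 ^ l : ℝ) = 3600 / 2 ^ l := by norm_num
  rw [h2] at h1
  exact mul_le_mul h1 (norm_Phi_le _ _ _ _ _) (norm_nonneg _) (by positivity)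

/-- `‖c‖ ≤ 3600 / 2^l` (`rho_top_le`), `est_smooth_m` with `X = 10`, `K + l` scales,
`m k = M (2^(k-l))` (`Mult.tv'`); the sum over `i < K` is part of the sum over `k < K + l`,
`k = i + l` (nonnegative terms). -/
theorem smooth_above (h : ESTsmooth) : ∃ C : ℝ, 0 ≤ C ∧ ∀ (N : ℕ) [NeZero N] (n W : ℕ), 1 ≤ n →
    ∀ (A B H : Fn N) (M : ZMod N → ZMod N → ℕ → ℂ), (∀ x₂ x₀, Mult n W (M x₂ x₀)) →
    ∀ l K : ℕ, ∑ i ∈ range K, Sm A B H M i (i + l) ≤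
      C * ((1 + l) * th ^ l) * (Real.sqrt n * n3 A * n3 B * n3 H) := by
  obtain ⟨C, hC0, hC⟩ := est_smooth_m h
  refine ⟨720000 * C, by positivity, ?_⟩
  intro N _ n W hn A B H M hM l K
  have hn' : (1 : ℝ) ≤ n := by exact_mod_cast hn
  have h1 := hC N 10 (l + K) (by norm_num) A B H (fun k x₂ x₀ => M x₂ x₀ (2 ^ (k - l))) (4 * n)
    (by linarith) (fun k x₂ x₀ => (hM x₂ x₀).bd _) (fun x₂ x₀ => (hM x₂ x₀).tv' l (l + K))
  rw [Finset.sum_range_add] at h1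
  have h2 : 0 ≤ ∑ k ∈ range l, ∑ q ∈ Icc (-((10 : ℕ) : ℤ)) ((10 : ℕ) : ℤ),
      PhiAbs A B (fun x₂ x₀ => H x₂ x₀ * M x₂ x₀ (2 ^ (k - l))) (2 ^ k) (plm N k q) :=
    Finset.sum_nonneg fun k _ => Finset.sum_nonneg fun q _ => sa_PhiAbs_nonneg _ _ _ _ _
  set P : ℝ := Real.sqrt n * n3 A * n3 B * n3 H with hP
  have hP0 : 0 ≤ P := mul_nonneg (mul_nonneg (mul_nonneg (Real.sqrt_nonneg _) (sa_n3_nonneg A))
    (sa_n3_nonneg B)) (sa_n3_nonneg H)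
  have hsq : Real.sqrt (4 * n) = 2 * Real.sqrt n := by
    rw [Real.sqrt_mul (by norm_num), show (4 : ℝ) = 2 ^ 2 by norm_num,
      Real.sqrt_sq (by norm_num)]
  have h3 : C * ((10 : ℕ) : ℝ) * (1 + Real.log ((10 : ℕ) : ℝ)) * Real.sqrt (4 * n) * n3 A * n3 B *
      n3 H ≤ 200 * C * P := by
    have e : C * ((10 : ℕ) : ℝ) * (1 + Real.log ((10 : ℕ) : ℝ)) * Real.sqrt (4 * n) * n3 A * n3 B *
      n3 H = (20 * C * P) * (1 + Real.log ((10 : ℕ) : ℝ)) := by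
      rw [hsq, hP]
      push_cast
      ring
    rw [e]
    have := mul_le_mul_of_nonneg_left sa_log (show 0 ≤ 20 * C * P by positivity)
    linarith
  have h4 : ∑ i ∈ range K, Sm A B H M i (i + l) ≤ 3600 / 2 ^ l * (200 * C * P) := by
    calc ∑ i ∈ range K, Sm A B H M i (i + l) ≤ ∑ i ∈ range K, 3600 / 2 ^ l *
          ∑ q ∈ Icc (-((10 : ℕ) : ℤ)) ((10 : ℕ) : ℤ),
            PhiAbs A B (fun x₂ x₀ => H x₂ x₀ * M x₂ x₀ (2 ^ (l + i - l))) (2 ^ (l + i))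
              (plm N (l + i) q) := by
          refine Finset.sum_le_sum fun i _ => ?_
          have := sa_term A B H M i l
          rwa [add_comm i l] at this ⊢
      _ = 3600 / 2 ^ l * ∑ i ∈ range K, ∑ q ∈ Icc (-((10 : ℕ) : ℤ)) ((10 : ℕ) : ℤ),
            PhiAbs A B (fun x₂ x₀ => H x₂ x₀ * M x₂ x₀ (2 ^ (l + i - l))) (2 ^ (l + i))
              (plm N (l + i) q) := by rw [Finset.mul_sum]
      _ ≤ 3600 / 2 ^ l * (200 * C * P) := by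
          refine mul_le_mul_of_nonneg_left ?_ (by positivity)
          linarith
  refine h4.trans ?_
  have h5 : (1 : ℝ) / 2 ^ l ≤ (1 + l) * th ^ l := by
    have h6 : (1 : ℝ) / 2 ^ l = (1 / 2) ^ l := by rw [div_pow, one_pow]
    have h7 : (1 / 2 : ℝ) ^ l ≤ th ^ l := pow_le_pow_left₀ (by norm_num) sa_half_le_th l
    have h8 : 0 ≤ th ^ l := pow_nonneg (le_trans (by norm_num) sa_half_le_th) l
    have h9 : (0 : ℝ) ≤ l := Nat.cast_nonneg l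
    rw [h6]
    nlinarith
  calc 3600 / 2 ^ l * (200 * C * P) = (720000 * C * P) * (1 / 2 ^ l) := by ring
    _ ≤ (720000 * C * P) * ((1 + l) * th ^ l) :=
        mul_le_mul_of_nonneg_left h5 (by positivity)
    _ = _ := by ring

private theorem k5b3_n3_nonneg {N : ℕ} [NeZero N] (A : Fn N) : 0 ≤ n3 A :=
  Real.rpow_nonneg (sum_nonneg fun _ _ => sum_nonneg fun _ _ => by positivity) _

private theorem k5b3_num (j : ℕ) :
    (((10 * 2 ^ j : ℕ) : ℝ)) ^ (3 / 4 : ℝ) * Real.sqrt (1 + Real.log ((10 * 2 ^ j : ℕ) : ℝ)) ≤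
      100 * ((1 + (j : ℝ)) * th ^ j) * 2 ^ j := by
  have h2 : (0 : ℝ) < 2 := by norm_num
  have e0 : ((10 * 2 ^ j : ℕ) : ℝ) = 10 * (2 : ℝ) ^ (j : ℝ) := by
    push_cast
    rw [Real.rpow_natCast]
  have hj0 : (0 : ℝ) ≤ j := Nat.cast_nonneg _
  -- the power
  have e1 : (((10 * 2 ^ j : ℕ) : ℝ)) ^ (3 / 4 : ℝ) ≤ 10 * (th ^ j * 2 ^ j) := by
    rw [e0, Real.mul_rpow (by norm_num) (by positivity), ← Real.rpow_mul h2.le]
    have h3 : (10 : ℝ) ^ (3 / 4 : ℝ) ≤ 10 := by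
      calc (10 : ℝ) ^ (3 / 4 : ℝ) ≤ (10 : ℝ) ^ (1 : ℝ) :=
            Real.rpow_le_rpow_of_exponent_le (by norm_num) (by norm_num)
        _ = 10 := Real.rpow_one 10
    have h4 : (2 : ℝ) ^ ((j : ℝ) * (3 / 4)) = th ^ j * 2 ^ j := by
      unfold th
      rw [← Real.rpow_natCast ((2 : ℝ) ^ (-(1 / 4) : ℝ)) j, ← Real.rpow_natCast (2 : ℝ) j,
        ← Real.rpow_mul h2.le, ← Real.rpow_add h2]
      congr 1
      ring
    rw [h4]
    exact mul_le_mul_of_nonneg_right h3 (by rw [← h4]; positivity)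
  -- the logarithm
  have e2 : 1 + Real.log ((10 * 2 ^ j : ℕ) : ℝ) ≤ 10 * (1 + (j : ℝ)) := by
    rw [e0, Real.log_mul (by norm_num) (by positivity), Real.log_rpow h2]
    have h3 : Real.log 10 ≤ 9 := by
      have := Real.log_le_sub_one_of_pos (show (0 : ℝ) < 10 by norm_num)
      linarith
    have h4 : Real.log 2 ≤ 1 := by
      have := Real.log_le_sub_one_of_pos (show (0 : ℝ) < 2 by norm_num)
      linarith
    nlinarith
  have e3 : 1 ≤ 1 + Real.log ((10 * 2 ^ j : ℕ) : ℝ) := by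
    have h3 : (1 : ℝ) ≤ ((10 * 2 ^ j : ℕ) : ℝ) := by
      have : 1 ≤ 10 * 2 ^ j := by
        have := Nat.one_le_two_pow (n := j)
        omega
      exact_mod_cast this
    have := Real.log_nonneg h3
    linarith
  have e4 : Real.sqrt (1 + Real.log ((10 * 2 ^ j : ℕ) : ℝ)) ≤ 10 * (1 + (j : ℝ)) := by
    refine le_trans ?_ e2
    rw [Real.sqrt_le_left (by linarith)]
    nlinarith
  calc _ ≤ 10 * (th ^ j * 2 ^ j) * (10 * (1 + (j : ℝ))) :=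
        mul_le_mul e1 e4 (Real.sqrt_nonneg _) (le_trans (by positivity) e1)
    _ = _ := by ring

/-- `est_rough_m` with `X = 10 * 2^j`, `H k q z = H z * rho (rr (k+j) M_z) (k+j) k q`; the square
function is `≤ ‖H z‖ √(10^9 n) / 2^j` by `coef_below`; `l3_mono`, `l3_smul`;
`X^(3/4) √(1 + log X) / 2^j ≤ 100 (1 + j) th^j`. -/
theorem rough_below (h : ESTrough) : ∃ C : ℝ, 0 ≤ C ∧ ∀ (N : ℕ) [NeZero N] (n W : ℕ), 1 ≤ n →
    ∀ (A B H : Fn N) (M : ZMod N → ZMod N → ℕ → ℂ), (∀ x₂ x₀, Mult n W (M x₂ x₀)) →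
    ∀ j K : ℕ, ∑ k ∈ range K, Ro A B H M (k + j) k ≤
      C * ((1 + j) * th ^ j) * (Real.sqrt n * n3 A * n3 B * n3 H) := by
  obtain ⟨C, hC0, hC⟩ := est_rough_m h
  refine ⟨C * (100 * Real.sqrt (10 ^ 9)), by positivity, ?_⟩
  intro N _ n W hn A B H M hM j K
  have hX : 1 ≤ 10 * 2 ^ j := by
    have := Nat.one_le_two_pow (n := j)
    omega
  have h1 := hC N (10 * 2 ^ j) K hX A B
    (fun k q x₂ x₀ => H x₂ x₀ * rho (rr (k + j) (M x₂ x₀)) (k + j) k q)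
  have h2 : ∑ k ∈ range K, Ro A B H M (k + j) k =
      ∑ k ∈ range K, ∑ q ∈ Icc (-((10 * 2 ^ j : ℕ) : ℤ)) ((10 * 2 ^ j : ℕ) : ℤ),
        ‖Phi A B (fun x₂ x₀ => H x₂ x₀ * rho (rr (k + j) (M x₂ x₀)) (k + j) k q) (2 ^ k)
          (plm N k q)‖ := by
    refine sum_congr rfl fun k _ => ?_
    unfold Ro
    rw [Nat.add_sub_cancel_left]
  rw [h2]
  refine h1.trans ?_
  have hA := k5b3_n3_nonneg A
  have hB := k5b3_n3_nonneg B
  have hH := k5b3_n3_nonneg H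
  -- the square function
  have h3 : (l3 fun x₂ x₀ => Real.sqrt (∑ k ∈ range K,
      ∑ q ∈ Icc (-((10 * 2 ^ j : ℕ) : ℤ)) ((10 * 2 ^ j : ℕ) : ℤ),
        ‖H x₂ x₀ * rho (rr (k + j) (M x₂ x₀)) (k + j) k q‖ ^ 2)) ≤
      (Real.sqrt (10 ^ 9) * Real.sqrt n / 2 ^ j) * n3 H := by
    have e1 : (Real.sqrt (10 ^ 9) * Real.sqrt n / 2 ^ j) * n3 H =
        l3 fun x y => (Real.sqrt (10 ^ 9) * Real.sqrt n / 2 ^ j) * ‖H x y‖ :=
      (l3_smul _ (by positivity) _).symm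
    rw [e1]
    refine l3_mono _ _ fun x y => ?_
    rw [abs_of_nonneg (Real.sqrt_nonneg _)]
    have hc := coef_below (hM x y) hn j K
    rw [Real.sqrt_le_left (by positivity)]
    have e2 : ∑ k ∈ range K, ∑ q ∈ Icc (-((10 * 2 ^ j : ℕ) : ℤ)) ((10 * 2 ^ j : ℕ) : ℤ),
        ‖H x y * rho (rr (k + j) (M x y)) (k + j) k q‖ ^ 2 =
        ‖H x y‖ ^ 2 * ∑ k ∈ range K, ∑ q ∈ Icc (-((10 * 2 ^ j : ℕ) : ℤ)) ((10 * 2 ^ j : ℕ) : ℤ),
          ‖rho (rr (k + j) (M x y)) (k + j) k q‖ ^ 2 := by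
      simp_rw [norm_mul, mul_pow, ← Finset.mul_sum]
    rw [e2]
    have e3 : (Real.sqrt (10 ^ 9) * Real.sqrt n / 2 ^ j * ‖H x y‖) ^ 2 =
        ‖H x y‖ ^ 2 * (10 ^ 9 * n / 4 ^ j) := by
      have e4 : (4 : ℝ) ^ j = (2 ^ j) ^ 2 := by
        rw [← pow_mul, mul_comm j 2, pow_mul]
        norm_num
      rw [mul_pow, div_pow, mul_pow, Real.sq_sqrt (by norm_num), Real.sq_sqrt (Nat.cast_nonneg _), e4]
      ring
    rw [e3]
    exact mul_le_mul_of_nonneg_left hc (by positivity)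
  have h4 := k5b3_num j
  have hd : (0 : ℝ) < 2 ^ j := by positivity
  have h5 : C * (((10 * 2 ^ j : ℕ) : ℝ)) ^ (3 / 4 : ℝ) *
      Real.sqrt (1 + Real.log ((10 * 2 ^ j : ℕ) : ℝ)) * n3 A * n3 B ≤
      C * (100 * ((1 + (j : ℝ)) * th ^ j) * 2 ^ j) * n3 A * n3 B := by
    rw [mul_assoc C]
    exact mul_le_mul_of_nonneg_right (mul_le_mul_of_nonneg_right
      (mul_le_mul_of_nonneg_left h4 hC0) hA) hB
  have h6 : 0 ≤ C * (100 * ((1 + (j : ℝ)) * th ^ j) * 2 ^ j) * n3 A * n3 B := by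
    have ht := th_pos
    positivity
  have h7 : (0 : ℝ) ≤ (l3 fun x₂ x₀ => Real.sqrt (∑ k ∈ range K,
      ∑ q ∈ Icc (-((10 * 2 ^ j : ℕ) : ℤ)) ((10 * 2 ^ j : ℕ) : ℤ),
        ‖H x₂ x₀ * rho (rr (k + j) (M x₂ x₀)) (k + j) k q‖ ^ 2)) :=
    Real.rpow_nonneg (sum_nonneg fun _ _ => sum_nonneg fun _ _ => by positivity) _
  refine (mul_le_mul h5 h3 h7 h6).trans (le_of_eq ?_)
  field_simp

private theorem ra_half_le_th : (1 / 2 : ℝ) ≤ th := by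
  unfold th
  have h : (1 / 2 : ℝ) = (2 : ℝ) ^ (-(1 : ℝ)) := by
    rw [Real.rpow_neg (by norm_num), Real.rpow_one]
    norm_num
  rw [h]
  exact Real.rpow_le_rpow_of_exponent_le (by norm_num) (by norm_num)

private theorem ra_th_le (l : ℕ) : (1 / 2 ^ l : ℝ) ≤ (1 + l) * th ^ l := by
  have h1 : (1 / 2 ^ l : ℝ) ≤ th ^ l := by
    rw [← one_div_pow]
    exact pow_le_pow_left₀ (by norm_num) ra_half_le_th l
  have h2 : (0 : ℝ) ≤ th ^ l := le_trans (by positivity) h1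
  have h3 : (0 : ℝ) ≤ l := Nat.cast_nonneg l
  nlinarith

private theorem ra_sq {N : ℕ} (H : Fn N) (M : ZMod N → ZMod N → ℕ → ℂ) {n W : ℕ} (hn : 1 ≤ n)
    (hM : ∀ x₂ x₀, Mult n W (M x₂ x₀)) (l K : ℕ) (x₂ x₀ : ZMod N) :
    Real.sqrt (∑ k ∈ range (l + K), ∑ q ∈ Icc (-((10 : ℕ) : ℤ)) ((10 : ℕ) : ℤ),
      ‖(if k < l then (0 : ℂ) else H x₂ x₀ * rho (rr (k - l) (M x₂ x₀)) (k - l) k q)‖ ^ 2) ≤
      (10 ^ 5 * Real.sqrt n * (1 / 2 ^ l)) * ‖H x₂ x₀‖ := by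
  have h0 : ∑ k ∈ range l, ∑ q ∈ Icc (-((10 : ℕ) : ℤ)) ((10 : ℕ) : ℤ),
      ‖(if k < l then (0 : ℂ) else H x₂ x₀ * rho (rr (k - l) (M x₂ x₀)) (k - l) k q)‖ ^ 2 = 0 := by
    refine Finset.sum_eq_zero fun k hk => Finset.sum_eq_zero fun q _ => ?_
    rw [if_pos (Finset.mem_range.1 hk)]
    simp
  have h1 : ∑ k ∈ range K, ∑ q ∈ Icc (-((10 : ℕ) : ℤ)) ((10 : ℕ) : ℤ),
      ‖(if l + k < l then (0 : ℂ) else
        H x₂ x₀ * rho (rr (l + k - l) (M x₂ x₀)) (l + k - l) (l + k) q)‖ ^ 2 =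
      ‖H x₂ x₀‖ ^ 2 * ∑ i ∈ range K, ∑ q ∈ Icc (-10 : ℤ) 10,
        ‖rho (rr i (M x₂ x₀)) i (i + l) q‖ ^ 2 := by
    rw [Finset.mul_sum]
    refine Finset.sum_congr rfl fun k _ => ?_
    rw [Finset.mul_sum]
    refine Finset.sum_congr rfl fun q _ => ?_
    rw [if_neg (by omega), Nat.add_sub_cancel_left, add_comm l k, norm_mul, mul_pow]
  have h2 := coef_above (hM x₂ x₀) hn l K
  rw [Finset.sum_range_add, h0, zero_add, h1]
  have h3 : ‖H x₂ x₀‖ ^ 2 * ∑ i ∈ range K, ∑ q ∈ Icc (-10 : ℤ) 10,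
        ‖rho (rr i (M x₂ x₀)) i (i + l) q‖ ^ 2 ≤
      ((10 ^ 5 * Real.sqrt n * (1 / 2 ^ l)) * ‖H x₂ x₀‖) ^ 2 := by
    have h4 : ((10 ^ 5 * Real.sqrt n * (1 / 2 ^ l)) * ‖H x₂ x₀‖) ^ 2 =
        ‖H x₂ x₀‖ ^ 2 * (10 ^ 10 * n / 4 ^ l) := by
      have h5 : ((2 : ℝ) ^ l) ^ 2 = 4 ^ l := by
        rw [← pow_mul, mul_comm, pow_mul]; norm_num
      rw [mul_pow, mul_pow, mul_pow, Real.sq_sqrt (Nat.cast_nonneg n), div_pow, h5]
      ring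
    rw [h4]
    exact mul_le_mul_of_nonneg_left h2 (by positivity)
  calc _ ≤ Real.sqrt (((10 ^ 5 * Real.sqrt n * (1 / 2 ^ l)) * ‖H x₂ x₀‖) ^ 2) :=
        Real.sqrt_le_sqrt h3
    _ = _ := Real.sqrt_sq (by positivity)

/-- `est_rough_m` with `X = 10`, `K + l` scales, `H k q = 0` for `k < l` and
`H k q z = H z * rho (rr (k-l) M_z) (k-l) k q` for `k ≥ l`; `coef_above`. -/
theorem rough_above (h : ESTrough) : ∃ C : ℝ, 0 ≤ C ∧ ∀ (N : ℕ) [NeZero N] (n W : ℕ), 1 ≤ n →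
    ∀ (A B H : Fn N) (M : ZMod N → ZMod N → ℕ → ℂ), (∀ x₂ x₀, Mult n W (M x₂ x₀)) →
    ∀ l K : ℕ, ∑ i ∈ range K, Ro A B H M i (i + l) ≤
      C * ((1 + l) * th ^ l) * (Real.sqrt n * n3 A * n3 B * n3 H) := by
  obtain ⟨C, hC0, hC⟩ := est_rough_m h
  refine ⟨C * ((10 : ℕ) : ℝ) ^ (3 / 4 : ℝ) * Real.sqrt (1 + Real.log ((10 : ℕ) : ℝ)) * 10 ^ 5,
    by positivity, ?_⟩
  intro N _ n W hn A B H M hM l K
  have l3nn : ∀ u : ZMod N → ZMod N → ℝ, 0 ≤ l3 u := fun u =>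
    Real.rpow_nonneg (sum_nonneg fun _ _ => sum_nonneg fun _ _ => by positivity) _
  have hA : 0 ≤ n3 A := l3nn _
  have hB : 0 ≤ n3 B := l3nn _
  have hH : 0 ≤ n3 H := l3nn _
  have h1 := hC N 10 (l + K) (by norm_num) A B
    (fun k q x₂ x₀ => if k < l then (0 : ℂ) else
      H x₂ x₀ * rho (rr (k - l) (M x₂ x₀)) (k - l) k q)
  have h2 : ∑ i ∈ range K, Ro A B H M i (i + l) ≤
      ∑ k ∈ range (l + K), ∑ q ∈ Icc (-((10 : ℕ) : ℤ)) ((10 : ℕ) : ℤ),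
        ‖Phi A B (fun x₂ x₀ => if k < l then (0 : ℂ) else
          H x₂ x₀ * rho (rr (k - l) (M x₂ x₀)) (k - l) k q) (2 ^ k) (plm N k q)‖ := by
    rw [Finset.sum_range_add]
    have h3 : 0 ≤ ∑ k ∈ range l, ∑ q ∈ Icc (-((10 : ℕ) : ℤ)) ((10 : ℕ) : ℤ),
        ‖Phi A B (fun x₂ x₀ => if k < l then (0 : ℂ) else
          H x₂ x₀ * rho (rr (k - l) (M x₂ x₀)) (k - l) k q) (2 ^ k) (plm N k q)‖ :=
      sum_nonneg fun _ _ => sum_nonneg fun _ _ => norm_nonneg _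
    have h4 : ∑ i ∈ range K, Ro A B H M i (i + l) =
        ∑ k ∈ range K, ∑ q ∈ Icc (-((10 : ℕ) : ℤ)) ((10 : ℕ) : ℤ),
        ‖Phi A B (fun x₂ x₀ => if l + k < l then (0 : ℂ) else
          H x₂ x₀ * rho (rr (l + k - l) (M x₂ x₀)) (l + k - l) (l + k) q) (2 ^ (l + k))
            (plm N (l + k) q)‖ := by
      refine Finset.sum_congr rfl fun k _ => ?_
      unfold Ro
      have e1 : 10 * 2 ^ (k - (k + l)) = 10 := by
        rw [Nat.sub_eq_zero_of_le (Nat.le_add_right k l)]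
        norm_num
      rw [e1]
      refine Finset.sum_congr rfl fun q _ => ?_
      have e2 : ¬ (k + l < l) := by omega
      rw [add_comm l k]
      simp only [if_neg e2, Nat.add_sub_cancel]
    rw [h4]
    linarith
  have h5 : (l3 fun x₂ x₀ => Real.sqrt (∑ k ∈ range (l + K),
      ∑ q ∈ Icc (-((10 : ℕ) : ℤ)) ((10 : ℕ) : ℤ),
      ‖(if k < l then (0 : ℂ) else H x₂ x₀ * rho (rr (k - l) (M x₂ x₀)) (k - l) k q)‖ ^ 2)) ≤
      (10 ^ 5 * Real.sqrt n * (1 / 2 ^ l)) * n3 H := by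
    unfold n3
    rw [← l3_smul _ (by positivity)]
    refine l3_mono _ _ fun x y => ?_
    rw [abs_of_nonneg (Real.sqrt_nonneg _)]
    exact ra_sq H M hn hM l K x y
  refine h2.trans (h1.trans ?_)
  have hD : 0 ≤ C * ((10 : ℕ) : ℝ) ^ (3 / 4 : ℝ) * Real.sqrt (1 + Real.log ((10 : ℕ) : ℝ)) *
      n3 A * n3 B := by positivity
  refine (mul_le_mul_of_nonneg_left h5 hD).trans ?_
  have h6 := ra_th_le l
  calc C * ((10 : ℕ) : ℝ) ^ (3 / 4 : ℝ) * Real.sqrt (1 + Real.log ((10 : ℕ) : ℝ)) *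
      n3 A * n3 B * (10 ^ 5 * Real.sqrt n * (1 / 2 ^ l) * n3 H) =
      (C * ((10 : ℕ) : ℝ) ^ (3 / 4 : ℝ) * Real.sqrt (1 + Real.log ((10 : ℕ) : ℝ)) * 10 ^ 5 *
        (Real.sqrt n * n3 A * n3 B * n3 H)) * (1 / 2 ^ l) := by ring
    _ ≤ (C * ((10 : ℕ) : ℝ) ^ (3 / 4 : ℝ) * Real.sqrt (1 + Real.log ((10 : ℕ) : ℝ)) * 10 ^ 5 *
        (Real.sqrt n * n3 A * n3 B * n3 H)) * ((1 + l) * th ^ l) :=
        mul_le_mul_of_nonneg_left h6 (by positivity)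
    _ = _ := by ring

end Crest.Agent.R72.K
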