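import Mathlib
import Crest.Agent.R72.LA1
import Crest.Agent.R72.LASvd

/-!
# Row 72, module LA (helper12): lower bound of the gap

`gap32_lower`: `gap32 A₀ A₁ ≥ Re tr (Δ W) - tr (W Y W)`, `Δ = (A₀ - A₁)/2`, `Y = rt ((A₀ + A₁)/2)`.

`dgp_lower`: the off-diagonal block.
-/

set_option autoImplicit false
set_option linter.unusedSectionVars false

namespace Crest.Agent.R72

open Matrix
open scoped MatrixOrder ComplexOrder

section core

variable {n : Type*} [Fintype n] [DecidableEq n]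

/-- concavity of the square root -/
theorem rt_concave {A B : Matrix n n ℂ} (hA : A.PosSemidef) (hB : B.PosSemidef) :
    (((1 / 2 : ℝ)) : ℂ) • (rt A + rt B) ≤ rt ((((1 / 2 : ℝ)) : ℂ) • (A + B)) := by
  have hp : ((((1 / 2 : ℝ)) : ℂ) • (rt A + rt B)).PosSemidef := psd_half ((rt_psd A).add (rt_psd B))
  have h1 : rt (((((1 / 2 : ℝ)) : ℂ) • (rt A + rt B)) * ((((1 / 2 : ℝ)) : ℂ) • (rt A + rt B))) =
      (((1 / 2 : ℝ)) : ℂ) • (rt A + rt B) := rt_unique hp rfl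
  rw [← h1]
  apply rt_mono
  rw [le_iff]
  have h2 : (((1 / 2 : ℝ)) : ℂ) • (A + B) -
      ((((1 / 2 : ℝ)) : ℂ) • (rt A + rt B)) * ((((1 / 2 : ℝ)) : ℂ) • (rt A + rt B)) =
      (((1 / 4 : ℝ)) : ℂ) • ((rt A - rt B)ᴴ * (rt A - rt B)) := by
    rw [conjTranspose_sub, rt_star, rt_star]
    nth_rewrite 1 [← rt_mul_self hA]
    nth_rewrite 1 [← rt_mul_self hB]
    rw [smul_mul_smul_comm]
    generalize rt A = R
    generalize rt B = Q
    simp only [Matrix.add_mul, Matrix.mul_add, Matrix.sub_mul, Matrix.mul_sub]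
    have e1 : ((1 / 2 : ℝ) : ℂ) * ((1 / 2 : ℝ) : ℂ) = 1 / 4 := by norm_num
    have e2 : ((1 / 2 : ℝ) : ℂ) = 1 / 2 := by norm_num
    have e3 : ((1 / 4 : ℝ) : ℂ) = 1 / 4 := by norm_num
    rw [e1, e2, e3]
    module
  rw [h2]
  exact (posSemidef_conjTranspose_mul_self _).smul
    (by exact_mod_cast (by norm_num : (0 : ℝ) ≤ 1 / 4))

theorem T3_esw {A Y W : Matrix n n ℂ} (hA : Aᴴ = A) (hY : Yᴴ = Y) (hW : Wᴴ = W) :
    T3 (A - Y) (A + Y) W = T3 A A W - T3 Y Y W := by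
  have h : T3 A Y W = T3 Y A W := by rw [T3_star hA hY hW, T3_cyc]
  simp only [T3_sub1, T3_add2]
  rw [h]
  ring

theorem gap32_lower {A B Y W : Matrix n n ℂ} (hA : A.PosSemidef) (hB : B.PosSemidef)
    (hY : Y = rt ((((1 / 2 : ℝ)) : ℂ) • (A + B))) (hW : Wᴴ = W) :
    (trace (((((1 / 2 : ℝ)) : ℂ) • (A - B)) * W)).re - T3 W Y W ≤ gap32 A B := by
  have hM := psd_half (hA.add hB)
  have hYs : Yᴴ = Y := by rw [hY, rt_star]
  have hYp : Y.PosSemidef := hY ▸ rt_psd _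
  have hYY : Y * Y = (((1 / 2 : ℝ)) : ℂ) • (A + B) := by rw [hY, rt_mul_self hM]
  have key : ∀ (C W' : Matrix n n ℂ), C.PosSemidef → W'ᴴ = W' →
      (trace ((C - Y * Y) * W')).re ≤
        1 / 2 * (T3 (rt C - Y) (rt C + Y) (rt C - Y) + T3 W' (rt C + Y) W') := by
    intro C W' hC hW'
    have hE : (rt C - Y)ᴴ = rt C - Y := by rw [conjTranspose_sub, rt_star, hYs]
    have hS : (rt C + Y).PosSemidef := (rt_psd C).add hYp
    have h1 : (trace ((C - Y * Y) * W')).re = T3 (rt C - Y) (rt C + Y) W' := by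
      rw [T3_esw (rt_star C) hYs hW']
      rw [T3, T3, rt_mul_self hC, Matrix.sub_mul, trace_sub, Complex.sub_re]
    rw [h1]
    refine (T3_cs hE hW' hS).trans ?_
    have h2 := T3_conj_nonneg hE hS
    have h3 := T3_conj_nonneg hW' hS
    have h4 := Real.mul_self_sqrt h2
    have h5 := Real.mul_self_sqrt h3
    nlinarith [sq_nonneg (√(T3 (rt C - Y) (rt C + Y) (rt C - Y)) - √(T3 W' (rt C + Y) W'))]
  have h1 := key A W hA hW
  have h2 := key B (-W) hB (by rw [conjTranspose_neg, hW])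
  have e1 : A - Y * Y = (((1 / 2 : ℝ)) : ℂ) • (A - B) := by
    rw [hYY]
    have e2 : ((1 / 2 : ℝ) : ℂ) = 1 / 2 := by norm_num
    rw [e2]
    module
  have e2 : (B - Y * Y) * -W = ((((1 / 2 : ℝ)) : ℂ) • (A - B)) * W := by
    rw [hYY]
    have e2 : ((1 / 2 : ℝ) : ℂ) = 1 / 2 := by norm_num
    rw [e2, Matrix.mul_neg, ← Matrix.neg_mul]
    congr 1
    module
  have e3 : T3 (-W) (rt B + Y) (-W) = T3 W (rt B + Y) W := by
    simp [T3]
  rw [e1] at h1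
  rw [e2, e3] at h2
  have h3 := gap32_ge hA hB hY
  have h4 : T3 W (rt A + Y) W + T3 W (rt B + Y) W ≤ 4 * T3 W Y W := by
    have h5 : T3 W ((((1 / 2 : ℝ)) : ℂ) • (rt A + rt B)) W ≤ T3 W Y W := by
      apply T3_conj_mono hW
      rw [hY]
      exact rt_concave hA hB
    rw [T3_smul2, T3_add2] at h5
    rw [T3_add2, T3_add2]
    linarith
  linarith

end core

section blocks

variable {p q : Type*} [Fintype p] [DecidableEq p] [Fintype q] [DecidableEq q]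

/-- pinching: the diagonal block of the square root -/
theorem rt_block11 {M : Matrix (p ⊕ q) (p ⊕ q) ℂ} (hM : M.PosSemidef) :
    (rt M).toBlocks₁₁ ≤ rt M.toBlocks₁₁ := by
  have hp : ((rt M).toBlocks₁₁).PosSemidef := (rt_psd M).submatrix Sum.inl
  have h1 : rt ((rt M).toBlocks₁₁ * (rt M).toBlocks₁₁) = (rt M).toBlocks₁₁ := rt_unique hp rfl
  rw [← h1]
  apply rt_mono
  rw [le_iff]
  have hs := rt_star M
  have h2 : M.toBlocks₁₁ - (rt M).toBlocks₁₁ * (rt M).toBlocks₁₁ =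
      ((rt M).toBlocks₂₁)ᴴ * (rt M).toBlocks₂₁ := by
    have h3 : M.toBlocks₁₁ = (rt M).toBlocks₁₁ * (rt M).toBlocks₁₁ +
        (rt M).toBlocks₁₂ * (rt M).toBlocks₂₁ := by
      conv_lhs => rw [← rt_mul_self hM, ← fromBlocks_toBlocks (rt M), fromBlocks_multiply]
      simp
    have h4 : ((rt M).toBlocks₂₁)ᴴ = (rt M).toBlocks₁₂ := by
      conv_rhs => rw [← hs]
      rfl
    rw [h3, h4]
    abel
  rw [h2]
  exact posSemidef_conjTranspose_mul_self _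

theorem rt_block22 {M : Matrix (p ⊕ q) (p ⊕ q) ℂ} (hM : M.PosSemidef) :
    (rt M).toBlocks₂₂ ≤ rt M.toBlocks₂₂ := by
  have hp : ((rt M).toBlocks₂₂).PosSemidef := (rt_psd M).submatrix Sum.inr
  have h1 : rt ((rt M).toBlocks₂₂ * (rt M).toBlocks₂₂) = (rt M).toBlocks₂₂ := rt_unique hp rfl
  rw [← h1]
  apply rt_mono
  rw [le_iff]
  have hs := rt_star M
  have h2 : M.toBlocks₂₂ - (rt M).toBlocks₂₂ * (rt M).toBlocks₂₂ =
      ((rt M).toBlocks₁₂)ᴴ * (rt M).toBlocks₁₂ := by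
    have h3 : M.toBlocks₂₂ = (rt M).toBlocks₂₁ * (rt M).toBlocks₁₂ +
        (rt M).toBlocks₂₂ * (rt M).toBlocks₂₂ := by
      conv_lhs => rw [← rt_mul_self hM, ← fromBlocks_toBlocks (rt M), fromBlocks_multiply]
      simp
    have h4 : ((rt M).toBlocks₁₂)ᴴ = (rt M).toBlocks₂₁ := by
      conv_rhs => rw [← hs]
      rfl
    rw [h3, h4]
    abel
  rw [h2]
  exact posSemidef_conjTranspose_mul_self _

end blocks

section dgp

variable {ι p q : Type*} [Fintype ι] [DecidableEq ι] [Fintype p] [DecidableEq p]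
  [Fintype q] [DecidableEq q]

/-- diagonal block of a `2 × 2` block matrix -/
def sub2 (G : Matrix (Fin 2 × ι) (Fin 2 × ι) ℂ) (a : Fin 2) : Matrix ι ι ℂ :=
  G.submatrix (Prod.mk a) (Prod.mk a)

/-- the gap of a `2 × 2` block matrix -/
noncomputable def dgp (G : Matrix (Fin 2 × ι) (Fin 2 × ι) ℂ) : ℝ :=
  1 / 2 * ∑ a, tr32 ((2 : ℂ) • sub2 G a) - tr32 G

/-- the sign matrix -/
def hd (ι : Type*) [DecidableEq ι] : Matrix (Fin 2 × ι) (Fin 2 × ι) ℂ :=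
  diagonal fun x => if x.1 = 0 then 1 else -1

/-- column block -/
def col2 (S : Matrix p (Fin 2 × ι) ℂ) (a : Fin 2) : Matrix p ι ℂ := S.submatrix id (Prod.mk a)

theorem sub2_eq (S : Matrix p (Fin 2 × ι) ℂ) (a : Fin 2) :
    sub2 (Sᴴ * S) a = (col2 S a)ᴴ * col2 S a := by
  ext i j
  simp [sub2, col2, mul_apply]

theorem col2_sum (S : Matrix p (Fin 2 × ι) ℂ) :
    col2 S 0 * (col2 S 0)ᴴ + col2 S 1 * (col2 S 1)ᴴ = S * Sᴴ := by
  ext i j
  simp [col2, mul_apply, Fintype.sum_prod_type]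

theorem mul_hd_apply (S : Matrix p (Fin 2 × ι) ℂ) (i : p) (x : Fin 2 × ι) :
    (S * hd ι) i x = S i x * (if x.1 = 0 then 1 else -1) := by
  rw [hd, mul_diagonal]

theorem col2_diff (S : Matrix p (Fin 2 × ι) ℂ) :
    col2 S 0 * (col2 S 0)ᴴ - col2 S 1 * (col2 S 1)ᴴ = S * hd ι * Sᴴ := by
  ext i j
  rw [mul_apply (M := S * hd ι)]
  simp only [mul_hd_apply]
  simp [col2, mul_apply, Fintype.sum_prod_type, sub_eq_add_neg]

theorem trace_fromBlocks' {q : Type*} [Fintype q] (A : Matrix p p ℂ) (B : Matrix p q ℂ)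
    (C : Matrix q p ℂ) (D : Matrix q q ℂ) : trace (fromBlocks A B C D) = trace A + trace D := by
  simp [trace]

theorem two_smul_eq (X : Matrix p p ℂ) : ((2 : ℂ)) • X = (((2 : ℝ)) : ℂ) • X := by norm_num

theorem dgp_eq (S : Matrix p (Fin 2 × ι) ℂ) :
    dgp (Sᴴ * S) = gap32 ((2 : ℂ) • (col2 S 0 * (col2 S 0)ᴴ)) ((2 : ℂ) • (col2 S 1 * (col2 S 1)ᴴ)) := by
  have h : ∀ a, tr32 ((2 : ℂ) • sub2 (Sᴴ * S) a) = tr32 ((2 : ℂ) • (col2 S a * (col2 S a)ᴴ)) := by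
    intro a
    rw [sub2_eq, two_smul_eq, two_smul_eq, la_smul (posSemidef_conjTranspose_mul_self _) (by norm_num),
      la_smul (posSemidef_self_mul_conjTranspose _) (by norm_num), la_conj]
  rw [dgp, gap32, Fin.sum_univ_two, h, h, ← smul_add, smul_smul, col2_sum, la_conj]
  norm_num
  ring

/-- **the lower bound** -/
theorem dgp_lower (P : Matrix (Fin 2 × ι) p ℂ) (R : Matrix (Fin 2 × ι) q ℂ) (T : Matrix q p ℂ) :
    2 * (trace (Rᴴ * hd ι * P * Tᴴ)).re - (trace (rt (Pᴴ * P) * (Tᴴ * T))).re -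
      (trace (rt (Rᴴ * R) * (T * Tᴴ))).re ≤ dgp (P * Pᴴ + R * Rᴴ) := by
  set S : Matrix (p ⊕ q) (Fin 2 × ι) ℂ := fromRows Pᴴ Rᴴ with hS
  have hG : P * Pᴴ + R * Rᴴ = Sᴴ * S := by
    ext i j
    simp [hS, mul_apply]
  set W : Matrix (p ⊕ q) (p ⊕ q) ℂ := fromBlocks 0 Tᴴ T 0 with hW
  have hWs : Wᴴ = W := by
    rw [hW, fromBlocks_conjTranspose]
    simp
  have hSS : S * Sᴴ = fromBlocks (Pᴴ * P) (Pᴴ * R) (Rᴴ * P) (Rᴴ * R) := by
    ext (i | i) (j | j) <;> simp [hS, mul_apply]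
  have hSd : S * hd ι * Sᴴ = fromBlocks (Pᴴ * hd ι * P) (Pᴴ * hd ι * R) (Rᴴ * hd ι * P)
      (Rᴴ * hd ι * R) := by
    rw [hS, fromRows_mul, conjTranspose_fromRows_eq_fromCols_conjTranspose,
      fromRows_mul_fromCols, conjTranspose_conjTranspose, conjTranspose_conjTranspose]
  have hP0 : ((2 : ℂ) • (col2 S 0 * (col2 S 0)ᴴ)).PosSemidef := by
    rw [two_smul_eq]
    exact (posSemidef_self_mul_conjTranspose _).smul (by exact_mod_cast (by norm_num : (0 : ℝ) ≤ 2))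
  have hP1 : ((2 : ℂ) • (col2 S 1 * (col2 S 1)ᴴ)).PosSemidef := by
    rw [two_smul_eq]
    exact (posSemidef_self_mul_conjTranspose _).smul (by exact_mod_cast (by norm_num : (0 : ℝ) ≤ 2))
  have h := gap32_lower hP0 hP1 rfl hWs
  rw [hG, dgp_eq]
  refine le_trans ?_ h
  have e1 : (((1 / 2 : ℝ)) : ℂ) • ((2 : ℂ) • (col2 S 0 * (col2 S 0)ᴴ) +
      (2 : ℂ) • (col2 S 1 * (col2 S 1)ᴴ)) = S * Sᴴ := by
    rw [← smul_add, smul_smul, col2_sum]
    norm_num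
  have e2 : (((1 / 2 : ℝ)) : ℂ) • ((2 : ℂ) • (col2 S 0 * (col2 S 0)ᴴ) -
      (2 : ℂ) • (col2 S 1 * (col2 S 1)ᴴ)) = S * hd ι * Sᴴ := by
    rw [← smul_sub, smul_smul, col2_diff]
    norm_num
  rw [e1, e2]
  have hSp : (S * Sᴴ).PosSemidef := posSemidef_self_mul_conjTranspose S
  have h11 := rt_block11 hSp
  have h22 := rt_block22 hSp
  have b11 : (S * Sᴴ).toBlocks₁₁ = Pᴴ * P := by rw [hSS, toBlocks_fromBlocks₁₁]
  have b22 : (S * Sᴴ).toBlocks₂₂ = Rᴴ * R := by rw [hSS, toBlocks_fromBlocks₂₂]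
  rw [b11] at h11
  rw [b22] at h22
  have e3 : trace (S * hd ι * Sᴴ * W) = trace (Pᴴ * hd ι * R * T) + trace (Rᴴ * hd ι * P * Tᴴ) := by
    rw [hSd, hW, fromBlocks_multiply, trace_fromBlocks']
    simp
  have e4 : (trace (Pᴴ * hd ι * R * T)).re = (trace (Rᴴ * hd ι * P * Tᴴ)).re := by
    have h5 : trace ((Pᴴ * hd ι * R * T)ᴴ) = star (trace (Pᴴ * hd ι * R * T)) :=
      trace_conjTranspose _
    have h6 : (hd ι)ᴴ = hd ι := by
      rw [hd, diagonal_conjTranspose]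
      congr 1
      funext x
      simp only [Pi.star_apply]
      split_ifs <;> simp
    have h7 : (Pᴴ * hd ι * R * T)ᴴ = Tᴴ * (Rᴴ * hd ι * P) := by
      simp only [conjTranspose_mul, conjTranspose_conjTranspose, h6, Matrix.mul_assoc]
    rw [h7, trace_mul_comm] at h5
    rw [h5]
    simp
  have e5 : T3 W (rt (S * Sᴴ)) W = (trace ((Tᴴ * T) * (rt (S * Sᴴ)).toBlocks₁₁)).re +
      (trace ((T * Tᴴ) * (rt (S * Sᴴ)).toBlocks₂₂)).re := by
    rw [T3, trace_mul_comm, ← Matrix.mul_assoc]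
    have h8 : W * W = fromBlocks (Tᴴ * T) 0 0 (T * Tᴴ) := by
      rw [hW, fromBlocks_multiply]
      simp
    rw [h8]
    nth_rewrite 1 [← fromBlocks_toBlocks (rt (S * Sᴴ))]
    rw [fromBlocks_multiply, trace_fromBlocks', Complex.add_re]
    simp
  have e6 : (trace ((Tᴴ * T) * (rt (S * Sᴴ)).toBlocks₁₁)).re ≤
      (trace ((Tᴴ * T) * rt (Pᴴ * P))).re :=
    tr_mul_mono h11 (posSemidef_conjTranspose_mul_self T)
  have e7 : (trace ((T * Tᴴ) * (rt (S * Sᴴ)).toBlocks₂₂)).re ≤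
      (trace ((T * Tᴴ) * rt (Rᴴ * R))).re :=
    tr_mul_mono h22 (posSemidef_self_mul_conjTranspose T)
  rw [e3, Complex.add_re, e4, e5, trace_mul_comm (rt (Pᴴ * P)), trace_mul_comm (rt (Rᴴ * R))]
  linarith

end dgp

end Crest.Agent.R72
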