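import Mathlib
import Crest.Agent.R72.LACore

/-!
# Row 72, module LA (helper12): the box inequality LA6
-/

set_option autoImplicit false
set_option linter.unusedSectionVars false

namespace Crest.Agent.R72

open Matrix
open scoped MatrixOrder ComplexOrder

section trilin

variable {α β γ : Type*} [Fintype α] [DecidableEq α] [Fintype β] [DecidableEq β]
  [Fintype γ] [DecidableEq γ]

/-- a contraction -/
def Ctr (k : Matrix α β ℂ) : Prop := ∀ v : β → ℂ, ∑ i, ‖(k *ᵥ v) i‖ ^ 2 ≤ ∑ j, ‖v j‖ ^ 2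

theorem Ctr.bilin {k : Matrix α β ℂ} (h : Ctr k) (x : α → ℂ) (y : β → ℂ) :
    ‖∑ i, ∑ j, x i * k i j * y j‖ ≤ 1 / 2 * (∑ i, ‖x i‖ ^ 2 + ∑ j, ‖y j‖ ^ 2) := by
  have h1 : ∑ i, ∑ j, x i * k i j * y j = ∑ i, x i * (k *ᵥ y) i := by
    refine Finset.sum_congr rfl fun i _ => ?_
    rw [mulVec, dotProduct, Finset.mul_sum]
    exact Finset.sum_congr rfl fun j _ => by ring
  rw [h1]
  refine (norm_sum_le _ _).trans ?_
  have h2 : ∀ i, ‖x i * (k *ᵥ y) i‖ ≤ 1 / 2 * (‖x i‖ ^ 2 + ‖(k *ᵥ y) i‖ ^ 2) := by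
    intro i
    rw [norm_mul]
    nlinarith [sq_nonneg (‖x i‖ - ‖(k *ᵥ y) i‖)]
  refine (Finset.sum_le_sum fun i _ => h2 i).trans ?_
  rw [← Finset.mul_sum, Finset.sum_add_distrib]
  have := h y
  linarith

theorem ctr_of_eq {k : Matrix α β ℂ} {χ : β → ℝ} (h : kᴴ * k = dg χ) (hχ : ∀ j, χ j ≤ 1) :
    Ctr k := by
  intro v
  have h1 : star (k *ᵥ v) ⬝ᵥ (k *ᵥ v) = star v ⬝ᵥ (dg χ *ᵥ v) := by
    rw [← h, star_mulVec, ← dotProduct_mulVec, mulVec_mulVec]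
  have h2 : ∀ (δ : Type _) [Fintype δ] (w : δ → ℂ), (star w ⬝ᵥ w).re = ∑ i, ‖w i‖ ^ 2 := by
    intro δ _ w
    rw [dotProduct, Complex.re_sum]
    refine Finset.sum_congr rfl fun i _ => ?_
    rw [Pi.star_apply, Complex.star_def, Complex.conj_mul']
    norm_cast
  have h3 : (star v ⬝ᵥ (dg χ *ᵥ v)).re = ∑ j, χ j * ‖v j‖ ^ 2 := by
    rw [dotProduct, Complex.re_sum]
    refine Finset.sum_congr rfl fun i _ => ?_
    rw [Pi.star_apply, dg, mulVec_diagonal]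
    have : star (v i) * ((χ i : ℂ) * v i) = (χ i : ℂ) * (star (v i) * v i) := by ring
    rw [this, Complex.re_ofReal_mul, Complex.star_def, Complex.conj_mul']
    norm_cast
  have h4 : ∑ i, ‖(k *ᵥ v) i‖ ^ 2 = ∑ j, χ j * ‖v j‖ ^ 2 := by
    rw [← h3, ← h1, ← h2]
  rw [h4]
  refine Finset.sum_le_sum fun j _ => ?_
  have := hχ j
  have := sq_nonneg ‖v j‖
  nlinarith

/-- `q x y = x² y² / (x + y)` -/
noncomputable def qf (x y : ℝ) : ℝ := x ^ 2 * y ^ 2 / (x + y)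

theorem qf_ge {x y : ℝ} (hx : 0 ≤ x) (hy : 0 ≤ y) (h : y ≤ x) : 1 / 2 * (x * y ^ 2) ≤ qf x y := by
  rcases hx.eq_or_lt with h0 | h0
  · subst h0
    have : y = 0 := le_antisymm h hy
    simp [this, qf]
  · rw [qf, le_div_iff₀ (by linarith)]
    nlinarith [mul_nonneg h0.le (mul_nonneg (sq_nonneg y) (sub_nonneg.2 h))]

theorem qf_comm (x y : ℝ) : qf x y = qf y x := by
  rw [qf, qf, mul_comm, add_comm]

theorem qf_nonneg {x y : ℝ} (hx : 0 ≤ x) (hy : 0 ≤ y) : 0 ≤ qf x y := by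
  rw [qf]; positivity

/-- pair estimate -/
theorem qf_pair {x y : ℝ} (hx : 0 ≤ x) (hy : 0 ≤ y) :
    1 / 2 * (x * (if y ≤ x then y ^ 2 else 0)) + 1 / 2 * (y * (if x < y then x ^ 2 else 0)) ≤
      qf x y := by
  by_cases h : y ≤ x
  · have h' : ¬ x < y := not_lt.2 h
    simp only [h, h', if_true, if_false, mul_zero, add_zero]
    exact qf_ge hx hy h
  · have h' : x < y := not_le.1 h
    simp only [h, h', if_true, if_false, mul_zero, zero_add]
    rw [qf_comm]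
    exact qf_ge hy hx h'.le

theorem norm_ind_sq (c : Prop) [Decidable c] (x : ℝ) (z : ℂ) :
    ‖(if c then (x : ℂ) else 0) * z‖ ^ 2 = (if c then x ^ 2 else 0) * ‖z‖ ^ 2 := by
  split_ifs
  · rw [norm_mul, mul_pow, Complex.norm_real, Real.norm_eq_abs, sq_abs]
  · simp

theorem cyc3 (f : α → β → γ → ℂ) : ∑ i, ∑ j, ∑ l, f i j l = ∑ l, ∑ i, ∑ j, f i j l := by
  calc _ = ∑ i, ∑ l, ∑ j, f i j l := Finset.sum_congr rfl fun i _ => Finset.sum_comm
    _ = _ := Finset.sum_comm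

theorem cyc3' (f : α → β → γ → ℂ) : ∑ i, ∑ j, ∑ l, f i j l = ∑ j, ∑ l, ∑ i, f i j l := by
  calc _ = ∑ j, ∑ i, ∑ l, f i j l := Finset.sum_comm
    _ = _ := Finset.sum_congr rfl fun i _ => Finset.sum_comm

/-- one region -/
theorem region {s : α → ℝ} (hs : ∀ i, 0 ≤ s i) {k : Matrix β γ ℂ} (hk : Ctr k)
    (c : α → β → Prop) [∀ i j, Decidable (c i j)] (d : α → γ → Prop) [∀ i l, Decidable (d i l)]
    (t : β → ℝ) (r : γ → ℝ) (a : α → β → ℂ) (b : γ → α → ℂ) :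
    ‖∑ i, (s i : ℂ) * ∑ j, ∑ l, ((if c i j then (t j : ℂ) else 0) * a i j) * k j l *
        ((if d i l then (r l : ℂ) else 0) * b l i)‖ ≤
      ∑ i, ∑ j, 1 / 2 * (s i * (if c i j then t j ^ 2 else 0)) * ‖a i j‖ ^ 2 +
        ∑ l, ∑ i, 1 / 2 * (s i * (if d i l then r l ^ 2 else 0)) * ‖b l i‖ ^ 2 := by
  refine (norm_sum_le _ _).trans ?_
  have h1 : ∀ i, ‖(s i : ℂ) * ∑ j, ∑ l, ((if c i j then (t j : ℂ) else 0) * a i j) * k j l *
        ((if d i l then (r l : ℂ) else 0) * b l i)‖ ≤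
      ∑ j, 1 / 2 * (s i * (if c i j then t j ^ 2 else 0)) * ‖a i j‖ ^ 2 +
        ∑ l, 1 / 2 * (s i * (if d i l then r l ^ 2 else 0)) * ‖b l i‖ ^ 2 := by
    intro i
    have h2 := hk.bilin (fun j => (if c i j then (t j : ℂ) else 0) * a i j)
      (fun l => (if d i l then (r l : ℂ) else 0) * b l i)
    simp only [norm_ind_sq] at h2
    rw [norm_mul, Complex.norm_real, Real.norm_eq_abs, abs_of_nonneg (hs i)]
    refine (mul_le_mul_of_nonneg_left h2 (hs i)).trans (le_of_eq ?_)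
    rw [mul_add, mul_add, Finset.mul_sum, Finset.mul_sum, Finset.mul_sum, Finset.mul_sum]
    congr 1 <;> refine Finset.sum_congr rfl fun _ _ => by ring
  refine (Finset.sum_le_sum fun i _ => h1 i).trans (le_of_eq ?_)
  rw [Finset.sum_add_distrib]
  congr 1
  exact Finset.sum_comm

theorem trilin {s : α → ℝ} {t : β → ℝ} {r : γ → ℝ} (hs : ∀ i, 0 ≤ s i) (ht : ∀ j, 0 ≤ t j)
    (hr : ∀ l, 0 ≤ r l) {k₀ : Matrix γ α ℂ} {k₁ : Matrix α β ℂ} {k₂ : Matrix β γ ℂ}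
    (h₀ : Ctr k₀) (h₁ : Ctr k₁) (h₂ : Ctr k₂) :
    ‖∑ i, ∑ j, ∑ l, k₀ l i * s i * k₁ i j * t j * k₂ j l * r l‖ ≤
      ∑ l, ∑ i, qf (r l) (s i) * ‖k₀ l i‖ ^ 2 + ∑ i, ∑ j, qf (s i) (t j) * ‖k₁ i j‖ ^ 2 +
        ∑ j, ∑ l, qf (t j) (r l) * ‖k₂ j l‖ ^ 2 := by
  have hsplit : ∀ i j l, k₀ l i * s i * k₁ i j * t j * k₂ j l * r l =
      s i * (((if t j ≤ s i then (t j : ℂ) else 0) * k₁ i j) * k₂ j l *
        ((if r l ≤ s i then (r l : ℂ) else 0) * k₀ l i)) +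
      t j * (((if r l ≤ t j then (r l : ℂ) else 0) * k₂ j l) * k₀ l i *
        ((if s i < t j then (s i : ℂ) else 0) * k₁ i j)) +
      r l * (((if s i < r l then (s i : ℂ) else 0) * k₀ l i) * k₁ i j *
        ((if t j < r l then (t j : ℂ) else 0) * k₂ j l)) := by
    intro i j l
    by_cases c1 : t j ≤ s i
    · have c1' : ¬ s i < t j := not_lt.2 c1
      by_cases c2 : r l ≤ s i
      · have c2' : ¬ s i < r l := not_lt.2 c2
        simp only [c1, c2, c1', c2', if_true, if_false]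
        ring
      · have c2' : s i < r l := not_le.1 c2
        have c3 : t j < r l := c1.trans_lt c2'
        simp only [c1, c2, c1', c2', c3, if_true, if_false]
        ring
    · have c1' : s i < t j := not_le.1 c1
      by_cases c3 : r l ≤ t j
      · have c3' : ¬ t j < r l := not_lt.2 c3
        simp only [c1, c1', c3, c3', if_true, if_false]
        ring
      · have c3' : t j < r l := not_le.1 c3
        have c2' : s i < r l := c1'.trans c3'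
        simp only [c1, c1', c2', c3, c3', if_true, if_false]
        ring
  have e1 : ∑ i, ∑ j, ∑ l, k₀ l i * s i * k₁ i j * t j * k₂ j l * r l =
      (∑ i, (s i : ℂ) * ∑ j, ∑ l, ((if t j ≤ s i then (t j : ℂ) else 0) * k₁ i j) * k₂ j l *
        ((if r l ≤ s i then (r l : ℂ) else 0) * k₀ l i)) +
      (∑ j, (t j : ℂ) * ∑ l, ∑ i, ((if r l ≤ t j then (r l : ℂ) else 0) * k₂ j l) * k₀ l i *
        ((if s i < t j then (s i : ℂ) else 0) * k₁ i j)) +
      (∑ l, (r l : ℂ) * ∑ i, ∑ j, ((if s i < r l then (s i : ℂ) else 0) * k₀ l i) * k₁ i j *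
        ((if t j < r l then (t j : ℂ) else 0) * k₂ j l)) := by
    simp only [hsplit, Finset.sum_add_distrib, Finset.mul_sum]
    congr 1
    · congr 1
      exact cyc3' _
    · exact cyc3 _
  rw [e1]
  have r1 := region (α := α) (β := β) (γ := γ) hs h₂ (fun i j => t j ≤ s i)
    (fun i l => r l ≤ s i) t r (fun i j => k₁ i j) (fun l i => k₀ l i)
  have r2 := region (α := β) (β := γ) (γ := α) ht h₀ (fun j l => r l ≤ t j)
    (fun j i => s i < t j) r s (fun j l => k₂ j l) (fun i j => k₁ i j)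
  have r3 := region (α := γ) (β := α) (γ := β) hr h₁ (fun l i => s i < r l)
    (fun l j => t j < r l) s t (fun l i => k₀ l i) (fun j l => k₂ j l)
  refine (norm_add_le _ _).trans ((add_le_add (norm_add_le _ _) le_rfl).trans
    ((add_le_add (add_le_add r1 r2) r3).trans ?_))
  have p0 : ∑ l, ∑ i, 1 / 2 * (s i * (if r l ≤ s i then r l ^ 2 else 0)) * ‖k₀ l i‖ ^ 2 +
      ∑ l, ∑ i, 1 / 2 * (r l * (if s i < r l then s i ^ 2 else 0)) * ‖k₀ l i‖ ^ 2 ≤
      ∑ l, ∑ i, qf (r l) (s i) * ‖k₀ l i‖ ^ 2 := by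
    rw [← Finset.sum_add_distrib]
    refine Finset.sum_le_sum fun l _ => ?_
    rw [← Finset.sum_add_distrib]
    refine Finset.sum_le_sum fun i _ => ?_
    rw [← add_mul, qf_comm]
    refine mul_le_mul_of_nonneg_right ?_ (sq_nonneg _)
    have h5 := hs i
    have h6 := hr l
    by_cases h : r l ≤ s i
    · have h' : ¬ s i < r l := not_lt.2 h
      simp only [h, h', if_true, if_false, mul_zero, add_zero]
      exact qf_ge h5 h6 h
    · have h' : s i < r l := not_le.1 h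
      simp only [h, h', if_true, if_false, mul_zero, zero_add]
      rw [qf_comm]
      exact qf_ge h6 h5 h'.le
  have p1 : ∑ i, ∑ j, 1 / 2 * (s i * (if t j ≤ s i then t j ^ 2 else 0)) * ‖k₁ i j‖ ^ 2 +
      ∑ i, ∑ j, 1 / 2 * (t j * (if s i < t j then s i ^ 2 else 0)) * ‖k₁ i j‖ ^ 2 ≤
      ∑ i, ∑ j, qf (s i) (t j) * ‖k₁ i j‖ ^ 2 := by
    rw [← Finset.sum_add_distrib]
    refine Finset.sum_le_sum fun i _ => ?_
    rw [← Finset.sum_add_distrib]
    refine Finset.sum_le_sum fun j _ => ?_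
    rw [← add_mul]
    exact mul_le_mul_of_nonneg_right (qf_pair (hs i) (ht j)) (sq_nonneg _)
  have p2 : ∑ j, ∑ l, 1 / 2 * (t j * (if r l ≤ t j then r l ^ 2 else 0)) * ‖k₂ j l‖ ^ 2 +
      ∑ j, ∑ l, 1 / 2 * (r l * (if t j < r l then t j ^ 2 else 0)) * ‖k₂ j l‖ ^ 2 ≤
      ∑ j, ∑ l, qf (t j) (r l) * ‖k₂ j l‖ ^ 2 := by
    rw [← Finset.sum_add_distrib]
    refine Finset.sum_le_sum fun i _ => ?_
    rw [← Finset.sum_add_distrib]
    refine Finset.sum_le_sum fun j _ => ?_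
    rw [← add_mul]
    exact mul_le_mul_of_nonneg_right (qf_pair (ht i) (hr j)) (sq_nonneg _)
  linarith

end trilin

section gapq

variable {ι p q : Type*} [Fintype ι] [DecidableEq ι] [Fintype p] [DecidableEq p]
  [Fintype q] [DecidableEq q]

theorem hd_star : (hd ι)ᴴ = hd ι := by
  rw [hd, diagonal_conjTranspose]
  congr 1
  funext x
  simp only [Pi.star_apply]
  split_ifs <;> simp

theorem hd_mul_self : hd ι * hd ι = 1 := by
  rw [hd, diagonal_mul_diagonal, ← diagonal_one]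
  congr 1
  funext x
  split_ifs <;> simp

theorem tr_words (r : q → ℝ) (s : p → ℝ) (k τ : Matrix q p ℂ) :
    trace (dg r * k * dg s * τᴴ) = ∑ l, ∑ i, (r l : ℂ) * k l i * s i * star (τ l i) := by
  simp only [trace, diag_apply, mul_apply (M := dg r * k * dg s), conjTranspose_apply]
  refine Finset.sum_congr rfl fun l _ => Finset.sum_congr rfl fun i _ => ?_
  rw [dg, dg, mul_diagonal, diagonal_mul]

theorem tr_tau1 (s : p → ℝ) (χ : q → ℝ) (τ : Matrix q p ℂ) :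
    (trace (dg s * (τᴴ * dg χ * τ))).re = ∑ l, ∑ i, s i * (χ l * ‖τ l i‖ ^ 2) := by
  simp only [trace, diag_apply, dg, diagonal_mul]
  rw [Complex.re_sum, Finset.sum_comm]
  refine Finset.sum_congr rfl fun i _ => ?_
  rw [mul_apply, Complex.re_ofReal_mul, Complex.re_sum, Finset.mul_sum]
  refine Finset.sum_congr rfl fun l _ => ?_
  rw [mul_diagonal, conjTranspose_apply]
  have : star (τ l i) * (χ l : ℂ) * τ l i = (χ l : ℂ) * (star (τ l i) * τ l i) := by ring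
  rw [this, Complex.re_ofReal_mul, Complex.star_def, Complex.conj_mul']
  norm_cast

theorem tr_tau2 (r : q → ℝ) (τ : Matrix q p ℂ) :
    (trace (dg r * (τ * τᴴ))).re = ∑ l, ∑ i, r l * ‖τ l i‖ ^ 2 := by
  simp only [trace, diag_apply, dg, diagonal_mul]
  rw [Complex.re_sum]
  refine Finset.sum_congr rfl fun l _ => ?_
  rw [mul_apply, Complex.re_ofReal_mul, Complex.re_sum, Finset.mul_sum]
  refine Finset.sum_congr rfl fun i _ => ?_
  rw [conjTranspose_apply, Complex.star_def, Complex.mul_conj']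
  norm_cast

/-- the gap in singular value coordinates -/
theorem gapq {A U : Matrix (Fin 2 × ι) p ℂ} {V : Matrix p p ℂ} {s χ : p → ℝ}
    (hA : Svd A U V s χ) {H U' : Matrix q (Fin 2 × ι) ℂ}
    {V' : Matrix (Fin 2 × ι) (Fin 2 × ι) ℂ} {r χ' : Fin 2 × ι → ℝ} (hH : Svd H U' V' r χ') :
    ∑ l, ∑ i, qf (r l) (s i) * ‖(V'ᴴ * hd ι * U) l i‖ ^ 2 ≤ dgp (A * Aᴴ + Hᴴ * H) := by
  set k := V'ᴴ * hd ι * U with hk
  set c : Fin 2 × ι → p → ℝ := fun l i => r l * s i / (r l + s i) with hc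
  set τ : Matrix (Fin 2 × ι) p ℂ := of fun l i => (c l i : ℂ) * k l i with hτ
  have hτn : ∀ l i, ‖τ l i‖ ^ 2 = c l i ^ 2 * ‖k l i‖ ^ 2 := by
    intro l i
    rw [hτ, of_apply, norm_mul, mul_pow, Complex.norm_real, Real.norm_eq_abs, sq_abs]
  have h := dgp_lower A Hᴴ (U' * τ * Vᴴ)
  rw [conjTranspose_conjTranspose] at h
  refine le_trans ?_ h
  have hT : (U' * τ * Vᴴ)ᴴ = V * τᴴ * U'ᴴ := by
    simp only [conjTranspose_mul, conjTranspose_conjTranspose, Matrix.mul_assoc]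
  have e1 : trace (H * hd ι * A * (U' * τ * Vᴴ)ᴴ) = trace (dg r * k * dg s * τᴴ) := by
    rw [hT]
    nth_rewrite 1 [hH.eq]
    nth_rewrite 1 [hA.eq]
    have : U' * dg r * V'ᴴ * hd ι * (U * dg s * Vᴴ) * (V * τᴴ * U'ᴴ) =
        U' * (dg r * k * dg s * (Vᴴ * V) * τᴴ * U'ᴴ) := by
      rw [hk]
      simp only [Matrix.mul_assoc]
    rw [this, trace_mul_comm, hA.vv, Matrix.mul_one]
    have : dg r * k * dg s * τᴴ * U'ᴴ * U' = (dg r * k * dg s * τᴴ) * (U'ᴴ * U') := by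
      simp only [Matrix.mul_assoc]
    rw [this, trace_mul_comm]
    have : U'ᴴ * U' * (dg r * k * dg s * τᴴ) = (U'ᴴ * U' * dg r) * (k * dg s * τᴴ) := by
      simp only [Matrix.mul_assoc]
    rw [this, hH.uus]
    simp only [Matrix.mul_assoc]
  have e2 : (trace (rt (Aᴴ * A) * ((U' * τ * Vᴴ)ᴴ * (U' * τ * Vᴴ)))).re ≤
      ∑ l, ∑ i, s i * (c l i ^ 2 * ‖k l i‖ ^ 2) := by
    rw [hA.rt_star_mul, hT]
    have : V * dg s * Vᴴ * (V * τᴴ * U'ᴴ * (U' * τ * Vᴴ)) =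
        V * (dg s * (Vᴴ * V) * (τᴴ * (U'ᴴ * U') * τ) * Vᴴ) := by
      simp only [Matrix.mul_assoc]
    rw [this, trace_mul_comm, hA.vv, Matrix.mul_one, hH.uu]
    have : dg s * (τᴴ * dg χ' * τ) * Vᴴ * V = dg s * (τᴴ * dg χ' * τ) * (Vᴴ * V) := by
      simp only [Matrix.mul_assoc]
    rw [this, hA.vv, Matrix.mul_one, tr_tau1]
    refine Finset.sum_le_sum fun l _ => Finset.sum_le_sum fun i _ => ?_
    rw [hτn]
    have h1 := hH.c1 l
    have h2 := hA.s0 i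
    have h3 : 0 ≤ c l i ^ 2 * ‖k l i‖ ^ 2 := by positivity
    refine mul_le_mul_of_nonneg_left ?_ h2
    nlinarith
  have e3 : (trace (rt (H * Hᴴ) * ((U' * τ * Vᴴ) * (U' * τ * Vᴴ)ᴴ))).re =
      ∑ l, ∑ i, r l * (c l i ^ 2 * ‖k l i‖ ^ 2) := by
    rw [hH.rt_mul_star, hT]
    have : U' * dg r * U'ᴴ * (U' * τ * Vᴴ * (V * τᴴ * U'ᴴ)) =
        U' * (dg r * (U'ᴴ * U') * (τ * (Vᴴ * V) * τᴴ) * U'ᴴ) := by
      simp only [Matrix.mul_assoc]
    rw [this, trace_mul_comm, hA.vv, Matrix.mul_one, hH.suu]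
    have : dg r * (τ * τᴴ) * U'ᴴ * U' = (dg r * (τ * τᴴ)) * (U'ᴴ * U') := by
      simp only [Matrix.mul_assoc]
    rw [this, trace_mul_comm]
    have : U'ᴴ * U' * (dg r * (τ * τᴴ)) = (U'ᴴ * U' * dg r) * (τ * τᴴ) := by
      simp only [Matrix.mul_assoc]
    rw [this, hH.uus, tr_tau2]
    simp only [hτn]
  have e4 : (trace (dg r * k * dg s * τᴴ)).re = ∑ l, ∑ i, r l * s i * c l i * ‖k l i‖ ^ 2 := by
    rw [tr_words, Complex.re_sum]
    refine Finset.sum_congr rfl fun l _ => ?_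
    rw [Complex.re_sum]
    refine Finset.sum_congr rfl fun i _ => ?_
    rw [hτ, of_apply, star_mul']
    have : (r l : ℂ) * k l i * s i * (star (c l i : ℂ) * star (k l i)) =
        ((r l * s i * c l i : ℝ) : ℂ) * (k l i * star (k l i)) := by
      have e0 : star (c l i : ℂ) = (c l i : ℂ) := Complex.conj_ofReal _
      rw [e0]
      push_cast
      ring
    rw [this, Complex.re_ofReal_mul, Complex.star_def, Complex.mul_conj']
    norm_cast
  rw [e1, e3, e4]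
  have e5 : ∑ l, ∑ i, qf (r l) (s i) * ‖k l i‖ ^ 2 =
      2 * ∑ l, ∑ i, r l * s i * c l i * ‖k l i‖ ^ 2 -
        ∑ l, ∑ i, s i * (c l i ^ 2 * ‖k l i‖ ^ 2) -
        ∑ l, ∑ i, r l * (c l i ^ 2 * ‖k l i‖ ^ 2) := by
    simp only [Finset.mul_sum, ← Finset.sum_sub_distrib]
    refine Finset.sum_congr rfl fun l _ => Finset.sum_congr rfl fun i _ => ?_
    have h1 := hH.s0 l
    have h2 := hA.s0 i
    rcases (add_nonneg h1 h2).eq_or_lt with h3 | h3
    · have h4 : r l = 0 := by linarith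
      have h5 : s i = 0 := by linarith
      simp [qf, hc, h4, h5]
    · have h4 : r l + s i ≠ 0 := h3.ne'
      have h5 : c l i = r l * s i / (r l + s i) := rfl
      rw [h5, qf]
      field_simp
      ring
  rw [e5]
  linarith

end gapq

section box

variable {ι₀ ι₁ ι₂ : Type*} [Fintype ι₀] [DecidableEq ι₀] [Fintype ι₁] [DecidableEq ι₁]
  [Fintype ι₂] [DecidableEq ι₂]

theorem ctr_hd {ι p q : Type*} [Fintype ι] [DecidableEq ι] [Fintype p] [DecidableEq p]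
    [Fintype q] [DecidableEq q] {A U : Matrix (Fin 2 × ι) p ℂ} {V : Matrix p p ℂ} {s χ : p → ℝ}
    (hA : Svd A U V s χ) {H U' : Matrix q (Fin 2 × ι) ℂ}
    {V' : Matrix (Fin 2 × ι) (Fin 2 × ι) ℂ} {r χ' : Fin 2 × ι → ℝ} (hH : Svd H U' V' r χ') :
    Ctr (V'ᴴ * hd ι * U) := by
  apply ctr_of_eq (χ := χ) _ hA.c1
  have : (V'ᴴ * hd ι * U)ᴴ * (V'ᴴ * hd ι * U) = Uᴴ * (hd ι * (V' * V'ᴴ) * hd ι) * U := by
    simp only [conjTranspose_mul, conjTranspose_conjTranspose, hd_star, Matrix.mul_assoc]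
  rw [this, hH.vv', Matrix.mul_one, hd_mul_self, Matrix.mul_one, hA.uu]

/-- **LA6**: the box inequality -/
theorem la_box (A : Matrix (Fin 2 × ι₀) (Fin 2 × ι₁) ℂ) (B : Matrix (Fin 2 × ι₁) (Fin 2 × ι₂) ℂ)
    (H : Matrix (Fin 2 × ι₂) (Fin 2 × ι₀) ℂ) :
    ‖trace (hd ι₀ * A * hd ι₁ * B * hd ι₂ * H)‖ ≤
      dgp (A * Aᴴ + Hᴴ * H) + dgp (B * Bᴴ + Aᴴ * A) + dgp (H * Hᴴ + Bᴴ * B) := by
  obtain ⟨UA, VA, s, χA, hA⟩ := exists_svd A
  obtain ⟨UB, VB, t, χB, hB⟩ := exists_svd B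
  obtain ⟨UH, VH, r, χH, hH⟩ := exists_svd H
  have g0 := gapq hA hH
  have g1 := gapq hB hA
  have g2 := gapq hH hB
  have ht := trilin hA.s0 hB.s0 hH.s0 (ctr_hd hA hH) (ctr_hd hB hA) (ctr_hd hH hB)
  have e : trace (hd ι₀ * A * hd ι₁ * B * hd ι₂ * H) =
      ∑ i, ∑ j, ∑ l, (VHᴴ * hd ι₀ * UA) l i * s i * (VAᴴ * hd ι₁ * UB) i j * t j *
        (VBᴴ * hd ι₂ * UH) j l * r l := by
    have e1 : trace (hd ι₀ * A * hd ι₁ * B * hd ι₂ * H) =
        trace ((VHᴴ * hd ι₀ * UA) * dg s * (VAᴴ * hd ι₁ * UB) * dg t *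
          (VBᴴ * hd ι₂ * UH) * dg r) := by
      nth_rewrite 1 [hA.eq]
      nth_rewrite 1 [hB.eq]
      nth_rewrite 1 [hH.eq]
      have : hd ι₀ * (UA * dg s * VAᴴ) * hd ι₁ * (UB * dg t * VBᴴ) * hd ι₂ * (UH * dg r * VHᴴ) =
          (hd ι₀ * UA * dg s * VAᴴ * hd ι₁ * UB * dg t * VBᴴ * hd ι₂ * UH * dg r) * VHᴴ := by
        simp only [Matrix.mul_assoc]
      rw [this, trace_mul_comm]
      congr 1
      simp only [Matrix.mul_assoc]
    rw [e1, cyc3]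
    simp only [trace, diag_apply]
    refine Finset.sum_congr rfl fun l _ => ?_
    generalize VHᴴ * hd ι₀ * UA = k₀
    generalize VAᴴ * hd ι₁ * UB = k₁
    generalize VBᴴ * hd ι₂ * UH = k₂
    rw [dg, dg, dg, mul_diagonal, mul_apply (M := k₀ * diagonal _ * k₁ * diagonal _)]
    simp only [mul_diagonal]
    rw [Finset.sum_mul, Finset.sum_comm]
    refine Finset.sum_congr rfl fun j _ => ?_
    rw [mul_apply (M := k₀ * diagonal _)]
    simp only [mul_diagonal]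
    rw [Finset.sum_mul, Finset.sum_mul, Finset.sum_mul]
  rw [e]
  linarith

end box

end Crest.Agent.R72
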