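import Crest.Prelude.Def_TriangularHilbert
import Mathlib

/-!
# Row 72, R1B: measurability of the disjoint-annulus count
-/

set_option autoImplicit false

open MeasureTheory Crest.AnalysisR
open scoped ENNReal

namespace Crest.Agent.R72.R1

theorem ht_stronglyMeasurable {F G : ℝ × ℝ → ℂ} (hF : StronglyMeasurable F) (hG : StronglyMeasurable G)
    (ε R : ℝ) : StronglyMeasurable (fun z => annularTriangularHT F G ε R z) := by
  unfold annularTriangularHT
  refine StronglyMeasurable.integral_prod_right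
    (f := fun (z : ℝ × ℝ) (t : ℝ) => F (z.1 + t, z.2) * G (z.1, z.2 + t) / (t : ℂ)) ?_
  have h1 : StronglyMeasurable (fun p : (ℝ × ℝ) × ℝ => F (p.1.1 + p.2, p.1.2)) :=
    hF.comp_measurable (by fun_prop)
  have h2 : StronglyMeasurable (fun p : (ℝ × ℝ) × ℝ => G (p.1.1, p.1.2 + p.2)) :=
    hG.comp_measurable (by fun_prop)
  have h3 : Measurable (fun p : (ℝ × ℝ) × ℝ => ((p.2 : ℝ) : ℂ)) := by fun_prop
  exact (h1.mul h2).div h3.stronglyMeasurable

theorem count_measurable {F G : ℝ × ℝ → ℂ} (hF : StronglyMeasurable F) (hG : StronglyMeasurable G)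
    (n : ℕ) : Measurable (annulusCount n F G) := by
  unfold annulusCount
  refine Measurable.iSup fun m => Measurable.iSup fun _ => Measurable.iSup fun ε =>
    Measurable.iSup fun R => Measurable.iSup fun _ => Measurable.iSup fun _ => ?_
  refine Finset.measurable_sum _ fun j _ => ?_
  exact (ht_stronglyMeasurable hF hG _ _).measurable.enorm

theorem ht_ae_eq {F G F' G' : ℝ × ℝ → ℂ} (hF : F =ᵐ[volume] F') (hG : G =ᵐ[volume] G') :
    ∀ᵐ z : ℝ × ℝ, ∀ ε R : ℝ, annularTriangularHT F G ε R z = annularTriangularHT F' G' ε R z := by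
  have h1 : ∀ᵐ y : ℝ, ∀ᵐ x : ℝ, F (x, y) = F' (x, y) := by
    have : ∀ᵐ p : ℝ × ℝ, F p.swap = F' p.swap := by
      have hq : Measure.QuasiMeasurePreserving (Prod.swap : ℝ × ℝ → ℝ × ℝ) volume volume :=
        (Measure.measurePreserving_swap (μ := (volume : Measure ℝ)) (ν := (volume : Measure ℝ))).quasiMeasurePreserving
      exact hq.ae hF
    exact Measure.ae_ae_of_ae_prod this
  have h2 : ∀ᵐ x : ℝ, ∀ᵐ y : ℝ, G (x, y) = G' (x, y) := Measure.ae_ae_of_ae_prod hG
  have h1' : ∀ᵐ z : ℝ × ℝ, ∀ᵐ x : ℝ, F (x, z.2) = F' (x, z.2) :=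
    (Measure.quasiMeasurePreserving_snd (μ := (volume : Measure ℝ)) (ν := (volume : Measure ℝ))).ae h1
  have h2' : ∀ᵐ z : ℝ × ℝ, ∀ᵐ y : ℝ, G (z.1, y) = G' (z.1, y) :=
    (Measure.quasiMeasurePreserving_fst (μ := (volume : Measure ℝ)) (ν := (volume : Measure ℝ))).ae h2
  filter_upwards [h1', h2'] with z hz1 hz2
  intro ε R
  unfold annularTriangularHT
  refine integral_congr_ae (ae_restrict_of_ae ?_)
  have e1 : ∀ᵐ t : ℝ, F (z.1 + t, z.2) = F' (z.1 + t, z.2) :=
    (measurePreserving_add_left volume z.1).quasiMeasurePreserving.ae hz1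
  have e2 : ∀ᵐ t : ℝ, G (z.1, z.2 + t) = G' (z.1, z.2 + t) :=
    (measurePreserving_add_left volume z.2).quasiMeasurePreserving.ae hz2
  filter_upwards [e1, e2] with t ht1 ht2
  rw [ht1, ht2]

theorem count_ae_eq {F G F' G' : ℝ × ℝ → ℂ} (hF : F =ᵐ[volume] F') (hG : G =ᵐ[volume] G') (n : ℕ) :
    annulusCount n F G =ᵐ[volume] annulusCount n F' G' := by
  filter_upwards [ht_ae_eq hF hG] with z hz
  unfold annulusCount
  simp only [hz]

theorem count_aemeasurable {F G : ℝ × ℝ → ℂ} (hF : AEStronglyMeasurable F volume)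
    (hG : AEStronglyMeasurable G volume) (n : ℕ) : AEMeasurable (annulusCount n F G) volume :=
  ⟨annulusCount n (hF.mk F) (hG.mk G),
    count_measurable hF.stronglyMeasurable_mk hG.stronglyMeasurable_mk n,
    count_ae_eq hF.ae_eq_mk hG.ae_eq_mk n⟩

end Crest.Agent.R72.R1
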