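import Crest.Agent.R72.R1A
import Crest.Agent.R72.R1B

/-!
# Row 72, R1: S0096 implies S0095
-/

set_option autoImplicit false

open MeasureTheory Crest.AnalysisR
open scoped ENNReal

namespace Crest.Agent.R72.R1

/-- bound of the weighted counts -/
theorem int_xj_le {C : ℝ} (hC : 0 ≤ C) {F G : ℝ × ℝ → ℂ} {K : ℝ≥0∞} (j : ℕ)
    (h : (∫⁻ z, annulusCount (2 ^ j) F G z ^ (3 / 2 : ℝ)) ^ (2 / 3 : ℝ) ≤
      ENNReal.ofReal (C * Real.sqrt ((2 ^ j : ℕ) : ℝ) * Real.log (2 + ((2 ^ j : ℕ) : ℝ))) * K) :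
    ∫⁻ z, xj F G j z ^ (3 / 2 : ℝ) ≤ (ENNReal.ofReal (C * (j + 2)) * K) ^ (3 / 2 : ℝ) := by
  have h1 : ∫⁻ z, xj F G j z ^ (3 / 2 : ℝ) =
      ((2 : ℝ≥0∞) ^ (-((j : ℝ) / 2))) ^ (3 / 2 : ℝ) * ∫⁻ z, annulusCount (2 ^ j) F G z ^ (3 / 2 : ℝ) := by
    rw [← lintegral_const_mul']
    · refine lintegral_congr fun z => ?_
      rw [xj, ENNReal.mul_rpow_of_nonneg _ _ (by norm_num)]
    · refine ENNReal.rpow_ne_top_of_nonneg (by norm_num) ?_
      exact ENNReal.rpow_ne_top_of_ne_zero (by norm_num) (by norm_num)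
  have h2 : ∫⁻ z, annulusCount (2 ^ j) F G z ^ (3 / 2 : ℝ) ≤
      (ENNReal.ofReal (C * Real.sqrt ((2 ^ j : ℕ) : ℝ) * Real.log (2 + ((2 ^ j : ℕ) : ℝ))) * K) ^ (3 / 2 : ℝ) := by
    have := ENNReal.rpow_le_rpow h (show (0 : ℝ) ≤ 3 / 2 by norm_num)
    rwa [← ENNReal.rpow_mul, show (2 / 3 * (3 / 2) : ℝ) = 1 by norm_num, ENNReal.rpow_one] at this
  rw [h1]
  refine (mul_le_mul_right h2 _).trans ?_
  rw [← ENNReal.mul_rpow_of_nonneg _ _ (by norm_num), ← mul_assoc]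
  refine ENNReal.rpow_le_rpow (mul_le_mul_left ?_ _) (by norm_num)
  have e1 : (2 : ℝ≥0∞) ^ (-((j : ℝ) / 2)) = ENNReal.ofReal ((2 : ℝ) ^ (-((j : ℝ) / 2))) := by
    rw [← ENNReal.ofReal_rpow_of_pos (by norm_num)]
    norm_num
  rw [e1, ← ENNReal.ofReal_mul (by positivity)]
  refine ENNReal.ofReal_le_ofReal ?_
  have hs : Real.sqrt ((2 ^ j : ℕ) : ℝ) = (2 : ℝ) ^ ((j : ℝ) / 2) := by
    rw [Real.sqrt_eq_rpow]
    push_cast
    rw [← Real.rpow_natCast, ← Real.rpow_mul (by norm_num)]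
    congr 1
    ring
  have hl : Real.log (2 + ((2 ^ j : ℕ) : ℝ)) ≤ (j : ℝ) + 2 := by
    have h3 : (2 : ℝ) + ((2 ^ j : ℕ) : ℝ) ≤ 2 ^ (j + 2) := by
      push_cast
      have : (1 : ℝ) ≤ 2 ^ j := one_le_pow₀ (by norm_num)
      rw [pow_add]
      linarith
    calc Real.log (2 + ((2 ^ j : ℕ) : ℝ)) ≤ Real.log (2 ^ (j + 2)) :=
          Real.log_le_log (by positivity) h3
      _ = ((j : ℝ) + 2) * Real.log 2 := by
          rw [Real.log_pow]; push_cast; ring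
      _ ≤ ((j : ℝ) + 2) * 1 := by
          refine mul_le_mul_of_nonneg_left ?_ (by positivity)
          have := Real.log_two_lt_d9
          linarith
      _ = (j : ℝ) + 2 := mul_one _
  rw [hs]
  calc (2 : ℝ) ^ (-((j : ℝ) / 2)) * (C * (2 : ℝ) ^ ((j : ℝ) / 2) * Real.log (2 + ((2 ^ j : ℕ) : ℝ))) =
        ((2 : ℝ) ^ (-((j : ℝ) / 2)) * (2 : ℝ) ^ ((j : ℝ) / 2)) * (C * Real.log (2 + ((2 ^ j : ℕ) : ℝ))) := by ring
    _ = C * Real.log (2 + ((2 ^ j : ℕ) : ℝ)) := by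
        rw [← Real.rpow_add (by norm_num), neg_add_cancel, Real.rpow_zero, one_mul]
    _ ≤ C * ((j : ℝ) + 2) := mul_le_mul_of_nonneg_left hl hC

theorem tsum_wt_ne_top (r : ℝ) (hr : 2 < r) (C : ℝ) (hC : 0 ≤ C) :
    ∑' j : ℕ, wt r j * ENNReal.ofReal (C * (j + 2)) ^ (3 / 2 : ℝ) ≠ ∞ := by
  have hδ : 0 < 1 / 2 - 1 / r := by
    have : 1 / r < 1 / 2 := one_div_lt_one_div_of_lt (by norm_num) hr
    linarith
  set δ : ℝ := 1 / 2 - 1 / r with hδd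
  set ρ : ℝ := (2 : ℝ) ^ (-δ) with hρ
  have hρ0 : 0 < ρ := by positivity
  have hρ1 : ρ < 1 := Real.rpow_lt_one_of_one_lt_of_neg (by norm_num) (by linarith)
  have h1 : ∀ j : ℕ, wt r j * ENNReal.ofReal (C * (j + 2)) ^ (3 / 2 : ℝ) ≤
      ENNReal.ofReal ((C + 1) ^ 2 * (((j : ℝ) + 2) ^ 2 * ρ ^ j)) := by
    intro j
    have e1 : wt r j = ENNReal.ofReal (ρ ^ j) := by
      rw [wt, ← hδd, hρ, ← Real.rpow_natCast, ← Real.rpow_mul (by norm_num),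
        ← ENNReal.ofReal_rpow_of_pos (by norm_num), ← neg_mul]
      norm_num
    rw [e1, ENNReal.ofReal_rpow_of_nonneg (by positivity) (by norm_num),
      ← ENNReal.ofReal_mul (by positivity)]
    refine ENNReal.ofReal_le_ofReal ?_
    have h2 : (C * ((j : ℝ) + 2)) ^ (3 / 2 : ℝ) ≤ ((C + 1) * ((j : ℝ) + 2)) ^ 2 := by
      calc (C * ((j : ℝ) + 2)) ^ (3 / 2 : ℝ) ≤ ((C + 1) * ((j : ℝ) + 2)) ^ (3 / 2 : ℝ) := by
            refine Real.rpow_le_rpow (by positivity) ?_ (by norm_num)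
            refine mul_le_mul_of_nonneg_right (by linarith) (by positivity)
        _ ≤ ((C + 1) * ((j : ℝ) + 2)) ^ (2 : ℝ) := by
            refine Real.rpow_le_rpow_of_exponent_le ?_ (by norm_num)
            have : (0 : ℝ) ≤ j := by positivity
            nlinarith
        _ = ((C + 1) * ((j : ℝ) + 2)) ^ 2 := by
            rw [← Real.rpow_natCast]; norm_num
    calc ρ ^ j * (C * ((j : ℝ) + 2)) ^ (3 / 2 : ℝ) ≤ ρ ^ j * ((C + 1) * ((j : ℝ) + 2)) ^ 2 :=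
          mul_le_mul_of_nonneg_left h2 (by positivity)
      _ = (C + 1) ^ 2 * (((j : ℝ) + 2) ^ 2 * ρ ^ j) := by ring
  have hsum : Summable (fun j : ℕ => (C + 1) ^ 2 * (((j : ℝ) + 2) ^ 2 * ρ ^ j)) := by
    refine Summable.mul_left _ ?_
    have hρn : ‖ρ‖ < 1 := by rw [Real.norm_of_nonneg hρ0.le]; exact hρ1
    have s2 := summable_pow_mul_geometric_of_norm_lt_one 2 hρn
    have s1 := summable_pow_mul_geometric_of_norm_lt_one 1 hρn
    have s0 := summable_pow_mul_geometric_of_norm_lt_one 0 hρn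
    have := (s2.add (s1.mul_left 4)).add (s0.mul_left 4)
    refine this.congr fun j => ?_
    ring
  refine ne_top_of_le_ne_top ?_ (ENNReal.tsum_le_tsum h1)
  rw [← ENNReal.ofReal_tsum_of_nonneg (fun j => by positivity) hsum]
  exact ENNReal.ofReal_ne_top

theorem tsum_wt_ne_top' (r : ℝ) (hr : 2 < r) : ∑' j : ℕ, wt r j ≠ ∞ := by
  refine ne_top_of_le_ne_top (tsum_wt_ne_top r hr 1 zero_le_one) (ENNReal.tsum_le_tsum fun j => ?_)
  have h1 : (1 : ℝ≥0∞) ≤ ENNReal.ofReal (1 * ((j : ℝ) + 2)) ^ (3 / 2 : ℝ) := by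
    have h2 : (1 : ℝ≥0∞) ≤ ENNReal.ofReal (1 * ((j : ℝ) + 2)) := by
      rw [← ENNReal.ofReal_one]
      refine ENNReal.ofReal_le_ofReal ?_
      have : (0 : ℝ) ≤ j := by positivity
      linarith
    calc (1 : ℝ≥0∞) = 1 ^ (3 / 2 : ℝ) := by simp
      _ ≤ _ := ENNReal.rpow_le_rpow h2 (by norm_num)
  calc wt r j = wt r j * 1 := (mul_one _).symm
    _ ≤ _ := mul_le_mul_right h1 _

/-- S0096 implies S0095. -/
theorem s0095_of_s0096
    (h96 : ∃ C : ℝ, ∀ n : ℕ, 1 ≤ n → ∀ F G : ℝ × ℝ → ℂ,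
      MeasureTheory.MemLp F 3 MeasureTheory.volume → MeasureTheory.MemLp G 3 MeasureTheory.volume →
        (∫⁻ z, Crest.AnalysisR.annulusCount n F G z ^ (3 / 2 : ℝ)) ^ (2 / 3 : ℝ) ≤
          ENNReal.ofReal (C * Real.sqrt n * Real.log (2 + n)) * MeasureTheory.eLpNorm F 3 MeasureTheory.volume *
            MeasureTheory.eLpNorm G 3 MeasureTheory.volume)
    (r : ℝ) (hr : 2 < r) :
    ∃ C : ℝ, ∀ F G : ℝ × ℝ → ℂ,
      MeasureTheory.MemLp F 3 MeasureTheory.volume → MeasureTheory.MemLp G 3 MeasureTheory.volume →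
        (∫⁻ z, Crest.AnalysisR.annularVariation r F G z ^ (3 / 2 : ℝ)) ^ (2 / 3 : ℝ) ≤
          ENNReal.ofReal C * MeasureTheory.eLpNorm F 3 MeasureTheory.volume *
            MeasureTheory.eLpNorm G 3 MeasureTheory.volume := by
  obtain ⟨C0, hC0⟩ := h96
  set C : ℝ := |C0| with hCd
  have hC : 0 ≤ C := abs_nonneg _
  set Q : ℝ≥0∞ := (∑' j, wt r j) ^ (1 / 2 : ℝ) *
    ∑' j : ℕ, wt r j * ENNReal.ofReal (C * (j + 2)) ^ (3 / 2 : ℝ) with hQ
  have hQt : Q ≠ ∞ := by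
    rw [hQ]
    exact ENNReal.mul_ne_top (ENNReal.rpow_ne_top_of_nonneg (by norm_num) (tsum_wt_ne_top' r hr))
      (tsum_wt_ne_top r hr C hC)
  have hQt2 : Q ^ (2 / 3 : ℝ) ≠ ∞ := ENNReal.rpow_ne_top_of_nonneg (by norm_num) hQt
  refine ⟨(Q ^ (2 / 3 : ℝ)).toReal, fun F G hF hG => ?_⟩
  rw [ENNReal.ofReal_toReal hQt2, mul_assoc]
  set K : ℝ≥0∞ := eLpNorm F 3 volume * eLpNorm G 3 volume with hK
  have hint : ∀ j : ℕ, ∫⁻ z, xj F G j z ^ (3 / 2 : ℝ) ≤ (ENNReal.ofReal (C * (j + 2)) * K) ^ (3 / 2 : ℝ) := by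
    intro j
    refine int_xj_le hC j ?_
    have h1 := hC0 (2 ^ j) Nat.one_le_two_pow F G hF hG
    rw [mul_assoc] at h1
    refine h1.trans (mul_le_mul_left (ENNReal.ofReal_le_ofReal ?_) _)
    have hlog : 0 ≤ Real.log (2 + ((2 ^ j : ℕ) : ℝ)) := by
      refine Real.log_nonneg ?_
      have : (0 : ℝ) ≤ ((2 ^ j : ℕ) : ℝ) := by positivity
      linarith
    refine mul_le_mul_of_nonneg_right ?_ hlog
    refine mul_le_mul_of_nonneg_right (le_abs_self _) (Real.sqrt_nonneg _)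
  have hmeas : ∀ j : ℕ, AEMeasurable (fun z => wt r j * xj F G j z ^ (3 / 2 : ℝ)) volume := by
    intro j
    have h1 := count_aemeasurable hF.1 hG.1 (2 ^ j)
    unfold xj
    exact ((h1.const_mul _).pow_const _).const_mul _
  have hV : ∫⁻ z, annularVariation r F G z ^ (3 / 2 : ℝ) ≤ Q * K ^ (3 / 2 : ℝ) := by
    calc ∫⁻ z, annularVariation r F G z ^ (3 / 2 : ℝ) ≤
          ∫⁻ z, (∑' j, wt r j) ^ (1 / 2 : ℝ) * ∑' j, wt r j * xj F G j z ^ (3 / 2 : ℝ) :=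
          lintegral_mono fun z => variation_le r hr F G z
      _ = (∑' j, wt r j) ^ (1 / 2 : ℝ) * ∑' j, wt r j * ∫⁻ z, xj F G j z ^ (3 / 2 : ℝ) := by
          rw [lintegral_const_mul' _ _ (ENNReal.rpow_ne_top_of_nonneg (by norm_num) (tsum_wt_ne_top' r hr)),
            lintegral_tsum hmeas]
          congr 1
          refine tsum_congr fun j => ?_
          rw [lintegral_const_mul']
          rw [wt]
          exact ENNReal.rpow_ne_top_of_ne_zero (by norm_num) (by norm_num)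
      _ ≤ (∑' j, wt r j) ^ (1 / 2 : ℝ) *
          ∑' j : ℕ, wt r j * (ENNReal.ofReal (C * (j + 2)) * K) ^ (3 / 2 : ℝ) :=
          mul_le_mul_right (ENNReal.tsum_le_tsum fun j => mul_le_mul_right (hint j) _) _
      _ = Q * K ^ (3 / 2 : ℝ) := by
          rw [hQ, mul_assoc, ← ENNReal.tsum_mul_right]
          congr 1
          refine tsum_congr fun j => ?_
          rw [ENNReal.mul_rpow_of_nonneg _ _ (by norm_num), mul_assoc]
  calc (∫⁻ z, annularVariation r F G z ^ (3 / 2 : ℝ)) ^ (2 / 3 : ℝ) ≤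
        (Q * K ^ (3 / 2 : ℝ)) ^ (2 / 3 : ℝ) := ENNReal.rpow_le_rpow hV (by norm_num)
    _ = Q ^ (2 / 3 : ℝ) * K := by
        rw [ENNReal.mul_rpow_of_nonneg _ _ (by norm_num), ← ENNReal.rpow_mul]
        norm_num

end Crest.Agent.R72.R1
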