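import Crest.Prelude.Def_TriangularHilbert
import Mathlib

/-!
# Row 72, R1A: pointwise bound of the annular variation by the disjoint-annulus counts

`annularVariation r F G z ^ (3/2) ≤ W^(1/2) ∑' j, w_j (2^(-j/2) A_{2^j}(z))^(3/2)`, `w_j = 2^(-(1/2-1/r) j)`.
-/

set_option autoImplicit false

open MeasureTheory Crest.AnalysisR
open scoped ENNReal

namespace Crest.Agent.R72.R1

/-- decreasing rearrangement: if every `m` terms sum to at most `S m` then `a*_m ≤ S m / m`. -/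
theorem sum_rpow_le {N : ℕ} (a : Fin N → ℝ≥0∞) (S : ℕ → ℝ≥0∞) (r : ℝ) (hr : 0 < r)
    (h : ∀ s : Finset (Fin N), ∑ i ∈ s, a i ≤ S s.card) :
    ∑ i, a i ^ r ≤ ∑ j ∈ Finset.range (N + 1), (2 : ℝ≥0∞) ^ j * (S (2 ^ j) / 2 ^ j) ^ r := by
  classical
  let σ : Equiv.Perm (Fin N) := Tuple.sort (fun i => OrderDual.toDual (a i))
  have hmono : ∀ i j : Fin N, i ≤ j → a (σ j) ≤ a (σ i) := by
    intro i j hij
    exact Tuple.monotone_sort (fun i => OrderDual.toDual (a i)) hij
  have key : ∀ i : Fin N, a (σ i) ≤ S (2 ^ Nat.log 2 ((i : ℕ) + 1)) / 2 ^ Nat.log 2 ((i : ℕ) + 1) := by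
    intro i
    set j := Nat.log 2 ((i : ℕ) + 1) with hj
    have hjle : 2 ^ j ≤ (i : ℕ) + 1 := Nat.pow_log_le_self 2 (Nat.succ_ne_zero _)
    let s0 : Finset (Fin N) := Finset.univ.filter fun i' : Fin N => (i' : ℕ) < 2 ^ j
    have hs0 : s0.card = 2 ^ j := by
      have h1 : s0.card = (Finset.range (2 ^ j)).card := by
        refine Finset.card_bij (fun x _ => (x : ℕ)) ?_ ?_ ?_
        · intro x hx
          exact Finset.mem_range.2 (Finset.mem_filter.1 hx).2
        · intro x _ y _ hxy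
          exact Fin.ext hxy
        · intro x hx
          have hx' := Finset.mem_range.1 hx
          exact ⟨⟨x, by have := i.2; omega⟩, Finset.mem_filter.2 ⟨Finset.mem_univ _, hx'⟩, rfl⟩
      rw [h1, Finset.card_range]
    have h2 := h (s0.map σ.toEmbedding)
    rw [Finset.card_map, hs0, Finset.sum_map] at h2
    have h3 : (2 : ℝ≥0∞) ^ j * a (σ i) ≤ ∑ x ∈ s0, a (σ.toEmbedding x) := by
      have h4 : ∑ _x ∈ s0, a (σ i) ≤ ∑ x ∈ s0, a (σ.toEmbedding x) := by
        refine Finset.sum_le_sum fun x hx => ?_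
        have hx' := (Finset.mem_filter.1 hx).2
        exact hmono x i (Fin.le_def.2 (by omega))
      rw [Finset.sum_const, hs0, nsmul_eq_mul] at h4
      refine le_trans (le_of_eq ?_) h4
      push_cast
      rfl
    rw [ENNReal.le_div_iff_mul_le (Or.inl (by positivity)) (Or.inl (by finiteness)), mul_comm]
    exact h3.trans h2
  calc ∑ i, a i ^ r = ∑ i, a (σ i) ^ r := (Equiv.sum_comp σ (fun i => a i ^ r)).symm
    _ ≤ ∑ i : Fin N, (S (2 ^ Nat.log 2 ((i : ℕ) + 1)) / 2 ^ Nat.log 2 ((i : ℕ) + 1)) ^ r :=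
        Finset.sum_le_sum fun i _ => ENNReal.rpow_le_rpow (key i) hr.le
    _ = ∑ i ∈ Finset.range N, (S (2 ^ Nat.log 2 (i + 1)) / 2 ^ Nat.log 2 (i + 1)) ^ r :=
        Fin.sum_univ_eq_sum_range (fun i => (S (2 ^ Nat.log 2 (i + 1)) / 2 ^ Nat.log 2 (i + 1)) ^ r) N
    _ = ∑ j ∈ Finset.range (N + 1), ∑ i ∈ (Finset.range N).filter (fun i => Nat.log 2 (i + 1) = j),
          (S (2 ^ Nat.log 2 (i + 1)) / 2 ^ Nat.log 2 (i + 1)) ^ r := by
        refine (Finset.sum_fiberwise_of_maps_to ?_ _).symm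
        intro i hi
        have hi' := Finset.mem_range.1 hi
        refine Finset.mem_range.2 ?_
        have : Nat.log 2 (i + 1) ≤ i + 1 := Nat.log_le_self 2 (i + 1)
        omega
    _ ≤ ∑ j ∈ Finset.range (N + 1), (2 : ℝ≥0∞) ^ j * (S (2 ^ j) / 2 ^ j) ^ r := by
        refine Finset.sum_le_sum fun j _ => ?_
        have h5 : ∑ i ∈ (Finset.range N).filter (fun i => Nat.log 2 (i + 1) = j),
            (S (2 ^ Nat.log 2 (i + 1)) / 2 ^ Nat.log 2 (i + 1)) ^ r =
            ∑ _i ∈ (Finset.range N).filter (fun i => Nat.log 2 (i + 1) = j), (S (2 ^ j) / 2 ^ j) ^ r := by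
          refine Finset.sum_congr rfl fun i hi => ?_
          rw [(Finset.mem_filter.1 hi).2]
        rw [h5, Finset.sum_const, nsmul_eq_mul]
        refine mul_le_mul_left ?_ _
        have h6 : ((Finset.range N).filter (fun i => Nat.log 2 (i + 1) = j)).card ≤ 2 ^ j := by
          have h7 : (Finset.range N).filter (fun i => Nat.log 2 (i + 1) = j) ⊆
              Finset.Ico (2 ^ j - 1) (2 ^ (j + 1) - 1) := by
            intro i hi
            have hi' := (Finset.mem_filter.1 hi).2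
            have h8 : 2 ^ j ≤ i + 1 := by rw [← hi']; exact Nat.pow_log_le_self 2 (Nat.succ_ne_zero _)
            have h9 : i + 1 < 2 ^ (j + 1) := by
              rw [← hi']; exact Nat.lt_pow_succ_log_self (by norm_num) _
            rw [Finset.mem_Ico]
            omega
          refine (Finset.card_le_card h7).trans ?_
          rw [Nat.card_Ico, pow_succ]
          omega
        exact_mod_cast h6

/-- subadditivity of `x ↦ x^p`, `0 ≤ p ≤ 1`, for finite sums. -/
theorem rpow_sum_le_sum {ι : Type} (s : Finset ι) (f : ι → ℝ≥0∞) {p : ℝ} (hp : 0 < p) (hp1 : p ≤ 1) :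
    (∑ i ∈ s, f i) ^ p ≤ ∑ i ∈ s, f i ^ p := by
  classical
  induction s using Finset.induction_on with
  | empty => simp [hp]
  | insert a s ha ih =>
    rw [Finset.sum_insert ha, Finset.sum_insert ha]
    exact (ENNReal.rpow_add_le_add_rpow _ _ hp.le hp1).trans (add_le_add le_rfl ih)

/-- the sum over a set of annuli of a chain is at most the count function. -/
theorem chain_le (F G : ℝ × ℝ → ℂ) (z : ℝ × ℝ) (J : ℕ) (t : Fin (J + 2) → ℚ) (ht : StrictMono t)
    (h0 : 0 < t 0) (s : Finset (Fin (J + 1))) :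
    ∑ i ∈ s, ‖annularTriangularHT F G (t (Fin.castSucc i) : ℝ) (t (Fin.succ i) : ℝ) z‖ₑ ≤
      annulusCount s.card F G z := by
  classical
  let e := s.equivFin
  have hpos : ∀ i, 0 < t i := fun i => h0.trans_le (ht.monotone (Fin.zero_le i))
  have h1 : ∑ i ∈ s, ‖annularTriangularHT F G (t (Fin.castSucc i) : ℝ) (t (Fin.succ i) : ℝ) z‖ₑ =
      ∑ j : Fin s.card, ‖annularTriangularHT F G (t (Fin.castSucc (e.symm j : Fin (J + 1))) : ℝ)
        (t (Fin.succ (e.symm j : Fin (J + 1))) : ℝ) z‖ₑ := by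
    rw [← Finset.sum_coe_sort s]
    exact (Equiv.sum_comp e.symm (fun i : s =>
      ‖annularTriangularHT F G (t (Fin.castSucc (i : Fin (J + 1))) : ℝ)
        (t (Fin.succ (i : Fin (J + 1))) : ℝ) z‖ₑ)).symm
  rw [h1]
  unfold annulusCount
  refine le_iSup_of_le s.card (le_iSup_of_le le_rfl
    (le_iSup_of_le (fun j => t (Fin.castSucc (e.symm j : Fin (J + 1))))
    (le_iSup_of_le (fun j => t (Fin.succ (e.symm j : Fin (J + 1)))) ?_)))
  refine le_iSup_of_le (fun j => ⟨hpos _, ht Fin.castSucc_lt_succ⟩) (le_iSup_of_le ?_ le_rfl)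
  intro i j hij
  have hne : (e.symm i : Fin (J + 1)) ≠ (e.symm j : Fin (J + 1)) := by
    intro h
    exact hij (e.symm.injective (Subtype.ext h))
  rcases lt_or_gt_of_ne hne with h | h
  · left
    refine ht.monotone ?_
    rw [Fin.le_def, Fin.val_succ, Fin.val_castSucc]
    exact h
  · right
    refine ht.monotone ?_
    rw [Fin.le_def, Fin.val_succ, Fin.val_castSucc]
    exact h

/-- the majorant -/
noncomputable def wt (r : ℝ) (j : ℕ) : ℝ≥0∞ := (2 : ℝ≥0∞) ^ (-((1 / 2 - 1 / r) * (j : ℝ)))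

noncomputable def xj (F G : ℝ × ℝ → ℂ) (j : ℕ) (z : ℝ × ℝ) : ℝ≥0∞ :=
  (2 : ℝ≥0∞) ^ (-((j : ℝ) / 2)) * annulusCount (2 ^ j) F G z

theorem variation_le (r : ℝ) (hr : 2 < r) (F G : ℝ × ℝ → ℂ) (z : ℝ × ℝ) :
    annularVariation r F G z ^ (3 / 2 : ℝ) ≤
      (∑' j, wt r j) ^ (1 / 2 : ℝ) * ∑' j, wt r j * xj F G j z ^ (3 / 2 : ℝ) := by
  have hr0 : 0 < r := by linarith
  have hrne : r ≠ 0 := hr0.ne'
  set U : ℝ≥0∞ := (∑' j, wt r j) ^ (1 / 2 : ℝ) * ∑' j, wt r j * xj F G j z ^ (3 / 2 : ℝ) with hU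
  -- enough: the chain sums are at most `U ^ (2/3)`
  have hmain : annularVariation r F G z ≤ U ^ (2 / 3 : ℝ) := by
    unfold annularVariation
    refine iSup_le fun J => iSup_le fun t => iSup_le fun ht => iSup_le fun h0 => ?_
    have h1 := sum_rpow_le (fun j : Fin (J + 1) =>
      ‖annularTriangularHT F G (t (Fin.castSucc j) : ℝ) (t (Fin.succ j) : ℝ) z‖ₑ)
      (fun m => annulusCount m F G z) r hr0 (fun s => chain_le F G z J t ht h0 s)
    have h2 : (∑ j : Fin (J + 1),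
        ‖annularTriangularHT F G (t (Fin.castSucc j) : ℝ) (t (Fin.succ j) : ℝ) z‖ₑ ^ r) ^ (1 / r) ≤
        ∑ j ∈ Finset.range (J + 1 + 1), wt r j * xj F G j z := by
      refine (ENNReal.rpow_le_rpow h1 (by positivity)).trans ?_
      refine (rpow_sum_le_sum _ _ (by positivity) (by
        rw [div_le_one hr0]; linarith)).trans (le_of_eq ?_)
      refine Finset.sum_congr rfl fun j _ => ?_
      have e1 : ((2 : ℝ≥0∞) ^ j) = (2 : ℝ≥0∞) ^ (j : ℝ) := (ENNReal.rpow_natCast 2 j).symm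
      rw [ENNReal.mul_rpow_of_nonneg _ _ (by positivity), ← ENNReal.rpow_mul, mul_one_div_cancel hrne,
        ENNReal.rpow_one, e1, ← ENNReal.rpow_mul, wt, xj, ENNReal.div_eq_inv_mul, ← ENNReal.rpow_neg,
        ← mul_assoc, ← mul_assoc, ← ENNReal.rpow_add _ _ (by norm_num) (by norm_num),
        ← ENNReal.rpow_add _ _ (by norm_num) (by norm_num)]
      congr 2
      field_simp
      ring
    refine h2.trans ?_
    have h3 := ENNReal.inner_le_weight_mul_Lp_of_nonneg (Finset.range (J + 1 + 1))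
      (p := 3 / 2) (by norm_num) (wt r) (fun j => xj F G j z)
    refine h3.trans ?_
    rw [hU, ENNReal.mul_rpow_of_nonneg _ _ (by norm_num), ← ENNReal.rpow_mul]
    refine mul_le_mul' ?_ ?_
    · have e2 : (1 - (3 / 2 : ℝ)⁻¹) = 1 / 2 * (2 / 3) := by norm_num
      rw [e2]
      exact ENNReal.rpow_le_rpow (ENNReal.sum_le_tsum _) (by norm_num)
    · have e3 : ((3 / 2 : ℝ)⁻¹) = 2 / 3 := by norm_num
      rw [e3]
      exact ENNReal.rpow_le_rpow (ENNReal.sum_le_tsum _) (by norm_num)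
  calc annularVariation r F G z ^ (3 / 2 : ℝ) ≤ (U ^ (2 / 3 : ℝ)) ^ (3 / 2 : ℝ) :=
        ENNReal.rpow_le_rpow hmain (by norm_num)
    _ = U := by rw [← ENNReal.rpow_mul]; norm_num

end Crest.Agent.R72.R1
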