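import Crest.Agent.R72.RDefs

/-!
# Row 72, R3A: basic facts on `annularTriangularHT`
-/

set_option autoImplicit false

open MeasureTheory Crest.AnalysisR Filter Topology
open scoped ENNReal

namespace Crest.Agent.R72

lemma measSet_ann (a b : ℝ) : MeasurableSet {t : ℝ | a < abs t ∧ abs t < b} := by
  have h1 : MeasurableSet {t : ℝ | a < |t|} :=
    measurableSet_lt measurable_const continuous_abs.measurable
  have h2 : MeasurableSet {t : ℝ | |t| < b} :=
    measurableSet_lt continuous_abs.measurable measurable_const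
  exact h1.inter h2

lemma meas_B {F G : ℝ × ℝ → ℂ} (hF : Measurable F) (hG : Measurable G) (a b : ℝ) :
    Measurable fun z => annularTriangularHT F G a b z := by
  have h1 : StronglyMeasurable
      (fun p : (ℝ × ℝ) × ℝ => F (p.1.1 + p.2, p.1.2) * G (p.1.1, p.1.2 + p.2) / (p.2 : ℂ)) := by
    apply Measurable.stronglyMeasurable
    fun_prop
  exact (h1.integral_prod_right' (ν := volume.restrict {t : ℝ | a < abs t ∧ abs t < b})).measurable

/-- joint measurability with varying radii -/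
lemma meas_B_sel {F G : ℝ × ℝ → ℂ} (hF : Measurable F) (hG : Measurable G) {α : Type*}
    [Countable α] [MeasurableSpace α] [MeasurableSingletonClass α] (a b : α → ℝ)
    {σ : ℝ × ℝ → α} (hσ : Measurable σ) :
    Measurable fun z => annularTriangularHT F G (a (σ z)) (b (σ z)) z := by
  have h : Measurable fun p : α × (ℝ × ℝ) => annularTriangularHT F G (a p.1) (b p.1) p.2 :=
    measurable_from_prod_countable_right fun x => meas_B hF hG (a x) (b x)
  exact h.comp (hσ.prodMk measurable_id)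

/-- a.e. equal functions have the same truncated transforms a.e. -/
lemma ae_congr_B {F G F' G' : ℝ × ℝ → ℂ} (hF : F =ᵐ[volume] F') (hG : G =ᵐ[volume] G') :
    ∀ᵐ z : ℝ × ℝ, ∀ a b : ℝ, annularTriangularHT F G a b z = annularTriangularHT F' G' a b z := by
  have hG1 : ∀ᵐ x : ℝ, ∀ᵐ y : ℝ, G (x, y) = G' (x, y) :=
    Measure.ae_ae_of_ae_prod hG
  have hF1 : ∀ᵐ y : ℝ, ∀ᵐ x : ℝ, F (x, y) = F' (x, y) := by
    have h2 : ∀ᵐ p : ℝ × ℝ, F p.swap = F' p.swap :=
      (Measure.measurePreserving_swap (μ := (volume : Measure ℝ))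
        (ν := (volume : Measure ℝ))).quasiMeasurePreserving.ae hF
    exact Measure.ae_ae_of_ae_prod h2
  have hG2 : ∀ᵐ z : ℝ × ℝ, ∀ᵐ y : ℝ, G (z.1, y) = G' (z.1, y) :=
    Measure.quasiMeasurePreserving_fst.ae hG1
  have hF2 : ∀ᵐ z : ℝ × ℝ, ∀ᵐ x : ℝ, F (x, z.2) = F' (x, z.2) :=
    Measure.quasiMeasurePreserving_snd.ae hF1
  filter_upwards [hG2, hF2] with z hg hf a b
  have hg' : ∀ᵐ t : ℝ, G (z.1, z.2 + t) = G' (z.1, z.2 + t) :=
    (measurePreserving_add_left volume z.2).quasiMeasurePreserving.ae hg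
  have hf' : ∀ᵐ t : ℝ, F (z.1 + t, z.2) = F' (z.1 + t, z.2) :=
    (measurePreserving_add_left volume z.1).quasiMeasurePreserving.ae hf
  unfold annularTriangularHT
  apply integral_congr_ae
  filter_upwards [ae_restrict_of_ae hg', ae_restrict_of_ae hf'] with t h1 h2
  rw [h1, h2]

/-- for `L³` functions the integrand is locally integrable in `t`, for a.e. `z` -/
lemma ae_integrable {F G : ℝ × ℝ → ℂ} (hF : Measurable F) (hG : Measurable G)
    (hF3 : MemLp F 3 volume) (hG3 : MemLp G 3 volume) :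
    ∀ᵐ z : ℝ × ℝ, ∀ K : ℕ, IntegrableOn
      (fun t : ℝ => F (z.1 + t, z.2) * G (z.1, z.2 + t)) (Set.Ioo (-(K : ℝ)) K) := by
  rw [ae_all_iff]
  intro K
  have key : ∀ (W : ℝ × ℝ → ℂ) (e : ℝ → ℝ × ℝ), Measurable W → Measurable e → MemLp W 3 volume →
      ∀ᵐ z : ℝ × ℝ, ∫⁻ t in Set.Ioo (-(K : ℝ)) K, ‖W (z + e t)‖ₑ ^ 3 < ∞ := by
    intro W e hW he hW3
    have hm : Measurable fun p : (ℝ × ℝ) × ℝ => ‖W (p.1 + e p.2)‖ₑ ^ 3 := by fun_prop
    have h1 : ∫⁻ z : ℝ × ℝ, ∫⁻ t in Set.Ioo (-(K : ℝ)) K, ‖W (z + e t)‖ₑ ^ 3 < ∞ := by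
      rw [lintegral_lintegral_swap hm.aemeasurable]
      have h2 : ∀ t : ℝ, ∫⁻ z : ℝ × ℝ, ‖W (z + e t)‖ₑ ^ 3 = ∫⁻ z : ℝ × ℝ, ‖W z‖ₑ ^ 3 := fun t =>
        lintegral_add_right_eq_self (fun z => ‖W z‖ₑ ^ 3) (e t)
      simp_rw [h2]
      rw [lintegral_const]
      apply ENNReal.mul_lt_top
      · have h3 := hW3.2
        have h4 := lintegral_rpow_enorm_lt_top_of_eLpNorm_lt_top (μ := (volume : Measure (ℝ × ℝ)))
          (p := 3) (f := W) (by norm_num) (by norm_num) h3
        have h5 : ((3 : ℝ≥0∞).toReal) = ((3 : ℕ) : ℝ) := by norm_num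
        rw [h5] at h4
        simpa only [ENNReal.rpow_natCast] using h4
      · rw [Measure.restrict_apply_univ, Real.volume_Ioo]
        exact ENNReal.ofReal_lt_top
    exact ae_lt_top (hm.lintegral_prod_right') h1.ne
  have hA := key F (fun t => (t, 0)) hF (by fun_prop) hF3
  have hB := key G (fun t => (0, t)) hG (by fun_prop) hG3
  filter_upwards [hA, hB] with z ha hb
  have hcont : ∫⁻ t in Set.Ioo (-(K : ℝ)) K, (1 + ‖F (z + (t, 0))‖ₑ ^ 3 + ‖G (z + (0, t))‖ₑ ^ 3) < ∞ := by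
    rw [lintegral_add_left (by fun_prop), lintegral_add_left (by fun_prop)]
    refine ENNReal.add_lt_top.2 ⟨ENNReal.add_lt_top.2 ⟨?_, ha⟩, hb⟩
    simp [Real.volume_Ioo]
  refine ⟨?_, ?_⟩
  · apply Measurable.aestronglyMeasurable
    fun_prop
  · refine lt_of_le_of_lt (lintegral_mono fun t => ?_) hcont
    have e1 : (z.1 + t, z.2) = z + (t, 0) := by ext <;> simp
    have e2 : (z.1, z.2 + t) = z + (0, t) := by ext <;> simp
    show ‖F (z.1 + t, z.2) * G (z.1, z.2 + t)‖ₑ ≤ _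
    rw [e1, e2, enorm_mul]
    generalize ‖F (z + (t, 0))‖ₑ = u
    generalize ‖G (z + (0, t))‖ₑ = v
    rcases le_total u v with h | h
    · calc u * v ≤ v * v := by gcongr
        _ ≤ 1 + v ^ 3 := by
            rcases le_total v 1 with h1 | h1
            · calc v * v ≤ 1 * 1 := by gcongr
                _ ≤ 1 + v ^ 3 := by simp
            · calc v * v = v * v * 1 := by rw [mul_one]
                _ ≤ v * v * v := by gcongr
                _ = v ^ 3 := by ring
                _ ≤ 1 + v ^ 3 := le_add_self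
        _ ≤ 1 + u ^ 3 + v ^ 3 := by
            rw [add_right_comm]
            exact le_self_add
    · calc u * v ≤ u * u := by gcongr
        _ ≤ 1 + u ^ 3 := by
            rcases le_total u 1 with h1 | h1
            · calc u * u ≤ 1 * 1 := by gcongr
                _ ≤ 1 + u ^ 3 := by simp
            · calc u * u = u * u * 1 := by rw [mul_one]
                _ ≤ u * u * u := by gcongr
                _ = u ^ 3 := by ring
                _ ≤ 1 + u ^ 3 := le_add_self
        _ ≤ 1 + u ^ 3 + v ^ 3 := le_self_add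

/-- truncation -/
noncomputable def trn (j : ℕ) (F : ℝ × ℝ → ℂ) : ℝ × ℝ → ℂ :=
  Set.indicator {z | ‖F z‖ ≤ j ∧ ‖z‖ ≤ j} F

lemma trn_measurable (j : ℕ) {F : ℝ × ℝ → ℂ} (hF : Measurable F) : Measurable (trn j F) := by
  apply hF.indicator
  have h1 : MeasurableSet {z : ℝ × ℝ | ‖F z‖ ≤ j} := measurableSet_le hF.norm measurable_const
  have h2 : MeasurableSet {z : ℝ × ℝ | ‖z‖ ≤ j} := measurableSet_le measurable_norm measurable_const
  exact h1.inter h2

lemma norm_trn_le (j : ℕ) (F : ℝ × ℝ → ℂ) (z : ℝ × ℝ) : ‖trn j F z‖ ≤ ‖F z‖ :=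
  norm_indicator_le_norm_self _ _

lemma trn_bddSupp (j : ℕ) {F : ℝ × ℝ → ℂ} (hF : Measurable F) : BddSupp (trn j F) := by
  refine ⟨trn_measurable j hF, ⟨j, fun z => ?_⟩, ⟨j, fun z hz => ?_⟩⟩
  · unfold trn
    by_cases h : z ∈ {z | ‖F z‖ ≤ j ∧ ‖z‖ ≤ j}
    · rw [Set.indicator_of_mem h]
      exact h.1
    · rw [Set.indicator_of_notMem h]
      simp
  · unfold trn at hz
    have h : z ∈ {z | ‖F z‖ ≤ j ∧ ‖z‖ ≤ j} := Set.mem_of_indicator_ne_zero hz
    exact h.2

lemma tendsto_trn (F : ℝ × ℝ → ℂ) (z : ℝ × ℝ) : Tendsto (fun j => trn j F z) atTop (𝓝 (F z)) := by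
  apply tendsto_const_nhds.congr'
  filter_upwards [eventually_ge_atTop ⌈‖F z‖ + ‖z‖⌉₊] with j hj
  have h1 : ‖F z‖ + ‖z‖ ≤ j := (Nat.le_ceil _).trans (by exact_mod_cast hj)
  unfold trn
  rw [Set.indicator_of_mem]
  exact ⟨by linarith [norm_nonneg z], by linarith [norm_nonneg (F z)]⟩

lemma eLpNorm_trn_le (j : ℕ) (F : ℝ × ℝ → ℂ) : eLpNorm (trn j F) 3 volume ≤ eLpNorm F 3 volume :=
  eLpNorm_mono fun z => norm_trn_le j F z

/-- convergence of the truncated transforms -/
lemma tendsto_B {F G : ℝ × ℝ → ℂ} (hF : Measurable F) (hG : Measurable G) {z : ℝ × ℝ}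
    (hz : ∀ K : ℕ, IntegrableOn
      (fun t : ℝ => F (z.1 + t, z.2) * G (z.1, z.2 + t)) (Set.Ioo (-(K : ℝ)) K))
    {a b : ℝ} (ha : 0 < a) :
    Tendsto (fun j => annularTriangularHT (trn j F) (trn j G) a b z) atTop
      (𝓝 (annularTriangularHT F G a b z)) := by
  unfold annularTriangularHT
  apply tendsto_integral_of_dominated_convergence
    (fun t => ‖F (z.1 + t, z.2) * G (z.1, z.2 + t)‖ / a)
  · intro j
    apply Measurable.aestronglyMeasurable
    have h1 := trn_measurable j hF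
    have h2 := trn_measurable j hG
    fun_prop
  · apply Integrable.div_const
    apply Integrable.norm
    refine (hz ⌈b⌉₊).mono_set ?_
    intro t ht
    have h1 : |t| < b := ht.2
    have h2 : b ≤ (⌈b⌉₊ : ℝ) := Nat.le_ceil b
    exact abs_lt.1 (h1.trans_le h2)
  · intro j
    filter_upwards [ae_restrict_mem (measSet_ann a b)] with t ht
    rw [norm_div, norm_mul, norm_mul]
    have h3 : a ≤ ‖(t : ℂ)‖ := by
      rw [Complex.norm_real]
      exact ht.1.le
    exact div_le_div₀ (by positivity) (mul_le_mul (norm_trn_le j F _) (norm_trn_le j G _)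
      (norm_nonneg _) (norm_nonneg _)) ha h3
  · refine Eventually.of_forall fun t => ?_
    exact ((tendsto_trn F _).mul (tendsto_trn G _)).div_const _

/-- bound and support for bounded functions of bounded support -/
lemma bdd_B {F G : ℝ × ℝ → ℂ} (hF : BddSupp F) (hG : BddSupp G) {a b : ℝ} (ha : 0 < a) :
    (∃ K : ℝ, ∀ z, ‖annularTriangularHT F G a b z‖ ≤ K) := by
  obtain ⟨KF, hKF⟩ := hF.bdd
  obtain ⟨KG, hKG⟩ := hG.bdd
  refine ⟨KF * KG / a * (2 * |b|), fun z => ?_⟩
  have hK0 : 0 ≤ KF := (norm_nonneg _).trans (hKF 0)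
  have hK1 : 0 ≤ KG := (norm_nonneg _).trans (hKG 0)
  have hsub : {t : ℝ | a < abs t ∧ abs t < b} ⊆ Set.Icc (-|b|) |b| := by
    intro t ht
    have h1 : |t| < b := ht.2
    exact abs_le.1 (h1.le.trans (le_abs_self b))
  have hvol : volume {t : ℝ | a < abs t ∧ abs t < b} < ∞ :=
    (measure_mono hsub).trans_lt (by rw [Real.volume_Icc]; exact ENNReal.ofReal_lt_top)
  have hvr : (volume : Measure ℝ).real {t : ℝ | a < abs t ∧ abs t < b} ≤ 2 * |b| := by
    have h1 : (volume : Measure ℝ).real {t : ℝ | a < abs t ∧ abs t < b} ≤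
        (volume : Measure ℝ).real (Set.Icc (-|b|) |b|) :=
      measureReal_mono hsub (by rw [Real.volume_Icc]; exact ENNReal.ofReal_ne_top)
    refine h1.trans ?_
    rw [Real.volume_real_Icc_of_le (by linarith [abs_nonneg b])]
    linarith
  unfold annularTriangularHT
  refine (norm_setIntegral_le_of_norm_le_const hvol (C := KF * KG / a) ?_).trans ?_
  · intro t ht
    rw [norm_div, norm_mul]
    have h3 : a ≤ ‖(t : ℂ)‖ := by
      rw [Complex.norm_real]
      exact ht.1.le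
    exact div_le_div₀ (by positivity) (mul_le_mul (hKF _) (hKG _)
      (norm_nonneg _) hK0) ha h3
  · gcongr

lemma supp_B {F G : ℝ × ℝ → ℂ} (hF : BddSupp F) (hG : BddSupp G) :
    ∃ K : ℝ, ∀ a b z, annularTriangularHT F G a b z ≠ 0 → ‖z‖ ≤ K := by
  obtain ⟨KF, hKF⟩ := hF.supp
  obtain ⟨KG, hKG⟩ := hG.supp
  refine ⟨max KF KG, fun a b z hz => ?_⟩
  by_contra hcon
  apply hz
  unfold annularTriangularHT
  have h0 : ∀ t : ℝ, F (z.1 + t, z.2) * G (z.1, z.2 + t) / (t : ℂ) = 0 := by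
    intro t
    by_cases h1 : F (z.1 + t, z.2) = 0
    · simp [h1]
    by_cases h2 : G (z.1, z.2 + t) = 0
    · simp [h2]
    exfalso
    apply hcon
    have h3 := hKF _ h1
    have h4 := hKG _ h2
    rw [Prod.norm_def] at h3 h4 ⊢
    exact max_le ((le_max_left _ _).trans (h4.trans (le_max_right _ _)))
      ((le_max_right _ _).trans (h3.trans (le_max_left _ _)))
  simp [h0]

end Crest.Agent.R72
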