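import Crest.Agent.R72.R3A

/-!
# Row 72, R3B: duality over a finite set of families of annuli
-/

set_option autoImplicit false

open MeasureTheory Crest.AnalysisR Filter Topology
open scoped ENNReal

namespace Crest.Agent.R72

lemma BddSupp.memLp {F : ℝ × ℝ → ℂ} (hF : BddSupp F) (p : ℝ≥0∞) : MemLp F p volume := by
  obtain ⟨K, hK⟩ := hF.bdd
  obtain ⟨L, hL⟩ := hF.supp
  have h1 : F = Set.indicator (Metric.closedBall 0 L) F := by
    symm
    rw [Set.indicator_eq_self]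
    intro z hz
    rw [mem_closedBall_zero_iff]
    exact hL z hz
  rw [h1, memLp_indicator_iff_restrict Metric.isClosed_closedBall.measurableSet]
  have : IsFiniteMeasure ((volume : Measure (ℝ × ℝ)).restrict (Metric.closedBall 0 L)) :=
    ⟨by rw [Measure.restrict_apply_univ]; exact measure_closedBall_lt_top⟩
  exact MemLp.of_bound hF.meas.aestronglyMeasurable K (Eventually.of_forall hK)

/-- families of `n` (possibly degenerate) rational annuli -/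
def Fam (n : ℕ) : Type :=
  {p : (Fin n → ℚ) × (Fin n → ℚ) //
    (∀ j, 0 < p.1 j) ∧ ∀ i j, i ≠ j → p.2 i ≤ p.1 j ∨ p.2 j ≤ p.1 i}

instance (n : ℕ) : Countable (Fam n) := inferInstanceAs (Countable (Subtype _))

instance (n : ℕ) : Nonempty (Fam n) :=
  ⟨⟨(fun _ => 1, fun _ => 1), ⟨fun _ => one_pos, fun _ _ _ => Or.inl le_rfl⟩⟩⟩

/-- the sum over one family -/
noncomputable def Tf (F G : ℝ × ℝ → ℂ) {n : ℕ} (p : Fam n) (z : ℝ × ℝ) : ℝ≥0∞ :=
  ∑ j, ‖annularTriangularHT F G (p.1.1 j : ℝ) (p.1.2 j : ℝ) z‖ₑ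

lemma Tf_measurable {F G : ℝ × ℝ → ℂ} (hF : Measurable F) (hG : Measurable G) {n : ℕ}
    (p : Fam n) : Measurable (Tf F G p) :=
  Finset.measurable_sum _ fun _ _ => (meas_B hF hG _ _).enorm

lemma exists_sel (T : ℕ → ℝ × ℝ → ℝ) (hT : ∀ k, Measurable (T k)) (N : ℕ) :
    ∃ σ : ℝ × ℝ → ℕ, Measurable σ ∧ (∀ z, σ z ≤ N) ∧ ∀ z k, k ≤ N → T k z ≤ T (σ z) z := by
  induction N with
  | zero =>
      refine ⟨fun _ => 0, measurable_const, fun _ => le_rfl, fun z k hk => ?_⟩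
      obtain rfl : k = 0 := by omega
      exact le_rfl
  | succ N ih =>
      obtain ⟨σ, hσ, h1, h2⟩ := ih
      have hm : Measurable fun z => T (σ z) z :=
        (measurable_from_prod_countable_right (f := fun p : ℕ × (ℝ × ℝ) => T p.1 p.2)
          fun k => hT k).comp (hσ.prodMk measurable_id)
      refine ⟨fun z => if T (σ z) z < T (N + 1) z then N + 1 else σ z, ?_, fun z => ?_,
        fun z k hk => ?_⟩
      · exact Measurable.ite (measurableSet_lt hm (hT _)) measurable_const hσ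
      · dsimp only
        split_ifs
        · exact le_rfl
        · exact (h1 z).trans (Nat.le_succ N)
      · dsimp only
        split_ifs with h
        · rcases Nat.lt_or_ge N k with h3 | h3
          · obtain rfl : k = N + 1 := by omega
            exact le_rfl
          · exact (h2 z k h3).trans h.le
        · rcases Nat.lt_or_ge N k with h3 | h3
          · obtain rfl : k = N + 1 := by omega
            exact not_lt.1 h
          · exact h2 z k h3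

/-- the conjugate phase -/
noncomputable def phs (w : ℂ) : ℂ := (starRingEnd ℂ) w / (‖w‖ : ℂ)

lemma phs_mul (w : ℂ) : phs w * w = (‖w‖ : ℂ) := by
  unfold phs
  by_cases h : w = 0
  · simp [h]
  · have h1 : (‖w‖ : ℂ) ≠ 0 := by
      rw [Complex.ofReal_ne_zero]
      exact norm_ne_zero_iff.2 h
    rw [div_mul_eq_mul_div, div_eq_iff h1, mul_comm, Complex.mul_conj, Complex.normSq_eq_norm_sq]
    push_cast
    ring

lemma norm_phs_le (w : ℂ) : ‖phs w‖ ≤ 1 := by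
  unfold phs
  rw [norm_div, RCLike.norm_conj, Complex.norm_real, norm_norm]
  exact div_self_le_one _

lemma phs_measurable : Measurable phs := by
  unfold phs
  exact (Complex.continuous_conj.measurable).div (Complex.measurable_ofReal.comp measurable_norm)

lemma rpow_absorb {I D : ℝ≥0∞} (hI : I ≠ ∞) (h : I ≤ D * I ^ (1 / 3 : ℝ)) :
    I ^ (2 / 3 : ℝ) ≤ D := by
  by_cases h0 : I = 0
  · rw [h0, ENNReal.zero_rpow_of_pos (by norm_num)]
    exact zero_le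
  have h1 : I ^ (1 / 3 : ℝ) ≠ 0 := by
    intro h2
    rw [ENNReal.rpow_eq_zero_iff] at h2
    rcases h2 with h2 | h2
    · exact h0 h2.1
    · exact hI h2.1
  have h2 : I ^ (1 / 3 : ℝ) ≠ ∞ := ENNReal.rpow_ne_top_of_nonneg (by norm_num) hI
  have h3 : I = I ^ (2 / 3 : ℝ) * I ^ (1 / 3 : ℝ) := by
    rw [← ENNReal.rpow_add _ _ h0 hI]
    norm_num
  have h4 : I ^ (2 / 3 : ℝ) * I ^ (1 / 3 : ℝ) ≤ D * I ^ (1 / 3 : ℝ) := by rwa [← h3]
  exact (ENNReal.mul_le_mul_iff_left h1 h2).1 h4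

/-- the Hölder exponent bookkeeping of the duality step -/
lemma dual_abs {S : ℝ × ℝ → ℝ} (hS0 : ∀ z, 0 ≤ S z) (hSm : Measurable S)
    (hSb : ∃ K : ℝ, ∀ z, S z ≤ K) (hSs : ∃ L : ℝ, ∀ z, S z ≠ 0 → ‖z‖ ≤ L) :
    BddSupp (fun z => ((S z ^ (1 / 2 : ℝ) : ℝ) : ℂ)) := by
  obtain ⟨K, hK⟩ := hSb
  obtain ⟨L, hL⟩ := hSs
  refine ⟨?_, ⟨K ^ (1 / 2 : ℝ), fun z => ?_⟩, ⟨L, fun z hz => ?_⟩⟩
  · exact Complex.measurable_ofReal.comp (hSm.pow_const _)
  · rw [Complex.norm_real, Real.norm_of_nonneg (Real.rpow_nonneg (hS0 z) _)]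
    exact Real.rpow_le_rpow (hS0 z) (hK z) (by norm_num)
  · apply hL z
    intro h0
    apply hz
    rw [h0, Real.zero_rpow (by norm_num), Complex.ofReal_zero]

lemma dual_abs2 {S : ℝ × ℝ → ℝ} (hS0 : ∀ z, 0 ≤ S z) (hSm : Measurable S)
    (hSb : ∃ K : ℝ, ∀ z, S z ≤ K) (hSs : ∃ L : ℝ, ∀ z, S z ≠ 0 → ‖z‖ ≤ L) {D : ℝ≥0∞}
    (h : ‖∫ z, ((S z ^ (1 / 2 : ℝ) : ℝ) : ℂ) * (S z : ℂ)‖ₑ ≤
      D * eLpNorm (fun z => ((S z ^ (1 / 2 : ℝ) : ℝ) : ℂ)) 3 volume) :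
    (∫⁻ z, ENNReal.ofReal (S z) ^ (3 / 2 : ℝ)) ^ (2 / 3 : ℝ) ≤ D := by
  have hHb := dual_abs hS0 hSm hSb hSs
  have hpt : ∀ z, ‖((S z ^ (1 / 2 : ℝ) : ℝ) : ℂ)‖ₑ ^ (3 : ℝ) =
      ENNReal.ofReal (S z) ^ (3 / 2 : ℝ) := by
    intro z
    rw [← ofReal_norm, Complex.norm_real,
      Real.norm_of_nonneg (Real.rpow_nonneg (hS0 z) _),
      ← ENNReal.ofReal_rpow_of_nonneg (hS0 z) (by norm_num), ← ENNReal.rpow_mul]
    norm_num
  have hH3 : eLpNorm (fun z => ((S z ^ (1 / 2 : ℝ) : ℝ) : ℂ)) 3 volume =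
      (∫⁻ z, ENNReal.ofReal (S z) ^ (3 / 2 : ℝ)) ^ (1 / 3 : ℝ) := by
    rw [eLpNorm_eq_lintegral_rpow_enorm_toReal (by norm_num) (by norm_num)]
    have h5 : ((3 : ℝ≥0∞).toReal) = 3 := by norm_num
    rw [h5]
    simp_rw [hpt]
  have hIfin : (∫⁻ z, ENNReal.ofReal (S z) ^ (3 / 2 : ℝ)) ≠ ∞ := by
    have h1 := (hHb.memLp 3).2
    rw [hH3] at h1
    intro h2
    rw [h2, ENNReal.top_rpow_of_pos (by norm_num)] at h1
    exact lt_irrefl _ h1
  have hpt2 : ∀ z, ENNReal.ofReal (S z ^ (3 / 2 : ℝ)) = ENNReal.ofReal (S z) ^ (3 / 2 : ℝ) :=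
    fun z => (ENNReal.ofReal_rpow_of_nonneg (hS0 z) (by norm_num)).symm
  have hint : Integrable (fun z => S z ^ (3 / 2 : ℝ)) := by
    refine ⟨(hSm.pow_const _).aestronglyMeasurable, ?_⟩
    rw [hasFiniteIntegral_iff_ofReal (Eventually.of_forall fun z => Real.rpow_nonneg (hS0 z) _)]
    simp_rw [hpt2]
    exact lt_top_iff_ne_top.2 hIfin
  have h1 : ∀ z, ((S z ^ (1 / 2 : ℝ) : ℝ) : ℂ) * (S z : ℂ) = ((S z ^ (3 / 2 : ℝ) : ℝ) : ℂ) := by
    intro z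
    rw [← Complex.ofReal_mul]
    congr 1
    rcases (hS0 z).eq_or_lt with h4 | h4
    · rw [← h4, Real.zero_rpow (by norm_num), Real.zero_rpow (by norm_num)]
      simp
    · have h5 : S z ^ (1 / 2 : ℝ) * S z = S z ^ (1 / 2 : ℝ) * S z ^ (1 : ℝ) := by
        rw [Real.rpow_one]
      rw [h5, ← Real.rpow_add h4]
      norm_num
  simp_rw [h1] at h
  rw [integral_complex_ofReal, ← ofReal_norm, Complex.norm_real,
    Real.norm_of_nonneg (integral_nonneg fun z => Real.rpow_nonneg (hS0 z) _),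
    ofReal_integral_eq_lintegral_ofReal hint
      (Eventually.of_forall fun z => Real.rpow_nonneg (hS0 z) _)] at h
  simp_rw [hpt2] at h
  rw [hH3] at h
  exact rpow_absorb hIfin h

lemma fam_lower {n : ℕ} (hn : 1 ≤ n) (e : ℕ → Fam n) (M : ℕ) :
    ∃ e0 : ℝ, 0 < e0 ∧ ∀ k, k ≤ M → ∀ j, e0 ≤ ((e k).1.1 j : ℝ) := by
  have hne : Nonempty (Fin n) := ⟨⟨0, by omega⟩⟩
  have h0 : ∀ k, ∃ e0 : ℝ, 0 < e0 ∧ ∀ j, e0 ≤ ((e k).1.1 j : ℝ) := by
    intro k
    obtain ⟨j0, hj0⟩ := Finite.exists_min fun j => ((e k).1.1 j : ℝ)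
    exact ⟨_, by exact_mod_cast (e k).2.1 j0, hj0⟩
  induction M with
  | zero =>
      obtain ⟨e0, he0, h2⟩ := h0 0
      refine ⟨e0, he0, fun k hk j => ?_⟩
      obtain rfl : k = 0 := by omega
      exact h2 j
  | succ M ih =>
      obtain ⟨e1, he1, h3⟩ := ih
      obtain ⟨e0, he0, h2⟩ := h0 (M + 1)
      refine ⟨min e0 e1, lt_min he0 he1, fun k hk j => ?_⟩
      rcases Nat.lt_or_ge M k with h4 | h4
      · obtain rfl : k = M + 1 := by omega
        exact (min_le_left _ _).trans (h2 j)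
      · exact (min_le_right _ _).trans (h3 k h4 j)

lemma fam_upper {n : ℕ} (e : ℕ → Fam n) (M : ℕ) :
    ∃ R0 : ℝ, ∀ k, k ≤ M → ∀ j, ((e k).1.2 j : ℝ) ≤ R0 := by
  refine ⟨∑ k ∈ Finset.range (M + 1), ∑ j, |((e k).1.2 j : ℝ)|, fun k hk j => ?_⟩
  have h1 : |((e k).1.2 j : ℝ)| ≤ ∑ j, |((e k).1.2 j : ℝ)| :=
    Finset.single_le_sum (f := fun j => |((e k).1.2 j : ℝ)|) (fun j _ => abs_nonneg _)
      (Finset.mem_univ j)
  have h2 : ∑ j, |((e k).1.2 j : ℝ)| ≤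
      ∑ k ∈ Finset.range (M + 1), ∑ j, |((e k).1.2 j : ℝ)| :=
    Finset.single_le_sum (f := fun k => ∑ j, |((e k).1.2 j : ℝ)|)
      (fun k _ => Finset.sum_nonneg fun j _ => abs_nonneg _)
      (Finset.mem_range.2 (Nat.lt_succ_of_le hk))
  exact (le_abs_self _).trans (h1.trans h2)

lemma sel_measurable {β : Type*} [MeasurableSpace β] {σ : ℝ × ℝ → ℕ} (hσ : Measurable σ)
    {f : ℕ → ℝ × ℝ → β} (hf : ∀ k, Measurable (f k)) : Measurable fun z => f (σ z) z :=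
  (measurable_from_prod_countable_right (f := fun p : ℕ × (ℝ × ℝ) => f p.1 p.2)
    hf).comp (hσ.prodMk measurable_id)

/-- real version of `Tf` -/
noncomputable def Tr (F G : ℝ × ℝ → ℂ) {n : ℕ} (p : Fam n) (z : ℝ × ℝ) : ℝ :=
  ∑ j, ‖annularTriangularHT F G (p.1.1 j : ℝ) (p.1.2 j : ℝ) z‖

lemma Tr_nonneg (F G : ℝ × ℝ → ℂ) {n : ℕ} (p : Fam n) (z : ℝ × ℝ) : 0 ≤ Tr F G p z :=
  Finset.sum_nonneg fun _ _ => norm_nonneg _

lemma Tf_eq (F G : ℝ × ℝ → ℂ) {n : ℕ} (p : Fam n) (z : ℝ × ℝ) :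
    Tf F G p z = ENNReal.ofReal (Tr F G p z) := by
  unfold Tf Tr
  rw [ENNReal.ofReal_sum_of_nonneg fun j _ => norm_nonneg _]
  exact Finset.sum_congr rfl fun j _ => (ofReal_norm _).symm

lemma Tr_measurable {F G : ℝ × ℝ → ℂ} (hF : Measurable F) (hG : Measurable G) {n : ℕ}
    (p : Fam n) : Measurable (Tr F G p) :=
  Finset.measurable_sum _ fun _ _ => (meas_B hF hG _ _).norm

lemma Tr_bdd {F G : ℝ × ℝ → ℂ} (hF : BddSupp F) (hG : BddSupp G) {n : ℕ} (p : Fam n) :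
    ∃ K : ℝ, ∀ z, Tr F G p z ≤ K := by
  have h1 : ∀ j, ∃ K : ℝ, ∀ z, ‖annularTriangularHT F G (p.1.1 j : ℝ) (p.1.2 j : ℝ) z‖ ≤ K :=
    fun j => bdd_B hF hG (by exact_mod_cast p.2.1 j)
  choose K hK using h1
  exact ⟨∑ j, K j, fun z => Finset.sum_le_sum fun j _ => hK j z⟩

lemma Tr_supp {F G : ℝ × ℝ → ℂ} (hF : BddSupp F) (hG : BddSupp G) {n : ℕ} :
    ∃ L : ℝ, ∀ (p : Fam n) z, Tr F G p z ≠ 0 → ‖z‖ ≤ L := by
  obtain ⟨L, hL⟩ := supp_B hF hG
  refine ⟨L, fun p z hz => ?_⟩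
  by_contra hcon
  apply hz
  apply Finset.sum_eq_zero
  intro j _
  rw [norm_eq_zero]
  by_contra h1
  exact hcon (hL _ _ z h1)

/-- the bound for finitely many families -/
lemma fin_bound {C : ℝ} (hC : FormLe C) {n : ℕ} (hn : 1 ≤ n) {F G : ℝ × ℝ → ℂ}
    (hF : BddSupp F) (hG : BddSupp G) (e : ℕ → Fam n) (N : ℕ) :
    (∫⁻ z, (⨆ k, ⨆ (_ : k ≤ N), Tf F G (e k) z) ^ (3 / 2 : ℝ)) ^ (2 / 3 : ℝ) ≤
      ENNReal.ofReal (C * Real.sqrt n) * eLpNorm F 3 volume * eLpNorm G 3 volume := by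
  obtain ⟨σ, hσm, hσN, hσ⟩ := exists_sel (fun k => Tr F G (e k))
    (fun k => Tr_measurable hF.meas hG.meas (e k)) N
  have hS0 : ∀ z, 0 ≤ Tr F G (e (σ z)) z := fun z => Tr_nonneg _ _ _ _
  have hSm : Measurable fun z => Tr F G (e (σ z)) z :=
    sel_measurable hσm (f := fun k z => Tr F G (e k) z)
      fun k => Tr_measurable hF.meas hG.meas (e k)
  have hSb : ∃ K : ℝ, ∀ z, Tr F G (e (σ z)) z ≤ K := by
    have hbd : ∀ k, ∃ K : ℝ, ∀ z, Tr F G (e k) z ≤ K := fun k => Tr_bdd hF hG (e k)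
    choose KT hKT using hbd
    have hKT0 : ∀ k, 0 ≤ KT k := fun k => (Tr_nonneg F G (e k) 0).trans (hKT k 0)
    exact ⟨∑ k ∈ Finset.range (N + 1), KT k, fun z =>
      (hKT (σ z) z).trans (Finset.single_le_sum (fun k _ => hKT0 k)
        (Finset.mem_range.2 (Nat.lt_succ_of_le (hσN z))))⟩
  have hSs : ∃ L : ℝ, ∀ z, Tr F G (e (σ z)) z ≠ 0 → ‖z‖ ≤ L := by
    obtain ⟨L, hL⟩ := Tr_supp hF hG (n := n)
    exact ⟨L, fun z hz => hL _ z hz⟩
  obtain ⟨e0, he0, hlow⟩ := fam_lower hn e N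
  obtain ⟨R0, hup⟩ := fam_upper e N
  have hform := hC n hn F G (fun z => ((Tr F G (e (σ z)) z ^ (1 / 2 : ℝ) : ℝ) : ℂ)) hF hG
    (dual_abs hS0 hSm hSb hSs) (fun z j => ((e (σ z)).1.1 j : ℝ))
    (fun z j => ((e (σ z)).1.2 j : ℝ))
    (fun z j => phs (annularTriangularHT F G ((e (σ z)).1.1 j : ℝ) ((e (σ z)).1.2 j : ℝ) z))
    (fun j => sel_measurable hσm (f := fun k _ => ((e k).1.1 j : ℝ)) fun k => measurable_const)
    (fun j => sel_measurable hσm (f := fun k _ => ((e k).1.2 j : ℝ)) fun k => measurable_const)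
    (fun j => sel_measurable hσm
      (f := fun k z => phs (annularTriangularHT F G ((e k).1.1 j : ℝ) ((e k).1.2 j : ℝ) z))
      fun k => phs_measurable.comp (meas_B hF.meas hG.meas _ _))
    (fun z j => norm_phs_le _)
    ⟨e0, he0, fun z j => hlow _ (hσN z) j⟩ ⟨R0, fun z j => hup _ (hσN z) j⟩
    (fun z i j hij => by
      rcases (e (σ z)).2.2 i j hij with h | h
      · left; exact_mod_cast h
      · right; exact_mod_cast h)
  have h2 : ∀ z, ∑ j, phs (annularTriangularHT F G ((e (σ z)).1.1 j : ℝ)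
      ((e (σ z)).1.2 j : ℝ) z) *
      annularTriangularHT F G ((e (σ z)).1.1 j : ℝ) ((e (σ z)).1.2 j : ℝ) z =
      ((Tr F G (e (σ z)) z : ℝ) : ℂ) := by
    intro z
    unfold Tr
    rw [Complex.ofReal_sum]
    exact Finset.sum_congr rfl fun j _ => phs_mul _
  simp only [h2] at hform
  have hfin := dual_abs2 hS0 hSm hSb hSs hform
  refine le_trans ?_ hfin
  refine ENNReal.rpow_le_rpow (lintegral_mono fun z => ?_) (by norm_num)
  refine ENNReal.rpow_le_rpow (iSup₂_le fun k hk => ?_) (by norm_num)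
  rw [Tf_eq]
  exact ENNReal.ofReal_le_ofReal (hσ z k hk)

end Crest.Agent.R72
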