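import Crest.Agent.R72.WB1

/-!
# Row 72, W part (helper40), WA1: W1, W2, W3, W7 (windows, planes, cube averages)
-/

set_option autoImplicit false
set_option linter.unusedSectionVars false

namespace Crest.Agent.R72

open Finset Matrix WLA
open scoped ComplexOrder

variable {N : ℕ}

/-- one diagonal block -/
theorem W1_aux (P R : Fn N) (L : ℕ) (x y z : ZMod N) :
    tr32 ((2 : ℂ) • Gm P R L (2 * L) x y z) ≤ 2 * ∑ b ∈ range 2, ∑ c ∈ range 2,
      tr32 (Gm P R L L x (y + ((b * L : ℕ) : ZMod N)) (z + ((c * L : ℕ) : ZMod N))) := by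
  set X : ℕ × ℕ → Matrix (Fin L) (Fin L) ℂ := fun p => (((4 : ℝ)) : ℂ) •
    Gm P R L L x (y + ((p.1 * L : ℕ) : ZMod N)) (z + ((p.2 * L : ℕ) : ZMod N)) with hX
  have hG : ∀ p : ℕ × ℕ, (Gm P R L L x (y + ((p.1 * L : ℕ) : ZMod N))
      (z + ((p.2 * L : ℕ) : ZMod N))).PosSemidef := by
    intro p
    rw [Gm_eq]
    exact (pN_psd _ _ _ _ _).add (pN_psd _ _ _ _ _)
  have hJ := WLA.la_jensen (range 2 ×ˢ range 2) (by simp) X (fun p _ => by
    rw [hX]
    exact (hG p).smul (by norm_num))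
  have e1 : (((range 2 ×ˢ range 2).card : ℂ))⁻¹ • ∑ p ∈ range 2 ×ˢ range 2, X p =
      (2 : ℂ) • Gm P R L (2 * L) x y z := by
    rw [Gm_eq, pN_mul, pN_mul, sum_product]
    simp only [hX, Gm_eq, sum_range_succ, sum_range_zero, zero_add, card_product, card_range,
      zero_mul, one_mul, Nat.cast_zero, add_zero]
    ext i j
    simp only [Matrix.smul_apply, Matrix.add_apply, smul_eq_mul]
    push_cast
    ring
  rw [e1] at hJ
  refine hJ.trans (le_of_eq ?_)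
  have e2 : ∀ p : ℕ × ℕ, tr32 (X p) = 8 * tr32 (Gm P R L L x (y + ((p.1 * L : ℕ) : ZMod N))
      (z + ((p.2 * L : ℕ) : ZMod N))) := by
    intro p
    rw [hX, la_smul (hG p) (by norm_num)]
    congr 1
    rw [show (4 : ℝ) = 2 ^ (2 : ℝ) by norm_num, ← Real.rpow_mul (by norm_num)]
    norm_num
  simp only [e2]
  rw [sum_product]
  simp only [sum_range_succ, sum_range_zero, zero_add, card_product, card_range]
  push_cast
  ring

/-- W1 -/
theorem W1 (P R : Fn N) (L : ℕ) (hL : 1 ≤ L) (x y z : ZMod N) :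
    beta P R (2 * L) x y z + (((2 * L : ℕ) : ℝ))⁻¹ * gapb P R L x y z ≤
      (1 / 2) * ∑ a ∈ range 2, ∑ b ∈ range 2, ∑ c ∈ range 2,
        beta P R L (x + ((a * L : ℕ) : ZMod N)) (y + ((b * L : ℕ) : ZMod N))
          (z + ((c * L : ℕ) : ZMod N)) := by
  have hL0 : (0 : ℝ) < L := by exact_mod_cast hL
  have h1 : beta P R (2 * L) x y z + (((2 * L : ℕ) : ℝ))⁻¹ * gapb P R L x y z =
      (((2 * L : ℕ) : ℝ))⁻¹ * ((1 / 2) * ∑ a ∈ range 2,
        tr32 ((2 : ℂ) • Gm P R L (2 * L) (x + ((a * L : ℕ) : ZMod N)) y z)) := by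
    unfold beta gapb
    ring
  rw [h1]
  have h2 : ∑ a ∈ range 2, tr32 ((2 : ℂ) • Gm P R L (2 * L) (x + ((a * L : ℕ) : ZMod N)) y z) ≤
      ∑ a ∈ range 2, 2 * ∑ b ∈ range 2, ∑ c ∈ range 2,
        tr32 (Gm P R L L (x + ((a * L : ℕ) : ZMod N)) (y + ((b * L : ℕ) : ZMod N))
          (z + ((c * L : ℕ) : ZMod N))) :=
    sum_le_sum fun a _ => W1_aux P R L _ y z
  calc (((2 * L : ℕ) : ℝ))⁻¹ * ((1 / 2) * ∑ a ∈ range 2,
        tr32 ((2 : ℂ) • Gm P R L (2 * L) (x + ((a * L : ℕ) : ZMod N)) y z))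
      ≤ (((2 * L : ℕ) : ℝ))⁻¹ * ((1 / 2) * ∑ a ∈ range 2, 2 * ∑ b ∈ range 2, ∑ c ∈ range 2,
        tr32 (Gm P R L L (x + ((a * L : ℕ) : ZMod N)) (y + ((b * L : ℕ) : ZMod N))
          (z + ((c * L : ℕ) : ZMod N)))) := by gcongr
    _ = _ := by
        unfold beta
        rw [← mul_sum]
        simp only [← mul_sum]
        push_cast
        field_simp

section
variable [NeZero N]

/-- W2 -/
theorem W2 (P R : Fn N) (L : ℕ) (hL : 1 ≤ L) (s : ZMod N) :
    Ipl P R (2 * L) s + Gap P R L s ≤ (1 / 8) * ∑ a ∈ range 2, ∑ b ∈ range 2, ∑ c ∈ range 2,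
      Ipl P R L (s + ((L * (a + b + c) : ℕ) : ZMod N)) := by
  have hL0 : (0 : ℝ) < L := by exact_mod_cast hL
  -- the right side
  have hR : ∀ a b c : ℕ, Ipl P R L (s + ((L * (a + b + c) : ℕ) : ZMod N)) =
      ((L : ℝ) ^ 2)⁻¹ * ∑ x : ZMod N, ∑ y : ZMod N, beta P R L (x + ((a * L : ℕ) : ZMod N))
        (y + ((b * L : ℕ) : ZMod N)) (s - x - y + ((c * L : ℕ) : ZMod N)) := by
    intro a b c
    unfold Ipl
    congr 1
    rw [← Equiv.sum_comp (Equiv.addRight ((a * L : ℕ) : ZMod N))]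
    refine sum_congr rfl fun x _ => ?_
    rw [← Equiv.sum_comp (Equiv.addRight ((b * L : ℕ) : ZMod N))]
    refine sum_congr rfl fun y _ => ?_
    simp only [Equiv.coe_addRight]
    congr 1
    push_cast
    ring
  simp only [hR]
  have hLHS : Ipl P R (2 * L) s + Gap P R L s = (((2 * L : ℕ) : ℝ) ^ 2)⁻¹ *
      ∑ x : ZMod N, ∑ y : ZMod N, (beta P R (2 * L) x y (s - x - y) +
        (((2 * L : ℕ) : ℝ))⁻¹ * gapb P R L x y (s - x - y)) := by
    unfold Ipl Gap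
    simp only [sum_add_distrib, ← mul_sum]
    rw [mul_add]
    congr 1
    rw [← mul_assoc]
    congr 1
    rw [← mul_inv]
    ring
  rw [hLHS]
  have h2 : ∑ x : ZMod N, ∑ y : ZMod N, (beta P R (2 * L) x y (s - x - y) +
        (((2 * L : ℕ) : ℝ))⁻¹ * gapb P R L x y (s - x - y)) ≤
      ∑ x : ZMod N, ∑ y : ZMod N, (1 / 2) * ∑ a ∈ range 2, ∑ b ∈ range 2, ∑ c ∈ range 2,
        beta P R L (x + ((a * L : ℕ) : ZMod N)) (y + ((b * L : ℕ) : ZMod N))
          (s - x - y + ((c * L : ℕ) : ZMod N)) :=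
    sum_le_sum fun x _ => sum_le_sum fun y _ => W1 P R L hL x y _
  refine (mul_le_mul_of_nonneg_left h2 (by positivity)).trans (le_of_eq ?_)
  simp only [sum_range_succ, sum_range_zero, zero_add, sum_add_distrib, ← mul_sum]
  push_cast
  field_simp
  ring

/-- splitting of the cube average into parities -/
theorem cub_double (n : ℕ) (F : ℕ → ℝ) : cub (2 * n) F =
    (1 / 8) * ∑ a ∈ range 2, ∑ b ∈ range 2, ∑ c ∈ range 2, cub n (fun t => F (2 * t + (a + b + c))) := by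
  have h1 : ∀ G : ℕ → ℝ, ∑ a ∈ range (2 * n), G a = ∑ e ∈ range 2, ∑ a ∈ range n, G (2 * a + e) := by
    intro G
    induction n with
    | zero => simp
    | succ n ih =>
      rw [show 2 * (n + 1) = 2 * n + 1 + 1 by ring, sum_range_succ, sum_range_succ, ih]
      simp only [sum_range_succ, sum_range_zero, zero_add, add_zero]
      ring
  unfold cub
  rw [h1]
  simp only [h1]
  push_cast
  rw [mul_pow]
  rcases Nat.eq_zero_or_pos n with hn | hn
  · subst hn; simp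
  have hn0 : (n : ℝ) ≠ 0 := by positivity
  have h2 : ∀ a b c : ℕ, ∑ x ∈ range n, ∑ y ∈ range n, ∑ z ∈ range n,
      F (2 * x + a + (2 * y + b) + (2 * z + c)) =
      ∑ x ∈ range n, ∑ y ∈ range n, ∑ z ∈ range n, F (2 * (x + y + z) + (a + b + c)) := by
    intro a b c
    refine sum_congr rfl fun x _ => sum_congr rfl fun y _ => sum_congr rfl fun z _ => ?_
    congr 1; ring
  have h3 : ∑ a ∈ range 2, ∑ x ∈ range n, ∑ b ∈ range 2, ∑ y ∈ range n, ∑ c ∈ range 2,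
      ∑ z ∈ range n, F (2 * x + a + (2 * y + b) + (2 * z + c)) =
      ∑ a ∈ range 2, ∑ b ∈ range 2, ∑ c ∈ range 2, ∑ x ∈ range n, ∑ y ∈ range n, ∑ z ∈ range n,
        F (2 * (x + y + z) + (a + b + c)) := by
    refine sum_congr rfl fun a _ => ?_
    rw [sum_comm]
    refine sum_congr rfl fun b _ => ?_
    have : ∀ x : ℕ, ∑ y ∈ range n, ∑ c ∈ range 2, ∑ z ∈ range n,
        F (2 * x + a + (2 * y + b) + (2 * z + c)) = ∑ c ∈ range 2, ∑ y ∈ range n, ∑ z ∈ range n,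
        F (2 * x + a + (2 * y + b) + (2 * z + c)) := fun x => sum_comm
    simp only [this]
    rw [sum_comm]
    refine sum_congr rfl fun c _ => h2 a b c
  rw [h3]
  simp only [← mul_sum]
  field_simp
  ring

theorem cub_mono {n : ℕ} {F G : ℕ → ℝ} (h : ∀ t, F t ≤ G t) : cub n F ≤ cub n G := by
  unfold cub
  refine mul_le_mul_of_nonneg_left ?_ (by positivity)
  exact sum_le_sum fun a _ => sum_le_sum fun b _ => sum_le_sum fun c _ => h _

theorem cub_add (n : ℕ) (F G : ℕ → ℝ) : cub n (fun t => F t + G t) = cub n F + cub n G := by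
  unfold cub
  simp only [sum_add_distrib]
  ring

theorem cub_mul (n : ℕ) (c : ℝ) (F : ℕ → ℝ) : cub n (fun t => c * F t) = c * cub n F := by
  unfold cub
  simp only [← mul_sum]
  ring

theorem cub_sum {α : Type*} (n : ℕ) (s : Finset α) (F : α → ℕ → ℝ) :
    cub n (fun t => ∑ a ∈ s, F a t) = ∑ a ∈ s, cub n (F a) := by
  classical
  induction s using Finset.induction_on with
  | empty => simp [cub]
  | insert a s ha ih =>
    simp only [sum_insert ha]
    rw [cub_add, ih]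

theorem cub_nonneg {n : ℕ} {F : ℕ → ℝ} (h : ∀ t, 0 ≤ F t) : 0 ≤ cub n F := by
  unfold cub
  exact mul_nonneg (by positivity)
    (sum_nonneg fun a _ => sum_nonneg fun b _ => sum_nonneg fun c _ => h _)

theorem cub_const {n : ℕ} (hn : 1 ≤ n) (c : ℝ) : cub n (fun _ => c) = c := by
  unfold cub
  have hn0 : (n : ℝ) ≠ 0 := by positivity
  simp only [sum_const, card_range, nsmul_eq_mul]
  field_simp

/-- W3 -/
theorem W3 (P R : Fn N) (n L : ℕ) (hL : 1 ≤ L) :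
    Ecube P R n (2 * L) + GapE P R n L ≤ Ecube P R (2 * n) L := by
  have hs : sC N (2 * n) L = sC N n (2 * L) := by
    unfold sC
    congr 4
    ring
  unfold Ecube GapE
  rw [← cub_add, cub_double, hs]
  have h1 : ∀ t : ℕ, Ipl P R (2 * L) (sC N n (2 * L) + ((2 * L * t : ℕ) : ZMod N)) +
      Gap P R L (sC N n (2 * L) + ((2 * L * t : ℕ) : ZMod N)) ≤
      (1 / 8) * ∑ a ∈ range 2, ∑ b ∈ range 2, ∑ c ∈ range 2,
        Ipl P R L (sC N n (2 * L) + ((L * (2 * t + (a + b + c)) : ℕ) : ZMod N)) := by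
    intro t
    have h := W2 P R L hL (sC N n (2 * L) + ((2 * L * t : ℕ) : ZMod N))
    have e : ∀ d : ℕ, sC N n (2 * L) + ((2 * L * t : ℕ) : ZMod N) + ((L * d : ℕ) : ZMod N) =
        sC N n (2 * L) + ((L * (2 * t + d) : ℕ) : ZMod N) := by
      intro d
      rw [add_assoc, ← Nat.cast_add]
      congr 2
      ring
    simp only [e] at h
    exact h
  refine (cub_mono h1).trans (le_of_eq ?_)
  rw [cub_mul]
  congr 1
  rw [cub_sum]
  refine sum_congr rfl fun a _ => ?_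
  rw [cub_sum]
  refine sum_congr rfl fun b _ => ?_
  rw [cub_sum]

theorem beta_nonneg (P R : Fn N) (L : ℕ) (x y z : ZMod N) : 0 ≤ beta P R L x y z :=
  mul_nonneg (by positivity) (tr32_nonneg _)

theorem Ipl_nonneg (P R : Fn N) (L : ℕ) (s : ZMod N) : 0 ≤ Ipl P R L s :=
  mul_nonneg (by positivity) (sum_nonneg fun x _ => sum_nonneg fun y _ => beta_nonneg _ _ _ _ _ _)

theorem Ecube_nonneg (P R : Fn N) (n L : ℕ) : 0 ≤ Ecube P R n L :=
  cub_nonneg fun t => Ipl_nonneg _ _ _ _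

theorem Ipl_one_le (P R : Fn N) (s : ZMod N) : Ipl P R 1 s ≤ 2 * (n3 P ^ 3 + n3 R ^ 3) := by
  have key : ∀ a b : ℝ, 0 ≤ a → 0 ≤ b → (a ^ 2 + b ^ 2) ^ (3 / 2 : ℝ) ≤ 2 * (a ^ 3 + b ^ 3) := by
    intro a b ha hb
    have h0 : 0 ≤ a ^ 2 + b ^ 2 := by positivity
    refine le_of_sq_le_sq ?_ (by positivity)
    rw [← Real.rpow_natCast, ← Real.rpow_mul h0]
    norm_num
    nlinarith [mul_nonneg (mul_nonneg ha hb) (mul_nonneg ha hb), pow_nonneg ha 3, pow_nonneg hb 3,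
      mul_nonneg (sq_nonneg (a ^ 2 - b ^ 2)) h0, mul_nonneg (pow_nonneg ha 3) (pow_nonneg hb 3)]
  have h1 : ∀ x y z : ZMod N, beta P R 1 x y z ≤ 2 * (‖P x y‖ ^ 3 + ‖R x z‖ ^ 3) := by
    intro x y z
    unfold beta
    have hpsd : (Gm P R 1 1 x y z).PosSemidef := by
      rw [Gm_eq]; exact (pN_psd _ _ _ _ _).add (pN_psd _ _ _ _ _)
    rw [tr32_one _ hpsd]
    have h2 : (Gm P R 1 1 x y z 0 0).re = ‖P x y‖ ^ 2 + ‖R x z‖ ^ 2 := by
      rw [Gm_eq, Matrix.add_apply, pN_apply, pN_apply]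
      simp only [sum_range_succ, sum_range_zero, zero_add, Complex.add_re, Complex.mul_conj,
        Complex.ofReal_re, Complex.normSq_eq_norm_sq]
      simp
    rw [h2]
    have := key ‖P x y‖ ‖R x z‖ (norm_nonneg _) (norm_nonneg _)
    simpa using this
  unfold Ipl
  have h3 : ∑ x : ZMod N, ∑ y : ZMod N, beta P R 1 x y (s - x - y) ≤
      ∑ x : ZMod N, ∑ y : ZMod N, 2 * (‖P x y‖ ^ 3 + ‖R x (s - x - y)‖ ^ 3) :=
    sum_le_sum fun x _ => sum_le_sum fun y _ => h1 _ _ _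
  have h4 : ∀ x : ZMod N, ∑ y : ZMod N, ‖R x (s - x - y)‖ ^ 3 = ∑ z : ZMod N, ‖R x z‖ ^ 3 := fun x =>
    Equiv.sum_comp (Equiv.subLeft (s - x)) (fun z => ‖R x z‖ ^ 3)
  have h5 : n3 P ^ 3 = ∑ x : ZMod N, ∑ y : ZMod N, ‖P x y‖ ^ 3 := by
    unfold n3
    rw [l3_pow]
    simp only [abs_norm]
  have h6 : n3 R ^ 3 = ∑ x : ZMod N, ∑ y : ZMod N, ‖R x y‖ ^ 3 := by
    unfold n3
    rw [l3_pow]
    simp only [abs_norm]
  simp only [Nat.cast_one, one_pow, inv_one, one_mul]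
  refine h3.trans (le_of_eq ?_)
  simp only [← mul_sum, sum_add_distrib, h4]
  rw [h5, h6]

/-- W7 -/
theorem W7 (P R : Fn N) (n : ℕ) (hn : 1 ≤ n) : Ecube P R n 1 ≤ 2 * (n3 P ^ 3 + n3 R ^ 3) := by
  have h := cub_mono (n := n) (F := fun t => Ipl P R 1 (sC N n 1 + ((1 * t : ℕ) : ZMod N)))
    (G := fun _ => 2 * (n3 P ^ 3 + n3 R ^ 3)) fun t => Ipl_one_le P R _
  rw [cub_const hn] at h
  exact h

end

end Crest.Agent.R72
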