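import Crest.Agent.R72.WB2

/-!
# Row 72, W part (helper40), WB3: W4 (change of `n`), assembled from WB2
-/

set_option autoImplicit false

namespace Crest.Agent.R72

open Finset Matrix WLA
open scoped ComplexOrder
variable {N : ℕ} [NeZero N]

theorem rpow_aux (l : ℕ) : ((2 * l * l : ℕ) : ℝ) ^ (3 / 2 : ℝ) ≤ 2.9 * (l : ℝ) ^ 3 := by
  have h0 : (0 : ℝ) ≤ ((2 * l * l : ℕ) : ℝ) := Nat.cast_nonneg _
  have h1 : (((2 * l * l : ℕ) : ℝ) ^ (3 / 2 : ℝ)) ^ 2 = 8 * (l : ℝ) ^ 6 := by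
    rw [← Real.rpow_natCast, ← Real.rpow_mul h0]
    norm_num
    ring
  refine le_of_sq_le_sq ?_ (by positivity)
  rw [h1]
  nlinarith [pow_nonneg (Nat.cast_nonneg l : (0:ℝ) ≤ (l:ℝ)) 6]

/-- **W4** -/
theorem w4 (P R : Fn N) (n l r : ℕ) (hn : 1 ≤ n) (hl : 1 ≤ l) (h5 : 5 * n ≤ 2 ^ r)
    (h10 : 2 ^ r ≤ 10 * n) :
    Ecube P R (2 * n) (2 * l) ≤ Ecube P R n (2 * l) + 3000 *
      ((Sf P (2 * l) l - Sf P (2 * l) (2 ^ r * l)) + (Sf R (2 * l) l - Sf R (2 * l) (2 ^ r * l))) := by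
  have hL : 1 ≤ 2 * l := by omega
  have s3 := second_diff P R n (2 * l) hn hL ((3 * n * l : ℕ) : ZMod N)
  have s1 := second_diff P R n (2 * l) hn hL ((1 * n * l : ℕ) : ZMod N)
  have gP3 := GG_le P n l 3 (2 ^ r) hn hl le_rfl h5
  have gR3 := GG_le R n l 3 (2 ^ r) hn hl le_rfl h5
  have gP1 := GG_le P n l 1 (2 ^ r) hn hl (by norm_num) h5
  have gR1 := GG_le R n l 1 (2 ^ r) hn hl (by norm_num) h5
  have hM1 : 1 ≤ 2 ^ r := Nat.one_le_two_pow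
  have dP : 0 ≤ Sf P (2 * l) l - Sf P (2 * l) (2 ^ r * l) := sub_nonneg.2 (Sf_mul_right P _ _ _ hM1)
  have dR : 0 ≤ Sf R (2 * l) l - Sf R (2 * l) (2 ^ r * l) := sub_nonneg.2 (Sf_mul_right R _ _ _ hM1)
  set DP := Sf P (2 * l) l - Sf P (2 * l) (2 ^ r * l) with hDP
  set DR := Sf R (2 * l) l - Sf R (2 * l) (2 ^ r * l) with hDR
  have hn0 : (0 : ℝ) < n := by exact_mod_cast hn
  have hl0 : (0 : ℝ) < l := by exact_mod_cast hl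
  have hMn : (((2 ^ r : ℕ) : ℝ)) ^ 2 ≤ 100 * (n : ℝ) ^ 2 := by
    have h1 : ((2 ^ r : ℕ) : ℝ) ≤ 10 * n := by exact_mod_cast h10
    have h2 : (0 : ℝ) ≤ ((2 ^ r : ℕ) : ℝ) := Nat.cast_nonneg _
    nlinarith
  have hcoef : 9 * (((2 ^ r : ℕ) : ℝ)) ^ 2 * ((2 * l * l : ℕ) : ℝ) ^ (3 / 2 : ℝ) ≤
      9 * (100 * (n : ℝ) ^ 2) * (2.9 * (l : ℝ) ^ 3) := by
    have := rpow_aux l
    gcongr
  set cf := 9 * (((2 ^ r : ℕ) : ℝ)) ^ 2 * ((2 * l * l : ℕ) : ℝ) ^ (3 / 2 : ℝ) with hcf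
  have hinv : (0 : ℝ) ≤ ((n : ℝ) ^ 2 * ((2 * l : ℕ) : ℝ) ^ 3)⁻¹ := by positivity
  have hkey : 18 * ((n : ℝ) ^ 2 * ((2 * l : ℕ) : ℝ) ^ 3)⁻¹ * (cf * DP + cf * DR) ≤
      6000 * (DP + DR) := by
    have h1 : 18 * ((n : ℝ) ^ 2 * ((2 * l : ℕ) : ℝ) ^ 3)⁻¹ * (cf * DP + cf * DR) =
        (18 * ((n : ℝ) ^ 2 * ((2 * l : ℕ) : ℝ) ^ 3)⁻¹ * cf) * (DP + DR) := by ring
    rw [h1]
    refine mul_le_mul_of_nonneg_right ?_ (add_nonneg dP dR)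
    calc 18 * ((n : ℝ) ^ 2 * ((2 * l : ℕ) : ℝ) ^ 3)⁻¹ * cf
        ≤ 18 * ((n : ℝ) ^ 2 * ((2 * l : ℕ) : ℝ) ^ 3)⁻¹ *
          (9 * (100 * (n : ℝ) ^ 2) * (2.9 * (l : ℝ) ^ 3)) := by gcongr
      _ = 5872.5 := by
          push_cast
          field_simp
          norm_num
      _ ≤ 6000 := by norm_num
  have t3 : It P R n (2 * l) ((3 * n * l : ℕ) : ZMod N) + It P R n (2 * l) (-((3 * n * l : ℕ) : ZMod N)) -
      2 * It P R n (2 * l) 0 ≤ 6000 * (DP + DR) := by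
    refine s3.trans (le_trans ?_ hkey)
    gcongr
  have t1 : It P R n (2 * l) ((1 * n * l : ℕ) : ZMod N) + It P R n (2 * l) (-((1 * n * l : ℕ) : ZMod N)) -
      2 * It P R n (2 * l) 0 ≤ 6000 * (DP + DR) := by
    refine s1.trans (le_trans ?_ hkey)
    gcongr
  rw [Ecube_two, ← It_zero]
  linarith
end Crest.Agent.R72
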