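import Crest.Agent.R72.WC1

/-!
# Row 72, W part (helper40), WC2: Hölder and Hardy–Littlewood for the change weights
-/

set_option autoImplicit false
set_option linter.unusedSectionVars false

namespace Crest.Agent.R72

open Finset Matrix WLA
open scoped ComplexOrder

variable {N : ℕ} [NeZero N]

theorem mx1_nonneg {u : ZMod N → ZMod N → ℝ} (hu : ∀ x y, 0 ≤ u x y) (x z : ZMod N) :
    0 ≤ mx1 u x z := mx_nonneg (fun y => hu y z) x

theorem mx2_nonneg {u : ZMod N → ZMod N → ℝ} (hu : ∀ x y, 0 ≤ u x y) (x z : ZMod N) :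
    0 ≤ mx2 u x z := mx_nonneg (fun y => hu x y) z

theorem wS_nonneg (b : ZMod N → ZMod N → ℝ) (x z : ZMod N) : 0 ≤ wS b x z :=
  mul_nonneg (Real.sqrt_nonneg _) (Real.sqrt_nonneg _)

theorem wE_nonneg (P : Fn N) (b : ZMod N → ZMod N → ℝ) (x z : ZMod N) : 0 ≤ wE P b x z :=
  mul_nonneg (Real.sqrt_nonneg _) (Real.sqrt_nonneg _)

theorem sum_wS_le {b : ZMod N → ZMod N → ℝ} (hb : ∀ x z, 0 ≤ b x z) :
    ∑ x : ZMod N, ∑ z : ZMod N, b x z * wS b x z ≤ 9 * l3 b ^ 3 := by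
  have h := holder3 b (fun x y => Real.sqrt (mx1 (fun x z => b x z ^ 2) x y))
    (fun x y => Real.sqrt (mx2 (fun x z => b x z ^ 2) x y))
  have h1 : l3 (fun x y => Real.sqrt (mx1 (fun x z => b x z ^ 2) x y)) ≤ 3 * l3 b :=
    l3_sqrt_mx_left b
  have h2 : l3 (fun x y => Real.sqrt (mx2 (fun x z => b x z ^ 2) x y)) ≤ 3 * l3 b :=
    l3_sqrt_mx_right b
  have h0 := l3_nonneg b
  calc ∑ x : ZMod N, ∑ z : ZMod N, b x z * wS b x z
      = ∑ x : ZMod N, ∑ y : ZMod N, |b x y| * |Real.sqrt (mx1 (fun x z => b x z ^ 2) x y)| *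
        |Real.sqrt (mx2 (fun x z => b x z ^ 2) x y)| := by
        refine sum_congr rfl fun x _ => sum_congr rfl fun z _ => ?_
        rw [abs_of_nonneg (hb x z), abs_of_nonneg (Real.sqrt_nonneg _),
          abs_of_nonneg (Real.sqrt_nonneg _), wS, mul_assoc]
    _ ≤ l3 b * (3 * l3 b) * (3 * l3 b) := by
        refine h.trans ?_
        have e1 := l3_nonneg (fun x y => Real.sqrt (mx1 (fun x z => b x z ^ 2) x y))
        have e2 := l3_nonneg (fun x y => Real.sqrt (mx2 (fun x z => b x z ^ 2) x y))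
        gcongr
    _ = 9 * l3 b ^ 3 := by ring

/-- `(x, z) ↦ (x, -x - z)` -/
def sh (N : ℕ) : (ZMod N × ZMod N) ≃ (ZMod N × ZMod N) where
  toFun p := (p.1, -p.1 - p.2)
  invFun p := (p.1, -p.1 - p.2)
  left_inv p := by ext <;> simp
  right_inv p := by ext <;> simp

theorem sum_wE_le (P : Fn N) {b : ZMod N → ZMod N → ℝ} (hb : ∀ x z, 0 ≤ b x z) :
    ∑ x : ZMod N, ∑ z : ZMod N, b x z * wE P b x z ≤
      18 * (n3 P * l3 b ^ 2) + 9 * l3 b ^ 3 := by
  have h := holder3 b (fun x y => Real.sqrt (mx1 (fun x z => b x z ^ 2) x y))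
    (fun x z => 2 * Real.sqrt (mx2 (fun x y => ‖P x y‖ ^ 2) x (-x - z)) +
      Real.sqrt (mx2 (fun x z => b x z ^ 2) x z))
  have h1 : l3 (fun x y => Real.sqrt (mx1 (fun x z => b x z ^ 2) x y)) ≤ 3 * l3 b :=
    l3_sqrt_mx_left b
  have h2 : l3 (fun x y => Real.sqrt (mx2 (fun x z => b x z ^ 2) x y)) ≤ 3 * l3 b :=
    l3_sqrt_mx_right b
  have h3 : l3 (fun x y => Real.sqrt (mx2 (fun x y => ‖P x y‖ ^ 2) x y)) ≤ 3 * n3 P :=
    l3_sqrt_mx_right (fun x y => ‖P x y‖)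
  have h4 : l3 (fun x z => Real.sqrt (mx2 (fun x y => ‖P x y‖ ^ 2) x (-x - z))) =
      l3 (fun x y => Real.sqrt (mx2 (fun x y => ‖P x y‖ ^ 2) x y)) :=
    l3_equiv (sh N) (fun x y => Real.sqrt (mx2 (fun x y => ‖P x y‖ ^ 2) x y))
  have h5 : l3 (fun x z => 2 * Real.sqrt (mx2 (fun x y => ‖P x y‖ ^ 2) x (-x - z)) +
      Real.sqrt (mx2 (fun x z => b x z ^ 2) x z)) ≤ 6 * n3 P + 3 * l3 b := by
    refine (l3_add_le _ _).trans ?_
    rw [l3_smul, h4, abs_two]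
    linarith
  have h0 := l3_nonneg b
  have hn := l3_nonneg (fun x y => ‖P x y‖)
  have hn' : 0 ≤ n3 P := hn
  have hsum : ∑ x : ZMod N, ∑ z : ZMod N, b x z * wE P b x z ≤
      ∑ x : ZMod N, ∑ y : ZMod N, |b x y| * |Real.sqrt (mx1 (fun x z => b x z ^ 2) x y)| *
        |2 * Real.sqrt (mx2 (fun x y => ‖P x y‖ ^ 2) x (-x - y)) +
          Real.sqrt (mx2 (fun x z => b x z ^ 2) x y)| := by
    refine sum_le_sum fun x _ => sum_le_sum fun z _ => ?_
    have hM : 0 ≤ mx2 (fun x y => ‖P x y‖ ^ 2) x (-x - z) :=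
      mx2_nonneg (fun x y => sq_nonneg _) x _
    have hm : 0 ≤ mx2 (fun x z => b x z ^ 2) x z := mx2_nonneg (fun x y => sq_nonneg _) x z
    have hs : Real.sqrt (4 * mx2 (fun x y => ‖P x y‖ ^ 2) x (-x - z) +
        mx2 (fun x z => b x z ^ 2) x z) ≤
        2 * Real.sqrt (mx2 (fun x y => ‖P x y‖ ^ 2) x (-x - z)) +
          Real.sqrt (mx2 (fun x z => b x z ^ 2) x z) := by
      refine Real.sqrt_le_iff.2 ⟨by positivity, ?_⟩
      have e1 := Real.sq_sqrt hM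
      have e2 := Real.sq_sqrt hm
      have e3 : 0 ≤ Real.sqrt (mx2 (fun x y => ‖P x y‖ ^ 2) x (-x - z)) *
        Real.sqrt (mx2 (fun x z => b x z ^ 2) x z) := by positivity
      nlinarith
    rw [abs_of_nonneg (hb x z), abs_of_nonneg (Real.sqrt_nonneg _), abs_of_nonneg (by positivity),
      wE, mul_assoc]
    have hb' := hb x z
    gcongr
  calc ∑ x : ZMod N, ∑ z : ZMod N, b x z * wE P b x z
      ≤ l3 b * (3 * l3 b) * (6 * n3 P + 3 * l3 b) := by
        refine (hsum.trans h).trans ?_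
        have e1 := l3_nonneg (fun x y => Real.sqrt (mx1 (fun x z => b x z ^ 2) x y))
        have e2 := l3_nonneg (fun x z => 2 * Real.sqrt (mx2 (fun x y => ‖P x y‖ ^ 2) x (-x - z)) +
          Real.sqrt (mx2 (fun x z => b x z ^ 2) x z))
        gcongr
    _ = 18 * (n3 P * l3 b ^ 2) + 9 * l3 b ^ 3 := by ring

end Crest.Agent.R72
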