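import Crest.Agent.R72.WA1
import Crest.Agent.R72.WB3
import Crest.Agent.R72.WC2

/-!
# Row 72, W part (helper40), WA2: the master inequalities `mi_fixed`, `mi_var`
-/

set_option autoImplicit false
set_option linter.unusedSectionVars false

namespace Crest.Agent.R72

open Finset Matrix WLA
open scoped ComplexOrder

theorem exists_r (n : ℕ) (hn : 1 ≤ n) : ∃ r : ℕ, 5 * n ≤ 2 ^ r ∧ 2 ^ r ≤ 10 * n ∧
    (r : ℝ) ≤ 5 * (1 + Real.log n) := by
  have h1 : 1 < 5 * n := by omega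
  refine ⟨Nat.clog 2 (5 * n), Nat.le_pow_clog (by norm_num) _, ?_, ?_⟩
  · have h2 := Nat.pow_pred_clog_lt_self (b := 2) (by norm_num) h1
    have h3 : 0 < Nat.clog 2 (5 * n) := Nat.clog_pos (by norm_num) h1
    have h4 : 2 ^ Nat.clog 2 (5 * n) = 2 * 2 ^ (Nat.clog 2 (5 * n)).pred := by
      rw [← pow_succ', Nat.pred_eq_sub_one]
      congr 1; omega
    omega
  · have h2 := Nat.pow_pred_clog_lt_self (b := 2) (by norm_num) h1
    have h3 : 0 < Nat.clog 2 (5 * n) := Nat.clog_pos (by norm_num) h1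
    have h4 : 2 ^ Nat.clog 2 (5 * n) ≤ 16 * n := by
      have h5 : 2 ^ Nat.clog 2 (5 * n) = 2 * 2 ^ (Nat.clog 2 (5 * n)).pred := by
        rw [← pow_succ', Nat.pred_eq_sub_one]
        congr 1; omega
      omega
    generalize Nat.clog 2 (5 * n) = r at h4 ⊢
    have hn0 : (0 : ℝ) < n := by exact_mod_cast hn
    have h5 : (2 : ℝ) ^ r ≤ 2 ^ 4 * n := by
      have : ((2 ^ r : ℕ) : ℝ) ≤ ((16 * n : ℕ) : ℝ) := by exact_mod_cast h4
      push_cast at this
      linarith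
    have h6 := Real.log_le_log (by positivity) h5
    rw [Real.log_mul (by positivity) hn0.ne', Real.log_pow, Real.log_pow] at h6
    have h7 := Real.log_two_gt_d9
    have h8 : 0 ≤ Real.log n := Real.log_nonneg (by exact_mod_cast hn)
    push_cast at h6
    nlinarith

variable {N : ℕ} [NeZero N]

private theorem n3_nonneg (P : Fn N) : 0 ≤ n3 P := l3_nonneg _

theorem n3_le_l3 {R : Fn N} {b : ZMod N → ZMod N → ℝ} (h : ∀ x z, ‖R x z‖ ≤ b x z) :
    n3 R ≤ l3 b := by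
  refine l3_mono fun x y => ?_
  rw [abs_norm]
  exact (h x y).trans (le_abs_self _)

/-- one step, `k ≥ 1` -/
theorem step (P R : Fn N) (n r k : ℕ) (hn : 1 ≤ n) (h5 : 5 * n ≤ 2 ^ r) (h10 : 2 ^ r ≤ 10 * n) :
    GapE P R n (2 ^ (k + 1)) ≤ Ecube P R n (2 ^ (k + 1)) - Ecube P R n (2 ^ (k + 2)) + 3000 *
      ((Sf P (2 ^ (k + 1)) (2 ^ k) - Sf P (2 ^ (k + 1)) (2 ^ r * 2 ^ k)) +
        (Sf R (2 ^ (k + 1)) (2 ^ k) - Sf R (2 ^ (k + 1)) (2 ^ r * 2 ^ k))) := by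
  have h1 := W3 P R n (2 ^ (k + 1)) Nat.one_le_two_pow
  have h2 := w4 P R n (2 ^ k) r hn Nat.one_le_two_pow h5 h10
  have e1 : 2 * 2 ^ (k + 1) = 2 ^ (k + 2) := by ring
  have e2 : 2 * 2 ^ k = 2 ^ (k + 1) := by ring
  rw [e1] at h1
  rw [e2] at h2
  linarith

/-- the first step -/
theorem step0 (P R : Fn N) (n : ℕ) (hn : 1 ≤ n) :
    GapE P R n 1 ≤ 2 * (n3 P ^ 3 + n3 R ^ 3) - Ecube P R n 2 := by
  have h1 := W3 P R n 1 le_rfl
  have h2 := W7 P R (2 * n) (by omega)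
  rw [mul_one] at h1
  linarith

theorem mi_fixed : MIfixed := by
  refine ⟨15002, ?_⟩
  intro N _ n K hn P R
  obtain ⟨r, h5, h10, hr⟩ := exists_r n hn
  have hlog : 0 ≤ Real.log n := Real.log_nonneg (by exact_mod_cast hn)
  have hP := n3_nonneg P
  have hR := n3_nonneg R
  have hT : 0 ≤ n3 P ^ 3 + n3 R ^ 3 := by positivity
  rcases K with _ | K
  · rw [range_zero, sum_empty]
    exact mul_nonneg (by positivity) hT
  have hind : ∀ K : ℕ, ∑ k ∈ range (K + 1), GapE P R n (2 ^ k) ≤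
      2 * (n3 P ^ 3 + n3 R ^ 3) - Ecube P R n (2 ^ (K + 1)) + 3000 *
      ∑ k ∈ range K, ((Sf P (2 ^ (k + 1)) (2 ^ k) - Sf P (2 ^ (k + 1)) (2 ^ r * 2 ^ k)) +
        (Sf R (2 ^ (k + 1)) (2 ^ k) - Sf R (2 ^ (k + 1)) (2 ^ r * 2 ^ k))) := by
    intro K
    induction K with
    | zero =>
      have := step0 P R n hn
      simpa using this
    | succ K ih =>
      rw [sum_range_succ (fun k => GapE P R n (2 ^ k)) (K + 1), sum_range_succ
        (fun k => ((Sf P (2 ^ (k + 1)) (2 ^ k) - Sf P (2 ^ (k + 1)) (2 ^ r * 2 ^ k)) +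
        (Sf R (2 ^ (k + 1)) (2 ^ k) - Sf R (2 ^ (k + 1)) (2 ^ r * 2 ^ k)))) K, mul_add]
      have := step P R n r K hn h5 h10
      have e : K + 1 + 1 = K + 2 := rfl
      rw [e]
      linarith
  have h1 := hind K
  have h2 := Ecube_nonneg P R n (2 ^ (K + 1))
  have h3 := tele_fixed P K r
  have h4 := tele_fixed R K r
  rw [sum_add_distrib] at h1
  have h6 : (r : ℝ) * (n3 P ^ 3 + n3 R ^ 3) ≤ 5 * (1 + Real.log n) * (n3 P ^ 3 + n3 R ^ 3) :=
    mul_le_mul_of_nonneg_right hr hT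
  have h7 : 0 ≤ Real.log n * (n3 P ^ 3 + n3 R ^ 3) := mul_nonneg hlog hT
  nlinarith

/-- summation of the changes -/
theorem sum_change_le {K : ℕ} {R : ℕ → Fn N} {b : ZMod N → ZMod N → ℝ} {V : ℝ}
    (hV : ∀ x z, ∑ k ∈ range K, ‖R (k + 1) x z - R k x z‖ ≤ V * b x z)
    {w : ZMod N → ZMod N → ℝ} (hw : ∀ x z, 0 ≤ w x z) :
    ∑ k ∈ range K, 3 * ∑ x : ZMod N, ∑ z : ZMod N, ‖R (k + 1) x z - R k x z‖ * w x z ≤
      3 * V * ∑ x : ZMod N, ∑ z : ZMod N, b x z * w x z := by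
  rw [← mul_sum, mul_assoc]
  refine mul_le_mul_of_nonneg_left ?_ (by norm_num)
  rw [sum_comm, mul_sum]
  refine sum_le_sum fun x _ => ?_
  rw [sum_comm, mul_sum]
  refine sum_le_sum fun z _ => ?_
  rw [← sum_mul, ← mul_assoc]
  exact mul_le_mul_of_nonneg_right (hV x z) (hw x z)

theorem mi_var : MIvar := by
  refine ⟨500000, ?_⟩
  intro N _ n K hn P R b V hV1 hb hR hV
  obtain ⟨r, h5, h10, hr⟩ := exists_r n hn
  have hlog : 0 ≤ Real.log n := Real.log_nonneg (by exact_mod_cast hn)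
  have hP := n3_nonneg P
  have hb0 := l3_nonneg b
  have hV0 : 0 ≤ V := zero_le_one.trans hV1
  rcases K with _ | K
  · rw [range_zero, sum_empty]
    positivity
  have hR0 : n3 (R 0) ≤ l3 b := n3_le_l3 (hR 0)
  have hR03 : n3 (R 0) ^ 3 ≤ l3 b ^ 3 := pow_le_pow_left₀ (n3_nonneg _) hR0 3
  set chE : ℕ → ℝ := fun k => 3 * ∑ x : ZMod N, ∑ z : ZMod N, ‖R (k + 1) x z - R k x z‖ * wE P b x z
    with hchE
  have hch : ∀ k, Ecube P (R (k + 1)) n (2 ^ (k + 1)) ≤ Ecube P (R k) n (2 ^ (k + 1)) + chE k := by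
    intro k
    have := chg_E P (R k) (R (k + 1)) b (hR k) (hR (k + 1)) n (2 ^ k) hn Nat.one_le_two_pow
    have e2 : 2 * 2 ^ k = 2 ^ (k + 1) := by ring
    rw [e2] at this
    exact this
  have hind : ∀ K : ℕ, ∑ k ∈ range (K + 1), GapE P (R k) n (2 ^ k) ≤
      2 * (n3 P ^ 3 + l3 b ^ 3) - Ecube P (R (K + 1)) n (2 ^ (K + 1)) + ∑ k ∈ range (K + 1), chE k +
      3000 * ∑ k ∈ range K, ((Sf P (2 ^ (k + 1)) (2 ^ k) - Sf P (2 ^ (k + 1)) (2 ^ r * 2 ^ k)) +
        (Sf (R (k + 1)) (2 ^ (k + 1)) (2 ^ k) -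
          Sf (R (k + 1)) (2 ^ (k + 1)) (2 ^ r * 2 ^ k))) := by
    intro K
    induction K with
    | zero =>
      have h1 := step0 P (R 0) n hn
      have h2 := hch 0
      simp only [zero_add, pow_one, pow_zero, range_one, sum_singleton, range_zero, sum_empty,
        mul_zero, add_zero] at h1 h2 ⊢
      linarith
    | succ K ih =>
      rw [sum_range_succ (fun k => GapE P (R k) n (2 ^ k)) (K + 1), sum_range_succ chE (K + 1),
        sum_range_succ (fun k => ((Sf P (2 ^ (k + 1)) (2 ^ k) -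
          Sf P (2 ^ (k + 1)) (2 ^ r * 2 ^ k)) +
        (Sf (R (k + 1)) (2 ^ (k + 1)) (2 ^ k) -
          Sf (R (k + 1)) (2 ^ (k + 1)) (2 ^ r * 2 ^ k)))) K, mul_add]
      have h1 := step P (R (K + 1)) n r K hn h5 h10
      have h2 := hch (K + 1)
      have e : K + 1 + 1 = K + 2 := rfl
      rw [e] at h2 ⊢
      linarith
  have h1 := hind K
  have h2 := Ecube_nonneg P (R (K + 1)) n (2 ^ (K + 1))
  have h3 := tele_fixed P K r
  have h4 := tele_var (fun k => R (k + 1)) b (fun k => hR (k + 1)) K r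
  have h6 : ∑ k ∈ range (K + 1), chE k ≤ 3 * V * (18 * (n3 P * l3 b ^ 2) + 9 * l3 b ^ 3) := by
    refine (sum_change_le (w := wE P b) hV (wE_nonneg P b)).trans ?_
    exact mul_le_mul_of_nonneg_left (sum_wE_le P hb) (by positivity)
  have hV' : ∀ x z, ∑ k ∈ range K, ‖R (k + 1 + 1) x z - R (k + 1) x z‖ ≤ V * b x z := by
    intro x z
    refine le_trans ?_ (hV x z)
    rw [sum_range_succ' (fun k => ‖R (k + 1) x z - R k x z‖)]
    linarith [norm_nonneg (R (0 + 1) x z - R 0 x z)]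
  have h7 : ∑ k ∈ range K, 3 * ∑ x : ZMod N, ∑ z : ZMod N,
      ‖R (k + 1 + 1) x z - R (k + 1) x z‖ * wS b x z ≤ 3 * V * (9 * l3 b ^ 3) := by
    refine (sum_change_le (R := fun k => R (k + 1)) (w := wS b) hV' (wS_nonneg b)).trans ?_
    exact mul_le_mul_of_nonneg_left (sum_wS_le hb) (by positivity)
  rw [sum_add_distrib] at h1
  have h8 : ∑ k ∈ range K, (Sf (R (k + 1)) (2 ^ (k + 1)) (2 ^ k) -
      Sf (R (k + 1)) (2 ^ (k + 1)) (2 ^ r * 2 ^ k)) ≤ r * (l3 b ^ 3 + 3 * V * (9 * l3 b ^ 3)) := by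
    refine h4.trans ?_
    gcongr
  set p := n3 P ^ 3 with hp
  set q := l3 b ^ 3 with hq
  set s := n3 P * l3 b ^ 2 with hs
  have hp0 : 0 ≤ p := by positivity
  have hq0 : 0 ≤ q := by positivity
  have hs0 : 0 ≤ s := by positivity
  have hVq : 0 ≤ V * q := by positivity
  have hVs : 0 ≤ V * s := by positivity
  have h9 : ∑ k ∈ range (K + 1), GapE P (R k) n (2 ^ k) ≤
      2 * (p + q) + 3 * V * (18 * s + 9 * q) + 3000 * (r * p + r * (q + 3 * V * (9 * q))) := by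
    linarith
  refine h9.trans ?_
  have h10 : (r : ℝ) * (p + (q + 27 * (V * q))) ≤ 5 * (1 + Real.log n) * (p + (q + 27 * (V * q))) :=
    mul_le_mul_of_nonneg_right hr (by positivity)
  have l1 : 0 ≤ Real.log n * p := by positivity
  have l2 : 0 ≤ Real.log n * q := by positivity
  have l3' : 0 ≤ Real.log n * (V * q) := by positivity
  have l4 : 0 ≤ Real.log n * (V * s) := by positivity
  nlinarith

end Crest.Agent.R72
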