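import Crest.Agent.R72.WLA

/-!
# Row 72, W part (helper40), WB1: the single function functional `Sf` (W5, W6)

`pN P L M x y = blk blk*`.  `Sf` is monotone under multiplication of either side by an integer, `Sf ≤ n3 ^ 3`,
telescoping sum.
-/

set_option autoImplicit false
set_option linter.unusedSectionVars false

namespace Crest.Agent.R72

open Finset Matrix WLA
open scoped ComplexOrder

variable {N : ℕ}

/-- `blk blk*` -/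
def pN (P : Fn N) (L M : ℕ) (x y : ZMod N) : Matrix (Fin L) (Fin L) ℂ :=
  blk P x y L M * (blk P x y L M)ᴴ

theorem pN_psd (P : Fn N) (L M : ℕ) (x y : ZMod N) : (pN P L M x y).PosSemidef :=
  posSemidef_self_mul_conjTranspose _

theorem Gm_eq (P R : Fn N) (L M : ℕ) (x y z : ZMod N) :
    Gm P R L M x y z = pN P L M x y + pN R L M x z := rfl

theorem pN_apply (P : Fn N) (L M : ℕ) (x y : ZMod N) (i i' : Fin L) :
    pN P L M x y i i' = ∑ j ∈ range M, P (x + ((i : ℕ) : ZMod N)) (y + (j : ZMod N)) *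
      (starRingEnd ℂ) (P (x + ((i' : ℕ) : ZMod N)) (y + (j : ZMod N))) := by
  rw [Finset.sum_range]
  rfl

/-- [WB_PN] cutting the columns. Entrywise (`pN_apply`): `range (m * l)` = `i * l + j`
(`Finset.sum_range_mul`-type lemma, or induction on `m` with `Finset.sum_range_add`/`Finset.range_add`). -/
theorem pN_mul (P : Fn N) (L m l : ℕ) (x y : ZMod N) :
    pN P L (m * l) x y = ∑ i ∈ range m, pN P L l x (y + ((i * l : ℕ) : ZMod N)) := by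
  ext a b
  rw [Matrix.sum_apply, pN_apply]
  induction m with
  | zero => simp
  | succ m ih =>
    rw [Finset.sum_range_succ, ← ih, Nat.succ_mul, Finset.sum_range_add]
    congr 1
    rw [pN_apply]
    refine Finset.sum_congr rfl fun j _ => ?_
    rw [Nat.cast_add, ← add_assoc]

section
variable [NeZero N]

theorem Sf_eq (P : Fn N) (L₀ L₁ : ℕ) : Sf P L₀ L₁ = (((L₀ * L₁ : ℕ) : ℝ) ^ (3 / 2 : ℝ))⁻¹ *
    ∑ x : ZMod N, ∑ y : ZMod N, tr32 (pN P L₀ L₁ x y) := rfl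

theorem Sf_nonneg (P : Fn N) (L₀ L₁ : ℕ) : 0 ≤ Sf P L₀ L₁ := by
  rw [Sf_eq]
  exact mul_nonneg (by positivity) (sum_nonneg fun x _ => sum_nonneg fun y _ => tr32_nonneg _)

/-- [WB_SR] `tr32 (∑_{i<m} p_i) = m^{3/2} tr32 (mean) ≤ m^{3/2} m⁻¹ ∑ tr32 (p_i)` (`pN_mul`, `la_smul`,
`la_jensen`), and the sum over `y` is translation invariant. -/
theorem Sf_mul_right (P : Fn N) (L₀ L₁ m : ℕ) (hm : 1 ≤ m) :
    Sf P L₀ (m * L₁) ≤ Sf P L₀ L₁ := by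
  have hm0 : (0 : ℝ) < m := by exact_mod_cast hm
  have hmC : (m : ℂ) ≠ 0 := by exact_mod_cast hm0.ne'
  have hpow : (0 : ℝ) < (m : ℝ) ^ (3 / 2 : ℝ) := Real.rpow_pos_of_pos hm0 _
  -- Jensen
  have h1 : ∀ x y : ZMod N, tr32 (pN P L₀ (m * L₁) x y) ≤ (m : ℝ) ^ (3 / 2 : ℝ) *
      ((m : ℝ)⁻¹ * ∑ i ∈ range m, tr32 (pN P L₀ L₁ x (y + ((i * L₁ : ℕ) : ZMod N)))) := by
    intro x y
    have hps : ∀ i ∈ range m, (pN P L₀ L₁ x (y + ((i * L₁ : ℕ) : ZMod N))).PosSemidef :=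
      fun i _ => pN_psd _ _ _ _ _
    have hj := WLA.la_jensen (range m) ⟨0, mem_range.2 hm⟩
      (fun i => pN P L₀ L₁ x (y + ((i * L₁ : ℕ) : ZMod N))) hps
    rw [card_range] at hj
    have hpsd : ((m : ℂ)⁻¹ • ∑ i ∈ range m,
        pN P L₀ L₁ x (y + ((i * L₁ : ℕ) : ZMod N))).PosSemidef := by
      refine (posSemidef_sum _ hps).smul ?_
      rw [← Complex.ofReal_natCast, ← Complex.ofReal_inv]
      exact_mod_cast (inv_nonneg.2 hm0.le)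
    have e1 : pN P L₀ (m * L₁) x y = ((m : ℝ) : ℂ) • ((m : ℂ)⁻¹ • ∑ i ∈ range m,
        pN P L₀ L₁ x (y + ((i * L₁ : ℕ) : ZMod N))) := by
      rw [pN_mul, smul_smul, Complex.ofReal_natCast, mul_inv_cancel₀ hmC, one_smul]
    rw [e1, la_smul hpsd hm0.le]
    exact mul_le_mul_of_nonneg_left hj hpow.le
  have h2 : ∀ x : ZMod N, ∑ y : ZMod N, tr32 (pN P L₀ (m * L₁) x y) ≤
      (m : ℝ) ^ (3 / 2 : ℝ) * ∑ y : ZMod N, tr32 (pN P L₀ L₁ x y) := by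
    intro x
    refine (sum_le_sum fun y _ => h1 x y).trans ?_
    rw [← mul_sum, ← mul_sum, sum_comm]
    have h3 : ∀ i ∈ range m, ∑ y : ZMod N, tr32 (pN P L₀ L₁ x (y + ((i * L₁ : ℕ) : ZMod N))) =
        ∑ y : ZMod N, tr32 (pN P L₀ L₁ x y) := fun i _ =>
      Equiv.sum_comp (Equiv.addRight (((i * L₁ : ℕ) : ZMod N)))
        (fun y => tr32 (pN P L₀ L₁ x y))
    rw [sum_congr rfl h3, sum_const, card_range, nsmul_eq_mul, inv_mul_cancel_left₀ hm0.ne']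
  rw [Sf_eq, Sf_eq]
  have h4 : (((L₀ * (m * L₁) : ℕ) : ℝ) ^ (3 / 2 : ℝ)) =
      (m : ℝ) ^ (3 / 2 : ℝ) * ((L₀ * L₁ : ℕ) : ℝ) ^ (3 / 2 : ℝ) := by
    rw [← Real.mul_rpow hm0.le (by positivity)]
    congr 1
    push_cast
    ring
  rw [h4, mul_inv]
  calc ((m : ℝ) ^ (3 / 2 : ℝ))⁻¹ * (((L₀ * L₁ : ℕ) : ℝ) ^ (3 / 2 : ℝ))⁻¹ *
        ∑ x : ZMod N, ∑ y : ZMod N, tr32 (pN P L₀ (m * L₁) x y)
      ≤ ((m : ℝ) ^ (3 / 2 : ℝ))⁻¹ * (((L₀ * L₁ : ℕ) : ℝ) ^ (3 / 2 : ℝ))⁻¹ *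
        ((m : ℝ) ^ (3 / 2 : ℝ) * ∑ x : ZMod N, ∑ y : ZMod N, tr32 (pN P L₀ L₁ x y)) := by
        refine mul_le_mul_of_nonneg_left ?_ (by positivity)
        rw [mul_sum]
        exact sum_le_sum fun x _ => h2 x
    _ = (((L₀ * L₁ : ℕ) : ℝ) ^ (3 / 2 : ℝ))⁻¹ *
        ∑ x : ZMod N, ∑ y : ZMod N, tr32 (pN P L₀ L₁ x y) := by
        field_simp

/-- [WB_ST] `blk (cT P) y x L₁ L₀ = (blk P x y L₀ L₁)ᴴ`, `la_conj`. -/
theorem Sf_cT (P : Fn N) (L₀ L₁ : ℕ) : Sf (cT P) L₁ L₀ = Sf P L₀ L₁ := by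
  rw [Sf_eq, Sf_eq, Nat.mul_comm L₁ L₀, Finset.sum_comm]
  congr 1
  refine Finset.sum_congr rfl fun y _ => Finset.sum_congr rfl fun x _ => ?_
  have h : blk (cT P) x y L₁ L₀ = (blk P y x L₀ L₁)ᴴ := by
    ext i j
    rfl
  unfold pN
  rw [h, conjTranspose_conjTranspose]
  exact la_conj _

theorem cT_cT (P : Fn N) : cT (cT P) = P := by
  funext x y
  simp [cT]

theorem Sf_mul_left (P : Fn N) (L₀ L₁ m : ℕ) (hm : 1 ≤ m) :
    Sf P (m * L₀) L₁ ≤ Sf P L₀ L₁ := by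
  rw [← Sf_cT, ← Sf_cT P L₀ L₁]
  exact Sf_mul_right _ _ _ _ hm

/-- `n3 P ^ 3 = ∑ ‖P‖³` -/
theorem l3_pow (u : ZMod N → ZMod N → ℝ) : l3 u ^ 3 = ∑ x : ZMod N, ∑ y : ZMod N, |u x y| ^ 3 := by
  unfold l3
  rw [← Real.rpow_natCast, ← Real.rpow_mul (sum_nonneg fun x _ => sum_nonneg fun y _ => by positivity)]
  norm_num

/-- [WB_S1] `1 × 1` blocks (`tr32_one`). -/
theorem Sf_one (P : Fn N) : Sf P 1 1 = n3 P ^ 3 := by
  unfold n3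
  rw [l3_pow, Sf_eq]
  simp only [mul_one, Nat.cast_one, Real.one_rpow, inv_one, one_mul]
  refine Finset.sum_congr rfl fun x _ => Finset.sum_congr rfl fun y _ => ?_
  rw [tr32_one _ (pN_psd P 1 1 x y), pN_apply]
  have h : (∑ j ∈ range 1, P (x + (((0 : Fin 1) : ℕ) : ZMod N)) (y + (j : ZMod N)) *
      (starRingEnd ℂ) (P (x + (((0 : Fin 1) : ℕ) : ZMod N)) (y + (j : ZMod N)))) =
      ((‖P x y‖ ^ 2 : ℝ) : ℂ) := by
    simp [Complex.mul_conj, Complex.normSq_eq_norm_sq]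
  rw [h, Complex.ofReal_re, abs_of_nonneg (norm_nonneg _), ← Real.rpow_natCast ‖P x y‖ 2,
    ← Real.rpow_mul (norm_nonneg _), ← Real.rpow_natCast ‖P x y‖ 3]
  norm_num

theorem Sf_le (P : Fn N) (L₀ L₁ : ℕ) (h0 : 1 ≤ L₀) (h1 : 1 ≤ L₁) : Sf P L₀ L₁ ≤ n3 P ^ 3 := by
  rw [← Sf_one]
  calc Sf P L₀ L₁ = Sf P (L₀ * 1) (L₁ * 1) := by rw [mul_one, mul_one]
    _ ≤ Sf P 1 (L₁ * 1) := Sf_mul_left _ _ _ _ h0
    _ ≤ Sf P 1 1 := Sf_mul_right _ _ _ _ h1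

/-- [WB_TEL] W6: telescoping. `∑_k ∑_{i<r} [S(2^{k+1},2^{k+i}) - S(2^{k+1},2^{k+i+1})]`,
`S(2^{k+1},2^{k+i+1}) ≥ S(2^{k+2},2^{k+i+1})`, exchange the sums, telescope in `k`. -/
theorem tele_fixed (P : Fn N) (K r : ℕ) :
    ∑ k ∈ range K, (Sf P (2 ^ (k + 1)) (2 ^ k) - Sf P (2 ^ (k + 1)) (2 ^ r * 2 ^ k)) ≤
      r * n3 P ^ 3 := by
  have h1 : ∀ k ∈ range K, Sf P (2 ^ (k + 1)) (2 ^ k) - Sf P (2 ^ (k + 1)) (2 ^ r * 2 ^ k) =
      ∑ i ∈ range r, (Sf P (2 ^ (k + 1)) (2 ^ (k + i)) - Sf P (2 ^ (k + 1)) (2 ^ (k + (i + 1)))) := by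
    intro k _
    rw [Finset.sum_range_sub' (fun i => Sf P (2 ^ (k + 1)) (2 ^ (k + i)))]
    rw [add_zero, ← pow_add, add_comm r k]
  have h2 : ∀ i, ∑ k ∈ range K, (Sf P (2 ^ (k + 1)) (2 ^ (k + i)) -
      Sf P (2 ^ (k + 1)) (2 ^ (k + (i + 1)))) ≤ n3 P ^ 3 := by
    intro i
    calc ∑ k ∈ range K, (Sf P (2 ^ (k + 1)) (2 ^ (k + i)) -
          Sf P (2 ^ (k + 1)) (2 ^ (k + (i + 1))))
        ≤ ∑ k ∈ range K, (Sf P (2 ^ (k + 1)) (2 ^ (k + i)) -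
          Sf P (2 ^ (k + 1 + 1)) (2 ^ (k + 1 + i))) := by
          refine sum_le_sum fun k _ => ?_
          have h3 := Sf_mul_left P (2 ^ (k + 1)) (2 ^ (k + (i + 1))) 2 (by norm_num)
          rw [show 2 * 2 ^ (k + 1) = 2 ^ (k + 1 + 1) by ring] at h3
          rw [show k + 1 + i = k + (i + 1) by ring]
          linarith
      _ = Sf P (2 ^ (0 + 1)) (2 ^ (0 + i)) - Sf P (2 ^ (K + 1)) (2 ^ (K + i)) :=
          sum_range_sub' (fun k => Sf P (2 ^ (k + 1)) (2 ^ (k + i))) K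
      _ ≤ n3 P ^ 3 := by
          have h4 := Sf_nonneg P (2 ^ (K + 1)) (2 ^ (K + i))
          have h5 := Sf_le P (2 ^ (0 + 1)) (2 ^ (0 + i)) Nat.one_le_two_pow Nat.one_le_two_pow
          linarith
  rw [sum_congr rfl h1, sum_comm]
  calc ∑ i ∈ range r, ∑ k ∈ range K, (Sf P (2 ^ (k + 1)) (2 ^ (k + i)) -
        Sf P (2 ^ (k + 1)) (2 ^ (k + (i + 1))))
      ≤ ∑ _i ∈ range r, n3 P ^ 3 := sum_le_sum fun i _ => h2 i
    _ = r * n3 P ^ 3 := by rw [sum_const, card_range, nsmul_eq_mul]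

end

end Crest.Agent.R72
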