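import Crest.Agent.R72.WB1

/-!
# Row 72, W part (helper40), WB2: change of `n` (W4, decoupling)

`L = 2 l`.  `It σ = n⁻³ ∑_{α} I(L; s(n,L) + L|α| + σ)`.
`E(2n;L) = (1/8)[It(3h) + It(-3h) + 3 It(h) + 3 It(-h)]`, `h = n l`; `E(n;L) = It 0`.
-/

set_option autoImplicit false
set_option linter.unusedSectionVars false

namespace Crest.Agent.R72

open Finset Matrix WLA
open scoped ComplexOrder

variable {N : ℕ} [NeZero N]

/-- shifted cube average -/
noncomputable def It (P R : Fn N) (n L : ℕ) (σ : ZMod N) : ℝ :=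
  cub n fun t => Ipl P R L (sC N n L + ((L * t : ℕ) : ZMod N) + σ)

theorem It_zero (P R : Fn N) (n L : ℕ) : It P R n L 0 = Ecube P R n L := by
  unfold It Ecube
  simp only [add_zero]

/-- [WB_CUB] splitting `range (2 n)` into `α`, `α + n`. -/
theorem cub_two (n : ℕ) (F : ℕ → ℝ) : cub (2 * n) F = (1 / 8) * (cub n F +
    3 * cub n (fun t => F (t + n)) + 3 * cub n (fun t => F (t + 2 * n)) +
      cub n (fun t => F (t + 3 * n))) := by
  have h1 : ∀ a b c : ℕ, a + b + (n + c) = a + b + c + n := fun a b c => by ring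
  have h2 : ∀ a b c : ℕ, a + (n + b) + c = a + b + c + n := fun a b c => by ring
  have h3 : ∀ a b c : ℕ, a + (n + b) + (n + c) = a + b + c + 2 * n := fun a b c => by ring
  have h4 : ∀ a b c : ℕ, (n + a) + b + c = a + b + c + n := fun a b c => by ring
  have h5 : ∀ a b c : ℕ, (n + a) + b + (n + c) = a + b + c + 2 * n := fun a b c => by ring
  have h6 : ∀ a b c : ℕ, (n + a) + (n + b) + c = a + b + c + 2 * n := fun a b c => by ring
  have h7 : ∀ a b c : ℕ, (n + a) + (n + b) + (n + c) = a + b + c + 3 * n := fun a b c => by ring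
  have key : ∑ a ∈ range (2 * n), ∑ b ∈ range (2 * n), ∑ c ∈ range (2 * n), F (a + b + c) =
      (∑ a ∈ range n, ∑ b ∈ range n, ∑ c ∈ range n, F (a + b + c)) +
      3 * (∑ a ∈ range n, ∑ b ∈ range n, ∑ c ∈ range n, F (a + b + c + n)) +
      3 * (∑ a ∈ range n, ∑ b ∈ range n, ∑ c ∈ range n, F (a + b + c + 2 * n)) +
      (∑ a ∈ range n, ∑ b ∈ range n, ∑ c ∈ range n, F (a + b + c + 3 * n)) := by
    have e : ∀ G : ℕ → ℝ, ∑ a ∈ range (2 * n), G a =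
        ∑ a ∈ range n, G a + ∑ a ∈ range n, G (n + a) := fun G => by
      rw [two_mul, Finset.sum_range_add]
    simp only [e, Finset.sum_add_distrib]
    have s1 : ∀ G : ℕ → ℕ → ℕ → ℝ, ∀ k : ℕ, (∀ a b c, G a b c = F (a + b + c + k)) →
        ∑ a ∈ range n, ∑ b ∈ range n, ∑ c ∈ range n, G a b c =
          ∑ a ∈ range n, ∑ b ∈ range n, ∑ c ∈ range n, F (a + b + c + k) := fun G k h => by
      simp only [h]
    rw [s1 (fun a b c => F (a + b + (n + c))) n (fun a b c => by rw [h1]),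
      s1 (fun a b c => F (a + (n + b) + c)) n (fun a b c => by rw [h2]),
      s1 (fun a b c => F (a + (n + b) + (n + c))) (2 * n) (fun a b c => by rw [h3]),
      s1 (fun a b c => F ((n + a) + b + c)) n (fun a b c => by rw [h4]),
      s1 (fun a b c => F ((n + a) + b + (n + c))) (2 * n) (fun a b c => by rw [h5]),
      s1 (fun a b c => F ((n + a) + (n + b) + c)) (2 * n) (fun a b c => by rw [h6]),
      s1 (fun a b c => F ((n + a) + (n + b) + (n + c))) (3 * n) (fun a b c => by rw [h7])]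
    ring
  unfold cub
  rw [key]
  push_cast
  rw [mul_pow, mul_inv]
  ring


/-- [WB_E2] from `cub_two`; `sC N (2 n) (2 l) = 1 - 6 n l`, `sC N n (2 l) = 1 - 3 n l`. -/
theorem Ecube_two (P R : Fn N) (n l : ℕ) : Ecube P R (2 * n) (2 * l) =
    (1 / 8) * ((It P R n (2 * l) ((3 * n * l : ℕ) : ZMod N) +
      It P R n (2 * l) (-((3 * n * l : ℕ) : ZMod N))) +
      3 * (It P R n (2 * l) ((1 * n * l : ℕ) : ZMod N) +
      It P R n (2 * l) (-((1 * n * l : ℕ) : ZMod N)))) := by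
  have hs1 : sC N (2 * n) (2 * l) = 1 - ((6 * n * l : ℕ) : ZMod N) := by
    unfold sC
    have : 3 * (2 * n * (2 * l) / 2) = 6 * n * l := by
      have : 2 * n * (2 * l) = (2 * n * l) * 2 := by ring
      rw [this, Nat.mul_div_cancel _ (by norm_num)]
      ring
    rw [this]
  have hs2 : sC N n (2 * l) = 1 - ((3 * n * l : ℕ) : ZMod N) := by
    unfold sC
    have : 3 * (n * (2 * l) / 2) = 3 * n * l := by
      have : n * (2 * l) = (n * l) * 2 := by ring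
      rw [this, Nat.mul_div_cancel _ (by norm_num)]
      ring
    rw [this]
  unfold Ecube It
  rw [cub_two, hs1, hs2]
  have e0 : (fun t : ℕ => Ipl P R (2 * l) (1 - ((6 * n * l : ℕ) : ZMod N) +
      ((2 * l * t : ℕ) : ZMod N))) = fun t : ℕ => Ipl P R (2 * l)
      (1 - ((3 * n * l : ℕ) : ZMod N) + ((2 * l * t : ℕ) : ZMod N) +
        (-((3 * n * l : ℕ) : ZMod N))) := by
    funext t
    congr 1
    push_cast
    ring
  have e1 : (fun t : ℕ => Ipl P R (2 * l) (1 - ((6 * n * l : ℕ) : ZMod N) +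
      ((2 * l * (t + n) : ℕ) : ZMod N))) = fun t : ℕ => Ipl P R (2 * l)
      (1 - ((3 * n * l : ℕ) : ZMod N) + ((2 * l * t : ℕ) : ZMod N) +
        (-((1 * n * l : ℕ) : ZMod N))) := by
    funext t
    congr 1
    push_cast
    ring
  have e2 : (fun t : ℕ => Ipl P R (2 * l) (1 - ((6 * n * l : ℕ) : ZMod N) +
      ((2 * l * (t + 2 * n) : ℕ) : ZMod N))) = fun t : ℕ => Ipl P R (2 * l)
      (1 - ((3 * n * l : ℕ) : ZMod N) + ((2 * l * t : ℕ) : ZMod N) +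
        ((1 * n * l : ℕ) : ZMod N)) := by
    funext t
    congr 1
    push_cast
    ring
  have e3 : (fun t : ℕ => Ipl P R (2 * l) (1 - ((6 * n * l : ℕ) : ZMod N) +
      ((2 * l * (t + 3 * n) : ℕ) : ZMod N))) = fun t : ℕ => Ipl P R (2 * l)
      (1 - ((3 * n * l : ℕ) : ZMod N) + ((2 * l * t : ℕ) : ZMod N) +
        ((3 * n * l : ℕ) : ZMod N)) := by
    funext t
    congr 1
    push_cast
    ring
  rw [e0, e1, e2, e3]
  ring


/-- the local functional -/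
noncomputable def FF (P R : Fn N) (L : ℕ) (x y z : ZMod N) : ℝ :=
  tr32 (pN P L L x y + pN R L L x z)

private theorem wbit_swap2 {ι : Type} (s : Finset ι) (G : ι → ZMod N → ZMod N → ℝ) :
    ∑ i ∈ s, ∑ X : ZMod N, ∑ Y : ZMod N, G i X Y = ∑ X : ZMod N, ∑ Y : ZMod N, ∑ i ∈ s, G i X Y := by
  rw [Finset.sum_comm]
  exact Finset.sum_congr rfl fun X _ => Finset.sum_comm

private theorem wbit_swap5 (s : Finset ℕ) (F : ℕ → ℕ → ℕ → ZMod N → ZMod N → ℝ) :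
    ∑ a ∈ s, ∑ b ∈ s, ∑ c ∈ s, ∑ X : ZMod N, ∑ Y : ZMod N, F a b c X Y =
      ∑ X : ZMod N, ∑ Y : ZMod N, ∑ a ∈ s, ∑ b ∈ s, ∑ c ∈ s, F a b c X Y := by
  have h1 : ∀ a b, ∑ c ∈ s, ∑ X : ZMod N, ∑ Y : ZMod N, F a b c X Y =
      ∑ X : ZMod N, ∑ Y : ZMod N, ∑ c ∈ s, F a b c X Y := fun a b => wbit_swap2 s (F a b)
  have h2 : ∀ a, ∑ b ∈ s, ∑ X : ZMod N, ∑ Y : ZMod N, ∑ c ∈ s, F a b c X Y =
      ∑ X : ZMod N, ∑ Y : ZMod N, ∑ b ∈ s, ∑ c ∈ s, F a b c X Y := fun a => wbit_swap2 s _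
  simp only [h1, h2]
  exact wbit_swap2 s _

private theorem wbit_shift (G : ZMod N → ZMod N → ZMod N → ℝ) (s u v : ZMod N) :
    ∑ x : ZMod N, ∑ y : ZMod N, G x y (s - x - y) =
      ∑ X : ZMod N, ∑ Y : ZMod N, G (X + u) (Y + v) (s - (X + u) - (Y + v)) := by
  rw [← Equiv.sum_comp (Equiv.addRight u)]
  refine Finset.sum_congr rfl fun X _ => ?_
  rw [← Equiv.sum_comp (Equiv.addRight v)]
  rfl

/-- [WB_IT] expansion of `It`, with the shift distributed as `σ = σ₁ + σ₂` (change of variables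
`x = X + L α₀`, `y = Y + L α₁ + σ₁`, `Equiv.sum_comp (Equiv.addRight _)`). -/
theorem It_eq (P R : Fn N) (n L : ℕ) (hL : 1 ≤ L) (σ₁ σ₂ : ZMod N) :
    It P R n L (σ₁ + σ₂) = ((n : ℝ) ^ 3 * (L : ℝ) ^ 3)⁻¹ * ∑ X : ZMod N, ∑ Y : ZMod N,
      ∑ a ∈ range n, ∑ b ∈ range n, ∑ c ∈ range n,
        FF P R L (X + ((L * a : ℕ) : ZMod N)) (Y + ((L * b : ℕ) : ZMod N) + σ₁)
          (sC N n L - X - Y + ((L * c : ℕ) : ZMod N) + σ₂) := by
  have hL0 : (L : ℝ) ≠ 0 := by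
    have : (0 : ℝ) < L := by exact_mod_cast hL
    exact this.ne'
  unfold It cub
  have h1 : ∀ a b c : ℕ, Ipl P R L (sC N n L + ((L * (a + b + c) : ℕ) : ZMod N) + (σ₁ + σ₂)) =
      ((L : ℝ) ^ 3)⁻¹ * ∑ X : ZMod N, ∑ Y : ZMod N,
        FF P R L (X + ((L * a : ℕ) : ZMod N)) (Y + ((L * b : ℕ) : ZMod N) + σ₁)
          (sC N n L - X - Y + ((L * c : ℕ) : ZMod N) + σ₂) := by
    intro a b c
    have e1 : ∑ x : ZMod N, ∑ y : ZMod N, beta P R L x y
        (sC N n L + ((L * (a + b + c) : ℕ) : ZMod N) + (σ₁ + σ₂) - x - y) =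
        (L : ℝ)⁻¹ * ∑ X : ZMod N, ∑ Y : ZMod N,
        FF P R L (X + ((L * a : ℕ) : ZMod N)) (Y + ((L * b : ℕ) : ZMod N) + σ₁)
          (sC N n L - X - Y + ((L * c : ℕ) : ZMod N) + σ₂) := by
      rw [wbit_shift (fun x y z => beta P R L x y z)
        (sC N n L + ((L * (a + b + c) : ℕ) : ZMod N) + (σ₁ + σ₂)) ((L * a : ℕ) : ZMod N)
        (((L * b : ℕ) : ZMod N) + σ₁), Finset.mul_sum]
      refine Finset.sum_congr rfl fun X _ => ?_
      rw [Finset.mul_sum]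
      refine Finset.sum_congr rfl fun Y _ => ?_
      unfold beta FF
      rw [Gm_eq]
      have e2 : sC N n L + ((L * (a + b + c) : ℕ) : ZMod N) + (σ₁ + σ₂) -
          (X + ((L * a : ℕ) : ZMod N)) - (Y + (((L * b : ℕ) : ZMod N) + σ₁)) =
          sC N n L - X - Y + ((L * c : ℕ) : ZMod N) + σ₂ := by
        push_cast
        ring
      rw [e2, ← add_assoc Y]
    unfold Ipl
    rw [e1, ← mul_assoc]
    congr 1
    rw [← mul_inv]
    congr 1
  simp only [h1]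
  have h2 : ∑ a ∈ range n, ∑ b ∈ range n, ∑ c ∈ range n, ((L : ℝ) ^ 3)⁻¹ *
      ∑ X : ZMod N, ∑ Y : ZMod N,
        FF P R L (X + ((L * a : ℕ) : ZMod N)) (Y + ((L * b : ℕ) : ZMod N) + σ₁)
          (sC N n L - X - Y + ((L * c : ℕ) : ZMod N) + σ₂) =
      ((L : ℝ) ^ 3)⁻¹ * ∑ a ∈ range n, ∑ b ∈ range n, ∑ c ∈ range n,
      ∑ X : ZMod N, ∑ Y : ZMod N,
        FF P R L (X + ((L * a : ℕ) : ZMod N)) (Y + ((L * b : ℕ) : ZMod N) + σ₁)
          (sC N n L - X - Y + ((L * c : ℕ) : ZMod N) + σ₂) := by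
    simp only [Finset.mul_sum]
  rw [h2, wbit_swap5 (range n) (fun a b c X Y =>
        FF P R L (X + ((L * a : ℕ) : ZMod N)) (Y + ((L * b : ℕ) : ZMod N) + σ₁)
          (sC N n L - X - Y + ((L * c : ℕ) : ZMod N) + σ₂)), ← mul_assoc, ← mul_inv]

/-- the combinatorial part of `decouple` -/
theorem decouple_aux (n : ℕ) (hn : 1 ≤ n) (A B C D G H : ℕ → ℕ → ℝ)
    (h : ∀ b b' c c', A b' c + B b c' ≤ C b c + D b' c' + 18 * (G b b' + H c c')) :
    ∑ b ∈ range n, ∑ c ∈ range n, (A b c + B b c - C b c - D b c) ≤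
      18 * (∑ b ∈ range n, ∑ b' ∈ range n, G b b' + ∑ c ∈ range n, ∑ c' ∈ range n, H c c') := by
  have h1 : ∑ b ∈ range n, ∑ b' ∈ range n, ∑ c ∈ range n, ∑ c' ∈ range n, (A b' c + B b c') ≤
      ∑ b ∈ range n, ∑ b' ∈ range n, ∑ c ∈ range n, ∑ c' ∈ range n,
        (C b c + D b' c' + 18 * (G b b' + H c c')) :=
    sum_le_sum fun b _ => sum_le_sum fun b' _ => sum_le_sum fun c _ => sum_le_sum fun c' _ =>
      h b b' c c'
  have hn' : (0 : ℝ) < (n : ℝ) ^ 2 := by positivity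
  refine le_of_mul_le_mul_left ?_ hn'
  simp only [sum_add_distrib, sum_sub_distrib, sum_const, card_range, nsmul_eq_mul, ← mul_sum] at h1 ⊢
  nlinarith [h1]

/-- [WB_DEC] decoupling: abstract form of the second difference estimate (`la_mixed`). -/
theorem decouple {ι : Type*} [Fintype ι] [DecidableEq ι] (n : ℕ) (hn : 1 ≤ n)
    (N₀ N₁ M₀ M₁ : ℕ → Matrix ι ι ℂ) (h0 : ∀ a, (N₀ a).PosSemidef) (h1 : ∀ a, (N₁ a).PosSemidef)
    (h2 : ∀ a, (M₀ a).PosSemidef) (h3 : ∀ a, (M₁ a).PosSemidef) :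
    ∑ b ∈ range n, ∑ c ∈ range n, (tr32 (N₁ b + M₀ c) + tr32 (N₀ b + M₁ c) -
      tr32 (N₀ b + M₀ c) - tr32 (N₁ b + M₁ c)) ≤
      18 * (∑ b ∈ range n, ∑ b' ∈ range n, gap32 (N₀ b) (N₁ b') +
        ∑ c ∈ range n, ∑ c' ∈ range n, gap32 (M₀ c) (M₁ c')) := by
  refine decouple_aux n hn (fun b c => tr32 (N₁ b + M₀ c)) (fun b c => tr32 (N₀ b + M₁ c))
    (fun b c => tr32 (N₀ b + M₀ c)) (fun b c => tr32 (N₁ b + M₁ c))
    (fun b b' => gap32 (N₀ b) (N₁ b')) (fun c c' => gap32 (M₀ c) (M₁ c')) ?_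
  intro b b' c c'
  exact la_mixed (h0 b) (h1 b') (h2 c) (h3 c')

/-- the sum of the gaps along a progression -/
noncomputable def GG (P : Fn N) (L n : ℕ) (σ : ZMod N) : ℝ :=
  ∑ x : ZMod N, ∑ y : ZMod N, ∑ a ∈ range n, ∑ a' ∈ range n,
    gap32 (pN P L L x (y + ((L * a : ℕ) : ZMod N))) (pN P L L x (y + ((L * a' : ℕ) : ZMod N) + σ))

private theorem wb2_gap_comm {ι : Type*} [Fintype ι] [DecidableEq ι] (X Y : Matrix ι ι ℂ) :
    gap32 X Y = gap32 Y X := by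
  unfold gap32
  rw [add_comm X Y]
  ring

/-- [WB_GS] `gap32` is symmetric; shift `y`. -/
theorem GG_neg (P : Fn N) (L n : ℕ) (σ : ZMod N) : GG P L n (-σ) = GG P L n σ := by
  unfold GG
  refine Finset.sum_congr rfl (fun x _ => ?_)
  rw [← Equiv.sum_comp (Equiv.addRight σ)]
  refine Finset.sum_congr rfl (fun y _ => ?_)
  rw [Finset.sum_comm]
  refine Finset.sum_congr rfl (fun a _ => Finset.sum_congr rfl (fun a' _ => ?_))
  rw [wb2_gap_comm]
  simp only [Equiv.coe_addRight]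
  congr 2
  · ring
  · ring

/-- [WB_SD] the second difference: `It_eq` with `(σ,0)`, `(0,-σ)`, `(0,0)`, `(σ,-σ)`, `decouple`, `GG_neg`. -/
theorem second_diff (P R : Fn N) (n L : ℕ) (hn : 1 ≤ n) (hL : 1 ≤ L) (σ : ZMod N) :
    It P R n L σ + It P R n L (-σ) - 2 * It P R n L 0 ≤
      18 * ((n : ℝ) ^ 2 * (L : ℝ) ^ 3)⁻¹ * (GG P L n σ + GG R L n σ) := by
  set K : ℝ := ((n : ℝ) ^ 3 * (L : ℝ) ^ 3)⁻¹ with hK
  have hK0 : 0 ≤ K := by positivity
  have e1 := It_eq P R n L hL σ 0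
  have e2 := It_eq P R n L hL 0 (-σ)
  have e3 := It_eq P R n L hL 0 0
  have e4 := It_eq P R n L hL σ (-σ)
  rw [add_zero] at e1
  rw [zero_add] at e2
  rw [add_zero] at e3
  rw [add_neg_cancel] at e4
  -- the matrices
  let N0 : ZMod N → ZMod N → ℕ → ℕ → Matrix (Fin L) (Fin L) ℂ := fun X Y a b =>
    pN P L L (X + ((L * a : ℕ) : ZMod N)) (Y + ((L * b : ℕ) : ZMod N))
  let N1 : ZMod N → ZMod N → ℕ → ℕ → Matrix (Fin L) (Fin L) ℂ := fun X Y a b =>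
    pN P L L (X + ((L * a : ℕ) : ZMod N)) (Y + ((L * b : ℕ) : ZMod N) + σ)
  let M0 : ZMod N → ZMod N → ℕ → ℕ → Matrix (Fin L) (Fin L) ℂ := fun X Y a c =>
    pN R L L (X + ((L * a : ℕ) : ZMod N)) (sC N n L - X - Y + ((L * c : ℕ) : ZMod N))
  let M1 : ZMod N → ZMod N → ℕ → ℕ → Matrix (Fin L) (Fin L) ℂ := fun X Y a c =>
    pN R L L (X + ((L * a : ℕ) : ZMod N)) (sC N n L - X - Y + ((L * c : ℕ) : ZMod N) + -σ)
  have h1 : It P R n L σ + It P R n L (-σ) - 2 * It P R n L 0 =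
      K * ∑ X : ZMod N, ∑ Y : ZMod N, ∑ a ∈ range n, ∑ b ∈ range n, ∑ c ∈ range n,
        (tr32 (N1 X Y a b + M0 X Y a c) + tr32 (N0 X Y a b + M1 X Y a c) -
          tr32 (N0 X Y a b + M0 X Y a c) - tr32 (N1 X Y a b + M1 X Y a c)) := by
    have e5 : 2 * It P R n L 0 = It P R n L 0 + It P R n L 0 := by ring
    rw [e5]
    nth_rewrite 1 [e3]
    rw [e4, e1, e2]
    simp only [Finset.sum_sub_distrib, Finset.sum_add_distrib, add_zero]
    unfold FF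
    simp only [N0, N1, M0, M1]
    ring
  have h2 : ∑ X : ZMod N, ∑ Y : ZMod N, ∑ a ∈ range n, ∑ b ∈ range n, ∑ c ∈ range n,
        (tr32 (N1 X Y a b + M0 X Y a c) + tr32 (N0 X Y a b + M1 X Y a c) -
          tr32 (N0 X Y a b + M0 X Y a c) - tr32 (N1 X Y a b + M1 X Y a c)) ≤
      ∑ X : ZMod N, ∑ Y : ZMod N, ∑ a ∈ range n,
        18 * (∑ b ∈ range n, ∑ b' ∈ range n, gap32 (N0 X Y a b) (N1 X Y a b') +
        ∑ c ∈ range n, ∑ c' ∈ range n, gap32 (M0 X Y a c) (M1 X Y a c')) := by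
    refine Finset.sum_le_sum (fun X _ => Finset.sum_le_sum (fun Y _ => Finset.sum_le_sum
      (fun a _ => ?_)))
    exact decouple n hn _ _ _ _ (fun b => pN_psd _ _ _ _ _) (fun b => pN_psd _ _ _ _ _)
      (fun b => pN_psd _ _ _ _ _) (fun b => pN_psd _ _ _ _ _)
  have h3 : ∑ X : ZMod N, ∑ Y : ZMod N, ∑ a ∈ range n,
      ∑ b ∈ range n, ∑ b' ∈ range n, gap32 (N0 X Y a b) (N1 X Y a b') = n * GG P L n σ := by
    have h4 : ∀ a : ℕ, ∑ X : ZMod N, ∑ Y : ZMod N,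
        ∑ b ∈ range n, ∑ b' ∈ range n, gap32 (N0 X Y a b) (N1 X Y a b') = GG P L n σ := by
      intro a
      exact Equiv.sum_comp (Equiv.addRight (((L * a : ℕ) : ZMod N)))
        (fun x => ∑ y : ZMod N, ∑ b ∈ range n, ∑ b' ∈ range n,
          gap32 (pN P L L x (y + ((L * b : ℕ) : ZMod N)))
            (pN P L L x (y + ((L * b' : ℕ) : ZMod N) + σ)))
    have h5 : ∑ X : ZMod N, ∑ Y : ZMod N, ∑ a ∈ range n,
      ∑ b ∈ range n, ∑ b' ∈ range n, gap32 (N0 X Y a b) (N1 X Y a b') =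
      ∑ a ∈ range n, ∑ X : ZMod N, ∑ Y : ZMod N,
      ∑ b ∈ range n, ∑ b' ∈ range n, gap32 (N0 X Y a b) (N1 X Y a b') := by
      rw [Finset.sum_comm (s := range n)]
      refine Finset.sum_congr rfl (fun X _ => ?_)
      rw [Finset.sum_comm]
    rw [h5, Finset.sum_congr rfl (fun a _ => h4 a), Finset.sum_const, Finset.card_range,
      nsmul_eq_mul]
  have h6 : ∑ X : ZMod N, ∑ Y : ZMod N, ∑ a ∈ range n,
      ∑ c ∈ range n, ∑ c' ∈ range n, gap32 (M0 X Y a c) (M1 X Y a c') = n * GG R L n σ := by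
    have h4 : ∀ a : ℕ, ∑ X : ZMod N, ∑ Y : ZMod N,
        ∑ c ∈ range n, ∑ c' ∈ range n, gap32 (M0 X Y a c) (M1 X Y a c') = GG R L n σ := by
      intro a
      rw [← GG_neg]
      have h7 : ∀ X : ZMod N, ∑ Y : ZMod N,
        ∑ c ∈ range n, ∑ c' ∈ range n, gap32 (M0 X Y a c) (M1 X Y a c') =
          ∑ y : ZMod N, ∑ b ∈ range n, ∑ b' ∈ range n,
          gap32 (pN R L L (X + ((L * a : ℕ) : ZMod N)) (y + ((L * b : ℕ) : ZMod N)))
            (pN R L L (X + ((L * a : ℕ) : ZMod N)) (y + ((L * b' : ℕ) : ZMod N) + -σ)) := by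
        intro X
        exact Equiv.sum_comp (Equiv.subLeft (sC N n L - X))
          (fun y => ∑ b ∈ range n, ∑ b' ∈ range n,
          gap32 (pN R L L (X + ((L * a : ℕ) : ZMod N)) (y + ((L * b : ℕ) : ZMod N)))
            (pN R L L (X + ((L * a : ℕ) : ZMod N)) (y + ((L * b' : ℕ) : ZMod N) + -σ)))
      rw [Finset.sum_congr rfl (fun X _ => h7 X)]
      exact Equiv.sum_comp (Equiv.addRight (((L * a : ℕ) : ZMod N)))
        (fun x => ∑ y : ZMod N, ∑ b ∈ range n, ∑ b' ∈ range n,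
          gap32 (pN R L L x (y + ((L * b : ℕ) : ZMod N)))
            (pN R L L x (y + ((L * b' : ℕ) : ZMod N) + -σ)))
    have h5 : ∑ X : ZMod N, ∑ Y : ZMod N, ∑ a ∈ range n,
      ∑ c ∈ range n, ∑ c' ∈ range n, gap32 (M0 X Y a c) (M1 X Y a c') =
      ∑ a ∈ range n, ∑ X : ZMod N, ∑ Y : ZMod N,
      ∑ c ∈ range n, ∑ c' ∈ range n, gap32 (M0 X Y a c) (M1 X Y a c') := by
      rw [Finset.sum_comm (s := range n)]
      refine Finset.sum_congr rfl (fun X _ => ?_)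
      rw [Finset.sum_comm]
    rw [h5, Finset.sum_congr rfl (fun a _ => h4 a), Finset.sum_const, Finset.card_range,
      nsmul_eq_mul]
  have h8 : ∑ X : ZMod N, ∑ Y : ZMod N, ∑ a ∈ range n,
        18 * (∑ b ∈ range n, ∑ b' ∈ range n, gap32 (N0 X Y a b) (N1 X Y a b') +
        ∑ c ∈ range n, ∑ c' ∈ range n, gap32 (M0 X Y a c) (M1 X Y a c')) =
      18 * (n * GG P L n σ + n * GG R L n σ) := by
    rw [← h3, ← h6]
    simp only [← Finset.mul_sum, ← Finset.sum_add_distrib]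
  rw [h1]
  refine (mul_le_mul_of_nonneg_left (h2.trans h8.le) hK0).trans (le_of_eq ?_)
  have hn0 : (n : ℝ) ≠ 0 := by
    have : (1 : ℝ) ≤ n := by exact_mod_cast hn
    positivity
  have hL0 : (L : ℝ) ≠ 0 := by
    have : (1 : ℝ) ≤ L := by exact_mod_cast hL
    positivity
  rw [hK]
  field_simp

/-- [WB_GJ] `∑_{i,i'<M} gap32 (q_i) (q_i') ≤ M ∑ tr32 (q_i) - M² tr32 (mean)` (`la_jensen` on `range M ×ˢ range M`). -/
theorem sum_gap_le {ι : Type*} [Fintype ι] [DecidableEq ι] (M : ℕ) (hM : 1 ≤ M)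
    (q : ℕ → Matrix ι ι ℂ) (hq : ∀ i, (q i).PosSemidef) :
    ∑ i ∈ range M, ∑ i' ∈ range M, gap32 (q i) (q i') ≤
      M * ∑ i ∈ range M, tr32 (q i) -
        (M : ℝ) ^ 2 * tr32 (((M : ℂ))⁻¹ • ∑ i ∈ range M, q i) := by
  have hM0 : (0 : ℝ) < (M : ℝ) := by exact_mod_cast hM
  have hMC : (M : ℂ) ≠ 0 := by
    have : M ≠ 0 := by omega
    exact_mod_cast this
  have hne : (range M ×ˢ range M).Nonempty :=
    ⟨(0, 0), Finset.mem_product.2 ⟨mem_range.2 (by omega), mem_range.2 (by omega)⟩⟩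
  have hpsd : ∀ i ∈ range M ×ˢ range M, ((1 / 2 : ℂ) • (q i.1 + q i.2)).PosSemidef := by
    intro i _
    have h1 : ((((1 / 2 : ℝ)) : ℂ) • (q i.1 + q i.2)).PosSemidef :=
      ((hq i.1).add (hq i.2)).smul (by
        rw [Complex.zero_le_real]
        norm_num)
    have e : (((1 / 2 : ℝ)) : ℂ) = (1 / 2 : ℂ) := by norm_num
    rwa [e] at h1
  have hJ := WLA.la_jensen (range M ×ˢ range M) hne (fun i => (1 / 2 : ℂ) • (q i.1 + q i.2)) hpsd
  have hmean : (((range M ×ˢ range M).card : ℂ))⁻¹ •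
      ∑ i ∈ range M ×ˢ range M, (1 / 2 : ℂ) • (q i.1 + q i.2) =
      ((M : ℂ))⁻¹ • ∑ i ∈ range M, q i := by
    rw [card_product, card_range, ← Finset.smul_sum, Finset.sum_product]
    simp only [Finset.sum_add_distrib, Finset.sum_const, card_range, ← Finset.smul_sum]
    rw [← Nat.cast_smul_eq_nsmul ℂ, ← two_smul ℂ, smul_smul, smul_smul, smul_smul]
    congr 1
    push_cast
    field_simp
  rw [hmean, card_product, card_range] at hJ
  have hgap : ∑ i ∈ range M, ∑ i' ∈ range M, gap32 (q i) (q i') =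
      M * ∑ i ∈ range M, tr32 (q i) -
        ∑ i ∈ range M ×ˢ range M, tr32 ((1 / 2 : ℂ) • (q i.1 + q i.2)) := by
    unfold gap32
    rw [Finset.sum_product]
    simp only [Finset.sum_sub_distrib, Finset.sum_add_distrib, Finset.sum_const, card_range,
      ← Finset.mul_sum, nsmul_eq_mul]
    ring
  rw [hgap]
  have h2 : (M : ℝ) ^ 2 * tr32 (((M : ℂ))⁻¹ • ∑ i ∈ range M, q i) ≤
      ∑ i ∈ range M ×ˢ range M, tr32 ((1 / 2 : ℂ) • (q i.1 + q i.2)) := by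
    calc (M : ℝ) ^ 2 * tr32 (((M : ℂ))⁻¹ • ∑ i ∈ range M, q i)
        ≤ (M : ℝ) ^ 2 * ((((M * M : ℕ) : ℝ))⁻¹ *
          ∑ i ∈ range M ×ˢ range M, tr32 ((1 / 2 : ℂ) • (q i.1 + q i.2))) :=
          mul_le_mul_of_nonneg_left hJ (by positivity)
      _ = _ := by
          push_cast
          field_simp
  linarith

/-- `gap32` is nonnegative -/
private theorem gg_gap_nonneg {ι : Type*} [Fintype ι] [DecidableEq ι] {X Y : Matrix ι ι ℂ}
    (hX : X.PosSemidef) (hY : Y.PosSemidef) : 0 ≤ gap32 X Y := by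
  have h := WLA.la_jensen (ι := ι) (univ : Finset Bool) ⟨true, mem_univ _⟩
    (fun b => if b then X else Y) (by intro b _; cases b <;> simp [hX, hY])
  simp only [Fintype.sum_bool, if_true, Finset.card_univ, Fintype.card_bool] at h
  unfold gap32
  have e : ((1 / 2 : ℂ) • (X + Y)) = (((2 : ℕ) : ℂ))⁻¹ • (X + (if false = true then X else Y)) := by
    simp
  rw [e]
  simp only [Bool.false_eq_true, if_false] at h ⊢
  push_cast at h ⊢
  linarith

/-- the pairs `(2a+e, 2a'+cn+e)` -/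
private theorem gg_pairs (f : ℕ → ℕ → ℝ) (hf : ∀ i j, 0 ≤ f i j) (n c M : ℕ) (hc : c ≤ 3)
    (hM : 5 * n ≤ M) :
    ∑ a ∈ range n, ∑ a' ∈ range n, (f (2 * a) (2 * a' + c * n) +
      f (2 * a + 1) (2 * a' + c * n + 1)) ≤ ∑ i ∈ range M, ∑ j ∈ range M, f i j := by
  have hcn : c * n ≤ 3 * n := Nat.mul_le_mul_right n hc
  have e1 : ∑ a ∈ range n, ∑ a' ∈ range n, (f (2 * a) (2 * a' + c * n) +
      f (2 * a + 1) (2 * a' + c * n + 1)) =
      ∑ p ∈ (range n ×ˢ range n) ×ˢ range 2, f (2 * p.1.1 + p.2) (2 * p.1.2 + c * n + p.2) := by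
    rw [Finset.sum_product, Finset.sum_product]
    refine Finset.sum_congr rfl fun a _ => Finset.sum_congr rfl fun a' _ => ?_
    simp [Finset.sum_range_succ]
  have e2 : ∑ i ∈ range M, ∑ j ∈ range M, f i j = ∑ p ∈ range M ×ˢ range M, f p.1 p.2 :=
    (Finset.sum_product' _ _ _).symm
  rw [e1, e2]
  have e3 : ∑ p ∈ (range n ×ˢ range n) ×ˢ range 2, f (2 * p.1.1 + p.2) (2 * p.1.2 + c * n + p.2) =
      ∑ p ∈ ((range n ×ˢ range n) ×ˢ range 2).image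
        (fun p : (ℕ × ℕ) × ℕ => (2 * p.1.1 + p.2, 2 * p.1.2 + c * n + p.2)), f p.1 p.2 := by
    rw [Finset.sum_image]
    rintro ⟨⟨a, a'⟩, e⟩ h1 ⟨⟨b, b'⟩, e'⟩ h2 h3
    simp only [coe_product, coe_range, Set.mem_prod, Set.mem_Iio] at h1 h2
    simp only [Prod.mk.injEq] at h3 ⊢
    omega
  rw [e3]
  refine Finset.sum_le_sum_of_subset_of_nonneg ?_ fun p _ _ => hf _ _
  intro p hp
  rw [Finset.mem_image] at hp
  obtain ⟨⟨⟨a, a'⟩, e⟩, h1, rfl⟩ := hp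
  simp only [Finset.mem_product, Finset.mem_range] at h1 ⊢
  omega

/-- pointwise estimate -/
private theorem gg_point (P : Fn N) (n l c M : ℕ) (hn : 1 ≤ n) (hc : c ≤ 3)
    (hM : 5 * n ≤ M) (x y : ZMod N) :
    ∑ a ∈ range n, ∑ a' ∈ range n,
      gap32 (pN P (2 * l) (2 * l) x (y + ((2 * l * a : ℕ) : ZMod N)))
        (pN P (2 * l) (2 * l) x (y + ((2 * l * a' : ℕ) : ZMod N) + ((c * n * l : ℕ) : ZMod N))) ≤
      9 * (M * ∑ i ∈ range M, tr32 (pN P (2 * l) l x (y + ((i * l : ℕ) : ZMod N))) -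
        (M : ℝ) ^ 2 * (((M : ℝ)⁻¹) ^ (3 / 2 : ℝ) * tr32 (pN P (2 * l) (M * l) x y))) := by
  have hM1 : 1 ≤ M := by omega
  set Q : ℕ → Matrix (Fin (2 * l)) (Fin (2 * l)) ℂ :=
    fun i => pN P (2 * l) l x (y + ((i * l : ℕ) : ZMod N)) with hQ
  have hQp : ∀ i, (Q i).PosSemidef := fun i => pN_psd _ _ _ _ _
  have h2 : ∀ i : ℕ, pN P (2 * l) (2 * l) x (y + ((i * l : ℕ) : ZMod N)) = Q i + Q (i + 1) := by
    intro i
    rw [pN_mul, Finset.sum_range_succ, Finset.sum_range_one]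
    have e1 : y + ((i * l : ℕ) : ZMod N) + ((0 * l : ℕ) : ZMod N) = y + ((i * l : ℕ) : ZMod N) := by
      simp
    have e2 : y + ((i * l : ℕ) : ZMod N) + ((1 * l : ℕ) : ZMod N) =
        y + (((i + 1) * l : ℕ) : ZMod N) := by
      push_cast; ring
    rw [e1, e2]
  have h3 : ∀ a a' : ℕ, gap32 (pN P (2 * l) (2 * l) x (y + ((2 * l * a : ℕ) : ZMod N)))
        (pN P (2 * l) (2 * l) x (y + ((2 * l * a' : ℕ) : ZMod N) + ((c * n * l : ℕ) : ZMod N))) ≤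
      9 * (gap32 (Q (2 * a)) (Q (2 * a' + c * n)) +
        gap32 (Q (2 * a + 1)) (Q (2 * a' + c * n + 1))) := by
    intro a a'
    have e1 : (y + ((2 * l * a : ℕ) : ZMod N)) = y + (((2 * a) * l : ℕ) : ZMod N) := by
      push_cast; ring
    have e2 : (y + ((2 * l * a' : ℕ) : ZMod N) + ((c * n * l : ℕ) : ZMod N)) =
        y + (((2 * a' + c * n) * l : ℕ) : ZMod N) := by
      push_cast; ring
    rw [e1, e2, h2, h2]
    exact la_gap_add (hQp _) (hQp _) (hQp _) (hQp _)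
  have h4 : ∑ i ∈ range M, ∑ j ∈ range M, gap32 (Q i) (Q j) ≤
      M * ∑ i ∈ range M, tr32 (Q i) -
        (M : ℝ) ^ 2 * (((M : ℝ)⁻¹) ^ (3 / 2 : ℝ) * tr32 (pN P (2 * l) (M * l) x y)) := by
    have h5 := sum_gap_le M hM1 Q hQp
    have e3 : (((M : ℂ))⁻¹ • ∑ i ∈ range M, Q i) =
        (((M : ℝ)⁻¹ : ℝ) : ℂ) • pN P (2 * l) (M * l) x y := by
      rw [pN_mul, Complex.ofReal_inv, Complex.ofReal_natCast]
    rw [e3, la_smul (pN_psd _ _ _ _ _) (by positivity)] at h5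
    exact h5
  calc _ ≤ ∑ a ∈ range n, ∑ a' ∈ range n, 9 * (gap32 (Q (2 * a)) (Q (2 * a' + c * n)) +
        gap32 (Q (2 * a + 1)) (Q (2 * a' + c * n + 1))) :=
        Finset.sum_le_sum fun a _ => Finset.sum_le_sum fun a' _ => h3 a a'
    _ = 9 * ∑ a ∈ range n, ∑ a' ∈ range n, (gap32 (Q (2 * a)) (Q (2 * a' + c * n)) +
        gap32 (Q (2 * a + 1)) (Q (2 * a' + c * n + 1))) := by
        simp only [Finset.mul_sum]
    _ ≤ 9 * ∑ i ∈ range M, ∑ j ∈ range M, gap32 (Q i) (Q j) := by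
        refine mul_le_mul_of_nonneg_left ?_ (by norm_num)
        exact gg_pairs (fun i j => gap32 (Q i) (Q j)) (fun i j => gg_gap_nonneg (hQp i) (hQp j))
          n c M hc hM
    _ ≤ _ := mul_le_mul_of_nonneg_left h4 (by norm_num)

/-- [WB_GG] half windows: `pN P (2l) (2l) x y = q(y) + q(y+l)`, `q = pN P (2l) l x`, `la_gap_add`; the pairs
`(2a+e, 2a'+cn+e)`, `a, a' < n`, `e < 2`, are distinct pairs in `[0, 5n)²`; `gap32 ≥ 0` (`la_jensen`);
`sum_gap_le`; `pN_mul`. -/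
theorem GG_le (P : Fn N) (n l c M : ℕ) (hn : 1 ≤ n) (hl : 1 ≤ l) (hc : c ≤ 3) (hM : 5 * n ≤ M) :
    GG P (2 * l) n ((c * n * l : ℕ) : ZMod N) ≤
      9 * (M : ℝ) ^ 2 * ((2 * l * l : ℕ) : ℝ) ^ (3 / 2 : ℝ) * (Sf P (2 * l) l - Sf P (2 * l) (M * l)) := by
  have hM1 : 1 ≤ M := by omega
  have hM0 : (0 : ℝ) < M := by exact_mod_cast hM1
  have hl0 : (0 : ℝ) < l := by exact_mod_cast hl
  -- translation invariance
  have ht : ∀ i : ℕ, ∑ x : ZMod N, ∑ y : ZMod N,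
      tr32 (pN P (2 * l) l x (y + ((i * l : ℕ) : ZMod N))) =
      ∑ x : ZMod N, ∑ y : ZMod N, tr32 (pN P (2 * l) l x y) := fun i =>
    Finset.sum_congr rfl fun x _ =>
      Equiv.sum_comp (Equiv.addRight ((i * l : ℕ) : ZMod N)) fun y => tr32 (pN P (2 * l) l x y)
  have s1 : ∑ x : ZMod N, ∑ y : ZMod N, tr32 (pN P (2 * l) l x y) =
      ((2 * l * l : ℕ) : ℝ) ^ (3 / 2 : ℝ) * Sf P (2 * l) l := by
    rw [Sf_eq, ← mul_assoc, mul_inv_cancel₀, one_mul]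
    positivity
  have s2 : ((M : ℝ)⁻¹) ^ (3 / 2 : ℝ) * ∑ x : ZMod N, ∑ y : ZMod N, tr32 (pN P (2 * l) (M * l) x y) =
      ((2 * l * l : ℕ) : ℝ) ^ (3 / 2 : ℝ) * Sf P (2 * l) (M * l) := by
    rw [Sf_eq, ← mul_assoc]
    congr 1
    have e : ((2 * l * (M * l) : ℕ) : ℝ) = ((2 * l * l : ℕ) : ℝ) * M := by push_cast; ring
    rw [e, Real.mul_rpow (by positivity) hM0.le, Real.inv_rpow hM0.le, mul_inv, ← mul_assoc,
      mul_inv_cancel₀ (by positivity), one_mul]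
  calc GG P (2 * l) n ((c * n * l : ℕ) : ZMod N) ≤ ∑ x : ZMod N, ∑ y : ZMod N,
      9 * (M * ∑ i ∈ range M, tr32 (pN P (2 * l) l x (y + ((i * l : ℕ) : ZMod N))) -
        (M : ℝ) ^ 2 * (((M : ℝ)⁻¹) ^ (3 / 2 : ℝ) * tr32 (pN P (2 * l) (M * l) x y))) := by
        unfold GG
        exact Finset.sum_le_sum fun x _ => Finset.sum_le_sum fun y _ =>
          gg_point P n l c M hn hc hM x y
    _ = 9 * (M * ∑ i ∈ range M, ∑ x : ZMod N, ∑ y : ZMod N,
          tr32 (pN P (2 * l) l x (y + ((i * l : ℕ) : ZMod N))) -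
        (M : ℝ) ^ 2 * (((M : ℝ)⁻¹) ^ (3 / 2 : ℝ) *
          ∑ x : ZMod N, ∑ y : ZMod N, tr32 (pN P (2 * l) (M * l) x y))) := by
        have e1 : ∑ i ∈ range M, ∑ x : ZMod N, ∑ y : ZMod N,
            tr32 (pN P (2 * l) l x (y + ((i * l : ℕ) : ZMod N))) =
            ∑ x : ZMod N, ∑ y : ZMod N, ∑ i ∈ range M,
              tr32 (pN P (2 * l) l x (y + ((i * l : ℕ) : ZMod N))) := by
          rw [Finset.sum_comm]
          exact Finset.sum_congr rfl fun x _ => Finset.sum_comm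
        rw [e1]
        simp only [← Finset.mul_sum, Finset.sum_sub_distrib]
    _ = _ := by
        rw [s2]
        simp only [ht, s1, Finset.sum_const, Finset.card_range, nsmul_eq_mul]
        ring

end Crest.Agent.R72
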