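import Crest.Agent.R72.WB1
import Crest.Agent.R72.HL

/-!
# Row 72, W part (helper40), WC1: change of `R` (LA8 + maximal functions)
-/

set_option autoImplicit false
set_option linter.unusedSectionVars false

namespace Crest.Agent.R72

open Finset Matrix WLA
open scoped ComplexOrder

variable {N : ℕ} [NeZero N]

/-- maximal function in the first variable -/
noncomputable def mx1 (u : ZMod N → ZMod N → ℝ) (x z : ZMod N) : ℝ := mx (fun x' => u x' z) x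

/-- maximal function in the second variable -/
noncomputable def mx2 (u : ZMod N → ZMod N → ℝ) (x z : ZMod N) : ℝ := mx (fun z' => u x z') z

/-- a window of length `L` containing `x` -/
theorem window_le_mx' (u : ZMod N → ℝ) (x : ZMod N) {L i : ℕ} (hi : i < L) :
    ∑ l ∈ range L, u (x - (i : ZMod N) + (l : ZMod N)) ≤ (L : ℝ) * mx u x := by
  have h := sum_window_le u i (L - 1 - i) x
  have e : i + (L - 1 - i) + 1 = L := by omega
  rwa [e] at h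

/-- the change weight for the plane functional -/
noncomputable def wE (P : Fn N) (b : ZMod N → ZMod N → ℝ) (x z : ZMod N) : ℝ :=
  Real.sqrt (mx1 (fun x z => b x z ^ 2) x z) *
    Real.sqrt (4 * mx2 (fun x y => ‖P x y‖ ^ 2) x (-x - z) + mx2 (fun x z => b x z ^ 2) x z)

/-- the change weight for the single function functional -/
noncomputable def wS (b : ZMod N → ZMod N → ℝ) (x z : ZMod N) : ℝ :=
  Real.sqrt (mx1 (fun x z => b x z ^ 2) x z) * Real.sqrt (mx2 (fun x z => b x z ^ 2) x z)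

/-- [WC_S] `la_change` with `P = 0`; reindex `ξ = x + i`, `ζ = z + c`; `window_le_mx'`. -/
theorem chg_S (R R' : Fn N) (b : ZMod N → ZMod N → ℝ) (hR : ∀ x z, ‖R x z‖ ≤ b x z)
    (hR' : ∀ x z, ‖R' x z‖ ≤ b x z) (L₀ L₁ : ℕ) (h0 : 1 ≤ L₀) (h1 : 1 ≤ L₁) :
    Sf R' L₀ L₁ ≤ Sf R L₀ L₁ +
      3 * ∑ x : ZMod N, ∑ z : ZMod N, ‖R' x z - R x z‖ * wS b x z := by
  obtain ⟨D, hD⟩ : ∃ D : ZMod N → ZMod N → ℝ, ∀ x z, D x z = ‖R' x z - R x z‖ * wS b x z :=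
    ⟨_, fun _ _ => rfl⟩
  obtain ⟨M, hM⟩ : ∃ M : ℝ, M = ((L₀ * L₁ : ℕ) : ℝ) := ⟨_, rfl⟩
  have hMpos : 0 < M := by
    rw [hM]
    have : 0 < L₀ * L₁ := Nat.mul_pos h0 h1
    exact_mod_cast this
  have hpt : ∀ x z : ZMod N, tr32 (blk R' x z L₀ L₁ * (blk R' x z L₀ L₁)ᴴ) ≤
      tr32 (blk R x z L₀ L₁ * (blk R x z L₀ L₁)ᴴ) +
      3 * (Real.sqrt M * ∑ i : Fin L₀, ∑ c : Fin L₁,
        D (x + ((i : ℕ) : ZMod N)) (z + ((c : ℕ) : ZMod N))) := by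
    intro x z
    have hch := la_change (0 : Matrix (Fin L₀) (Fin 1) ℂ) (blk R x z L₀ L₁) (blk R' x z L₀ L₁)
      (fun i c => b (x + ((i : ℕ) : ZMod N)) (z + ((c : ℕ) : ZMod N)))
      (fun i c => hR _ _) (fun i c => hR' _ _)
    simp only [Matrix.zero_mul, zero_add, Matrix.zero_apply, norm_zero] at hch
    refine hch.trans ?_
    have h3 : ∑ i : Fin L₀, ∑ c : Fin L₁, ‖blk R' x z L₀ L₁ i c - blk R x z L₀ L₁ i c‖ *
        (Real.sqrt (∑ i' : Fin L₀, b (x + ((i' : ℕ) : ZMod N)) (z + ((c : ℕ) : ZMod N)) ^ 2) *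
          Real.sqrt (∑ _y : Fin 1, (0 : ℝ) ^ 2 +
            ∑ c' : Fin L₁, b (x + ((i : ℕ) : ZMod N)) (z + ((c' : ℕ) : ZMod N)) ^ 2)) ≤
        Real.sqrt M * ∑ i : Fin L₀, ∑ c : Fin L₁,
          D (x + ((i : ℕ) : ZMod N)) (z + ((c : ℕ) : ZMod N)) := by
      rw [Finset.mul_sum]
      refine Finset.sum_le_sum fun i _ => ?_
      rw [Finset.mul_sum]
      refine Finset.sum_le_sum fun c _ => ?_
      have e1 : ∑ i' : Fin L₀, b (x + ((i' : ℕ) : ZMod N)) (z + ((c : ℕ) : ZMod N)) ^ 2 ≤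
          (L₀ : ℝ) * mx1 (fun x z => b x z ^ 2) (x + ((i : ℕ) : ZMod N)) (z + ((c : ℕ) : ZMod N)) := by
        have h4 := window_le_mx' (fun x' => b x' (z + ((c : ℕ) : ZMod N)) ^ 2)
          (x + ((i : ℕ) : ZMod N)) i.2
        rw [Finset.sum_range] at h4
        simp only [add_sub_cancel_right] at h4
        exact h4
      have e2 : ∑ c' : Fin L₁, b (x + ((i : ℕ) : ZMod N)) (z + ((c' : ℕ) : ZMod N)) ^ 2 ≤
          (L₁ : ℝ) * mx2 (fun x z => b x z ^ 2) (x + ((i : ℕ) : ZMod N)) (z + ((c : ℕ) : ZMod N)) := by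
        have h4 := window_le_mx' (fun z' => b (x + ((i : ℕ) : ZMod N)) z' ^ 2)
          (z + ((c : ℕ) : ZMod N)) c.2
        rw [Finset.sum_range] at h4
        simp only [add_sub_cancel_right] at h4
        exact h4
      have e3 : ∑ _y : Fin 1, (0 : ℝ) ^ 2 +
            ∑ c' : Fin L₁, b (x + ((i : ℕ) : ZMod N)) (z + ((c' : ℕ) : ZMod N)) ^ 2 =
            ∑ c' : Fin L₁, b (x + ((i : ℕ) : ZMod N)) (z + ((c' : ℕ) : ZMod N)) ^ 2 := by simp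
      rw [e3, hD, wS]
      have e4 : Real.sqrt (∑ i' : Fin L₀, b (x + ((i' : ℕ) : ZMod N)) (z + ((c : ℕ) : ZMod N)) ^ 2) *
          Real.sqrt (∑ c' : Fin L₁, b (x + ((i : ℕ) : ZMod N)) (z + ((c' : ℕ) : ZMod N)) ^ 2) ≤
          Real.sqrt M * (Real.sqrt (mx1 (fun x z => b x z ^ 2) (x + ((i : ℕ) : ZMod N))
            (z + ((c : ℕ) : ZMod N))) * Real.sqrt (mx2 (fun x z => b x z ^ 2)
            (x + ((i : ℕ) : ZMod N)) (z + ((c : ℕ) : ZMod N)))) := by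
        calc _ ≤ Real.sqrt ((L₀ : ℝ) * mx1 (fun x z => b x z ^ 2) (x + ((i : ℕ) : ZMod N))
              (z + ((c : ℕ) : ZMod N))) * Real.sqrt ((L₁ : ℝ) * mx2 (fun x z => b x z ^ 2)
              (x + ((i : ℕ) : ZMod N)) (z + ((c : ℕ) : ZMod N))) :=
              mul_le_mul (Real.sqrt_le_sqrt e1) (Real.sqrt_le_sqrt e2) (Real.sqrt_nonneg _)
                (Real.sqrt_nonneg _)
          _ = _ := by
              rw [hM, Nat.cast_mul, Real.sqrt_mul (Nat.cast_nonneg L₀),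
                Real.sqrt_mul (Nat.cast_nonneg L₁), Real.sqrt_mul (Nat.cast_nonneg L₀)]
              ring
      have e5 := mul_le_mul_of_nonneg_left e4 (norm_nonneg
        (R' (x + ((i : ℕ) : ZMod N)) (z + ((c : ℕ) : ZMod N)) -
          R (x + ((i : ℕ) : ZMod N)) (z + ((c : ℕ) : ZMod N))))
      refine le_trans (le_of_eq rfl) (e5.trans (le_of_eq ?_))
      ring
    linarith
  have hsum : ∀ i c : ZMod N, ∑ x : ZMod N, ∑ z : ZMod N, D (x + i) (z + c) =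
      ∑ x : ZMod N, ∑ z : ZMod N, D x z := by
    intro i c
    rw [← Equiv.sum_comp (Equiv.addRight i) (fun x => ∑ z : ZMod N, D x z)]
    refine Finset.sum_congr rfl fun x _ => ?_
    rw [← Equiv.sum_comp (Equiv.addRight c) (fun z => D (Equiv.addRight i x) z)]
    rfl
  have htot : ∑ x : ZMod N, ∑ z : ZMod N, ∑ i : Fin L₀, ∑ c : Fin L₁,
      D (x + ((i : ℕ) : ZMod N)) (z + ((c : ℕ) : ZMod N)) =
      M * ∑ x : ZMod N, ∑ z : ZMod N, D x z := by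
    have h5 : ∑ x : ZMod N, ∑ z : ZMod N, ∑ i : Fin L₀, ∑ c : Fin L₁,
        D (x + ((i : ℕ) : ZMod N)) (z + ((c : ℕ) : ZMod N)) =
        ∑ i : Fin L₀, ∑ c : Fin L₁, ∑ x : ZMod N, ∑ z : ZMod N,
        D (x + ((i : ℕ) : ZMod N)) (z + ((c : ℕ) : ZMod N)) := by
      calc _ = ∑ x : ZMod N, ∑ i : Fin L₀, ∑ z : ZMod N, ∑ c : Fin L₁,
            D (x + ((i : ℕ) : ZMod N)) (z + ((c : ℕ) : ZMod N)) :=
            Finset.sum_congr rfl fun x _ => Finset.sum_comm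
        _ = ∑ i : Fin L₀, ∑ x : ZMod N, ∑ z : ZMod N, ∑ c : Fin L₁,
            D (x + ((i : ℕ) : ZMod N)) (z + ((c : ℕ) : ZMod N)) := Finset.sum_comm
        _ = ∑ i : Fin L₀, ∑ x : ZMod N, ∑ c : Fin L₁, ∑ z : ZMod N,
            D (x + ((i : ℕ) : ZMod N)) (z + ((c : ℕ) : ZMod N)) :=
            Finset.sum_congr rfl fun i _ => Finset.sum_congr rfl fun x _ => Finset.sum_comm
        _ = _ := Finset.sum_congr rfl fun i _ => Finset.sum_comm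
    rw [h5]
    simp only [hsum, Finset.sum_const, Finset.card_univ, Fintype.card_fin, nsmul_eq_mul]
    rw [hM, Nat.cast_mul]
    ring
  have hle : ∑ x : ZMod N, ∑ z : ZMod N, tr32 (blk R' x z L₀ L₁ * (blk R' x z L₀ L₁)ᴴ) ≤
      ∑ x : ZMod N, ∑ z : ZMod N, tr32 (blk R x z L₀ L₁ * (blk R x z L₀ L₁)ᴴ) +
      3 * (Real.sqrt M * (M * ∑ x : ZMod N, ∑ z : ZMod N, D x z)) := by
    rw [← htot]
    calc _ ≤ ∑ x : ZMod N, ∑ z : ZMod N, (tr32 (blk R x z L₀ L₁ * (blk R x z L₀ L₁)ᴴ) +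
          3 * (Real.sqrt M * ∑ i : Fin L₀, ∑ c : Fin L₁,
          D (x + ((i : ℕ) : ZMod N)) (z + ((c : ℕ) : ZMod N)))) :=
          Finset.sum_le_sum fun x _ => Finset.sum_le_sum fun z _ => hpt x z
      _ = _ := by
          simp only [Finset.sum_add_distrib, Finset.mul_sum]
  have hMr : M ^ (3 / 2 : ℝ) = M * Real.sqrt M := by
    rw [Real.sqrt_eq_rpow, show (3 / 2 : ℝ) = 1 + 1 / 2 by norm_num, Real.rpow_add hMpos,
      Real.rpow_one]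
  have hMrpos : 0 < M ^ (3 / 2 : ℝ) := Real.rpow_pos_of_pos hMpos _
  unfold Sf
  rw [← hM]
  have h6 := mul_le_mul_of_nonneg_left hle (inv_nonneg.2 hMrpos.le)
  refine h6.trans (le_of_eq ?_)
  rw [mul_add]
  congr 1
  have h7 : ∑ x : ZMod N, ∑ z : ZMod N, ‖R' x z - R x z‖ * wS b x z =
      ∑ x : ZMod N, ∑ z : ZMod N, D x z := by simp only [hD]
  rw [h7]
  rw [show 3 * (Real.sqrt M * (M * ∑ x : ZMod N, ∑ z : ZMod N, D x z)) =
    M ^ (3 / 2 : ℝ) * (3 * ∑ x : ZMod N, ∑ z : ZMod N, D x z) by rw [hMr]; ring]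
  rw [inv_mul_cancel_left₀ hMrpos.ne']

/-- [WC_G] `la_change` for `Gm`, in terms of sums over ranges. -/
theorem chg_Gm (P R R' : Fn N) (b : ZMod N → ZMod N → ℝ) (hR : ∀ x z, ‖R x z‖ ≤ b x z)
    (hR' : ∀ x z, ‖R' x z‖ ≤ b x z) (L : ℕ) (x y z : ZMod N) :
    tr32 (Gm P R' L L x y z) ≤ tr32 (Gm P R L L x y z) +
      3 * ∑ i ∈ range L, ∑ k ∈ range L, ‖R' (x + (i : ZMod N)) (z + (k : ZMod N)) -
        R (x + (i : ZMod N)) (z + (k : ZMod N))‖ *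
        (Real.sqrt (∑ i' ∈ range L, b (x + (i' : ZMod N)) (z + (k : ZMod N)) ^ 2) *
          Real.sqrt (∑ j ∈ range L, ‖P (x + (i : ZMod N)) (y + (j : ZMod N))‖ ^ 2 +
            ∑ k' ∈ range L, b (x + (i : ZMod N)) (z + (k' : ZMod N)) ^ 2)) := by
  have h := la_change (blk P x y L L) (blk R x z L L) (blk R' x z L L)
    (fun i k => b (x + ((i : ℕ) : ZMod N)) (z + ((k : ℕ) : ZMod N)))
    (fun i k => hR _ _) (fun i k => hR' _ _)
  unfold Gm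
  refine h.trans (le_of_eq ?_)
  simp only [Finset.sum_range]
  rfl

/-- [WC_RE] reindexing of the sum over `x, y` (`z = s - x - y`): `ξ = x + i`, `ζ = z + k`. -/
theorem reindex (F : ZMod N → ZMod N → ZMod N → ℝ) (s i k : ZMod N) :
    ∑ x : ZMod N, ∑ y : ZMod N, F (x + i) y (s - x - y + k) =
      ∑ ξ : ZMod N, ∑ ζ : ZMod N, F ξ (s - ξ - ζ + i + k) ζ := by
  rw [← Equiv.sum_comp (Equiv.addRight i) fun ξ => ∑ ζ : ZMod N, F ξ (s - ξ - ζ + i + k) ζ]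
  refine Finset.sum_congr rfl fun x _ => ?_
  rw [← Equiv.sum_comp (Equiv.subLeft (s - x + k)) fun ζ =>
    F (Equiv.addRight i x) (s - Equiv.addRight i x - ζ + i + k) ζ]
  refine Finset.sum_congr rfl fun y _ => ?_
  simp only [Equiv.coe_addRight, Equiv.subLeft_apply]
  congr 1
  · ring
  · ring

/-- sums over triples -/
private theorem wcw_count (g : ℕ → ℝ) (hg : ∀ t, 0 ≤ g t) (n : ℕ) (hn : 1 ≤ n) :
    ∑ a ∈ range n, ∑ a' ∈ range n, ∑ a'' ∈ range n, g (a + a' + a'') ≤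
      (n : ℝ) ^ 2 * ∑ t ∈ range (3 * n - 2), g t := by
  have h1 : ∀ a ∈ range n, ∀ a' ∈ range n, ∑ a'' ∈ range n, g (a + a' + a'') ≤
      ∑ t ∈ range (3 * n - 2), g t := by
    intro a ha a' ha'
    rw [mem_range] at ha ha'
    have e : ∑ a'' ∈ range n, g (a + a' + a'') = ∑ t ∈ Ico (a + a') (a + a' + n), g t := by
      rw [Finset.sum_Ico_eq_sum_range]
      congr 2
      omega
    rw [e]
    refine Finset.sum_le_sum_of_subset_of_nonneg ?_ fun t _ _ => hg t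
    intro t ht
    rw [Finset.mem_Ico] at ht
    rw [mem_range]
    omega
  calc _ ≤ ∑ a ∈ range n, ∑ a' ∈ range n, ∑ t ∈ range (3 * n - 2), g t :=
        Finset.sum_le_sum fun a ha => Finset.sum_le_sum fun a' ha' => h1 a ha a' ha'
    _ = _ := by
        simp only [Finset.sum_const, card_range, nsmul_eq_mul]
        ring

private theorem wcw_blocks (v : ℕ → ℝ) (m T : ℕ) :
    ∑ t ∈ range T, ∑ j ∈ range m, v (m * t + j) = ∑ r ∈ range (m * T), v r := by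
  induction T with
  | zero => simp
  | succ T ih => rw [Finset.sum_range_succ, ih, Nat.mul_succ, Finset.sum_range_add]

/-- [WC_W] the `y`-windows: for fixed `ξ, ζ, i, k` the positions `2 l t + j`, `t ≤ 3 n - 3`, `j < 2 l`, are
distinct integers; `#{α : |α| = t} ≤ n²`. `s = sC N n (2 l) = 1 - 3 n l`. -/
theorem y_windows (u : ZMod N → ℝ) (hu : ∀ y, 0 ≤ u y) (n l : ℕ) (hn : 1 ≤ n) (hl : 1 ≤ l) {i k : ℕ}
    (hi : i < 2 * l) (hk : k < 2 * l) (c : ZMod N) :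
    ∑ a ∈ range n, ∑ a' ∈ range n, ∑ a'' ∈ range n, ∑ j ∈ range (2 * l),
      u (sC N n (2 * l) + ((2 * l * (a + a' + a'') : ℕ) : ZMod N) + c + (i : ZMod N) + (k : ZMod N) +
        (j : ZMod N)) ≤ 4 * (n : ℝ) ^ 3 * (2 * l : ℕ) * mx u c := by
  have h1 := wcw_count (fun t => ∑ j ∈ range (2 * l),
    u (sC N n (2 * l) + ((2 * l * t : ℕ) : ZMod N) + c + (i : ZMod N) + (k : ZMod N) +
        (j : ZMod N))) (fun t => Finset.sum_nonneg fun j _ => hu _) n hn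
  refine h1.trans ?_
  have h2 := wcw_blocks (fun r => u (c - ((3 * n * l : ℕ) : ZMod N) + ((1 + i + k : ℕ) : ZMod N) +
    (r : ZMod N))) (2 * l) (3 * n - 2)
  have h3 : ∑ t ∈ range (3 * n - 2), ∑ j ∈ range (2 * l),
      u (sC N n (2 * l) + ((2 * l * t : ℕ) : ZMod N) + c + (i : ZMod N) + (k : ZMod N) +
        (j : ZMod N)) = ∑ r ∈ range (2 * l * (3 * n - 2)),
          u (c - ((3 * n * l : ℕ) : ZMod N) + ((1 + i + k : ℕ) : ZMod N) + (r : ZMod N)) := by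
    rw [← h2]
    refine Finset.sum_congr rfl fun t _ => Finset.sum_congr rfl fun j _ => ?_
    congr 1
    unfold sC
    have e : n * (2 * l) / 2 = n * l := by
      rw [show n * (2 * l) = 2 * (n * l) by ring]
      exact Nat.mul_div_cancel_left _ (by norm_num)
    rw [e]
    push_cast
    ring
  rw [h3]
  have h4 := sum_window_le' hu (a := 3 * n * l) (b := 3 * n * l) (c := 1 + i + k)
    (L := 2 * l * (3 * n - 2)) (by
      obtain ⟨m, rfl⟩ : ∃ m, n = m + 1 := ⟨n - 1, by omega⟩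
      have e1 : 3 * (m + 1) - 2 = 3 * m + 1 := by omega
      rw [e1]
      have e2 : 2 * l * (3 * m + 1) = 6 * (m * l) + 2 * l := by ring
      have e3 : 3 * (m + 1) * l = 3 * (m * l) + 3 * l := by ring
      rw [e2, e3]
      omega) c
  have h5 : 0 ≤ mx u c := mx_nonneg hu c
  have hn' : (1 : ℝ) ≤ n := by exact_mod_cast hn
  have hl' : (1 : ℝ) ≤ l := by exact_mod_cast hl
  calc (n : ℝ) ^ 2 * ∑ r ∈ range (2 * l * (3 * n - 2)),
          u (c - ((3 * n * l : ℕ) : ZMod N) + ((1 + i + k : ℕ) : ZMod N) + (r : ZMod N))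
      ≤ (n : ℝ) ^ 2 * (((3 * n * l + 3 * n * l + 1 : ℕ) : ℝ) * mx u c) :=
        mul_le_mul_of_nonneg_left h4 (by positivity)
    _ ≤ _ := by
        push_cast
        have h6 : (n : ℝ) ^ 2 * ((3 * n * l + 3 * n * l + 1) * mx u c) =
          ((n : ℝ) ^ 2 * (6 * (n * l) + 1)) * mx u c := by ring
        rw [h6]
        refine mul_le_mul_of_nonneg_right ?_ h5
        have h7 : (1 : ℝ) ≤ n * l := by nlinarith
        have h8 : 4 * (n : ℝ) ^ 3 * (2 * l) = (n : ℝ) ^ 2 * (8 * (n * l)) := by ring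
        rw [h8]
        exact mul_le_mul_of_nonneg_left (by linarith) (by positivity)

private theorem sum_sqrt_le_aux {ι : Type*} (S : Finset ι) (g : ι → ℝ) (hg : ∀ i, 0 ≤ g i) :
    ∑ i ∈ S, Real.sqrt (g i) ≤ Real.sqrt (S.card : ℝ) * Real.sqrt (∑ i ∈ S, g i) := by
  have h := Real.sum_sqrt_mul_sqrt_le S (f := fun _ : ι => (1 : ℝ)) (g := g)
    (fun _ => zero_le_one) hg
  simpa using h

/-- the pointwise Cauchy–Schwarz estimate -/
private theorem chg_E_pt (P : Fn N) (b : ZMod N → ZMod N → ℝ) (n l : ℕ) (hn : 1 ≤ n)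
    (hl : 1 ≤ l) (ξ ζ : ZMod N) :
    ∑ a ∈ range n, ∑ a' ∈ range n, ∑ a'' ∈ range n, ∑ i ∈ range (2 * l), ∑ k ∈ range (2 * l),
      (Real.sqrt (∑ i' ∈ range (2 * l), b (ξ - (i : ZMod N) + (i' : ZMod N)) ζ ^ 2) *
        Real.sqrt (∑ j ∈ range (2 * l), ‖P ξ ((sC N n (2 * l) + ((2 * l * (a + a' + a'') : ℕ) : ZMod N)) - ξ - ζ
            + (i : ZMod N) + (k : ZMod N) + (j : ZMod N))‖ ^ 2 +
          ∑ k' ∈ range (2 * l), b ξ (ζ - (k : ZMod N) + (k' : ZMod N)) ^ 2)) ≤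
      (n : ℝ) ^ 3 * ((2 * l : ℕ) : ℝ) ^ 3 * wE P b ξ ζ := by
  set L : ℕ := 2 * l with hLdef
  have hL : 1 ≤ L := by omega
  have hLpos : (0 : ℝ) < (L : ℝ) := by exact_mod_cast hL
  have hnpos : (0 : ℝ) < (n : ℝ) := by exact_mod_cast hn
  set m1 : ℝ := mx1 (fun x z => b x z ^ 2) ξ ζ with hm1
  set m2P : ℝ := mx2 (fun x y => ‖P x y‖ ^ 2) ξ (-ξ - ζ) with hm2P
  set m2b : ℝ := mx2 (fun x z => b x z ^ 2) ξ ζ with hm2b
  have hm1n : 0 ≤ m1 := mx_nonneg (fun _ => sq_nonneg _) _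
  have hm2Pn : 0 ≤ m2P := mx_nonneg (fun _ => sq_nonneg _) _
  have hm2bn : 0 ≤ m2b := mx_nonneg (fun _ => sq_nonneg _) _
  set Y : ((ℕ × ℕ × ℕ) × ℕ × ℕ) → ℝ := fun p =>
    ∑ j ∈ range L, ‖P ξ ((sC N n L + ((L * (p.1.1 + p.1.2.1 + p.1.2.2) : ℕ) : ZMod N)) - ξ - ζ
            + (p.2.1 : ZMod N) + (p.2.2 : ZMod N) + (j : ZMod N))‖ ^ 2 +
          ∑ k' ∈ range L, b ξ (ζ - (p.2.2 : ZMod N) + (k' : ZMod N)) ^ 2 with hY
  have hYn : ∀ p, 0 ≤ Y p := fun p => add_nonneg (sum_nonneg fun _ _ => sq_nonneg _)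
    (sum_nonneg fun _ _ => sq_nonneg _)
  set S : Finset ((ℕ × ℕ × ℕ) × ℕ × ℕ) := (range n ×ˢ (range n ×ˢ range n)) ×ˢ (range L ×ˢ range L)
    with hS
  have hcard : (S.card : ℝ) = (n : ℝ) ^ 3 * (L : ℝ) ^ 2 := by
    rw [hS]
    simp only [card_product, card_range]
    push_cast
    ring
  -- step 1: bound the column factor
  have h1 : ∑ a ∈ range n, ∑ a' ∈ range n, ∑ a'' ∈ range n, ∑ i ∈ range L, ∑ k ∈ range L,
      (Real.sqrt (∑ i' ∈ range L, b (ξ - (i : ZMod N) + (i' : ZMod N)) ζ ^ 2) *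
        Real.sqrt (∑ j ∈ range L, ‖P ξ ((sC N n L + ((L * (a + a' + a'') : ℕ) : ZMod N)) - ξ - ζ
            + (i : ZMod N) + (k : ZMod N) + (j : ZMod N))‖ ^ 2 +
          ∑ k' ∈ range L, b ξ (ζ - (k : ZMod N) + (k' : ZMod N)) ^ 2)) ≤
      Real.sqrt (L * m1) * ∑ p ∈ S, Real.sqrt (Y p) := by
    rw [hS, sum_product, sum_product]
    simp only [sum_product, mul_sum]
    refine sum_le_sum fun a _ => sum_le_sum fun a' _ => sum_le_sum fun a'' _ =>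
      sum_le_sum fun i hi => sum_le_sum fun k _ => ?_
    refine mul_le_mul_of_nonneg_right (Real.sqrt_le_sqrt ?_) (Real.sqrt_nonneg _)
    exact window_le_mx' (fun x' => b x' ζ ^ 2) ξ (mem_range.1 hi)
  -- step 2: sum of the squares
  have h2 : ∑ p ∈ S, Y p ≤ (n : ℝ) ^ 3 * (L : ℝ) ^ 3 * (4 * m2P + m2b) := by
    have hPpart : ∑ p ∈ S, ∑ j ∈ range L, ‖P ξ ((sC N n L + ((L * (p.1.1 + p.1.2.1 + p.1.2.2) : ℕ) : ZMod N)) - ξ - ζ
            + (p.2.1 : ZMod N) + (p.2.2 : ZMod N) + (j : ZMod N))‖ ^ 2 ≤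
          (L : ℝ) ^ 2 * (4 * (n : ℝ) ^ 3 * L * m2P) := by
      rw [hS, sum_product_right]
      have : ∀ q ∈ range L ×ˢ range L, ∑ p ∈ range n ×ˢ (range n ×ˢ range n),
          ∑ j ∈ range L, ‖P ξ ((sC N n L + ((L * (p.1 + p.2.1 + p.2.2) : ℕ) : ZMod N)) - ξ - ζ
            + (q.1 : ZMod N) + (q.2 : ZMod N) + (j : ZMod N))‖ ^ 2 ≤
          4 * (n : ℝ) ^ 3 * L * m2P := by
        intro q hq
        rw [mem_product, mem_range, mem_range] at hq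
        rw [sum_product]
        simp only [sum_product]
        have h := y_windows (fun y => ‖P ξ y‖ ^ 2) (fun _ => sq_nonneg _) n l hn hl hq.1 hq.2
          (-ξ - ζ)
        refine le_trans (le_of_eq ?_) h
        refine sum_congr rfl fun a _ => sum_congr rfl fun a' _ => sum_congr rfl fun a'' _ =>
          sum_congr rfl fun j _ => ?_
        congr 3
        ring
      refine (sum_le_sum this).trans (le_of_eq ?_)
      rw [sum_const, card_product, card_range, nsmul_eq_mul]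
      push_cast
      ring
    have hbpart : ∑ p ∈ S, ∑ k' ∈ range L, b ξ (ζ - (p.2.2 : ZMod N) + (k' : ZMod N)) ^ 2 ≤
        ((n : ℝ) ^ 3 * (L : ℝ) ^ 2) * (L * m2b) := by
      rw [← hcard, ← nsmul_eq_mul, ← sum_const]
      refine sum_le_sum fun p hp => ?_
      rw [hS, mem_product, mem_product, mem_product, mem_product] at hp
      exact window_le_mx' (fun z' => b ξ z' ^ 2) ζ (mem_range.1 hp.2.2)
    rw [hY]
    simp only [sum_add_distrib]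
    refine (add_le_add hPpart hbpart).trans (le_of_eq ?_)
    ring
  refine h1.trans ?_
  have h3 := sum_sqrt_le_aux S Y hYn
  have h4 : ∑ p ∈ S, Real.sqrt (Y p) ≤ Real.sqrt ((n : ℝ) ^ 3 * (L : ℝ) ^ 2) *
      Real.sqrt ((n : ℝ) ^ 3 * (L : ℝ) ^ 3 * (4 * m2P + m2b)) := by
    refine h3.trans ?_
    rw [hcard]
    exact mul_le_mul_of_nonneg_left (Real.sqrt_le_sqrt h2) (Real.sqrt_nonneg _)
  refine (mul_le_mul_of_nonneg_left h4 (Real.sqrt_nonneg _)).trans (le_of_eq ?_)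
  have hw : wE P b ξ ζ = Real.sqrt m1 * Real.sqrt (4 * m2P + m2b) := rfl
  rw [hw, Real.sqrt_mul hLpos.le, Real.sqrt_mul (by positivity) (4 * m2P + m2b)]
  have h5 : Real.sqrt (L : ℝ) * (Real.sqrt ((n : ℝ) ^ 3 * (L : ℝ) ^ 2) *
      Real.sqrt ((n : ℝ) ^ 3 * (L : ℝ) ^ 3)) = (n : ℝ) ^ 3 * (L : ℝ) ^ 3 := by
    rw [← Real.sqrt_mul (by positivity), ← Real.sqrt_mul hLpos.le]
    rw [show (L : ℝ) * ((n : ℝ) ^ 3 * (L : ℝ) ^ 2 * ((n : ℝ) ^ 3 * (L : ℝ) ^ 3)) =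
      ((n : ℝ) ^ 3 * (L : ℝ) ^ 3) ^ 2 by ring]
    exact Real.sqrt_sq (by positivity)
  calc Real.sqrt (L : ℝ) * Real.sqrt m1 * (Real.sqrt ((n : ℝ) ^ 3 * (L : ℝ) ^ 2) *
      (Real.sqrt ((n : ℝ) ^ 3 * (L : ℝ) ^ 3) * Real.sqrt (4 * m2P + m2b))) =
      (Real.sqrt (L : ℝ) * (Real.sqrt ((n : ℝ) ^ 3 * (L : ℝ) ^ 2) *
      Real.sqrt ((n : ℝ) ^ 3 * (L : ℝ) ^ 3))) * (Real.sqrt m1 * Real.sqrt (4 * m2P + m2b)) := by
        ring
    _ = _ := by rw [h5]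

/-- one plane -/
private theorem chg_E_plane (P R R' : Fn N) (b : ZMod N → ZMod N → ℝ) (hR : ∀ x z, ‖R x z‖ ≤ b x z)
    (hR' : ∀ x z, ‖R' x z‖ ≤ b x z) (L : ℕ) (hL : 1 ≤ L) (s : ZMod N) :
    Ipl P R' L s ≤ Ipl P R L s + ((L : ℝ) ^ 3)⁻¹ * (3 * ∑ ξ : ZMod N, ∑ ζ : ZMod N,
      ‖R' ξ ζ - R ξ ζ‖ * ∑ i ∈ range L, ∑ k ∈ range L,
        (Real.sqrt (∑ i' ∈ range L, b (ξ - (i : ZMod N) + (i' : ZMod N)) ζ ^ 2) *
        Real.sqrt (∑ j ∈ range L, ‖P ξ (s - ξ - ζ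
            + (i : ZMod N) + (k : ZMod N) + (j : ZMod N))‖ ^ 2 +
          ∑ k' ∈ range L, b ξ (ζ - (k : ZMod N) + (k' : ZMod N)) ^ 2))) := by
  have hLpos : (0 : ℝ) < (L : ℝ) := by exact_mod_cast hL
  unfold Ipl beta
  set F : ℕ → ℕ → ZMod N → ZMod N → ZMod N → ℝ := fun i k ξ y ζ =>
    ‖R' ξ ζ - R ξ ζ‖ * (Real.sqrt (∑ i' ∈ range L, b (ξ - (i : ZMod N) + (i' : ZMod N)) ζ ^ 2) *
        Real.sqrt (∑ j ∈ range L, ‖P ξ (y + (j : ZMod N))‖ ^ 2 +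
          ∑ k' ∈ range L, b ξ (ζ - (k : ZMod N) + (k' : ZMod N)) ^ 2)) with hF
  have hre : ∑ ξ : ZMod N, ∑ ζ : ZMod N,
      ‖R' ξ ζ - R ξ ζ‖ * ∑ i ∈ range L, ∑ k ∈ range L,
        (Real.sqrt (∑ i' ∈ range L, b (ξ - (i : ZMod N) + (i' : ZMod N)) ζ ^ 2) *
        Real.sqrt (∑ j ∈ range L, ‖P ξ (s - ξ - ζ
            + (i : ZMod N) + (k : ZMod N) + (j : ZMod N))‖ ^ 2 +
          ∑ k' ∈ range L, b ξ (ζ - (k : ZMod N) + (k' : ZMod N)) ^ 2)) =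
      ∑ x : ZMod N, ∑ y : ZMod N, ∑ i ∈ range L, ∑ k ∈ range L,
        F i k (x + (i : ZMod N)) y (s - x - y + (k : ZMod N)) := by
    have e1 : ∀ i ∈ range L, ∀ k ∈ range L,
        ∑ x : ZMod N, ∑ y : ZMod N, F i k (x + (i : ZMod N)) y (s - x - y + (k : ZMod N)) =
        ∑ ξ : ZMod N, ∑ ζ : ZMod N, F i k ξ (s - ξ - ζ + (i : ZMod N) + (k : ZMod N)) ζ :=
      fun i _ k _ => reindex (F i k) s i k
    calc _ = ∑ ξ : ZMod N, ∑ ζ : ZMod N, ∑ i ∈ range L, ∑ k ∈ range L,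
          F i k ξ (s - ξ - ζ + (i : ZMod N) + (k : ZMod N)) ζ := by
          refine sum_congr rfl fun ξ _ => sum_congr rfl fun ζ _ => ?_
          rw [mul_sum]
          refine sum_congr rfl fun i _ => ?_
          rw [mul_sum]
      _ = ∑ i ∈ range L, ∑ k ∈ range L, ∑ ξ : ZMod N, ∑ ζ : ZMod N,
          F i k ξ (s - ξ - ζ + (i : ZMod N) + (k : ZMod N)) ζ := by
          rw [sum_congr rfl fun ξ _ => sum_comm, sum_comm]
          refine sum_congr rfl fun i _ => ?_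
          rw [sum_congr rfl fun ξ _ => sum_comm, sum_comm]
      _ = ∑ i ∈ range L, ∑ k ∈ range L, ∑ x : ZMod N, ∑ y : ZMod N,
          F i k (x + (i : ZMod N)) y (s - x - y + (k : ZMod N)) :=
          sum_congr rfl fun i hi => sum_congr rfl fun k hk => (e1 i hi k hk).symm
      _ = _ := by
          symm
          rw [sum_congr rfl fun ξ _ => sum_comm, sum_comm]
          refine sum_congr rfl fun i _ => ?_
          rw [sum_congr rfl fun ξ _ => sum_comm, sum_comm]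
  rw [hre]
  have hpt : ∀ x y : ZMod N, tr32 (Gm P R' L L x y (s - x - y)) ≤
      tr32 (Gm P R L L x y (s - x - y)) + 3 * ∑ i ∈ range L, ∑ k ∈ range L,
        F i k (x + (i : ZMod N)) y (s - x - y + (k : ZMod N)) := by
    intro x y
    have h := chg_Gm P R R' b hR hR' L x y (s - x - y)
    refine h.trans (le_of_eq ?_)
    congr 2
    refine sum_congr rfl fun i _ => sum_congr rfl fun k _ => ?_
    simp only [hF, add_sub_cancel_right]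
  have e3 : ((L : ℝ) ^ 3)⁻¹ = ((L : ℝ) ^ 2)⁻¹ * (L : ℝ)⁻¹ := by
    rw [← mul_inv]; congr 1
  rw [e3, mul_assoc, ← mul_add]
  refine mul_le_mul_of_nonneg_left ?_ (by positivity)
  simp only [← mul_sum]
  rw [← mul_add]
  refine mul_le_mul_of_nonneg_left ?_ (by positivity)
  rw [mul_sum, ← sum_add_distrib]
  refine sum_le_sum fun x _ => ?_
  rw [mul_sum, ← sum_add_distrib]
  exact sum_le_sum fun y _ => hpt x y

/-- [WC_E] change of `R` in the cube average: `chg_Gm`, `reindex`, `window_le_mx'`, `y_windows`,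
Cauchy–Schwarz for the sum over `(α, i, k)`. -/
theorem chg_E (P R R' : Fn N) (b : ZMod N → ZMod N → ℝ) (hR : ∀ x z, ‖R x z‖ ≤ b x z)
    (hR' : ∀ x z, ‖R' x z‖ ≤ b x z) (n l : ℕ) (hn : 1 ≤ n) (hl : 1 ≤ l) :
    Ecube P R' n (2 * l) ≤ Ecube P R n (2 * l) +
      3 * ∑ x : ZMod N, ∑ z : ZMod N, ‖R' x z - R x z‖ * wE P b x z := by
  have hL : 1 ≤ 2 * l := by omega
  have hLpos : (0 : ℝ) < ((2 * l : ℕ) : ℝ) := by exact_mod_cast hL
  have hnpos : (0 : ℝ) < (n : ℝ) := by exact_mod_cast hn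
  set G : ℕ → ZMod N → ZMod N → ℝ := fun t ξ ζ => ∑ i ∈ range (2 * l), ∑ k ∈ range (2 * l),
        (Real.sqrt (∑ i' ∈ range (2 * l), b (ξ - (i : ZMod N) + (i' : ZMod N)) ζ ^ 2) *
        Real.sqrt (∑ j ∈ range (2 * l), ‖P ξ ((sC N n (2 * l) + ((2 * l * t : ℕ) : ZMod N)) - ξ - ζ
            + (i : ZMod N) + (k : ZMod N) + (j : ZMod N))‖ ^ 2 +
          ∑ k' ∈ range (2 * l), b ξ (ζ - (k : ZMod N) + (k' : ZMod N)) ^ 2)) with hG
  have hpl : ∀ t : ℕ, Ipl P R' (2 * l) (sC N n (2 * l) + ((2 * l * t : ℕ) : ZMod N)) ≤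
      Ipl P R (2 * l) (sC N n (2 * l) + ((2 * l * t : ℕ) : ZMod N)) +
      (((2 * l : ℕ) : ℝ) ^ 3)⁻¹ * (3 * ∑ ξ : ZMod N, ∑ ζ : ZMod N,
      ‖R' ξ ζ - R ξ ζ‖ * G t ξ ζ) := fun t => chg_E_plane P R R' b hR hR' (2 * l) hL _
  unfold Ecube cub
  have hsum : ∑ a ∈ range n, ∑ b ∈ range n, ∑ c ∈ range n,
      Ipl P R' (2 * l) (sC N n (2 * l) + ((2 * l * (a + b + c) : ℕ) : ZMod N)) ≤
      ∑ a ∈ range n, ∑ b ∈ range n, ∑ c ∈ range n,
        Ipl P R (2 * l) (sC N n (2 * l) + ((2 * l * (a + b + c) : ℕ) : ZMod N)) +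
      ∑ a ∈ range n, ∑ b ∈ range n, ∑ c ∈ range n,
        (((2 * l : ℕ) : ℝ) ^ 3)⁻¹ * (3 * ∑ ξ : ZMod N, ∑ ζ : ZMod N,
          ‖R' ξ ζ - R ξ ζ‖ * G (a + b + c) ξ ζ) := by
    simp only [← sum_add_distrib]
    exact sum_le_sum fun a _ => sum_le_sum fun b _ => sum_le_sum fun c _ => hpl _
  refine (mul_le_mul_of_nonneg_left hsum (by positivity)).trans ?_
  rw [mul_add]
  refine add_le_add le_rfl ?_
  have hG3 : ∀ ξ ζ : ZMod N, ∑ a ∈ range n, ∑ b ∈ range n, ∑ c ∈ range n, G (a + b + c) ξ ζ ≤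
      (n : ℝ) ^ 3 * ((2 * l : ℕ) : ℝ) ^ 3 * wE P b ξ ζ := fun ξ ζ =>
    chg_E_pt P b n l hn hl ξ ζ
  have hswap : ∑ a ∈ range n, ∑ b ∈ range n, ∑ c ∈ range n,
        (((2 * l : ℕ) : ℝ) ^ 3)⁻¹ * (3 * ∑ ξ : ZMod N, ∑ ζ : ZMod N,
          ‖R' ξ ζ - R ξ ζ‖ * G (a + b + c) ξ ζ) =
      (((2 * l : ℕ) : ℝ) ^ 3)⁻¹ * (3 * ∑ ξ : ZMod N, ∑ ζ : ZMod N,
          ‖R' ξ ζ - R ξ ζ‖ * ∑ a ∈ range n, ∑ b ∈ range n, ∑ c ∈ range n, G (a + b + c) ξ ζ) := by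
    simp only [← mul_sum]
    congr 2
    have hs3 : ∀ f : ℕ → ℕ → ℕ → ZMod N → ZMod N → ℝ,
        ∑ a ∈ range n, ∑ b ∈ range n, ∑ c ∈ range n, ∑ ξ : ZMod N, ∑ ζ : ZMod N, f a b c ξ ζ =
        ∑ ξ : ZMod N, ∑ ζ : ZMod N, ∑ a ∈ range n, ∑ b ∈ range n, ∑ c ∈ range n, f a b c ξ ζ := by
      intro f
      have q1 : ∀ g : ℕ → ZMod N → ZMod N → ℝ, ∑ c ∈ range n, ∑ ξ : ZMod N, ∑ ζ : ZMod N, g c ξ ζ =
          ∑ ξ : ZMod N, ∑ ζ : ZMod N, ∑ c ∈ range n, g c ξ ζ := by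
        intro g
        rw [sum_comm]
        exact sum_congr rfl fun ξ _ => sum_comm
      simp only [q1]
    rw [hs3]
    refine sum_congr rfl fun ξ _ => sum_congr rfl fun ζ _ => ?_
    simp only [mul_sum]
  rw [hswap]
  have hle : ∑ ξ : ZMod N, ∑ ζ : ZMod N,
          ‖R' ξ ζ - R ξ ζ‖ * ∑ a ∈ range n, ∑ b ∈ range n, ∑ c ∈ range n, G (a + b + c) ξ ζ ≤
      (n : ℝ) ^ 3 * ((2 * l : ℕ) : ℝ) ^ 3 * ∑ ξ : ZMod N, ∑ ζ : ZMod N,
          ‖R' ξ ζ - R ξ ζ‖ * wE P b ξ ζ := by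
    simp only [mul_sum]
    refine sum_le_sum fun ξ _ => sum_le_sum fun ζ _ => ?_
    have h := mul_le_mul_of_nonneg_left (hG3 ξ ζ) (norm_nonneg (R' ξ ζ - R ξ ζ))
    simp only [mul_sum] at h
    refine h.trans (le_of_eq ?_)
    ring
  have hfin := mul_le_mul_of_nonneg_left (mul_le_mul_of_nonneg_left (mul_le_mul_of_nonneg_left hle
    (by norm_num : (0 : ℝ) ≤ 3)) (by positivity : (0 : ℝ) ≤ (((2 * l : ℕ) : ℝ) ^ 3)⁻¹))
    (by positivity : (0 : ℝ) ≤ ((n : ℝ) ^ 3)⁻¹)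
  refine hfin.trans (le_of_eq ?_)
  field_simp

/-- [WC_TV] W6 with variable function. -/
theorem tele_var (F : ℕ → Fn N) (b : ZMod N → ZMod N → ℝ) (hb : ∀ k x z, ‖F k x z‖ ≤ b x z)
    (K r : ℕ) :
    ∑ k ∈ range K, (Sf (F k) (2 ^ (k + 1)) (2 ^ k) - Sf (F k) (2 ^ (k + 1)) (2 ^ r * 2 ^ k)) ≤
      r * (l3 b ^ 3 + ∑ k ∈ range K,
        3 * ∑ x : ZMod N, ∑ z : ZMod N, ‖F (k + 1) x z - F k x z‖ * wS b x z) := by
  set c : ℕ → ℝ := fun k =>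
    3 * ∑ x : ZMod N, ∑ z : ZMod N, ‖F (k + 1) x z - F k x z‖ * wS b x z with hc
  -- telescoping in the second side
  have h1 : ∀ k, Sf (F k) (2 ^ (k + 1)) (2 ^ k) - Sf (F k) (2 ^ (k + 1)) (2 ^ r * 2 ^ k) =
      ∑ i ∈ range r, (Sf (F k) (2 ^ (k + 1)) (2 ^ i * 2 ^ k) -
        Sf (F k) (2 ^ (k + 1)) (2 ^ (i + 1) * 2 ^ k)) := by
    intro k
    rw [Finset.sum_range_sub' (fun i => Sf (F k) (2 ^ (k + 1)) (2 ^ i * 2 ^ k)) r]
    simp only [pow_zero, one_mul]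
  -- one step
  have h2 : ∀ i k, Sf (F k) (2 ^ (k + 1)) (2 ^ i * 2 ^ k) -
      Sf (F k) (2 ^ (k + 1)) (2 ^ (i + 1) * 2 ^ k) ≤
      (Sf (F k) (2 ^ (k + 1)) (2 ^ i * 2 ^ k) -
        Sf (F (k + 1)) (2 ^ (k + 1 + 1)) (2 ^ i * 2 ^ (k + 1))) + c k := by
    intro i k
    have e : 2 ^ (i + 1) * 2 ^ k = 2 ^ i * 2 ^ (k + 1) := by ring
    have e' : 2 ^ (k + 1 + 1) = 2 * 2 ^ (k + 1) := by ring
    have a1 := Sf_mul_left (F k) (2 ^ (k + 1)) (2 ^ i * 2 ^ (k + 1)) 2 (by norm_num)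
    have a2 := chg_S (F k) (F (k + 1)) b (hb k) (hb (k + 1)) (2 ^ (k + 1 + 1)) (2 ^ i * 2 ^ (k + 1))
      Nat.one_le_two_pow (Nat.one_le_iff_ne_zero.2 (by positivity))
    rw [e]
    rw [← e'] at a1
    have a3 : Sf (F (k + 1)) (2 ^ (k + 1 + 1)) (2 ^ i * 2 ^ (k + 1)) ≤
        Sf (F k) (2 ^ (k + 1 + 1)) (2 ^ i * 2 ^ (k + 1)) + c k := a2
    linarith
  have h3 : ∀ i, ∑ k ∈ range K, (Sf (F k) (2 ^ (k + 1)) (2 ^ i * 2 ^ k) -
      Sf (F k) (2 ^ (k + 1)) (2 ^ (i + 1) * 2 ^ k)) ≤ l3 b ^ 3 + ∑ k ∈ range K, c k := by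
    intro i
    refine (Finset.sum_le_sum fun k _ => h2 i k).trans ?_
    rw [Finset.sum_add_distrib,
      Finset.sum_range_sub' (fun k => Sf (F k) (2 ^ (k + 1)) (2 ^ i * 2 ^ k)) K]
    have a1 : Sf (F 0) (2 ^ (0 + 1)) (2 ^ i * 2 ^ 0) ≤ n3 (F 0) ^ 3 :=
      Sf_le _ _ _ Nat.one_le_two_pow (Nat.one_le_iff_ne_zero.2 (by positivity))
    have a2 : n3 (F 0) ^ 3 ≤ l3 b ^ 3 := by
      unfold n3
      rw [l3_pow, l3_pow]
      refine Finset.sum_le_sum fun x _ => Finset.sum_le_sum fun y _ => ?_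
      refine pow_le_pow_left₀ (abs_nonneg _) ?_ 3
      rw [abs_of_nonneg (norm_nonneg _)]
      exact (hb 0 x y).trans (le_abs_self _)
    have a3 := Sf_nonneg (F K) (2 ^ (K + 1)) (2 ^ i * 2 ^ K)
    linarith
  rw [Finset.sum_congr rfl fun k _ => h1 k, Finset.sum_comm]
  refine (Finset.sum_le_sum fun i _ => h3 i).trans ?_
  rw [Finset.sum_const, Finset.card_range, nsmul_eq_mul]

end Crest.Agent.R72
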