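import Crest.Agent.R72.SDefs
import Crest.Agent.R72.LA1
import Crest.Agent.R72.LA2
import Crest.Agent.R72.LASvd

/-!
# Row 72, W part (helper40): the linear algebra facts used by W (interface to the LA files)

Every statement here is a copy of an LA statement (helper73, 12, 65).
-/

set_option autoImplicit false
set_option linter.unusedSectionVars false

namespace Crest.Agent.R72.WLA

open Finset Matrix
open Crest.Agent.R72
open scoped ComplexOrder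

variable {ι κ κ' : Type*} [Fintype ι] [DecidableEq ι] [Fintype κ] [DecidableEq κ]
  [Fintype κ'] [DecidableEq κ']

theorem tr32_nonneg (X : Matrix ι ι ℂ) : 0 ≤ tr32 X := by
  unfold tr32
  split_ifs
  · exact sum_nonneg fun i _ => Real.rpow_nonneg (abs_nonneg _) _
  · exact le_rfl

/-- homogeneity -/
theorem la_smul {X : Matrix ι ι ℂ} (hX : X.PosSemidef) {c : ℝ} (hc : 0 ≤ c) :
    tr32 ((c : ℂ) • X) = c ^ (3 / 2 : ℝ) * tr32 X :=
  Crest.Agent.R72.la_smul hX hc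

/-- `tr32 (S* S) = tr32 (S S*)` -/
theorem la_conj (S : Matrix ι κ ℂ) : tr32 (Sᴴ * S) = tr32 (S * Sᴴ) :=
  Crest.Agent.R72.la_conj S

/-- convexity (Jensen for the uniform average) -/
theorem la_jensen {α : Type*} (s : Finset α) (hs : s.Nonempty) (X : α → Matrix ι ι ℂ)
    (hX : ∀ i ∈ s, (X i).PosSemidef) :
    tr32 (((s.card : ℂ))⁻¹ • ∑ i ∈ s, X i) ≤ ((s.card : ℝ))⁻¹ * ∑ i ∈ s, tr32 (X i) := by
  have hc : (0 : ℝ) < s.card := by exact_mod_cast hs.card_pos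
  have h := Crest.Agent.R72.la_jensen s (fun _ => ((s.card : ℝ))⁻¹) X
    (fun _ _ => by positivity) (by rw [sum_const, nsmul_eq_mul]; field_simp) hX
  have e : ((s.card : ℂ))⁻¹ • ∑ i ∈ s, X i = ∑ i ∈ s, ((((s.card : ℝ))⁻¹ : ℝ) : ℂ) • X i := by
    rw [← Finset.smul_sum]
    push_cast
    rfl
  rw [e, mul_sum]
  exact h

/-- LA7 -/
theorem la_gap_add {N₀ N₁ M₀ M₁ : Matrix ι ι ℂ} (h0 : N₀.PosSemidef) (h1 : N₁.PosSemidef)
    (h2 : M₀.PosSemidef) (h3 : M₁.PosSemidef) :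
    gap32 (N₀ + M₀) (N₁ + M₁) ≤ 9 * (gap32 N₀ N₁ + gap32 M₀ M₁) :=
  Crest.Agent.R72.la_gap_add h0 h1 h2 h3

/-- LA7' -/
theorem la_mixed {N₀ N₁ M₀ M₁ : Matrix ι ι ℂ} (h0 : N₀.PosSemidef) (h1 : N₁.PosSemidef)
    (h2 : M₀.PosSemidef) (h3 : M₁.PosSemidef) :
    tr32 (N₁ + M₀) + tr32 (N₀ + M₁) ≤ tr32 (N₀ + M₀) + tr32 (N₁ + M₁) +
      18 * (gap32 N₀ N₁ + gap32 M₀ M₁) :=
  Crest.Agent.R72.la_mixed h0 h1 h2 h3

/-- LA8 -/
theorem la_change (P : Matrix ι κ ℂ) (R R' : Matrix ι κ' ℂ) (b : ι → κ' → ℝ)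
    (hR : ∀ x z, ‖R x z‖ ≤ b x z) (hR' : ∀ x z, ‖R' x z‖ ≤ b x z) :
    tr32 (P * Pᴴ + R' * R'ᴴ) ≤ tr32 (P * Pᴴ + R * Rᴴ) +
      3 * ∑ x, ∑ z, ‖R' x z - R x z‖ * (Real.sqrt (∑ x', b x' z ^ 2) *
        Real.sqrt (∑ y, ‖P x y‖ ^ 2 + ∑ z', b x z' ^ 2)) :=
  Crest.Agent.R72.la_change P R R' b hR hR'

/-- `1 × 1` matrices -/
theorem tr32_one (X : Matrix (Fin 1) (Fin 1) ℂ) (hX : X.PosSemidef) :
    tr32 X = (X 0 0).re ^ (3 / 2 : ℝ) := by
  have h0 : 0 ≤ X 0 0 := hX.diag_nonneg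
  have hre : 0 ≤ (X 0 0).re := (Complex.nonneg_iff.mp h0).1
  have him : X 0 0 = ((X 0 0).re : ℂ) := Complex.ext rfl (Complex.nonneg_iff.mp h0).2.symm
  set a := (X 0 0).re with ha
  have h1 : rt X = Matrix.diagonal fun _ : Fin 1 => ((Real.sqrt a : ℝ) : ℂ) := by
    apply rt_unique
    · rw [posSemidef_diagonal_iff]
      intro i
      exact_mod_cast Real.sqrt_nonneg a
    · rw [diagonal_mul_diagonal]
      ext i j
      fin_cases i; fin_cases j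
      simp only [Fin.zero_eta, diagonal_apply_eq]
      rw [him, ← Complex.ofReal_mul, Real.mul_self_sqrt hre]
  rw [tr32_eq hX, h1]
  simp only [trace, diag_apply, diagonal_mul, Fin.sum_univ_one]
  rw [him, ← Complex.ofReal_mul, Complex.ofReal_re, Real.sqrt_eq_rpow]
  rcases hre.eq_or_lt with h | h
  · rw [← h]; norm_num
  · nth_rewrite 2 [← Real.rpow_one a]
    rw [← Real.rpow_add h]; norm_num

end Crest.Agent.R72.WLA
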